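import Crest.Agent.R225.LDefs

/-! Bernoulli product measure: Harris inequality, a second-moment lemma, independent trials; greedy clustering. -/

set_option autoImplicit false
open MeasureTheory Finset Classical
open scoped RealInnerProductSpace

noncomputable section
namespace Crest.Agent.R225
open Crest.Agent.R43

variable {ι : Type} [Fintype ι]

theorem Pr_eq (q : ι → ℝ) (A : (ι → Bool) → Prop) [DecidablePred A] :
    Pr q A = Ex q (fun ξ => if A ξ then 1 else 0) :=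
  Ex_congr q fun ξ => by by_cases h : A ξ <;> simp [h]

/-- `Pr (Hit D) = 1 - ∏ (1 - q c) ≥ 1 - exp (-mass) ≥ mass / 2` for `mass ≤ 1`. -/
theorem hit_ge {q : ι → ℝ} (hq : IsProb q) (D : Finset ι) (h1 : mass q D ≤ 1) :
    mass q D / 2 ≤ Pr q (Hit D) := by
  have e : ∀ ξ : ι → Bool, (if Hit D ξ then (1 : ℝ) else 0) =
      1 - ∏ c ∈ D, (fun (_ : ι) (b : Bool) => if b then (0 : ℝ) else 1) c (ξ c) := by
    intro ξ
    by_cases h : Hit D ξ
    · rw [if_pos h]
      obtain ⟨c, hc, hx⟩ := h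
      rw [Finset.prod_eq_zero hc (by simp [hx])]; ring
    · rw [if_neg h, Finset.prod_eq_one]
      · ring
      · intro c hc
        have : ξ c = false := by
          cases hx : ξ c
          · rfl
          · exact absurd ⟨c, hc, hx⟩ h
        simp [this]
  have h2 : Pr q (Hit D) = 1 - ∏ c ∈ D, (1 - q c) := by
    unfold Pr
    rw [Ex_congr q e, Ex_sub, Ex_const,
      Ex_prod q D (fun (_ : ι) (b : Bool) => if b then (0 : ℝ) else 1)]
    simp
  have h3 : ∏ c ∈ D, (1 - q c) ≤ Real.exp (-mass q D) := by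
    unfold mass
    rw [← Finset.sum_neg_distrib, Real.exp_sum]
    refine Finset.prod_le_prod (fun c _ => by linarith [(hq c).2]) fun c _ => ?_
    linarith [Real.add_one_le_exp (-q c)]
  have hm : 0 ≤ mass q D := Finset.sum_nonneg fun c _ => (hq c).1
  have h4 : Real.exp (-mass q D) ≤ 1 - mass q D / 2 := by
    have h5 := Real.add_one_le_exp (mass q D)
    have h6 : Real.exp (-mass q D) * Real.exp (mass q D) = 1 := by
      rw [← Real.exp_add]; simp
    have h7 := Real.exp_pos (-mass q D)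
    by_contra hcon
    push Not at hcon
    nlinarith [mul_le_mul_of_nonneg_left h5 h7.le, mul_nonneg hm (sub_nonneg.2 h1)]
  linarith

/-- Harris inequality for nonnegative-free monotone functions (induction on the coordinates with
`Ex_avg`, or Mathlib's `fkg`). -/
theorem harris {q : ι → ℝ} (hq : IsProb q) {F G : (ι → Bool) → ℝ} (hF : Monotone F)
    (hG : Monotone G) : Ex q F * Ex q G ≤ Ex q (fun ξ => F ξ * G ξ) := by
  have hw : ∀ a b : ι → Bool, wt q a * wt q b ≤ wt q (a ⊓ b) * wt q (a ⊔ b) := by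
    intro a b
    unfold wt
    rw [← Finset.prod_mul_distrib, ← Finset.prod_mul_distrib]
    refine le_of_eq (Finset.prod_congr rfl fun i _ => ?_)
    simp only [Pi.inf_apply, Pi.sup_apply]
    by_cases ha : a i = true <;> by_cases hb : b i = true <;> simp [ha, hb, mul_comm]
  have key := fkg (μ := wt q) (f := fun ξ => F ξ - F ⊥) (g := fun ξ => G ξ - G ⊥)
    (fun ξ => wt_nonneg hq ξ) (fun ξ => sub_nonneg.2 (hF bot_le))
    (fun ξ => sub_nonneg.2 (hG bot_le)) (fun a b h => sub_le_sub_right (hF h) _)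
    (fun a b h => sub_le_sub_right (hG h) _) hw
  have h1 : ∑ ξ, wt q ξ = 1 := by
    have := Ex_const q 1
    unfold Ex at this
    simpa using this
  rw [h1, one_mul] at key
  have e1 : ∑ a, wt q a * (F a - F ⊥) = Ex q F - F ⊥ := by
    have := Ex_sub q F (fun _ => F ⊥)
    rw [Ex_const] at this
    exact this
  have e2 : ∑ a, wt q a * (G a - G ⊥) = Ex q G - G ⊥ := by
    have := Ex_sub q G (fun _ => G ⊥)
    rw [Ex_const] at this
    exact this
  have e3 : ∑ a, wt q a * ((F a - F ⊥) * (G a - G ⊥)) =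
      Ex q (fun ξ => F ξ * G ξ) - G ⊥ * Ex q F - F ⊥ * Ex q G + F ⊥ * G ⊥ := by
    rw [← Ex_const_mul, ← Ex_const_mul, ← Ex_sub, ← Ex_sub, ← Ex_const q (F ⊥ * G ⊥), ← Ex_add]
    exact Finset.sum_congr rfl fun a _ => by ring
  rw [e1, e2, e3] at key
  nlinarith [key]

omit [Fintype ι] in
theorem mono_ind {A : (ι → Bool) → Prop} (hA : ∀ ξ η, ξ ≤ η → A ξ → A η) :
    Monotone (fun ξ => if A ξ then (1 : ℝ) else 0) := by
  intro ξ η h
  by_cases hx : A ξ
  · simp [hx, hA ξ η h hx]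
  · simp only [hx, if_false]; split_ifs <;> norm_num

omit [Fintype ι] in
theorem hit_mono (D : Finset ι) (ξ η : ι → Bool) (h : ξ ≤ η) (hx : Hit D ξ) : Hit D η := by
  obtain ⟨c, hc, hx⟩ := hx
  refine ⟨c, hc, ?_⟩
  have := h c
  rw [hx] at this
  exact top_le_iff.1 this

theorem harris_ev {q : ι → ℝ} (hq : IsProb q) {A B : (ι → Bool) → Prop}
    (hA : ∀ ξ η, ξ ≤ η → A ξ → A η) (hB : ∀ ξ η, ξ ≤ η → B ξ → B η) :
    Pr q A * Pr q B ≤ Pr q (fun ξ => A ξ ∧ B ξ) := by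
  refine (harris hq (mono_ind hA) (mono_ind hB)).trans (le_of_eq (Ex_congr q fun ξ => ?_))
  by_cases h1 : A ξ <;> by_cases h2 : B ξ <;> simp [h1, h2]

theorem Pr_congr (q : ι → ℝ) {A B : (ι → Bool) → Prop} (h : ∀ ξ, A ξ ↔ B ξ) : Pr q A = Pr q B := by
  rw [show A = B from funext fun ξ => propext (h ξ)]

theorem harris_prod {β : Type} {q : ι → ℝ} (hq : IsProb q) (D : β → Finset ι) (c : β → ℝ)
    {B : (ι → Bool) → Prop} (hB : ∀ ξ η, ξ ≤ η → B ξ → B η) (J : Finset β)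
    (hc : ∀ i ∈ J, Real.exp (-c i) ≤ Pr q (Hit (D i))) :
    Pr q B * Real.exp (-∑ i ∈ J, c i) ≤ Pr q (fun ξ => B ξ ∧ ∀ i ∈ J, Hit (D i) ξ) := by
  induction J using Finset.induction_on with
  | empty => simp
  | insert j J hj ih =>
    have ih' := ih fun i hi => hc i (mem_insert_of_mem hi)
    have h2 := harris_ev hq (A := fun ξ => B ξ ∧ ∀ i ∈ J, Hit (D i) ξ) (B := Hit (D j))
      (fun ξ η h hx => ⟨hB ξ η h hx.1, fun i hi => hit_mono _ ξ η h (hx.2 i hi)⟩)
      (hit_mono (D j))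
    rw [Finset.sum_insert hj, neg_add, Real.exp_add]
    have h3 := hc j (mem_insert_self _ _)
    calc Pr q B * (Real.exp (-c j) * Real.exp (-∑ i ∈ J, c i))
        = (Pr q B * Real.exp (-∑ i ∈ J, c i)) * Real.exp (-c j) := by ring
      _ ≤ Pr q (fun ξ => B ξ ∧ ∀ i ∈ J, Hit (D i) ξ) * Pr q (Hit (D j)) :=
        mul_le_mul ih' h3 (Real.exp_pos _).le (Pr_nonneg hq _)
      _ ≤ _ := h2
      _ = _ := Pr_congr q fun ξ => by
        simp only [Finset.forall_mem_insert]; tauto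

/-- the conditional event given `ξ|O = S` -/
theorem cond_le {β : Type} {q : ι → ℝ} (hq : IsProb q) (I : Finset β) (D : β → Finset ι)
    (c : β → ℝ) {κ : ℝ} (hc0 : ∀ i ∈ I, 0 ≤ c i)
    (hc : ∀ i ∈ I, Real.exp (-c i) ≤ Pr q (Hit (D i)))
    (hv : ∀ v, ∑ i ∈ I.filter (fun i => v ∈ D i), c i ≤ κ) (O S : Finset ι) :
    Pr q (fun ξ => ∀ i ∈ I, Disjoint (D i) S → Hit (D i \ O) ξ) ≤
      Pr q (fun ξ => ∀ i ∈ I, Hit (D i) ξ) * Real.exp (κ * S.card) := by
  have h1 : Pr q (fun ξ => ∀ i ∈ I, Disjoint (D i) S → Hit (D i \ O) ξ) ≤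
      Pr q (fun ξ => ∀ i ∈ I, Disjoint (D i) S → Hit (D i) ξ) := by
    refine Pr_mono hq fun ξ h i hi hd => ?_
    obtain ⟨v, hv, hx⟩ := h i hi hd
    exact ⟨v, (Finset.mem_sdiff.1 hv).1, hx⟩
  have h2 := harris_prod hq D c (B := fun ξ => ∀ i ∈ I, Disjoint (D i) S → Hit (D i) ξ)
    (fun ξ η h hx i hi hd => hit_mono _ ξ η h (hx i hi hd))
    (I.filter fun i => ¬ Disjoint (D i) S) (fun i hi => hc i (Finset.mem_filter.1 hi).1)
  have h3 : Pr q (fun ξ => (∀ i ∈ I, Disjoint (D i) S → Hit (D i) ξ) ∧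
      ∀ i ∈ I.filter fun i => ¬ Disjoint (D i) S, Hit (D i) ξ) ≤
      Pr q (fun ξ => ∀ i ∈ I, Hit (D i) ξ) := by
    refine Pr_mono hq fun ξ h i hi => ?_
    by_cases hd : Disjoint (D i) S
    · exact h.1 i hi hd
    · exact h.2 i (Finset.mem_filter.2 ⟨hi, hd⟩)
  have h4 : ∑ i ∈ I.filter (fun i => ¬ Disjoint (D i) S), c i ≤ κ * S.card := by
    calc ∑ i ∈ I.filter (fun i => ¬ Disjoint (D i) S), c i
        ≤ ∑ i ∈ I, ∑ v ∈ S, if v ∈ D i then c i else 0 := by
          rw [Finset.sum_filter]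
          refine Finset.sum_le_sum fun i hi => ?_
          have hnn : ∀ v ∈ S, 0 ≤ if v ∈ D i then c i else 0 := fun v _ => by
            split_ifs
            · exact hc0 i hi
            · exact le_rfl
          split_ifs with hd
          · exact Finset.sum_nonneg hnn
          · obtain ⟨v, hv1, hv2⟩ := Finset.not_disjoint_iff.1 hd
            calc c i = if v ∈ D i then c i else 0 := by rw [if_pos hv1]
              _ ≤ _ := Finset.single_le_sum (f := fun v => if v ∈ D i then c i else 0) hnn hv2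
      _ = ∑ v ∈ S, ∑ i ∈ I.filter (fun i => v ∈ D i), c i := by
          rw [Finset.sum_comm]
          exact Finset.sum_congr rfl fun v _ => by rw [Finset.sum_filter]
      _ ≤ ∑ _v ∈ S, κ := Finset.sum_le_sum fun v _ => hv v
      _ = κ * S.card := by rw [Finset.sum_const, nsmul_eq_mul, mul_comm]
  have h5 : Real.exp (-(κ * S.card)) ≤
      Real.exp (-∑ i ∈ I.filter (fun i => ¬ Disjoint (D i) S), c i) :=
    Real.exp_le_exp.2 (by linarith)
  have h6 := mul_le_mul_of_nonneg_left h5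
    (Pr_nonneg hq (fun ξ => ∀ i ∈ I, Disjoint (D i) S → Hit (D i) ξ))
  have h7 : Real.exp (-(κ * S.card)) * Real.exp (κ * S.card) = 1 := by
    rw [← Real.exp_add]; simp
  have h8 := mul_le_mul_of_nonneg_right (h6.trans (h2.trans h3)) (Real.exp_pos (κ * S.card)).le
  rw [mul_assoc, h7, mul_one] at h8
  exact h1.trans h8

omit [Fintype ι] in
theorem depOn_cond {β : Type} (I : Finset β) (D : β → Finset ι) (O S : Finset ι) :
    DepOn (fun ξ => if (∀ i ∈ I, Disjoint (D i) S → Hit (D i \ O) ξ) then (1 : ℝ) else 0)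
      (I.biUnion D \ O) := by
  intro ξ η h
  have key : ∀ ξ η : ι → Bool, (∀ i ∈ I.biUnion D \ O, ξ i = η i) →
      (∀ i ∈ I, Disjoint (D i) S → Hit (D i \ O) ξ) →
      (∀ i ∈ I, Disjoint (D i) S → Hit (D i \ O) η) := by
    intro ξ η h hx i hi hd
    obtain ⟨v, hv, hx⟩ := hx i hi hd
    refine ⟨v, hv, ?_⟩
    rw [← h v (Finset.mem_sdiff.2 ⟨Finset.mem_biUnion.2 ⟨i, hi, (Finset.mem_sdiff.1 hv).1⟩,
      (Finset.mem_sdiff.1 hv).2⟩)]
    exact hx
  have : (∀ i ∈ I, Disjoint (D i) S → Hit (D i \ O) ξ) ↔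
      (∀ i ∈ I, Disjoint (D i) S → Hit (D i \ O) η) :=
    ⟨key ξ η h, key η ξ fun i hi => (h i hi).symm⟩
  simp only [this]

/-- Two "all items are hit" events.  Let `A = ∀ i ∈ I, Hit (D i)`, `A'` likewise, `O = U ∩ U'` with
`U = ⋃ D i`, `U' = ⋃ D' i`.  Condition on the restriction `S = ξ|O`: the rest of `A` depends on
`U \ O`, the rest of `A'` on `U' \ O` (disjoint, so independent).  With `J(S)` = items met by `S`,
`Pr(A | S) ≤ Pr(all i ∉ J(S) are hit) ≤ Pr A / ∏_{i ∈ J(S)} Pr (Hit (D i)) ≤ Pr A * exp (∑_{J(S)} c i)`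
by Harris, and `∑_{i ∈ J(S)} c i ≤ ∑_{v ∈ S} ∑_{i : v ∈ D i} c i ≤ κ |S|`.  Finally
`Ex (exp (2 κ |S|)) = ∏_{v ∈ O} (1 + q v (e^{2κ} - 1)) ≤ exp (mass O * e^{2κ})`.
(A convenient way to condition: `Pr (A ∧ A') = ∑_{S ⊆ O} Ex (1[ξ|O = S] * A_S * A'_S)` where
`A_S ξ = ∀ i ∉ J(S), Hit (D i \ O) ξ`, and use `Ex_mul_indep` twice.) -/
theorem pair_ratio {β β' : Type} {q : ι → ℝ} (hq : IsProb q) (I : Finset β) (I' : Finset β')
    (D : β → Finset ι) (D' : β' → Finset ι) (c : β → ℝ) (c' : β' → ℝ) {κ : ℝ} (hκ : 0 ≤ κ)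
    (hc0 : ∀ i ∈ I, 0 ≤ c i) (hc0' : ∀ i ∈ I', 0 ≤ c' i)
    (hc : ∀ i ∈ I, Real.exp (-c i) ≤ Pr q (Hit (D i)))
    (hc' : ∀ i ∈ I', Real.exp (-c' i) ≤ Pr q (Hit (D' i)))
    (hv : ∀ v, ∑ i ∈ I.filter (fun i => v ∈ D i), c i ≤ κ)
    (hv' : ∀ v, ∑ i ∈ I'.filter (fun i => v ∈ D' i), c' i ≤ κ) :
    Pr q (fun ξ => (∀ i ∈ I, Hit (D i) ξ) ∧ ∀ i ∈ I', Hit (D' i) ξ) ≤
      Pr q (fun ξ => ∀ i ∈ I, Hit (D i) ξ) * Pr q (fun ξ => ∀ i ∈ I', Hit (D' i) ξ) *
        Real.exp (mass q (I.biUnion D ∩ I'.biUnion D') * Real.exp (2 * κ)) := by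
  obtain ⟨O, hO⟩ : ∃ O, O = I.biUnion D ∩ I'.biUnion D' := ⟨_, rfl⟩
  rw [← hO]
  let e : Finset ι → (ι → Bool) → ℝ := fun S ξ => if O.filter (fun v => ξ v = true) = S then 1 else 0
  let a : Finset ι → (ι → Bool) → ℝ := fun S ξ =>
    if (∀ i ∈ I, Disjoint (D i) S → Hit (D i \ O) ξ) then 1 else 0
  let a' : Finset ι → (ι → Bool) → ℝ := fun S ξ =>
    if (∀ i ∈ I', Disjoint (D' i) S → Hit (D' i \ O) ξ) then 1 else 0
  have he0 : ∀ S ξ, 0 ≤ e S ξ := fun S ξ => by simp only [e]; split_ifs <;> norm_num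
  have ha0 : ∀ S ξ, 0 ≤ a S ξ := fun S ξ => by simp only [a]; split_ifs <;> norm_num
  have ha0' : ∀ S ξ, 0 ≤ a' S ξ := fun S ξ => by simp only [a']; split_ifs <;> norm_num
  have hsub : ∀ (ξ : ι → Bool) (E : Finset ι), Hit E ξ →
      Disjoint E (O.filter fun v => ξ v = true) → Hit (E \ O) ξ := by
    rintro ξ E ⟨v, hv, hx⟩ hd
    refine ⟨v, Finset.mem_sdiff.2 ⟨hv, fun hO' => ?_⟩, hx⟩
    exact Finset.disjoint_left.1 hd hv (Finset.mem_filter.2 ⟨hO', hx⟩)
  have h1 : Pr q (fun ξ => (∀ i ∈ I, Hit (D i) ξ) ∧ ∀ i ∈ I', Hit (D' i) ξ) ≤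
      ∑ S ∈ O.powerset, Ex q (fun ξ => e S ξ * (a S ξ * a' S ξ)) := by
    rw [← Ex_sum]
    refine Ex_mono hq fun ξ => ?_
    have hnn : ∀ S ∈ O.powerset, 0 ≤ e S ξ * (a S ξ * a' S ξ) := fun S _ =>
      mul_nonneg (he0 S ξ) (mul_nonneg (ha0 S ξ) (ha0' S ξ))
    split_ifs with h
    · refine le_trans (le_of_eq ?_) (Finset.single_le_sum hnn
        (Finset.mem_powerset.2 (Finset.filter_subset (fun v => ξ v = true) O)))
      simp only [e, a, a']
      rw [if_pos trivial, if_pos fun i hi hd => hsub ξ _ (h.1 i hi) hd,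
        if_pos fun i hi hd => hsub ξ _ (h.2 i hi) hd]
      norm_num
    · exact Finset.sum_nonneg hnn
  have hdE : ∀ S, DepOn (e S) O := by
    intro S ξ η h
    have : O.filter (fun v => ξ v = true) = O.filter (fun v => η v = true) :=
      Finset.filter_congr fun v hv => by rw [h v hv]
    simp only [e, this]
  have h2 : ∀ S, Ex q (fun ξ => e S ξ * (a S ξ * a' S ξ)) = Ex q (e S) * (Ex q (a S) * Ex q (a' S)) := by
    intro S
    have d1 : DepOn (a S) (I.biUnion D \ O) := depOn_cond I D O S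
    have d2 : DepOn (a' S) (I'.biUnion D' \ O) := depOn_cond I' D' O S
    have d3 : DepOn (fun ξ => a S ξ * a' S ξ) ((I.biUnion D \ O) ∪ (I'.biUnion D' \ O)) := by
      intro ξ η h
      show a S ξ * a' S ξ = a S η * a' S η
      rw [d1 ξ η fun i hi => h i (Finset.mem_union_left _ hi),
        d2 ξ η fun i hi => h i (Finset.mem_union_right _ hi)]
    rw [Ex_mul_indep q (hdE S) d3, Ex_mul_indep q d1 d2]
    · rw [Finset.disjoint_left]
      intro v h1 h2
      exact (Finset.mem_sdiff.1 h1).2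
        (hO ▸ Finset.mem_inter.2 ⟨(Finset.mem_sdiff.1 h1).1, (Finset.mem_sdiff.1 h2).1⟩)
    · rw [Finset.disjoint_left]
      intro v h1 h2
      rcases Finset.mem_union.1 h2 with h2 | h2 <;> exact (Finset.mem_sdiff.1 h2).2 h1
  obtain ⟨P, hP⟩ : ∃ P, P = Pr q (fun ξ => ∀ i ∈ I, Hit (D i) ξ) := ⟨_, rfl⟩
  obtain ⟨P', hP'⟩ : ∃ P, P = Pr q (fun ξ => ∀ i ∈ I', Hit (D' i) ξ) := ⟨_, rfl⟩
  have hP0 : 0 ≤ P := hP ▸ Pr_nonneg hq _
  have hP0' : 0 ≤ P' := hP' ▸ Pr_nonneg hq _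
  rw [← hP, ← hP']
  have h3 : ∀ S, Ex q (a S) * Ex q (a' S) ≤ P * P' * Real.exp (2 * κ) ^ S.card := by
    intro S
    have b1 : Ex q (a S) ≤ P * Real.exp (κ * S.card) := by
      have := cond_le hq I D c hc0 hc hv O S
      rwa [← hP, Pr_eq] at this
    have b2 : Ex q (a' S) ≤ P' * Real.exp (κ * S.card) := by
      have := cond_le hq I' D' c' hc0' hc' hv' O S
      rwa [← hP', Pr_eq] at this
    calc Ex q (a S) * Ex q (a' S) ≤ (P * Real.exp (κ * S.card)) * (P' * Real.exp (κ * S.card)) :=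
          mul_le_mul b1 b2 (Ex_nonneg hq (ha0' S)) (by positivity)
      _ = P * P' * (Real.exp (κ * S.card) * Real.exp (κ * S.card)) := by ring
      _ = _ := by
          rw [← Real.exp_add, ← Real.exp_nat_mul]
          congr 2; ring
  have h4 : ∑ S ∈ O.powerset, Ex q (e S) * Real.exp (2 * κ) ^ S.card ≤
      Real.exp (mass q O * Real.exp (2 * κ)) := by
    have e1 : ∑ S ∈ O.powerset, Ex q (e S) * Real.exp (2 * κ) ^ S.card =
        Ex q (fun ξ => ∏ v ∈ O,
          (fun (_ : ι) (b : Bool) => if b then Real.exp (2 * κ) else 1) v (ξ v)) := by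
      simp_rw [← Ex_mul_const]
      rw [← Ex_sum]
      refine Ex_congr q fun ξ => ?_
      rw [Finset.sum_eq_single (O.filter fun v => ξ v = true)]
      · simp only [e, if_true, one_mul]
        rw [Finset.prod_ite, Finset.prod_const, Finset.prod_const, one_pow, mul_one]
      · intro S _ hS
        simp only [e]
        rw [if_neg (Ne.symm hS), zero_mul]
      · intro h
        exact absurd (Finset.mem_powerset.2 (Finset.filter_subset _ O)) h
    rw [e1, Ex_prod q O (fun (_ : ι) (b : Bool) => if b then Real.exp (2 * κ) else 1)]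
    unfold mass
    rw [Finset.sum_mul, Real.exp_sum]
    have hE := Real.exp_pos (2 * κ)
    refine Finset.prod_le_prod (fun v _ => ?_) fun v _ => ?_
    · have := hq v
      simp only [if_true, Bool.false_eq_true, if_false]
      nlinarith [this.1, this.2]
    · have := hq v
      simp only [if_true, Bool.false_eq_true, if_false]
      linarith [Real.add_one_le_exp (q v * Real.exp (2 * κ)), this.1]
  calc _ ≤ _ := h1
    _ ≤ ∑ S ∈ O.powerset, Ex q (e S) * (P * P' * Real.exp (2 * κ) ^ S.card) := by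
        refine Finset.sum_le_sum fun S _ => ?_
        rw [h2]
        exact mul_le_mul_of_nonneg_left (h3 S) (Ex_nonneg hq (he0 S))
    _ = P * P' * ∑ S ∈ O.powerset, Ex q (e S) * Real.exp (2 * κ) ^ S.card := by
        rw [Finset.mul_sum]
        exact Finset.sum_congr rfl fun S _ => by ring
    _ ≤ _ := mul_le_mul_of_nonneg_left h4 (mul_nonneg hP0 hP0')

/-- Second moment.  `A y = ∀ i ∈ I y, Hit (D y i)`; by Harris `Pr (A y) ≥ exp (-M)`.
`Z = ∑_y 1[A y] / Pr (A y)`, `Ex Z = |Y|`, and `Ex Z² = ∑_{y,y'} Pr (A y ∧ A y') / (Pr (A y) Pr (A y'))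
≤ e |Y|² + exp M * #bad pairs ≤ (e + 1) |Y|² ≤ 4 |Y|²` (`pair_ratio` for good pairs, the trivial bound
`1 / Pr (A y')` for bad pairs).  Cauchy–Schwarz: `(Ex Z)² ≤ Pr (Z > 0) Ex Z²`. -/
theorem second_moment {α β : Type} {q : ι → ℝ} (hq : IsProb q) (Y : Finset α) (hY : Y.Nonempty)
    (I : α → Finset β) (D : α → β → Finset ι) (c : α → β → ℝ) {κ M : ℝ} (hκ : 0 ≤ κ)
    (hc0 : ∀ y ∈ Y, ∀ i ∈ I y, 0 ≤ c y i)
    (hc : ∀ y ∈ Y, ∀ i ∈ I y, Real.exp (-c y i) ≤ Pr q (Hit (D y i)))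
    (hM : ∀ y ∈ Y, ∑ i ∈ I y, c y i ≤ M)
    (hv : ∀ y ∈ Y, ∀ v, ∑ i ∈ (I y).filter (fun i => v ∈ D y i), c y i ≤ κ)
    (hpairs : (((Y ×ˢ Y).filter fun p => 1 < mass q ((I p.1).biUnion (D p.1) ∩
      (I p.2).biUnion (D p.2)) * Real.exp (2 * κ)).card : ℝ) ≤ Real.exp (-M) * (Y.card : ℝ) ^ 2) :
    1 / 4 ≤ Pr q (fun ξ => ∃ y ∈ Y, ∀ i ∈ I y, Hit (D y i) ξ) := by
  let A : α → (ι → Bool) → Prop := fun y ξ => ∀ i ∈ I y, Hit (D y i) ξ
  let p : α → ℝ := fun y => Pr q (A y)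
  have hp : ∀ y ∈ Y, Real.exp (-M) ≤ p y := by
    intro y hy
    have h := harris_prod hq (D y) (c y) (B := fun _ => True) (fun _ _ _ h => h) (I y) (hc y hy)
    have h1 : Pr q (fun _ => True) = 1 := by
      unfold Pr; simp only [if_true]; exact Ex_const q 1
    rw [h1, one_mul] at h
    calc Real.exp (-M) ≤ Real.exp (-∑ i ∈ I y, c y i) :=
          Real.exp_le_exp.2 (by linarith [hM y hy])
      _ ≤ _ := h
      _ = p y := Pr_congr q fun ξ => by simp [A]
  have hp0 : ∀ y ∈ Y, 0 < p y := fun y hy => (Real.exp_pos _).trans_le (hp y hy)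
  let Z : (ι → Bool) → ℝ := fun ξ => ∑ y ∈ Y, (if A y ξ then 1 else 0) * (p y)⁻¹
  have hZ1 : Ex q Z = Y.card := by
    simp only [Z]
    rw [Ex_sum, Finset.card_eq_sum_ones, Nat.cast_sum]
    refine Finset.sum_congr rfl fun y hy => ?_
    rw [Ex_mul_const]
    have : Ex q (fun ξ => if A y ξ then (1 : ℝ) else 0) = p y := (Pr_eq q (A y)).symm
    rw [this, mul_inv_cancel₀ (hp0 y hy).ne', Nat.cast_one]
  have hZ2 : Ex q (fun ξ => Z ξ * Z ξ) ≤ 4 * (Y.card : ℝ) ^ 2 := by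
    have e1 : Ex q (fun ξ => Z ξ * Z ξ) = ∑ yy ∈ Y ×ˢ Y,
        Pr q (fun ξ => A yy.1 ξ ∧ A yy.2 ξ) * ((p yy.1)⁻¹ * (p yy.2)⁻¹) := by
      unfold Pr
      simp_rw [← Ex_mul_const]
      rw [← Ex_sum]
      refine Ex_congr q fun ξ => ?_
      simp only [Z]
      rw [Finset.sum_mul_sum, Finset.sum_product]
      refine Finset.sum_congr rfl fun y _ => Finset.sum_congr rfl fun y' _ => ?_
      by_cases h1 : A y ξ <;> by_cases h2 : A y' ξ <;> simp [h1, h2]
    let bad : α × α → Prop := fun yy => 1 < mass q ((I yy.1).biUnion (D yy.1) ∩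
      (I yy.2).biUnion (D yy.2)) * Real.exp (2 * κ)
    have e2 : ∀ yy ∈ Y ×ˢ Y, Pr q (fun ξ => A yy.1 ξ ∧ A yy.2 ξ) * ((p yy.1)⁻¹ * (p yy.2)⁻¹) ≤
        3 + if bad yy then Real.exp M else 0 := by
      intro yy hyy
      obtain ⟨h1, h2⟩ := Finset.mem_product.1 hyy
      have hp1 := hp0 _ h1
      have hp2 := hp0 _ h2
      split_ifs with hb
      · have b1 : Pr q (fun ξ => A yy.1 ξ ∧ A yy.2 ξ) ≤ p yy.1 := Pr_mono hq fun ξ h => h.1
        have b2 : (p yy.2)⁻¹ ≤ Real.exp M := by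
          have := inv_anti₀ (Real.exp_pos _) (hp _ h2)
          rwa [Real.exp_neg, inv_inv] at this
        calc _ ≤ p yy.1 * ((p yy.1)⁻¹ * (p yy.2)⁻¹) :=
              mul_le_mul_of_nonneg_right b1 (by positivity)
          _ = (p yy.2)⁻¹ := by field_simp
          _ ≤ _ := by linarith
      · have b1 := pair_ratio hq (I yy.1) (I yy.2) (D yy.1) (D yy.2) (c yy.1) (c yy.2) hκ
          (hc0 _ h1) (hc0 _ h2) (hc _ h1) (hc _ h2) (hv _ h1) (hv _ h2)
        have b2 : Real.exp (mass q ((I yy.1).biUnion (D yy.1) ∩ (I yy.2).biUnion (D yy.2)) *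
            Real.exp (2 * κ)) ≤ 3 :=
          (Real.exp_le_exp.2 (not_lt.1 hb)).trans (Real.exp_one_lt_d9.le.trans (by norm_num))
        have b3 : Pr q (fun ξ => A yy.1 ξ ∧ A yy.2 ξ) ≤ p yy.1 * p yy.2 * 3 :=
          b1.trans (mul_le_mul_of_nonneg_left b2 (by positivity))
        calc _ ≤ p yy.1 * p yy.2 * 3 * ((p yy.1)⁻¹ * (p yy.2)⁻¹) :=
              mul_le_mul_of_nonneg_right b3 (by positivity)
          _ = 3 := by field_simp
          _ ≤ _ := by linarith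
    rw [e1]
    refine (Finset.sum_le_sum e2).trans ?_
    rw [Finset.sum_add_distrib, ← Finset.sum_filter, Finset.sum_const, Finset.sum_const,
      Finset.card_product, nsmul_eq_mul, nsmul_eq_mul]
    have h7 : Real.exp (-M) * Real.exp M = 1 := by rw [← Real.exp_add]; simp
    have h8 := mul_le_mul_of_nonneg_right hpairs (Real.exp_pos M).le
    have h9 : Real.exp (-M) * (Y.card : ℝ) ^ 2 * Real.exp M = (Y.card : ℝ) ^ 2 := by
      rw [mul_right_comm, h7, one_mul]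
    rw [h9] at h8
    push_cast
    nlinarith [h8]
  -- `Z ≤ Z² / (8 |Y|) * ... ` : use `2 t Z ≤ t² 1[Z>0] + Z²` with `t = 4 |Y|`
  have hY0 : (0 : ℝ) < Y.card := by exact_mod_cast hY.card_pos
  have h3 : Ex q (fun ξ => 8 * Y.card * Z ξ) ≤
      Ex q (fun ξ => 16 * (Y.card : ℝ) ^ 2 *
        (if (∃ y ∈ Y, ∀ i ∈ I y, Hit (D y i) ξ) then 1 else 0) + Z ξ * Z ξ) := by
    refine Ex_mono hq fun ξ => ?_
    split_ifs with h
    · nlinarith [sq_nonneg (4 * (Y.card : ℝ) - Z ξ)]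
    · have : Z ξ = 0 := Finset.sum_eq_zero fun y hy => by
        rw [if_neg (fun hA => h ⟨y, hy, hA⟩), zero_mul]
      rw [this]; simp
  rw [Ex_add, Ex_const_mul, Ex_const_mul, hZ1] at h3
  have h4 : 4 * (Y.card : ℝ) ^ 2 ≤ 16 * (Y.card : ℝ) ^ 2 *
      Pr q (fun ξ => ∃ y ∈ Y, ∀ i ∈ I y, Hit (D y i) ξ) := by
    rw [Pr_eq]
    nlinarith [h3, hZ2]
  by_contra hcon
  push Not at hcon
  nlinarith [mul_lt_mul_of_pos_left hcon (by positivity : (0 : ℝ) < 16 * (Y.card : ℝ) ^ 2)]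

/-- independent trials (induction on `T` with `Ex_mul_indep`). -/
theorem indep_trials {q : ι → ℝ} (hq : IsProb q) (T : ℕ) (Ev : ℕ → (ι → Bool) → Prop)
    (U : ℕ → Finset ι) (hdep : ∀ t < T, DepOn (Ev t) (U t))
    (hdisj : ∀ s < T, ∀ t < T, s ≠ t → Disjoint (U s) (U t))
    (hp : ∀ t < T, 1 / 4 ≤ Pr q (Ev t)) :
    Pr q (fun ξ => ∀ t < T, ¬ Ev t ξ) ≤ (3 / 4) ^ T := by
  induction T with
  | zero =>
    unfold Pr
    simp only [Nat.not_lt_zero, false_imp_iff, implies_true, if_true, pow_zero]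
    exact (Ex_const q 1).le
  | succ T ih =>
    have ih' := ih (fun t ht => hdep t (by omega))
      (fun s hs t ht => hdisj s (by omega) t (by omega)) (fun t ht => hp t (by omega))
    have d1 : DepOn (fun ξ => if (∀ t < T, ¬ Ev t ξ) then (1 : ℝ) else 0)
        ((Finset.range T).biUnion U) := by
      intro ξ η h
      have : ∀ t < T, Ev t ξ = Ev t η := fun t ht => hdep t (by omega) ξ η fun i hi =>
        h i (Finset.mem_biUnion.2 ⟨t, Finset.mem_range.2 ht, hi⟩)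
      have h2 : (∀ t < T, ¬ Ev t ξ) ↔ (∀ t < T, ¬ Ev t η) :=
        forall_congr' fun t => forall_congr' fun ht => by rw [this t ht]
      simp only [h2]
    have d2 : DepOn (fun ξ => 1 - if Ev T ξ then (1 : ℝ) else 0) (U T) := by
      intro ξ η h
      simp only [hdep T (by omega) ξ η h]
    have hd : Disjoint ((Finset.range T).biUnion U) (U T) := by
      rw [Finset.disjoint_biUnion_left]
      intro t ht
      have := Finset.mem_range.1 ht
      exact hdisj t (by omega) T (by omega) (by omega)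
    have h1 := Ex_mul_indep q d1 d2 hd
    rw [Ex_sub, Ex_const] at h1
    have h2 : Pr q (fun ξ => ∀ t < T + 1, ¬ Ev t ξ) =
        Pr q (fun ξ => ∀ t < T, ¬ Ev t ξ) * (1 - Pr q (Ev T)) := by
      rw [Pr_eq, Pr_eq, Pr_eq, ← h1]
      refine Ex_congr q fun ξ => ?_
      have : (∀ t < T + 1, ¬ Ev t ξ) ↔ (∀ t < T, ¬ Ev t ξ) ∧ ¬ Ev T ξ := Nat.forall_lt_succ_right
      simp only [this]
      by_cases h1 : (∀ t < T, ¬ Ev t ξ) <;> by_cases h2 : Ev T ξ <;> simp [h1, h2]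
    rw [h2, pow_succ]
    have h3 := hp T (by omega)
    have h4 := Pr_nonneg hq (fun ξ => ∀ t < T, ¬ Ev t ξ)
    calc _ ≤ Pr q (fun ξ => ∀ t < T, ¬ Ev t ξ) * (3 / 4) :=
          mul_le_mul_of_nonneg_left (by linarith) h4
      _ ≤ _ := mul_le_mul_of_nonneg_right ih' (by norm_num)

/-- Greedy clustering (strong induction on `Z`): if every `z ∈ Z` has cost `< θ` within distance `d`,
take `Ind = Z`, `Ctr = ∅`.  Otherwise pick `z` with cost `≥ θ` within distance `d`, remove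
`{z' ∈ Z | dist ≤ d}` (which contains `z`), apply the induction hypothesis and add `z` to `Ctr`. -/
theorem cluster {α X : Type} [PseudoMetricSpace X] (f : α → X) (c : α → ℝ) {d θ : ℝ} (hd : 0 ≤ d)
    (Z : Finset α) (hc : ∀ z ∈ Z, 0 ≤ c z) :
    ∃ Ind Ctr : Finset α, Ind ⊆ Z ∧ Ctr ⊆ Z ∧
      (∀ z ∈ Z, z ∈ Ind ∨ ∃ ζ ∈ Ctr, dist (f z) (f ζ) ≤ d) ∧
      (∀ ζ ∈ Ctr, ∀ ζ' ∈ Ctr, ζ ≠ ζ' → d < dist (f ζ) (f ζ')) ∧
      (∀ z ∈ Ind, ∀ ζ ∈ Ctr, d < dist (f z) (f ζ)) ∧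
      (∀ z ∈ Ind, ∑ z' ∈ Ind.filter (fun z' => dist (f z') (f z) ≤ d), c z' < θ) ∧
      (Ctr.card : ℝ) * θ + ∑ z ∈ Ind, c z ≤ ∑ z ∈ Z, c z := by
  induction Z using Finset.strongInduction with
  | H Z ih =>
    by_cases h : ∀ z ∈ Z, ∑ z' ∈ Z.filter (fun z' => dist (f z') (f z) ≤ d), c z' < θ
    · exact ⟨Z, ∅, Finset.Subset.refl _, Finset.empty_subset _, fun z hz => Or.inl hz,
        by simp, by simp, h, by simp⟩
    · push Not at h
      obtain ⟨z, hz, hθ⟩ := h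
      have hss : Z.filter (fun z' => ¬ dist (f z') (f z) ≤ d) ⊂ Z := by
        refine Finset.filter_ssubset.2 ⟨z, hz, ?_⟩
        simp [hd]
      obtain ⟨Ind, Ctr, h1, h2, h3, h4, h5, h6, h7⟩ :=
        ih _ hss fun w hw => hc w (Finset.mem_filter.1 hw).1
      have hfar : ∀ w ∈ Z.filter (fun z' => ¬ dist (f z') (f z) ≤ d), d < dist (f w) (f z) :=
        fun w hw => not_le.1 (Finset.mem_filter.1 hw).2
      have hzC : z ∉ Ctr := fun hzc => by
        have := hfar z (h2 hzc)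
        rw [dist_self] at this
        linarith
      refine ⟨Ind, insert z Ctr, h1.trans hss.subset,
        Finset.insert_subset hz (h2.trans hss.subset), ?_, ?_, ?_, h6, ?_⟩
      · intro w hw
        by_cases hwd : dist (f w) (f z) ≤ d
        · exact Or.inr ⟨z, mem_insert_self _ _, hwd⟩
        · rcases h3 w (Finset.mem_filter.2 ⟨hw, hwd⟩) with h | ⟨ζ, hζ, h⟩
          · exact Or.inl h
          · exact Or.inr ⟨ζ, mem_insert_of_mem hζ, h⟩
      · intro ζ hζ ζ' hζ' hne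
        rcases Finset.mem_insert.1 hζ with e1 | e1 <;>
          rcases Finset.mem_insert.1 hζ' with e2 | e2
        · exact absurd (e1.trans e2.symm) hne
        · rw [dist_comm, e1]; exact hfar _ (h2 e2)
        · rw [e2]; exact hfar _ (h2 e1)
        · exact h4 _ e1 _ e2 hne
      · intro w hw ζ hζ
        rcases Finset.mem_insert.1 hζ with rfl | hζ
        · exact hfar _ (h1 hw)
        · exact h5 _ hw _ hζ
      · rw [Finset.card_insert_of_notMem hzC,
          ← Finset.sum_filter_add_sum_filter_not Z (fun z' => dist (f z') (f z) ≤ d)]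
        push_cast
        linarith

end Crest.Agent.R225
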