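import Mathlib
import Crest.Agent.R43.Prob

/-!
# rid 225, lower bound (S0348): definitions

Overview of the proof (random slabs).  `B` = closed unit ball of `E n`, `ω = vol B`.
A finite "net" `u : ι → B` with rates `q` approximates `λ · vol`, `λ = (1/20) / capv n s0`.
`ξ : ι → Bool` is Bernoulli(`q`) (see `R43/Prob.lean`), and
`Kp u ξ = {‖z‖ ≤ 1, |⟪u c, z⟫| ≤ s0 for all chosen c}`.
With positive probability `vol Kp ≥ 0.6 ω` and no *admissible* finite grid configuration `X`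
(few points, small average cost) covers the test points `W + Q` by translates of `Kp`.
An averaging argument shows that a covering of small density by `(1 - 1/n) Kp` gives an
admissible covering configuration.
-/

set_option autoImplicit false
open MeasureTheory Finset
open scoped RealInnerProductSpace

noncomputable section
namespace Crest.Agent.R225
open Crest.Agent.R43

abbrev E (n : ℕ) := EuclideanSpace ℝ (Fin n)

variable {n : ℕ}

/-- real volume -/
def vol (S : Set (E n)) : ℝ := (volume S).toReal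

/-- volume of the unit ball -/
def om (n : ℕ) : ℝ := vol (Metric.closedBall (0 : E n) 1)

/-- vectors of the unit ball that cut `z` at level `s` -/
def Cut (z : E n) (s : ℝ) : Set (E n) := {u | ‖u‖ ≤ 1 ∧ s < ⟪u, z⟫}

/-- volume of a cap of the unit ball at level `s` -/
def capv (n : ℕ) (s : ℝ) : ℝ :=
  if h : 0 < n then vol (Cut (EuclideanSpace.single (⟨0, h⟩ : Fin n) (1 : ℝ)) s) else 0

/-- grid point -/
def pt (δ : ℝ) (k : Fin n → ℤ) : E n := WithLp.toLp 2 (fun i => δ * (k i : ℝ))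

open Classical in
/-- grid points within distance `R` of `c` (see `mem_gball`) -/
def gball (δ : ℝ) (c : E n) (R : ℝ) : Finset (Fin n → ℤ) :=
  (Fintype.piFinset fun i => Finset.Icc ⌈(c i - R) / δ⌉ ⌊(c i + R) / δ⌋).filter
    fun k => dist (pt δ k) c ≤ R

def tau : ℝ := 1 / 10 ^ 7
def s0 : ℝ := 1 - tau
def rr : ℝ := tau / 2
def th : ℝ := 1 / 2000
/-- intensity -/
def lam (n : ℕ) : ℝ := (1 / 20) / capv n s0

/-- a finite net of the unit ball with Bernoulli rates approximating `lam n • vol` -/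
structure IsNet {ι : Type} [Fintype ι] (ε : ℝ) (u : ι → E n) (q : ι → ℝ) : Prop where
  prob : IsProb q
  norm_le : ∀ c, ‖u c‖ ≤ 1
  total : ∑ c, q c ≤ lam n * om n
  lower : ∀ (z : E n) (s : ℝ), ‖z‖ ≤ 2 →
    lam n * vol (Cut z (s + ε)) ≤ ∑ c ∈ univ.filter (fun c => s < ⟪u c, z⟫), q c
  upper : ∀ (z : E n) (s : ℝ), ‖z‖ ≤ 2 →
    ∑ c ∈ univ.filter (fun c => s < ⟪u c, z⟫), q c ≤ lam n * vol (Cut z (s - ε))

section net
variable {ι : Type} [Fintype ι]

/-- net vectors cutting `z` at level `s` -/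
def cutF (u : ι → E n) (z : E n) (s : ℝ) : Finset ι := univ.filter fun c => s < ⟪u c, z⟫

/-- total rate -/
def mass (q : ι → ℝ) (D : Finset ι) : ℝ := ∑ c ∈ D, q c

/-- some element of `D` is chosen -/
def Hit (D : Finset ι) (ξ : ι → Bool) : Prop := ∃ c ∈ D, ξ c = true

/-- the random body -/
def Kp (u : ι → E n) (ξ : ι → Bool) : Set (E n) :=
  {z | ‖z‖ ≤ 1 ∧ ∀ c, ξ c = true → |⟪u c, z⟫| ≤ s0}

end net

/-- cost of cutting `z` -/
def cst (z : E n) : ℝ := 6 + (4 / tau) * n * (1 - ‖z‖)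

/-- penalised cost: zero outside the ball, `n ^ 2` extra on the core -/
def pcst (dc : ℝ) (z : E n) : ℝ :=
  (if ‖z‖ ≤ 1 then cst z else 0) + (if ‖z‖ < 1 - dc then (n : ℝ) ^ 2 else 0)

/-- parameters in dimension `n` -/
structure Par (n : ℕ) where
  δ : ℝ
  ε : ℝ
  dc : ℝ
  d0 : ℝ
  d1 : ℝ
  M : ℝ
  N : ℕ
  T : ℕ
  n_ge : 2 ≤ n
  δ_pos : 0 < δ
  δ_le : δ * n ≤ 1 / (2 * n)
  δ_r : δ * n ≤ rr / 2
  δ_d1 : δ * n ≤ d1
  δ_th : δ * n ≤ th
  ε_pos : 0 < ε
  ε_le : ε ≤ tau / (2 * n)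
  dc_pos : 0 < dc
  d0_pos : 0 < d0
  small : ε + d0 + 2 * dc ≤ tau / 2
  sep : 2 * ε + 2 * dc ≤ d0 ^ 2 / 20
  far : M * Real.exp (-(n * d0 ^ 2 / 80)) ≤ 1 / 4
  M_pos : 0 < M
  M_lt : M < (n : ℝ) ^ 2
  core : (n : ℝ) ^ 2 * Real.exp (1 - n * dc) ≤ 1
  d1_le : d1 ≤ 1 / 2
  ovl : M ^ 2 * Real.exp (2 * (6 + (4 / tau) * n * (dc + d0)) - n * d1 ^ 2 / 40) ≤ 1
  pairs : 2 * M * N * (4 * d1 / rr) ^ n ≤ Real.exp (-M)
  bad : (T : ℝ) * (N : ℝ) ^ 2 * 3 ^ n * (4 * th) ^ n ≤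
    Real.exp (-(6 + (4 / tau) * n * (dc + d0))) / 4
  union : (((gball δ (0 : E n) 3).card : ℝ) + 1) ^ N * (3 / 4) ^ T ≤ 1 / 4

namespace Par
variable (P : Par n)

/-- the bound for the cost of one vector (cost of a deep item) -/
def κ : ℝ := 6 + (4 / tau) * n * (P.dc + P.d0)
/-- centres of test regions -/
def W : Finset (Fin n → ℤ) := gball P.δ 0 1
/-- shape of a test region -/
def Q : Finset (Fin n → ℤ) := gball P.δ 0 rr
/-- cost of the test point `y` for the configuration `X` -/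
def tc (X : Finset (Fin n → ℤ)) (y : Fin n → ℤ) : ℝ := ∑ x ∈ X, pcst P.dc (pt P.δ (y - x))

/-- admissible configurations -/
def Adm (X : Finset (Fin n → ℤ)) : Prop :=
  X ⊆ gball P.δ 0 3 ∧ X.card ≤ P.N ∧
    ∑ w ∈ P.W, ∑ y ∈ P.Q, P.tc X (w + y) ≤ P.M / 4 * P.W.card * P.Q.card

variable {ι : Type} [Fintype ι]

open Classical in
/-- the net vectors a region can use -/
def Use (u : ι → E n) (X : Finset (Fin n → ℤ)) (w : Fin n → ℤ) : Finset ι :=
  univ.filter fun c => ∃ x ∈ X, ∃ y ∈ P.Q, ‖pt P.δ (w + y - x)‖ ≤ 1 ∧ s0 < ⟪u c, pt P.δ (w + y - x)⟫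

open Classical in
/-- good test points of the region at `w`, given the already used vectors `Bad` -/
def Good (u : ι → E n) (q : ι → ℝ) (X : Finset (Fin n → ℤ)) (Bad : Finset ι) (w : Fin n → ℤ) :
    Finset (Fin n → ℤ) :=
  P.Q.filter fun y => P.tc X (w + y) ≤ P.M ∧
    ∑ x ∈ X.filter (fun x => ‖pt P.δ (w + y - x)‖ ≤ 1),
      mass q (cutF u (pt P.δ (w + y - x)) s0 ∩ Bad) ≤ Real.exp (-P.κ)

/-- `X` covers all test points by translates of `K` -/
def Covers (K : Set (E n)) (X : Finset (Fin n → ℤ)) : Prop :=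
  ∀ w ∈ P.W, ∀ y ∈ P.Q, ∃ x ∈ X, pt P.δ (w + y - x) ∈ K

end Par

end Crest.Agent.R225
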