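import Crest.Agent.R225.LGrid

/-! Choice of the parameters for large `n`. -/

set_option autoImplicit false
open MeasureTheory Finset Classical
open scoped RealInnerProductSpace

noncomputable section
namespace Crest.Agent.R225
open Crest.Agent.R43

lemma par_card {n : ℕ} :
    ((gball (1 / (n : ℝ) ^ 3) (0 : E n) 3).card : ℝ) ≤ (6 * (n : ℝ) ^ 3 + 1) ^ n := by
  have h1 : (gball (1 / (n : ℝ) ^ 3) (0 : E n) 3).card ≤ (6 * n ^ 3 + 1) ^ n := by
    unfold gball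
    refine (card_filter_le _ _).trans (le_of_eq ?_)
    rw [Fintype.card_piFinset]
    have h2 : ∀ i : Fin n, (Finset.Icc ⌈((0 : E n) i - 3) / (1 / (n : ℝ) ^ 3)⌉
        ⌊((0 : E n) i + 3) / (1 / (n : ℝ) ^ 3)⌋).card = 6 * n ^ 3 + 1 := by
      intro i
      have a1 : ((0 : E n) i - 3) / (1 / (n : ℝ) ^ 3) = ((-(3 * (n : ℤ) ^ 3) : ℤ) : ℝ) := by
        simp
      have a2 : ((0 : E n) i + 3) / (1 / (n : ℝ) ^ 3) = ((3 * (n : ℤ) ^ 3 : ℤ) : ℝ) := by
        simp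
      rw [a1, a2, Int.ceil_intCast, Int.floor_intCast, Int.card_Icc]
      have a3 : 3 * (n : ℤ) ^ 3 + 1 - -(3 * (n : ℤ) ^ 3) = ((6 * n ^ 3 + 1 : ℕ) : ℤ) := by
        push_cast; ring
      rw [a3, Int.toNat_natCast]
    simp only [h2, prod_const, card_univ, Fintype.card_fin]
  exact_mod_cast h1

lemma par_union {n : ℕ} (hn : 200 ≤ n) :
    (((gball (1 / (n : ℝ) ^ 3) (0 : E n) 3).card : ℝ) + 1) ^ (n ^ 2 * 4 ^ n) *
      (3 / 4) ^ (n ^ 4 * (n ^ 2 * 4 ^ n)) ≤ 1 / 4 := by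
  have hx : (200 : ℝ) ≤ n := by exact_mod_cast hn
  have h1 := par_card (n := n)
  set G : ℝ := ((gball (1 / (n : ℝ) ^ 3) (0 : E n) 3).card : ℝ) with hG
  have hG0 : 0 ≤ G := Nat.cast_nonneg _
  have h2 : 6 * (n : ℝ) ^ 3 + 1 ≤ Real.exp n := by
    have := Real.pow_div_factorial_le_exp (n : ℝ) (by positivity) 4
    have h3 : (1 : ℝ) ≤ (n : ℝ) ^ 3 := one_le_pow₀ (by linarith)
    have h4 : (200 : ℝ) * n ^ 3 ≤ n ^ 4 := by
      rw [show (n : ℝ) ^ 4 = n * n ^ 3 by ring]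
      exact mul_le_mul_of_nonneg_right hx (by positivity)
    norm_num [Nat.factorial] at this
    linarith
  have h3 : G ≤ Real.exp (n * n) := by
    rw [Real.exp_nat_mul]
    exact h1.trans (pow_le_pow_left₀ (by positivity) h2 n)
  have h4 : (3 / 4 : ℝ) ^ (n ^ 4) ≤ Real.exp (((n ^ 4 : ℕ) : ℝ) * (-1 / 4)) := by
    rw [Real.exp_nat_mul]
    refine pow_le_pow_left₀ (by norm_num) ?_ _
    have := Real.add_one_le_exp (-1 / 4 : ℝ)
    linarith
  have h5 : (G + 1) * (3 / 4 : ℝ) ^ (n ^ 4) ≤ 1 / 4 := by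
    have a1 : 1 ≤ Real.exp (n * n) := Real.one_le_exp (by positivity)
    have a2 : (8 : ℝ) ≤ Real.exp 7 := by have := Real.add_one_le_exp (7 : ℝ); linarith
    have a3 : Real.exp 7 * (Real.exp (n * n) * Real.exp (((n ^ 4 : ℕ) : ℝ) * (-1 / 4))) ≤ 1 := by
      rw [← Real.exp_add, ← Real.exp_add, Real.exp_le_one_iff]
      push_cast
      have b1 : (40000 : ℝ) ≤ n * n := by nlinarith
      have b2 : (n : ℝ) ^ 4 = (n * n) * (n * n) := by ring
      nlinarith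
    have a4 : (G + 1) * (3 / 4 : ℝ) ^ (n ^ 4) ≤
        (2 * Real.exp (n * n)) * Real.exp (((n ^ 4 : ℕ) : ℝ) * (-1 / 4)) :=
      mul_le_mul (by linarith) h4 (by positivity) (by positivity)
    have a5 : 0 ≤ Real.exp (n * n) * Real.exp (((n ^ 4 : ℕ) : ℝ) * (-1 / 4)) := by positivity
    nlinarith
  rw [pow_mul (3 / 4 : ℝ), ← mul_pow]
  have h6 : n ^ 2 * 4 ^ n ≠ 0 := by positivity
  refine (pow_le_pow_left₀ (by positivity) h5 _).trans ?_
  exact pow_le_of_le_one (by norm_num) (by norm_num) h6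

lemma par_pow {t : ℝ} (ht : 10 ^ 30 ≤ t) {a b : ℕ} (hab : a < b) : 10 ^ 30 * t ^ a ≤ t ^ b := by
  have h1 : (1 : ℝ) ≤ t := le_trans (by norm_num) ht
  calc 10 ^ 30 * t ^ a ≤ t * t ^ a := mul_le_mul_of_nonneg_right ht (by positivity)
    _ = t ^ (a + 1) := by ring
    _ ≤ t ^ b := pow_le_pow_right₀ h1 hab

lemma par_far {t M : ℝ} (ht : 10 ^ 30 ≤ t) (hM : M ≤ t ^ 7) :
    M * Real.exp (-(t ^ 6 * (1 / t ^ 2) ^ 2 / 80)) ≤ 1 / 4 := by
  have h0 : (0 : ℝ) < t := lt_of_lt_of_le (by norm_num) ht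
  have h1 : t ^ 6 * (1 / t ^ 2) ^ 2 / 80 = t ^ 2 / 80 := by field_simp
  rw [h1, Real.exp_neg, ← div_eq_mul_inv, div_le_iff₀ (Real.exp_pos _)]
  have h2 := Real.pow_div_factorial_le_exp (t ^ 2 / 80) (by positivity) 4
  have h3 := par_pow ht (show 7 < 8 by norm_num)
  have h4 : (t ^ 2 / 80) ^ 4 / (Nat.factorial 4 : ℝ) = t ^ 8 / 983040000 := by
    norm_num [Nat.factorial]; ring
  rw [h4] at h2
  have h5 : 0 < t ^ 7 := by positivity
  linarith

lemma par_core {t : ℝ} (ht : 10 ^ 30 ≤ t) :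
    (t ^ 6) ^ 2 * Real.exp (1 - t ^ 6 * (1 / t ^ 5)) ≤ 1 := by
  have h0 : (0 : ℝ) < t := lt_of_lt_of_le (by norm_num) ht
  have h1 : t ^ 6 * (1 / t ^ 5) = t := by field_simp
  rw [h1, Real.exp_sub, ← mul_div_assoc, div_le_one (Real.exp_pos _)]
  have h2 := Real.pow_div_factorial_le_exp t h0.le 13
  have h3 := par_pow ht (show 12 < 13 by norm_num)
  have h4 : (Nat.factorial 13 : ℝ) = 6227020800 := by norm_num [Nat.factorial]
  rw [h4] at h2
  have h5 : 0 < t ^ 12 := by positivity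
  have h6 : Real.exp 1 ≤ 3 := by have := Real.exp_one_lt_d9; linarith
  have h7 : (t ^ 6) ^ 2 * Real.exp 1 ≤ t ^ 12 * 3 := by
    rw [← pow_mul]; exact mul_le_mul_of_nonneg_left h6 h5.le
  linarith

lemma par_kappa {t : ℝ} (ht : 10 ^ 30 ≤ t) :
    6 + (4 / tau) * t ^ 6 * (1 / t ^ 5 + 1 / t ^ 2) ≤ 10 ^ 8 * t ^ 4 := by
  have h0 : (0 : ℝ) < t := lt_of_lt_of_le (by norm_num) ht
  have h1 : (4 / tau) * t ^ 6 * (1 / t ^ 5 + 1 / t ^ 2) = 4 * 10 ^ 7 * (t + t ^ 4) := by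
    unfold tau; field_simp
  rw [h1]
  have h2 := par_pow ht (show 1 < 4 by norm_num)
  have h3 := par_pow ht (show 0 < 4 by norm_num)
  rw [pow_one] at h2
  rw [pow_zero] at h3
  linarith

lemma par_ovl {t M : ℝ} (ht : 10 ^ 30 ≤ t) (hM0 : 0 ≤ M) (hM : M ≤ t ^ 7) :
    M ^ 2 * Real.exp (2 * (6 + (4 / tau) * t ^ 6 * (1 / t ^ 5 + 1 / t ^ 2)) -
      t ^ 6 * (10 ^ 5 / t) ^ 2 / 40) ≤ 1 := by
  have h0 : (0 : ℝ) < t := lt_of_lt_of_le (by norm_num) ht
  have h1 := par_kappa ht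
  have h2 : t ^ 6 * (10 ^ 5 / t) ^ 2 / 40 = 25 * 10 ^ 7 * t ^ 4 := by field_simp; norm_num
  have h3 : 0 < t ^ 4 := by positivity
  have h4 : Real.exp (2 * (6 + (4 / tau) * t ^ 6 * (1 / t ^ 5 + 1 / t ^ 2)) -
      t ^ 6 * (10 ^ 5 / t) ^ 2 / 40) ≤ Real.exp (- t ^ 4) := by
    rw [Real.exp_le_exp, h2]; linarith
  have h5 : M ^ 2 ≤ Real.exp (t ^ 4) := by
    have a1 := Real.pow_div_factorial_le_exp (t ^ 4) h3.le 4
    have a2 : (t ^ 4) ^ 4 / (Nat.factorial 4 : ℝ) = t ^ 16 / 24 := by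
      norm_num [Nat.factorial]; ring
    rw [a2] at a1
    have a3 := par_pow ht (show 14 < 16 by norm_num)
    have a4 : M ^ 2 ≤ t ^ 14 := by
      rw [show t ^ 14 = (t ^ 7) ^ 2 by ring]; exact pow_le_pow_left₀ hM0 hM 2
    have a5 : 0 < t ^ 14 := by positivity
    linarith
  refine (mul_le_mul h5 h4 (Real.exp_pos _).le (Real.exp_pos _).le).trans (le_of_eq ?_)
  rw [← Real.exp_add]; simp

lemma par_bad {t : ℝ} {n : ℕ} (ht : 10 ^ 30 ≤ t) (hn : (n : ℝ) = t ^ 6) :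
    ((n ^ 4 * (n ^ 2 * 4 ^ n) : ℕ) : ℝ) * ((n ^ 2 * 4 ^ n : ℕ) : ℝ) ^ 2 * 3 ^ n * (4 * th) ^ n ≤
      Real.exp (-(6 + (4 / tau) * t ^ 6 * (1 / t ^ 5 + 1 / t ^ 2))) / 4 := by
  have h0 : (0 : ℝ) < t := lt_of_lt_of_le (by norm_num) ht
  have h1 := par_kappa ht
  have h2 : ((n ^ 4 * (n ^ 2 * 4 ^ n) : ℕ) : ℝ) * ((n ^ 2 * 4 ^ n : ℕ) : ℝ) ^ 2 * 3 ^ n *
      (4 * th) ^ n = (n : ℝ) ^ 10 * (4 * 4 * 4 * 3 * (4 * th)) ^ n := by
    push_cast
    simp only [mul_pow]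
    ring
  have h3 : (4 * 4 * 4 * 3 * (4 * th)) ^ n ≤ Real.exp (n * (-1 / 2)) := by
    rw [Real.exp_nat_mul]
    refine pow_le_pow_left₀ (by unfold th; norm_num) ?_ _
    have := Real.add_one_le_exp (-1 / 2 : ℝ)
    unfold th; linarith
  have h4 : (n : ℝ) ^ 10 ≤ Real.exp ((60 : ℕ) * t) := by
    rw [Real.exp_nat_mul, hn, ← pow_mul]
    refine pow_le_pow_left₀ h0.le ?_ _
    have := Real.add_one_le_exp t
    linarith
  have h5 : (4 : ℝ) ≤ Real.exp 3 := by have := Real.add_one_le_exp (3 : ℝ); linarith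
  rw [h2, le_div_iff₀ (by norm_num)]
  refine (mul_le_mul (mul_le_mul h4 h3 (by unfold th; positivity) (Real.exp_pos _).le) h5
    (by norm_num) (by positivity)).trans ?_
  rw [← Real.exp_add, ← Real.exp_add, Real.exp_le_exp, hn]
  have a1 := par_pow ht (show 4 < 6 by norm_num)
  have a2 := par_pow ht (show 1 < 6 by norm_num)
  have a3 := par_pow ht (show 0 < 6 by norm_num)
  rw [pow_one] at a2
  rw [pow_zero] at a3
  push_cast
  have a4 : 0 < t ^ 6 := by positivity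
  linarith

lemma par_pairs {s : ℝ} {n : ℕ} (hs : 10 ^ 15 ≤ s) (hn : (n : ℝ) = s ^ 12) :
    2 * (n * Real.log s) * ((n ^ 2 * 4 ^ n : ℕ) : ℝ) * (4 * (10 ^ 5 / s ^ 2) / rr) ^ n ≤
      Real.exp (-(n * Real.log s)) := by
  have h0 : (0 : ℝ) < s := lt_of_lt_of_le (by norm_num) hs
  have h1 : (1 : ℝ) ≤ s := le_trans (by norm_num) hs
  have h2 : Real.exp (-(n * Real.log s)) = (1 / s) ^ n := by
    rw [Real.exp_neg, Real.exp_nat_mul, Real.exp_log h0, one_div, inv_pow]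
  have h3 : (n : ℝ) ≤ 2 ^ n := by exact_mod_cast Nat.lt_two_pow_self.le
  have h4 : 2 * Real.log s ≤ n := by
    have a1 := Real.log_le_sub_one_of_pos h0
    have a2 : s ^ 2 ≤ s ^ 12 := pow_le_pow_right₀ h1 (by norm_num)
    rw [hn]; nlinarith
  have hl : 0 ≤ Real.log s := Real.log_nonneg h1
  have hn0 : (0 : ℝ) ≤ n := Nat.cast_nonneg n
  have h5 : 2 * (n * Real.log s) * ((n ^ 2 * 4 ^ n : ℕ) : ℝ) ≤ 64 ^ n := by
    push_cast
    calc 2 * (n * Real.log s) * ((n : ℝ) ^ 2 * 4 ^ n)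
        = (2 * Real.log s) * ((n : ℝ) ^ 3 * 4 ^ n) := by ring
      _ ≤ 2 ^ n * ((2 ^ n) ^ 3 * 4 ^ n) := by
        refine mul_le_mul (h4.trans h3) ?_ (by positivity) (by positivity)
        exact mul_le_mul_of_nonneg_right (pow_le_pow_left₀ hn0 h3 3) (by positivity)
      _ = (2 * (2 ^ 3 * 4)) ^ n := by
        rw [mul_pow, mul_pow, ← pow_mul, ← pow_mul, mul_comm n 3]
      _ = 64 ^ n := by norm_num
  have h6 : 0 ≤ 4 * (10 ^ 5 / s ^ 2) / rr := by unfold rr tau; positivity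
  refine (mul_le_mul_of_nonneg_right h5 (pow_nonneg h6 n)).trans ?_
  rw [h2, ← mul_pow]
  refine pow_le_pow_left₀ (by positivity) ?_ n
  have h7 : 64 * (4 * (10 ^ 5 / s ^ 2) / rr) = (512 * 10 ^ 12 / s) / s := by
    unfold rr tau; field_simp; norm_num
  rw [h7]
  refine div_le_div_of_nonneg_right ?_ h0.le
  rw [div_le_one h0]
  linarith

/-- Take `δ = 1/n³`, `ε = 1/n²`, `dc = n^(-5/6)`, `d0 = n^(-1/3)`, `d1 = C n^(-1/6)` with
`C² / 40 ≥ 16 / tau + 1` (e.g. `C = 10^5`), `M = n log n / 12`, `N = n² 4^n`, `T = n^4 N`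
(any similar choice works).  `card (gball δ 0 3) ≤ (6 n³ + 1)^n` from the definition (box) or from
`card_gball_le` with `om n ≤ 2^n`; `(3/4)^T ≤ exp (-T/4)`; `768 th < 2/5`;
`n log (rr / (4 d1)) = n log n / 6 - O(n)`.  All conditions hold eventually.
It may be convenient to write `n ≥ b^6`-type bounds with `t = n^(1/6)` as a real variable. -/
theorem exists_par : ∃ n₀ : ℕ, ∀ n : ℕ, n₀ ≤ n → ∃ P : Par n,
    (n : ℝ) * Real.log n / 12 ≤ P.M ∧ (n : ℝ) ^ 2 * 4 ^ n ≤ P.N := by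
  refine ⟨10 ^ 180, fun n hn => ?_⟩
  have hn0 : (0 : ℝ) ≤ n := Nat.cast_nonneg n
  obtain ⟨s, hs0, hsn⟩ : ∃ s : ℝ, 0 ≤ s ∧ (n : ℝ) = s ^ 12 :=
    ⟨(n : ℝ) ^ (((12 : ℕ) : ℝ)⁻¹), by positivity,
      (Real.rpow_inv_natCast_pow hn0 (by norm_num)).symm⟩
  have hs : 10 ^ 15 ≤ s := by
    refine le_of_pow_le_pow_left₀ (n := 12) (by norm_num) hs0 ?_
    rw [← hsn, ← pow_mul]
    exact_mod_cast hn
  have hs1 : (1 : ℝ) < s := lt_of_lt_of_le (by norm_num) hs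
  have hsp : 0 < s := by linarith
  obtain ⟨t, hts⟩ : ∃ t, t = s ^ 2 := ⟨_, rfl⟩
  have ht : 10 ^ 30 ≤ t := by
    rw [hts, show (10 : ℝ) ^ 30 = (10 ^ 15) ^ 2 by norm_num]
    exact pow_le_pow_left₀ (by norm_num) hs 2
  have htn : (n : ℝ) = t ^ 6 := by rw [hsn, hts]; ring
  have h0 : (0 : ℝ) < t := lt_of_lt_of_le (by norm_num) ht
  have hl : 0 < Real.log s := Real.log_pos hs1
  have hl2 : Real.log s ≤ t := by
    have a1 := Real.log_le_sub_one_of_pos hsp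
    rw [hts]; nlinarith
  have hM : n * Real.log s ≤ t ^ 7 := by
    rw [htn, pow_succ t 6]; exact mul_le_mul_of_nonneg_left hl2 (by positivity)
  have hnp : (0 : ℝ) < n := by rw [htn]; positivity
  have hδ : 1 / (n : ℝ) ^ 3 * n = 1 / t ^ 12 := by rw [htn]; field_simp
  have p0 : ∀ k, 0 < k → 10 ^ 30 ≤ t ^ k := fun k hk => by simpa using par_pow ht hk
  have q0 : ∀ k, 0 < k → 1 / t ^ k ≤ 1 / 10 ^ 30 := fun k hk =>
    one_div_le_one_div_of_le (by norm_num) (p0 k hk)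
  have q1 : ∀ a b, a < b → 10 ^ 30 * (1 / t ^ b) ≤ 1 / t ^ a := fun a b hab => by
    rw [mul_one_div, div_le_div_iff₀ (by positivity) (by positivity), one_mul]
    exact par_pow ht hab
  have r0 : ∀ k, 0 < 1 / t ^ k := fun k => by positivity
  refine ⟨
    { δ := 1 / (n : ℝ) ^ 3, ε := 1 / t ^ 12, dc := 1 / t ^ 5, d0 := 1 / t ^ 2, d1 := 10 ^ 5 / t,
      M := n * Real.log s, N := n ^ 2 * 4 ^ n, T := n ^ 4 * (n ^ 2 * 4 ^ n)
      n_ge := le_trans (by norm_num) hn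
      δ_pos := by positivity
      δ_le := ?_, δ_r := ?_, δ_d1 := ?_, δ_th := ?_
      ε_pos := r0 12
      ε_le := ?_
      dc_pos := r0 5
      d0_pos := r0 2
      small := ?_, sep := ?_
      far := by
        have := par_far ht hM
        rwa [← htn] at this
      M_pos := by positivity
      M_lt := ?_
      core := by
        have := par_core ht
        rwa [← htn] at this
      d1_le := ?_
      ovl := by
        have := par_ovl ht (by positivity) hM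
        rwa [← htn] at this
      pairs := by
        have := par_pairs hs hsn
        rwa [← hts] at this
      bad := by
        have := par_bad ht htn
        rwa [← htn] at this
      union := par_union (le_trans (by norm_num) hn) }, ?_, ?_⟩
  · rw [hδ, htn, show 1 / (2 * t ^ 6) = 1 / t ^ 6 / 2 by field_simp]
    linarith [q1 6 12 (by norm_num), r0 12]
  · rw [hδ]; unfold rr tau; linarith [q0 12 (by norm_num)]
  · rw [hδ, show 10 ^ 5 / t = 10 ^ 5 * (1 / t ^ 1) by field_simp]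
    linarith [q1 1 12 (by norm_num), r0 12, r0 1]
  · rw [hδ]; unfold th; linarith [q0 12 (by norm_num)]
  · rw [htn, show tau / (2 * t ^ 6) = 1 / t ^ 6 / (2 * 10 ^ 7) by unfold tau; field_simp]
    linarith [q1 6 12 (by norm_num), r0 12]
  · unfold tau; linarith [q0 12 (by norm_num), q0 2 (by norm_num), q0 5 (by norm_num)]
  · rw [show (1 / t ^ 2) ^ 2 = 1 / t ^ 4 by field_simp]
    linarith [q1 4 12 (by norm_num), q1 4 5 (by norm_num), r0 12, r0 5]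
  · have := par_pow ht (show 7 < 12 by norm_num)
    have h7 : 0 < t ^ 7 := by positivity
    rw [show (n : ℝ) ^ 2 = t ^ 12 by rw [htn]; ring]
    linarith
  · rw [div_le_iff₀ h0]; linarith
  · show (n : ℝ) * Real.log n / 12 ≤ n * Real.log s
    rw [show Real.log n = 12 * Real.log s by rw [hsn, Real.log_pow]; norm_num]
    exact le_of_eq (by ring)
  · show (n : ℝ) ^ 2 * 4 ^ n ≤ ((n ^ 2 * 4 ^ n : ℕ) : ℝ)
    push_cast; exact le_rfl

end Crest.Agent.R225
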