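import Crest.Agent.R225.LMain
import Crest.Agent.R225.LParam

/-! From coverings of small density to admissible configurations; the lower bound. -/

set_option autoImplicit false
open MeasureTheory Finset Classical
open scoped RealInnerProductSpace

noncomputable section
namespace Crest.Agent.R225
open Crest.Agent.R43

open Filter
open scoped ENNReal

variable {n : ℕ}

theorem lf_pcst_nonneg (dc : ℝ) (z : E n) : 0 ≤ pcst dc z := by
  unfold pcst cst
  have ht : (0 : ℝ) < tau := by norm_num [tau]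
  refine add_nonneg ?_ ?_
  · split_ifs with h
    · have : 0 ≤ 1 - ‖z‖ := by linarith
      positivity
    · exact le_rfl
  · split_ifs
    · positivity
    · exact le_rfl

theorem lf_pt_apply (δ : ℝ) (k : Fin n → ℤ) (i : Fin n) : pt δ k i = δ * (k i : ℝ) := rfl

theorem lf_zero_mem {δ R : ℝ} (hδ : 0 < δ) (hR : 0 ≤ R) :
    (0 : Fin n → ℤ) ∈ gball δ (0 : E n) R := by
  rw [mem_gball hδ]
  have : pt δ (0 : Fin n → ℤ) = 0 := by ext i; simp [lf_pt_apply]
  simpa [this] using hR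

/-- The averaging inequality for one box. -/
theorem lf_box (P : Par n) {K K₀ : Set (E n)} (hK1 : K ⊆ Metric.closedBall (0 : E n) 1)
    (hK : ∀ X, P.Adm X → ¬ P.Covers K X)
    (h0 : ∀ z ∈ K₀, ∀ e : E n, ‖e‖ ≤ P.δ * n → z + e ∈ K) {ρ : ℝ} (hρ : 0 < ρ)
    (hN : 4 * ρ * om n * 4 ^ n ≤ P.N) (hM : 16 * ρ * om n * (20 / tau + 20) ≤ P.M)
    (X : Set (E n)) (hcov : ∀ y : E n, ∃ x ∈ X, y - x ∈ K₀) (m : ℕ) (XR : Finset (E n))
    (hXR : ∀ x ∈ X, (∀ i, |x i| ≤ P.δ * m + 4) → x ∈ XR) :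
    2 * ρ * (P.δ * (2 * m + 1)) ^ n ≤ XR.card := by
  have hδ := P.δ_pos
  have hn : (2 : ℝ) ≤ n := by exact_mod_cast P.n_ge
  have hδn : P.δ * n ≤ 1 := P.δ_le.trans (by rw [div_le_one (by linarith)]; linarith)
  have hδ1 : P.δ ≤ 1 := by nlinarith
  have hom := om_pos n
  have ht : (0 : ℝ) < tau := by norm_num [tau]
  have hrr : (0 : ℝ) ≤ rr := by norm_num [rr, tau]
  have hrr1 : rr ≤ 1 := by norm_num [rr, tau]
  have hN0 : (0 : ℝ) < P.N := lt_of_lt_of_le (by positivity) hN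
  have hM0 := P.M_pos
  have hW : (0 : ℝ) < P.W.card := by
    exact_mod_cast card_pos.2 ⟨0, lf_zero_mem hδ zero_le_one⟩
  have hQ : (0 : ℝ) < P.Q.card := by exact_mod_cast card_pos.2 ⟨0, lf_zero_mem hδ hrr⟩
  choose k hk hk' using fun x : E n => exists_pt_near hδ x
  set G := gball P.δ (0 : E n) 3 with hG
  set B : Finset (Fin n → ℤ) := Fintype.piFinset fun _ => Finset.Icc (-(m : ℤ)) m with hB
  have hBc : (B.card : ℝ) = (2 * m + 1) ^ n := by
    have : (Finset.Icc (-(m : ℤ)) m).card = 2 * m + 1 := by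
      rw [Int.card_Icc]; omega
    rw [hB, Fintype.card_piFinset]
    simp [this]
  set Y : (Fin n → ℤ) → Finset (Fin n → ℤ) := fun w₀ =>
    (XR.filter fun x => k x - w₀ ∈ G).image fun x => k x - w₀ with hY
  set C : ℝ := P.M / 4 * P.W.card * P.Q.card with hC
  have hC0 : 0 < C := by positivity
  have h1 : ∀ w₀ ∈ B, 1 ≤ (∑ x ∈ XR, if k x - w₀ ∈ G then (1 : ℝ) else 0) / P.N +
      (∑ w ∈ P.W, ∑ y ∈ P.Q, ∑ x ∈ XR, pcst P.dc (pt P.δ (w + y - (k x - w₀)))) / C := by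
    intro w₀ hw₀
    have hcv : P.Covers K (Y w₀) := by
      intro w hw y hy
      obtain ⟨x, hx, hxK⟩ := hcov (pt P.δ (w + y + w₀))
      have he : pt P.δ (w + y - (k x - w₀)) =
          (pt P.δ (w + y + w₀) - x) + (x - pt P.δ (k x)) := by
        rw [show w + y - (k x - w₀) = w + y + w₀ - k x by abel, pt_sub]; abel
      have hin : pt P.δ (w + y - (k x - w₀)) ∈ K := by
        rw [he]
        refine h0 _ hxK _ ?_
        rw [← dist_eq_norm, dist_comm]; exact hk x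
      have hw' : ‖pt P.δ w‖ ≤ 1 := by simpa using (mem_gball hδ).1 hw
      have hy' : ‖pt P.δ y‖ ≤ rr := by simpa using (mem_gball hδ).1 hy
      have h3 : ‖pt P.δ (k x - w₀)‖ ≤ 3 := by
        have e1 : pt P.δ (k x - w₀) = pt P.δ w + pt P.δ y - pt P.δ (w + y - (k x - w₀)) := by
          rw [← pt_add, ← pt_sub]; congr 1; abel
        have e2 : ‖pt P.δ (w + y - (k x - w₀))‖ ≤ 1 := by simpa using hK1 hin
        rw [e1]
        have := norm_sub_le (pt P.δ w + pt P.δ y) (pt P.δ (w + y - (k x - w₀)))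
        have := norm_add_le (pt P.δ w) (pt P.δ y)
        linarith
      refine ⟨k x - w₀, mem_image.2 ⟨x, mem_filter.2 ⟨hXR x hx fun i => ?_, ?_⟩, rfl⟩, hin⟩
      · have a1 : |pt P.δ (k x - w₀) i| ≤ 3 :=
          (PiLp.norm_apply_le (pt P.δ (k x - w₀)) i).trans h3
        rw [lf_pt_apply, Pi.sub_apply, Int.cast_sub, mul_sub] at a1
        have a2 := hk' x i
        have a3 := mem_Icc.1 (Fintype.mem_piFinset.1 hw₀ i)
        have a4 : (-(m : ℝ)) ≤ (w₀ i : ℝ) := by exact_mod_cast a3.1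
        have a5 : (w₀ i : ℝ) ≤ m := by exact_mod_cast a3.2
        rw [abs_le] at a1 a2 ⊢
        constructor <;> nlinarith
      · rw [hG, mem_gball hδ]; simpa using h3
    have hna : ¬ P.Adm (Y w₀) := fun h => hK _ h hcv
    have hsub : Y w₀ ⊆ G := by
      intro g hg
      obtain ⟨x, hx, rfl⟩ := mem_image.1 hg
      exact (mem_filter.1 hx).2
    have b1 : ((Y w₀).card : ℝ) ≤ ∑ x ∈ XR, if k x - w₀ ∈ G then (1 : ℝ) else 0 := by
      rw [sum_boole]; exact_mod_cast card_image_le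
    have b2 : ∑ w ∈ P.W, ∑ y ∈ P.Q, P.tc (Y w₀) (w + y) ≤
        ∑ w ∈ P.W, ∑ y ∈ P.Q, ∑ x ∈ XR, pcst P.dc (pt P.δ (w + y - (k x - w₀))) := by
      refine sum_le_sum fun w _ => sum_le_sum fun y _ => ?_
      unfold Par.tc
      refine (sum_image_le_of_nonneg fun _ _ => lf_pcst_nonneg _ _).trans ?_
      exact sum_le_sum_of_subset_of_nonneg (filter_subset _ _) fun _ _ _ => lf_pcst_nonneg _ _
    have b3 : 0 ≤ (∑ x ∈ XR, if k x - w₀ ∈ G then (1 : ℝ) else 0) / P.N :=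
      div_nonneg ((Nat.cast_nonneg _).trans b1) hN0.le
    have b4 : 0 ≤ (∑ w ∈ P.W, ∑ y ∈ P.Q, ∑ x ∈ XR,
        pcst P.dc (pt P.δ (w + y - (k x - w₀)))) / C :=
      div_nonneg (sum_nonneg fun _ _ => sum_nonneg fun _ _ => sum_nonneg fun _ _ =>
        lf_pcst_nonneg _ _) hC0.le
    by_cases hc : (Y w₀).card ≤ P.N
    · have : ¬ ∑ w ∈ P.W, ∑ y ∈ P.Q, P.tc (Y w₀) (w + y) ≤ C := fun h => hna ⟨hsub, hc, h⟩
      have := (one_le_div hC0).2 ((not_le.1 this).le.trans b2)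
      linarith
    · have h5 : (P.N : ℝ) ≤ (Y w₀).card := by exact_mod_cast (not_le.1 hc).le
      have := (one_le_div hN0).2 (h5.trans b1)
      linarith
  have hδp : 0 < P.δ ^ n := by positivity
  have hGc : P.δ ^ n * (G.card : ℝ) ≤ 4 ^ n * om n :=
    (card_gball_le hδ _ (by norm_num)).trans (mul_le_mul_of_nonneg_right
      (pow_le_pow_left₀ (by positivity) (by linarith) _) hom.le)
  have s1 : P.δ ^ n * ∑ w₀ ∈ B, ∑ x ∈ XR, (if k x - w₀ ∈ G then (1 : ℝ) else 0) ≤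
      XR.card * (4 ^ n * om n) := by
    rw [sum_comm, mul_sum, ← nsmul_eq_mul]
    refine sum_le_card_nsmul _ _ _ fun x _ => le_trans ?_ hGc
    refine mul_le_mul_of_nonneg_left ?_ hδp.le
    rw [sum_boole]
    exact_mod_cast card_le_card_of_injOn (fun w₀ => k x - w₀)
      (fun w₀ hw₀ => (mem_filter.1 hw₀).2) fun a _ b _ h => sub_right_injective h
  have s2 : P.δ ^ n * ∑ w₀ ∈ B, ∑ w ∈ P.W, ∑ y ∈ P.Q, ∑ x ∈ XR,
      pcst P.dc (pt P.δ (w + y - (k x - w₀))) ≤
      P.W.card * (P.Q.card * (XR.card * ((20 / tau + 20) * om n))) := by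
    rw [sum_comm, mul_sum, ← nsmul_eq_mul]
    refine sum_le_card_nsmul _ _ _ fun w _ => ?_
    rw [sum_comm, mul_sum, ← nsmul_eq_mul]
    refine sum_le_card_nsmul _ _ _ fun y _ => ?_
    rw [sum_comm, mul_sum, ← nsmul_eq_mul]
    refine sum_le_card_nsmul _ _ _ fun x _ => ?_
    have := sum_pcst_le P (B.image fun w₀ => w + y - (k x - w₀))
    rwa [sum_image fun a _ b _ h => sub_right_injective (sub_right_injective h)] at this
  have s3 := sum_le_sum h1
  rw [sum_const, nsmul_eq_mul, mul_one, hBc, sum_add_distrib, ← sum_div, ← sum_div] at s3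
  have s4 := mul_le_mul_of_nonneg_left s3 hδp.le
  rw [mul_add, ← mul_div_assoc, ← mul_div_assoc] at s4
  have hX0 : (0 : ℝ) ≤ XR.card := Nat.cast_nonneg _
  have t1 : (XR.card * (4 ^ n * om n)) / P.N ≤ XR.card / (4 * ρ) := by
    rw [div_le_div_iff₀ hN0 (by positivity)]
    nlinarith [mul_le_mul_of_nonneg_left hN hX0]
  have t2 : (P.W.card * (P.Q.card * (XR.card * ((20 / tau + 20) * om n)))) / C ≤
      XR.card / (4 * ρ) := by
    rw [div_le_div_iff₀ hC0 (by positivity), hC]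
    have := mul_le_mul_of_nonneg_left hM
      (show (0 : ℝ) ≤ XR.card * P.W.card * P.Q.card / 4 by positivity)
    nlinarith
  have t3 := div_le_div_of_nonneg_right s1 hN0.le
  have t4 := div_le_div_of_nonneg_right s2 hC0.le
  have t5 : P.δ ^ n * (2 * m + 1) ^ n ≤ XR.card / (2 * ρ) := by
    have : (XR.card : ℝ) / (2 * ρ) = XR.card / (4 * ρ) + XR.card / (4 * ρ) := by
      field_simp; ring
    linarith
  rw [le_div_iff₀ (by positivity)] at t5
  rw [mul_pow]; linarith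

theorem lf_pow_ge (hn : 2 ≤ n) : (1 / 8 : ℝ) ≤ (1 - 1 / n) ^ n := by
  have h2 : (2 : ℝ) ≤ n := by exact_mod_cast hn
  have h1 : Real.exp (-(2 / n)) ≤ 1 - 1 / (n : ℝ) := by
    rw [Real.exp_neg, inv_le_comm₀ (Real.exp_pos _)
      (by rw [sub_pos, div_lt_one (by linarith)]; linarith)]
    refine le_trans ?_ (Real.add_one_le_exp _)
    rw [inv_le_iff_one_le_mul₀ (by rw [sub_pos, div_lt_one (by linarith)]; linarith)]
    have : (2 / n + 1) * (1 - 1 / n) = 1 + (n - 2) / (n : ℝ) ^ 2 := by field_simp; ring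
    rw [this]
    have : 0 ≤ (n - 2) / (n : ℝ) ^ 2 := div_nonneg (by linarith) (by positivity)
    linarith
  refine le_trans ?_ (pow_le_pow_left₀ (Real.exp_pos _).le h1 n)
  rw [← Real.exp_nat_mul, show (n : ℝ) * -(2 / n) = -(1 + 1) by field_simp; ring, Real.exp_neg,
    Real.exp_add, one_div]
  have := Real.exp_one_lt_d9
  have := Real.exp_pos 1
  exact inv_anti₀ (by positivity) (by nlinarith)

/-- Averaging.  Let `X` be a locally finite set with `K₀ + X = E n`, where `K₀ + B(δ n) ⊆ K`, and with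
at most `ρ (2R)^n` points in `[-R,R]^n` for all large `R`.  Round `x ↦ k x` (`exists_pt_near`).
For `w₀ : Fin n → ℤ` let `X w₀ = {k x - w₀} ∩ gball δ 0 3`; it covers the test points
(`‖pt (w + y)‖ ≤ 1 + rr`, `K ⊆ B`), so it is not admissible:
`1 < |X w₀| / N + (4/M) avg_{w,y} tc (X w₀) (w + y)`.  Sum over the `≥ (2L/δ - 1)^n` vectors `w₀` with
`|δ w₀ i| ≤ L`: only `x ∈ [-L-4, L+4]^n` contribute, each at most
`#gball 3 / N + (4/M) ∑_g pcst g ≤ δ^{-n} om (4^n / N + 4 (20/tau + 20) / M) ≤ δ^{-n} / (2 ρ)`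
(`card_gball_le`, `sum_pcst_le`; `pcst ≥ 0`).  So `(2L/δ - 1)^n ≤ (2(L+4))^n δ^{-n} / 2`, false for
large `L`. -/
theorem no_sparse_cover (P : Par n) {K K₀ : Set (E n)} (hK1 : K ⊆ Metric.closedBall (0 : E n) 1)
    (hK : ∀ X, P.Adm X → ¬ P.Covers K X)
    (h0 : ∀ z ∈ K₀, ∀ e : E n, ‖e‖ ≤ P.δ * n → z + e ∈ K) {ρ : ℝ} (hρ : 0 < ρ)
    (hN : 4 * ρ * om n * 4 ^ n ≤ P.N) (hM : 16 * ρ * om n * (20 / tau + 20) ≤ P.M)
    (X : Set (E n)) (hfin : ∀ R : ℝ, (X ∩ {x | ∀ i, |x i| ≤ R}).Finite)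
    (hcov : ∀ y : E n, ∃ x ∈ X, y - x ∈ K₀) :
    ¬ ∀ᶠ R : ℝ in atTop, ((X ∩ {x | ∀ i, |x i| ≤ R}).ncard : ℝ) ≤ ρ * (2 * R) ^ n := by
  intro hev
  have hδ := P.δ_pos
  have t1 : Tendsto (fun m : ℕ => P.δ * m) atTop atTop :=
    tendsto_natCast_atTop_atTop.const_mul_atTop hδ
  have t2 : Tendsto (fun m : ℕ => P.δ * m + 4) atTop atTop := tendsto_atTop_add_const_right _ _ t1
  have t3 : Tendsto (fun m : ℕ => (1 + 4 / (P.δ * m)) ^ n) atTop (nhds ((1 + 0) ^ n)) :=
    (tendsto_const_nhds.add (tendsto_const_nhds.div_atTop t1)).pow n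
  obtain ⟨m, h1, h2, h3⟩ := ((t2.eventually hev).and
    ((t3.eventually (gt_mem_nhds (show ((1 : ℝ) + 0) ^ n < 2 by norm_num))).and
      (t1.eventually (eventually_gt_atTop 0)))).exists
  have h4 := lf_box P hK1 hK h0 hρ hN hM X hcov m (hfin (P.δ * m + 4)).toFinset
    fun x hx hx' => (Set.Finite.mem_toFinset _).2 ⟨hx, hx'⟩
  rw [← Set.ncard_eq_toFinset_card _ (hfin _)] at h4
  have h5 : (2 * (P.δ * m + 4)) ^ n = (1 + 4 / (P.δ * m)) ^ n * (2 * (P.δ * m)) ^ n := by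
    rw [← mul_pow]; congr 1
    linear_combination (-2) * div_mul_cancel₀ (4 : ℝ) h3.ne'
  have h6 : (2 * (P.δ * m)) ^ n ≤ (P.δ * (2 * m + 1)) ^ n :=
    pow_le_pow_left₀ (by positivity) (by nlinarith) n
  have h7 : 0 < (2 * (P.δ * m)) ^ n := by positivity
  have h8 := h4.trans h1
  rw [h5] at h8
  have h9 : 2 * (P.δ * (2 * m + 1)) ^ n ≤ (1 + 4 / (P.δ * m)) ^ n * (2 * (P.δ * m)) ^ n := by
    refine le_of_mul_le_mul_left ?_ hρ
    linarith
  nlinarith

/-- The statement of S0348.  `K₀ = (1 - 1/n) • K` with `K` from `exists_body`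
(`K₀ + B(1/(2n)) ⊆ (1 - 1/n) K + (1/n) K ⊆ K`; `vol K₀ ≥ (1/4)(3/5) om`), transported to `Fin n → ℝ`
by `WithLp.ofLp` (volume preserving: `PiLp.volume_preserving_ofLp`/`toLp`).
`c = 1 / (2000 (20/tau + 20))`, `ρ = c n log n / ((3/20) om n)`.  If
`volume K * limsup < ofReal (c n log n)` then `limsup < ofReal ρ`, so eventually
`ncard ≤ ρ (2R)^n` (`Filter.eventually_lt_of_limsup_lt`), contradicting `no_sparse_cover`. -/
theorem lower_main :
    ∃ c : ℝ, 0 < c ∧ ∃ n₀ : ℕ, ∀ n : ℕ, n₀ ≤ n →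
      ∃ K : Set (Fin n → ℝ), IsCompact K ∧ Convex ℝ K ∧ (interior K).Nonempty ∧
        (∀ x ∈ K, -x ∈ K) ∧
        ∀ X : Set (Fin n → ℝ), (∀ R : ℝ, (X ∩ {x | ∀ i, |x i| ≤ R}).Finite) →
          (∀ y : Fin n → ℝ, ∃ x ∈ X, y - x ∈ K) →
          ENNReal.ofReal (c * n * Real.log n) ≤
            volume K * limsup (fun R : ℝ => ((X ∩ {x | ∀ i, |x i| ≤ R}).ncard : ℝ≥0∞) /
              ENNReal.ofReal ((2 * R) ^ n)) atTop := by
  have ht : (0 : ℝ) < tau := by norm_num [tau]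
  obtain ⟨n₀, hn₀⟩ := exists_par
  refine ⟨1 / (4000 * (20 / tau + 20)), by positivity, n₀, fun n hn => ?_⟩
  obtain ⟨P, hPM, hPN⟩ := hn₀ n hn
  obtain ⟨K, hKc, hKv, hKs, hKb, hK1, hKvol, hK⟩ := exists_body P
  have hn2 : (2 : ℝ) ≤ n := by exact_mod_cast P.n_ge
  have hn0 : (0 : ℝ) < n := by linarith
  have hom := om_pos n
  have hlog : 0 < Real.log n := Real.log_pos (by linarith)
  have hlog' : Real.log n ≤ n := (Real.log_le_sub_one_of_pos hn0).trans (by linarith)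
  set a : ℝ := 1 - 1 / n with ha
  have ha0 : 0 < a := by rw [ha, sub_pos, div_lt_one hn0]; linarith
  set K₀ : Set (E n) := (fun z => a • z) '' K with hK₀
  let e := EuclideanSpace.equiv (Fin n) ℝ
  have hK₀c : IsCompact K₀ := hKc.image (continuous_const_smul a)
  have hvol : ENNReal.ofReal (3 / 40 * om n) ≤ volume (e '' K₀) := by
    have h1 : volume (e '' K₀) = volume K₀ := by
      rw [← (PiLp.volume_preserving_ofLp (Fin n)).measure_preimage
        (hK₀c.image e.continuous).measurableSet.nullMeasurableSet]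
      congr 1
      exact Set.preimage_image_eq _ e.injective
    have h2 : volume K₀ = ENNReal.ofReal (a ^ n) * volume K := by
      have := Measure.addHaar_smul_of_nonneg (volume : Measure (E n)) ha0.le K
      rw [finrank_euclideanSpace_fin] at this
      exact this
    have h3 : volume K = ENNReal.ofReal (vol K) :=
      (ENNReal.ofReal_toReal hKc.measure_lt_top.ne).symm
    rw [h1, h2, h3, ← ENNReal.ofReal_mul (by positivity)]
    refine ENNReal.ofReal_le_ofReal ?_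
    have := lf_pow_ge P.n_ge
    nlinarith
  refine ⟨e '' K₀, hK₀c.image e.continuous,
    (hKv.smul a).linear_image (e : E n →ₗ[ℝ] (Fin n → ℝ)), ?_, ?_, fun X hfin hcov => ?_⟩
  · have h1 : (0 : E n) ∈ interior K₀ := by
      rw [mem_interior_iff_mem_nhds]
      refine mem_of_superset (Metric.ball_mem_nhds (0 : E n) (half_pos ha0)) fun z hz => ?_
      refine ⟨a⁻¹ • z, hKb ?_, smul_inv_smul₀ ha0.ne' z⟩
      rw [mem_ball_zero_iff] at hz
      rw [mem_closedBall_zero_iff, norm_smul, Real.norm_of_nonneg (inv_pos.2 ha0).le,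
        inv_mul_le_iff₀ ha0]
      linarith
    refine ⟨e 0, ?_⟩
    have h2 := e.toHomeomorph.image_interior K₀
    exact h2 ▸ Set.mem_image_of_mem _ h1
  · rintro _ ⟨_, ⟨z, hz, rfl⟩, rfl⟩
    exact ⟨_, ⟨-z, hKs z hz, rfl⟩, by simp⟩
  · by_contra hlt
    rw [not_le] at hlt
    set ρ : ℝ := 1 / (4000 * (20 / tau + 20)) * n * Real.log n / (3 / 40 * om n) with hρ
    have hρ0 : 0 < ρ := by positivity
    have hρ1 : ρ * om n = n * Real.log n / (300 * (20 / tau + 20)) := by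
      rw [hρ]; field_simp; ring
    have h1 : limsup (fun R : ℝ => ((X ∩ {x | ∀ i, |x i| ≤ R}).ncard : ℝ≥0∞) /
        ENNReal.ofReal ((2 * R) ^ n)) atTop < ENNReal.ofReal ρ := by
      have h2 := (mul_le_mul_left hvol _).trans_lt hlt
      have h3 : 1 / (4000 * (20 / tau + 20)) * n * Real.log n = 3 / 40 * om n * ρ := by
        rw [hρ]; field_simp
      rw [h3, ENNReal.ofReal_mul (by positivity : (0 : ℝ) ≤ 3 / 40 * om n)] at h2
      exact lt_of_mul_lt_mul_left h2 zero_le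
    have hint : ∀ R : ℝ, (e.symm '' X) ∩ {x | ∀ i, |x i| ≤ R} =
        e.symm '' (X ∩ {x | ∀ i, |x i| ≤ R}) := by
      intro R
      ext z
      constructor
      · rintro ⟨⟨x, hx, rfl⟩, h⟩
        exact ⟨x, ⟨hx, h⟩, rfl⟩
      · rintro ⟨x, ⟨hx, h⟩, rfl⟩
        exact ⟨⟨x, hx, rfl⟩, h⟩
    have h20 : 20 ≤ 20 / tau + 20 := by
      have : 0 ≤ 20 / tau := by positivity
      linarith
    refine no_sparse_cover P (K₀ := K₀) hK1 hK ?_ hρ0 ?_ ?_ (e.symm '' X) (fun R => ?_)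
      (fun y => ?_) ?_
    · rintro _ ⟨z, hz, rfl⟩ v hv
      have h2 : (n : ℝ) • v ∈ K := by
        refine hKb ?_
        rw [mem_closedBall_zero_iff, norm_smul, Real.norm_of_nonneg hn0.le]
        have := mul_le_mul_of_nonneg_left (hv.trans P.δ_le) hn0.le
        rwa [show (n : ℝ) * (1 / (2 * n)) = 1 / 2 by field_simp] at this
      have h3 := hKv hz h2 ha0.le (show (0 : ℝ) ≤ 1 / n by positivity) (by rw [ha]; ring)
      rwa [smul_smul, one_div_mul_cancel hn0.ne', one_smul] at h3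
    · refine le_trans ?_ hPN
      rw [mul_assoc 4 ρ, hρ1]
      refine mul_le_mul_of_nonneg_right ?_ (by positivity)
      rw [← mul_div_assoc, div_le_iff₀ (by positivity)]
      have := mul_le_mul_of_nonneg_left hlog' hn0.le
      nlinarith [mul_le_mul_of_nonneg_left h20 (sq_nonneg (n : ℝ))]
    · refine le_trans ?_ hPM
      rw [mul_assoc 16 ρ, hρ1]
      have : 16 * (n * Real.log n / (300 * (20 / tau + 20))) * (20 / tau + 20) =
          16 / 300 * (n * Real.log n) := by field_simp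
      rw [this]
      nlinarith [mul_pos hn0 hlog]
    · rw [hint]; exact (hfin R).image _
    · obtain ⟨x, hx, z, hz, hzx⟩ := hcov (e y)
      refine ⟨e.symm x, ⟨x, hx, rfl⟩, ?_⟩
      have : y - e.symm x = z := by
        apply e.injective
        rw [map_sub, e.apply_symm_apply, hzx]
      rwa [this]
    · filter_upwards [eventually_lt_of_limsup_lt h1, eventually_gt_atTop 0] with R h2 hR
      rw [hint, Set.ncard_image_of_injective _ e.symm.injective]
      rw [ENNReal.div_lt_iff (Or.inl (by simpa using pow_pos (by linarith) n))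
        (Or.inl ENNReal.ofReal_ne_top), ← ENNReal.ofReal_mul hρ0.le,
        ← ENNReal.ofReal_natCast] at h2
      exact ((ENNReal.ofReal_lt_ofReal_iff_of_nonneg (Nat.cast_nonneg _)).1 h2).le

end Crest.Agent.R225
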