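import Crest.Agent.R225.LDefs

/-! Caps of the unit ball: only rotation invariance and homotheties are used. -/

set_option autoImplicit false
open MeasureTheory Finset Classical
open scoped RealInnerProductSpace

noncomputable section
namespace Crest.Agent.R225
open Crest.Agent.R43

variable {n : ℕ}

theorem om_pos (n : ℕ) : 0 < om n := by
  unfold om vol
  refine ENNReal.toReal_pos ?_ ?_
  · exact (Metric.measure_closedBall_pos volume (0 : E n) one_pos).ne'
  · exact measure_closedBall_lt_top.ne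

/-- scaling of balls (`Measure.addHaar_closedBall`). -/
theorem vol_closedBall (c : E n) {R : ℝ} (hR : 0 ≤ R) :
    vol (Metric.closedBall c R) = R ^ n * om n := by
  unfold om vol
  rw [Measure.addHaar_closedBall' volume c hR, ENNReal.toReal_mul,
    ENNReal.toReal_ofReal (by positivity)]
  simp

theorem measurableSet_Cut (z : E n) (s : ℝ) : MeasurableSet (Cut z s) := by
  unfold Cut
  refine MeasurableSet.inter (s₁ := {u : E n | ‖u‖ ≤ 1}) (s₂ := {u : E n | s < ⟪u, z⟫}) ?_ ?_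
  · exact (isClosed_le continuous_norm continuous_const).measurableSet
  · exact (isOpen_lt continuous_const (continuous_id.inner continuous_const)).measurableSet

/-- monotonicity of `vol` for subsets of a bounded set -/
theorem vol_mono_of_bdd {S S' : Set (E n)} (h : S ⊆ S') (hb : Bornology.IsBounded S') :
    vol S ≤ vol S' := by
  unfold vol
  exact ENNReal.toReal_mono hb.measure_lt_top.ne (measure_mono h)

theorem lg_pos_of_norm_eq_one {e : E n} (he : ‖e‖ = 1) : 0 < n := by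
  rcases Nat.eq_zero_or_pos n with h | h
  · subst h
    have : e = 0 := Subsingleton.elim _ _
    rw [this, norm_zero] at he
    exact absurd he (by norm_num)
  · exact h

theorem lg_vol_nonneg (S : Set (E n)) : 0 ≤ vol S := ENNReal.toReal_nonneg

theorem lg_Cut_subset_ball (z : E n) (s : ℝ) : Cut z s ⊆ Metric.closedBall (0 : E n) 1 := by
  intro u hu
  simpa using hu.1

theorem lg_isBounded_Cut (z : E n) (s : ℝ) : Bornology.IsBounded (Cut z s) :=
  Metric.isBounded_closedBall.subset (lg_Cut_subset_ball z s)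

theorem lg_Cut_anti (z : E n) {s s' : ℝ} (h : s ≤ s') : Cut z s' ⊆ Cut z s :=
  fun _ hu => ⟨hu.1, h.trans_lt hu.2⟩

/-- a homothety mapping `S` into the bounded set `T` -/
theorem lg_vol_homothety (c : E n) {κ : ℝ} (hκ : 0 ≤ κ) {S T : Set (E n)}
    (hT : Bornology.IsBounded T) (h : ∀ u ∈ S, κ • (u - c) + c ∈ T) :
    κ ^ n * vol S ≤ vol T := by
  have h1 : AffineMap.homothety c κ '' S ⊆ T := by
    rintro _ ⟨u, hu, rfl⟩
    simpa [AffineMap.homothety_apply] using h u hu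
  have h2 := vol_mono_of_bdd h1 hT
  unfold vol at h2 ⊢
  rw [Measure.addHaar_image_homothety, ENNReal.toReal_mul,
    ENNReal.toReal_ofReal (abs_nonneg _), abs_of_nonneg (by positivity)] at h2
  simpa using h2

/-- rotation invariance: a linear isometry (e.g. the reflection `reflection_sub`) maps the unit
vector `e` to `single 0 1`, preserves the ball, inner products and the volume. -/
theorem vol_Cut_unit {e : E n} (he : ‖e‖ = 1) (s : ℝ) : vol (Cut e s) = capv n s := by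
  have hn : 0 < n := lg_pos_of_norm_eq_one he
  unfold capv
  rw [dif_pos hn]
  set e0 : E n := EuclideanSpace.single (⟨0, hn⟩ : Fin n) (1 : ℝ) with he0
  have h0 : ‖e‖ = ‖e0‖ := by rw [he, he0]; simp
  set R : E n ≃ₗᵢ[ℝ] E n := (ℝ ∙ (e - e0))ᗮ.reflection with hR
  have hRe : R e = e0 := Submodule.reflection_sub h0
  have hpre : Cut e s = R ⁻¹' (Cut e0 s) := by
    ext u
    simp only [Cut, Set.mem_ofPred_eq, Set.mem_preimage, LinearIsometryEquiv.norm_map]
    rw [← hRe, R.inner_map_map]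
  unfold vol
  rw [hpre, R.measurePreserving.measure_preimage (measurableSet_Cut e0 s).nullMeasurableSet]

theorem capv_nonneg (n : ℕ) (s : ℝ) : 0 ≤ capv n s := by
  unfold capv
  split_ifs
  · exact lg_vol_nonneg _
  · exact le_rfl

theorem capv_anti (n : ℕ) {s s' : ℝ} (h : s ≤ s') : capv n s' ≤ capv n s := by
  unfold capv
  split_ifs
  · exact vol_mono_of_bdd (lg_Cut_anti _ h) (lg_isBounded_Cut _ _)
  · exact le_rfl

theorem lg_exists_unit (hn : 0 < n) : ∃ e : E n, ‖e‖ = 1 :=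
  ⟨EuclideanSpace.single (⟨0, hn⟩ : Fin n) (1 : ℝ), by simp⟩

theorem lg_capv_zero (s : ℝ) : capv 0 s = 0 := by
  unfold capv
  rw [dif_neg (lt_irrefl 0)]

/-- the cap contains a small ball around `((1 + max s 0) / 2) e`. -/
theorem capv_pos (hn : 0 < n) {s : ℝ} (hs : s < 1) : 0 < capv n s := by
  obtain ⟨e, he⟩ := lg_exists_unit hn
  rw [← vol_Cut_unit he]
  set m : ℝ := max s 0 with hm
  have hm1 : m < 1 := max_lt hs one_pos
  have hm0 : 0 ≤ m := le_max_right _ _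
  have hms : s ≤ m := le_max_left _ _
  have hsub : Metric.closedBall (((1 + m) / 2) • e) ((1 - m) / 4) ⊆ Cut e s := by
    intro u hu
    rw [Metric.mem_closedBall, dist_eq_norm] at hu
    have hu' : u = (u - ((1 + m) / 2) • e) + ((1 + m) / 2) • e := by simp
    constructor
    · have h1 : ‖((1 + m) / 2) • e‖ = (1 + m) / 2 := by
        rw [norm_smul, he, Real.norm_of_nonneg (by linarith), mul_one]
      have h2 := norm_add_le (u - ((1 + m) / 2) • e) (((1 + m) / 2) • e)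
      rw [← hu'] at h2
      linarith
    · have h1 : ⟪((1 + m) / 2) • e, e⟫ = (1 + m) / 2 := by
        rw [real_inner_smul_left, real_inner_self_eq_norm_sq, he]; ring
      have h2 := abs_real_inner_le_norm (u - ((1 + m) / 2) • e) e
      rw [he, mul_one, inner_sub_left, h1] at h2
      have h3 := (abs_le.1 (h2.trans hu)).1
      linarith
  have h1 := vol_mono_of_bdd hsub (lg_isBounded_Cut _ _)
  rw [vol_closedBall _ (by linarith)] at h1
  have h2 : 0 < ((1 - m) / 4) ^ n * om n := mul_pos (pow_pos (by linarith) _) (om_pos n)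
  linarith

theorem capv_of_one_le (n : ℕ) {s : ℝ} (hs : 1 ≤ s) : capv n s = 0 := by
  rcases Nat.eq_zero_or_pos n with h | hn
  · subst h; exact lg_capv_zero s
  obtain ⟨e, he⟩ := lg_exists_unit hn
  rw [← vol_Cut_unit he]
  have : Cut e s = ∅ := by
    ext u
    simp only [Cut, Set.mem_ofPred_eq, Set.mem_empty_iff_false, iff_false, not_and, not_lt]
    intro hu
    have h2 := real_inner_le_norm u e
    rw [he, mul_one] at h2
    linarith
  rw [this]
  simp [vol]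

theorem lg_vol_Cut_eq {z : E n} (hz : z ≠ 0) (s : ℝ) : vol (Cut z s) = capv n (s / ‖z‖) := by
  have hp : 0 < ‖z‖ := norm_pos_iff.2 hz
  have he : ‖(‖z‖⁻¹ : ℝ) • z‖ = 1 := by
    rw [norm_smul, norm_inv, norm_norm, inv_mul_cancel₀ hp.ne']
  rw [← vol_Cut_unit he]
  congr 1
  ext u
  simp only [Cut, Set.mem_ofPred_eq, real_inner_smul_right]
  rw [div_lt_iff₀ hp, mul_comm (‖z‖⁻¹), mul_assoc, inv_mul_cancel₀ hp.ne', mul_one]

/-- `Cut z s = Cut (z/‖z‖) (s/‖z‖)` for `z ≠ 0`; for `z = 0` the set is empty (`0 ≤ s`). -/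
theorem vol_Cut_le {z : E n} {s ρ : ℝ} (hs : 0 ≤ s) (hρ : 0 < ρ) (hz : ‖z‖ ≤ ρ) :
    vol (Cut z s) ≤ capv n (s / ρ) := by
  by_cases h0 : z = 0
  · have : Cut z s = ∅ := by
      ext u
      simp only [Cut, h0, inner_zero_right, Set.mem_ofPred_eq, Set.mem_empty_iff_false, iff_false,
        not_and, not_lt]
      exact fun _ => hs
    rw [this]
    simpa [vol] using capv_nonneg n _
  · rw [lg_vol_Cut_eq h0]
    exact capv_anti n (div_le_div_of_nonneg_left hs (norm_pos_iff.2 h0) hz)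

theorem le_vol_Cut {z : E n} {s ρ : ℝ} (hs : 0 ≤ s) (hρ : 0 < ρ) (hz : ρ ≤ ‖z‖) :
    capv n (s / ρ) ≤ vol (Cut z s) := by
  have h0 : z ≠ 0 := norm_pos_iff.1 (hρ.trans_le hz)
  rw [lg_vol_Cut_eq h0]
  exact capv_anti n (div_le_div_of_nonneg_left hs hρ hz)

/-- (L1) The homothety `u ↦ e + κ (u - e)`, `κ = (1 - s') / (1 - s) ∈ (0,1]`, maps `Cut e s` into
`Cut e s'` (convexity of the ball; height `1 - κ (1 - x) > 1 - κ (1 - s) = s'`) and scales the volume
by `κ ^ n`. -/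
theorem capv_L1 (n : ℕ) {s s' : ℝ} (h : s ≤ s') (hs' : s' < 1) :
    ((1 - s') / (1 - s)) ^ n * capv n s ≤ capv n s' := by
  rcases Nat.eq_zero_or_pos n with hn | hn
  · subst hn; simp [lg_capv_zero]
  obtain ⟨e, he⟩ := lg_exists_unit hn
  rw [← vol_Cut_unit he, ← vol_Cut_unit he]
  have h1 : 0 < 1 - s := by linarith
  have h2 : 0 < 1 - s' := by linarith
  set κ : ℝ := (1 - s') / (1 - s) with hκ
  have hκ0 : 0 < κ := div_pos h2 h1
  have hκ1 : κ ≤ 1 := (div_le_one h1).2 (by linarith)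
  have hκe : κ * (1 - s) = 1 - s' := div_mul_cancel₀ _ h1.ne'
  refine lg_vol_homothety e hκ0.le (lg_isBounded_Cut _ _) ?_
  intro u hu
  obtain ⟨hu1, hu2⟩ := hu
  constructor
  · have h3 : κ • (u - e) + e = κ • u + (1 - κ) • e := by
      rw [smul_sub, sub_smul, one_smul]; abel
    rw [h3]
    have h4 := norm_add_le (κ • u) ((1 - κ) • e)
    rw [norm_smul, norm_smul, he, Real.norm_of_nonneg hκ0.le,
      Real.norm_of_nonneg (by linarith)] at h4
    nlinarith
  · rw [inner_add_left, real_inner_smul_left, inner_sub_left, real_inner_self_eq_norm_sq, he]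
    nlinarith

/-- (L2) If `1 ≤ s + Δ` the left side is `0`.  Otherwise put `s' = s + Δ`,
`κ = (3 - s) / (3 - s') ∈ [1 + Δ/3, 1.1]`; the homothety `u ↦ 3 e + κ (u - 3 e)` maps `Cut e s'` into
`Cut e s`: the height is `3 - κ (3 - x) > 3 - κ (3 - s') = s`, and the squared norm is
`κ²‖u‖² - 6 κ (κ-1) x + 9 (κ-1)² ≤ 1 + (κ-1) ((κ+1) - 6 κ s' + 9 (κ-1)) ≤ 1` since
`s' ≥ 9/10` gives `(κ+1) - 5.4 κ + 9 κ - 9 = 4.6 κ - 8 ≤ 0`.  So `κ ^ n capv s' ≤ capv s`, and
`κ ≥ 1 + Δ/3 ≥ exp (Δ/4)` for `Δ ≤ 1/10`. -/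
theorem capv_L2 (n : ℕ) {s Δ : ℝ} (hs : 9 / 10 ≤ s) (h0 : 0 ≤ Δ) (h1 : Δ ≤ 1 / 10) :
    capv n (s + Δ) ≤ Real.exp (-(n * Δ / 4)) * capv n s := by
  by_cases hge : 1 ≤ s + Δ
  · rw [capv_of_one_le n hge]
    exact mul_nonneg (Real.exp_pos _).le (capv_nonneg _ _)
  push Not at hge
  rcases Nat.eq_zero_or_pos n with hn | hn
  · subst hn; simp [lg_capv_zero]
  obtain ⟨e, he⟩ := lg_exists_unit hn
  have h2 : 0 < 3 - (s + Δ) := by linarith
  set κ : ℝ := (3 - s) / (3 - (s + Δ)) with hκ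
  have hκe : κ * (3 - (s + Δ)) = 3 - s := div_mul_cancel₀ _ h2.ne'
  have hκ1 : 1 + Δ / 3 ≤ κ := by
    rw [hκ, le_div_iff₀ h2]; nlinarith
  have hκ2 : κ ≤ 11 / 10 := by
    rw [hκ, div_le_iff₀ h2]; nlinarith
  have hκ0 : 0 < κ := by linarith
  have key : κ ^ n * capv n (s + Δ) ≤ capv n s := by
    rw [← vol_Cut_unit he, ← vol_Cut_unit he]
    refine lg_vol_homothety ((3 : ℝ) • e) hκ0.le (lg_isBounded_Cut _ _) ?_
    intro u hu
    obtain ⟨hu1, hu2⟩ := hu
    constructor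
    · have h3 : κ • (u - (3 : ℝ) • e) + (3 : ℝ) • e = κ • u - (3 * (κ - 1)) • e := by
        module
      rw [h3]
      have h4 : ‖κ • u - (3 * (κ - 1)) • e‖ ^ 2 ≤ 1 := by
        rw [norm_sub_sq_real, norm_smul, norm_smul, he, real_inner_smul_left,
          real_inner_smul_right, Real.norm_of_nonneg hκ0.le,
          Real.norm_of_nonneg (by linarith)]
        have h5 : ‖u‖ ^ 2 ≤ 1 := by nlinarith [norm_nonneg u]
        have h6 : (κ * ‖u‖) ^ 2 ≤ κ ^ 2 := by rw [mul_pow]; nlinarith [sq_nonneg κ]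
        have h7 : 0 ≤ κ - 1 := by linarith
        have h8 : κ * (κ - 1) * (9 / 10) ≤ κ * (κ - 1) * ⟪u, e⟫ :=
          mul_le_mul_of_nonneg_left (by linarith) (mul_nonneg hκ0.le h7)
        have h9 : (κ - 1) * (46 / 10 * κ - 8) ≤ 0 :=
          mul_nonpos_of_nonneg_of_nonpos h7 (by linarith)
        nlinarith
      exact (sq_le_one_iff₀ (norm_nonneg _)).1 h4
    · rw [inner_add_left, real_inner_smul_left, inner_sub_left, real_inner_smul_left,
        real_inner_self_eq_norm_sq, he]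
      nlinarith
  have h3 : 1 ≤ Real.exp (-(Δ / 4)) * κ := by
    have := Real.add_one_le_exp (-(Δ / 4))
    nlinarith
  have h4 : Real.exp (-(n * Δ / 4)) = Real.exp (-(Δ / 4)) ^ n := by
    rw [← Real.exp_nat_mul]; congr 1; ring
  have h5 : 1 ≤ (Real.exp (-(Δ / 4)) * κ) ^ n := one_le_pow₀ h3
  rw [h4]
  calc capv n (s + Δ) ≤ (Real.exp (-(Δ / 4)) * κ) ^ n * capv n (s + Δ) :=
        le_mul_of_one_le_left (capv_nonneg _ _) h5
    _ = Real.exp (-(Δ / 4)) ^ n * (κ ^ n * capv n (s + Δ)) := by rw [mul_pow]; ring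
    _ ≤ _ := mul_le_mul_of_nonneg_left key (by positivity)

theorem lg_tau_pos : 0 < tau := by unfold tau; norm_num

/-- consequence of L1: `1 - t ≥ exp (-2t)` for `0 ≤ t ≤ 1/2`, `t = Δ / tau`. -/
theorem capv_ge_exp (n : ℕ) {Δ : ℝ} (h0 : 0 ≤ Δ) (h1 : Δ ≤ tau / 2) :
    Real.exp (-(2 * n * Δ / tau)) * capv n s0 ≤ capv n (s0 + Δ) := by
  have ht : 0 < tau := lg_tau_pos
  have h := capv_L1 n (s := s0) (s' := s0 + Δ) (by linarith) (by unfold s0; linarith)
  refine le_trans (mul_le_mul_of_nonneg_right ?_ (capv_nonneg _ _)) h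
  have h3 : (1 - (s0 + Δ)) / (1 - s0) = 1 - Δ / tau := by
    have h3a : 1 - s0 = tau := by unfold s0; ring
    have h3b : 1 - (s0 + Δ) = tau - Δ := by unfold s0; ring
    rw [h3a, h3b, sub_div, div_self ht.ne']
  have h4 : Real.exp (-(2 * n * Δ / tau)) = Real.exp (-(2 * (Δ / tau))) ^ n := by
    rw [← Real.exp_nat_mul]; congr 1; ring
  rw [h3, h4]
  refine pow_le_pow_left₀ (Real.exp_pos _).le ?_ n
  have h5 : 0 ≤ Δ / tau := div_nonneg h0 ht.le
  have h6 : Δ / tau ≤ 1 / 2 := by rw [div_le_iff₀ ht]; linarith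
  generalize Δ / tau = t at h5 h6
  have h7 := Real.add_one_le_exp (2 * t)
  rw [Real.exp_neg, inv_le_iff_one_le_mul₀ (Real.exp_pos _)]
  nlinarith

/-- consequence of L1 with `s = s0 - Δ`, `s' = s0`. -/
theorem capv_le_pow (n : ℕ) {Δ : ℝ} (h0 : 0 ≤ Δ) :
    capv n (s0 - Δ) ≤ (1 + Δ / tau) ^ n * capv n s0 := by
  have ht : 0 < tau := lg_tau_pos
  have h := capv_L1 n (s := s0 - Δ) (s' := s0) (by linarith) (by unfold s0; linarith)
  have h3 : (1 + Δ / tau) * ((1 - s0) / (1 - (s0 - Δ))) = 1 := by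
    have : 1 - (s0 - Δ) = tau + Δ := by unfold s0; ring
    rw [this]
    have : 1 - s0 = tau := by unfold s0; ring
    rw [this]
    have : tau + Δ ≠ 0 := by linarith
    field_simp
  calc capv n (s0 - Δ)
      = (1 + Δ / tau) ^ n * (((1 - s0) / (1 - (s0 - Δ))) ^ n * capv n (s0 - Δ)) := by
        rw [← mul_assoc, ← mul_pow, h3, one_pow, one_mul]
    _ ≤ _ := mul_le_mul_of_nonneg_left h (by positivity)

/-- `Cut z s ∩ Cut z' s ⊆ Cut ((z+z')/2) s`, `‖(z+z')/2‖² = (‖z‖²+‖z'‖²)/2 - ‖z-z'‖²/4 ≤ 1 - d²/4`,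
and `s / √(1 - d²/4) ≥ s (1 + d²/8)`. Returns the midpoint for use with net masses. -/
theorem vol_Cut_mid {z z' : E n} {s d : ℝ} (hs : 0 ≤ s) (hz : ‖z‖ ≤ 1) (hz' : ‖z'‖ ≤ 1)
    (hd0 : 0 ≤ d) (hd1 : d ≤ 1) (hd : d ≤ ‖z - z'‖) :
    vol (Cut ((1 / 2 : ℝ) • (z + z')) s) ≤ capv n (s * (1 + d ^ 2 / 8)) := by
  have hρ : 0 < 1 + d ^ 2 / 8 := by positivity
  have h1 : ‖(1 / 2 : ℝ) • (z + z')‖ ≤ (1 + d ^ 2 / 8)⁻¹ := by
    have h2 := parallelogram_law_with_norm ℝ z z'
    have h3 : ‖z‖ * ‖z‖ ≤ 1 := by nlinarith [norm_nonneg z]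
    have h4 : ‖z'‖ * ‖z'‖ ≤ 1 := by nlinarith [norm_nonneg z']
    have h5 : d * d ≤ ‖z - z'‖ * ‖z - z'‖ := mul_self_le_mul_self hd0 hd
    have h6 : ‖z + z'‖ * ‖z + z'‖ ≤ 4 - d * d := by linarith
    rw [norm_smul, Real.norm_of_nonneg (by norm_num), inv_eq_one_div, le_div_iff₀ hρ]
    have h7 : ‖z + z'‖ ≤ 2 - d ^ 2 / 4 := by
      apply abs_le_of_sq_le_sq' _ (by nlinarith) |>.2
      nlinarith [sq_nonneg (d ^ 2)]
    have h8 := norm_nonneg (z + z')
    nlinarith [sq_nonneg (d ^ 2), sq_nonneg d]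
  have h := vol_Cut_le hs (inv_pos.2 hρ) h1
  rwa [div_inv_eq_mul] at h

/-- (L3) the points of the ball cut by `u` lie in a ball of radius `th` around `c = s0 • u/‖u‖`:
with `x = ⟪u/‖u‖, z⟫ ≥ ⟪u, z⟫ > s0`, `‖z - c‖² = ‖z‖² - 2 s0 x + s0² ≤ 1 - s0² ≤ 2 tau ≤ th²`.
(`u = 0`: nothing is cut.) -/
theorem zcap_subset {u : E n} (hu : ‖u‖ ≤ 1) :
    ∃ c : E n, ∀ z : E n, ‖z‖ ≤ 1 → s0 < ⟪u, z⟫ → dist z c ≤ th := by
  by_cases h0 : u = 0
  · refine ⟨0, fun z _ hz => ?_⟩
    rw [h0, inner_zero_left] at hz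
    unfold s0 tau at hz
    norm_num at hz
  have hp : 0 < ‖u‖ := norm_pos_iff.2 h0
  have hs0 : 0 < s0 := by unfold s0 tau; norm_num
  set e : E n := (‖u‖⁻¹ : ℝ) • u with he
  have he1 : ‖e‖ = 1 := by
    rw [he, norm_smul, norm_inv, norm_norm, inv_mul_cancel₀ hp.ne']
  refine ⟨s0 • e, fun z hz1 hz2 => ?_⟩
  have h1 : s0 < ⟪z, e⟫ := by
    rw [he, real_inner_smul_right, real_inner_comm]
    have : 1 ≤ ‖u‖⁻¹ := one_le_inv_iff₀.2 ⟨hp, hu⟩
    nlinarith
  rw [dist_eq_norm]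
  have h2 : ‖z - s0 • e‖ ^ 2 ≤ th ^ 2 := by
    rw [norm_sub_sq_real, norm_smul, he1, real_inner_smul_right, Real.norm_of_nonneg hs0.le]
    have h3 : ‖z‖ ^ 2 ≤ 1 := by nlinarith [norm_nonneg z]
    have h4 : 1 - s0 ^ 2 ≤ th ^ 2 := by unfold s0 tau th; norm_num
    nlinarith
  exact (abs_le_of_sq_le_sq' h2 (by unfold th; norm_num)).2

/-- (L4) `B \ Kp ⊆ ⋃_{c chosen} Cut (u c) s0 ∪ Cut (-u c) s0` (symmetry of the inner product), each
of volume `≤ capv n s0` by `vol_Cut_le` with `ρ = 1`. -/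
theorem vol_Kp_ge {ι : Type} [Fintype ι] {u : ι → E n} (hu : ∀ c, ‖u c‖ ≤ 1) (ξ : ι → Bool) :
    om n - 2 * ((univ.filter fun c => ξ c = true).card : ℝ) * capv n s0 ≤ vol (Kp u ξ) := by
  have hs0 : 0 < s0 := by unfold s0 tau; norm_num
  set C : Finset ι := univ.filter fun c => ξ c = true with hC
  have hsub : Metric.closedBall (0 : E n) 1 ⊆
      Kp u ξ ∪ ⋃ c ∈ C, (Cut (u c) s0 ∪ Cut (-u c) s0) := by
    intro z hz
    have hz1 : ‖z‖ ≤ 1 := by simpa using hz
    by_cases h : ∀ c, ξ c = true → |⟪u c, z⟫| ≤ s0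
    · exact Or.inl ⟨hz1, h⟩
    · push Not at h
      obtain ⟨c, hc, hlt⟩ := h
      refine Or.inr (Set.mem_iUnion₂.2 ⟨c, by simp [hC, hc], ?_⟩)
      rcases lt_abs.1 hlt with h1 | h1
      · exact Or.inl ⟨hz1, by rwa [real_inner_comm]⟩
      · exact Or.inr ⟨hz1, by rwa [inner_neg_right, real_inner_comm]⟩
  have hKb : Bornology.IsBounded (Kp u ξ) :=
    (Metric.isBounded_closedBall (x := (0 : E n)) (r := 1)).subset
      fun z hz => by simpa using hz.1
  have hfin : ∀ z : E n, volume (Cut z s0) ≠ ⊤ := fun z => (lg_isBounded_Cut z s0).measure_lt_top.ne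
  have h1 : om n ≤ vol (Kp u ξ) + ∑ c ∈ C, (vol (Cut (u c) s0) + vol (Cut (-u c) s0)) := by
    have h2 : (volume : Measure (E n)).real (Metric.closedBall (0 : E n) 1) ≤
        (volume : Measure (E n)).real (Kp u ξ ∪ ⋃ c ∈ C, (Cut (u c) s0 ∪ Cut (-u c) s0)) := by
      refine measureReal_mono hsub ?_
      refine (Bornology.IsBounded.measure_lt_top ?_).ne
      refine hKb.union ?_
      refine (Bornology.isBounded_biUnion_finset C).2 fun c _ => ?_
      exact (lg_isBounded_Cut _ _).union (lg_isBounded_Cut _ _)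
    refine h2.trans ((measureReal_union_le _ _).trans ?_)
    refine add_le_add le_rfl ((measureReal_biUnion_finset_le _ _).trans ?_)
    exact Finset.sum_le_sum fun c _ => measureReal_union_le _ _
  have h3 : ∑ c ∈ C, (vol (Cut (u c) s0) + vol (Cut (-u c) s0)) ≤
      ∑ _c ∈ C, 2 * capv n s0 := by
    refine Finset.sum_le_sum fun c _ => ?_
    have h4 := vol_Cut_le hs0.le one_pos (hu c)
    have h5 := vol_Cut_le (z := -u c) hs0.le one_pos (by simpa using hu c)
    rw [div_one] at h4 h5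
    linarith
  rw [Finset.sum_const, nsmul_eq_mul] at h3
  linarith

theorem Kp_props {ι : Type} [Fintype ι] {u : ι → E n} (hu : ∀ c, ‖u c‖ ≤ 1) (ξ : ι → Bool) :
    IsCompact (Kp u ξ) ∧ Convex ℝ (Kp u ξ) ∧ (∀ z ∈ Kp u ξ, -z ∈ Kp u ξ) ∧
      Metric.closedBall (0 : E n) (1 / 2) ⊆ Kp u ξ ∧ Kp u ξ ⊆ Metric.closedBall (0 : E n) 1 := by
  have hsub : Kp u ξ ⊆ Metric.closedBall (0 : E n) 1 := fun z hz => by simpa using hz.1
  have hcl : IsClosed (Kp u ξ) := by
    have : Kp u ξ = {z : E n | ‖z‖ ≤ 1} ∩ ⋂ c, ⋂ (_ : ξ c = true), {z : E n | |⟪u c, z⟫| ≤ s0} := by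
      ext z; simp [Kp]
    rw [this]
    refine (isClosed_le continuous_norm continuous_const).inter ?_
    refine isClosed_iInter fun c => isClosed_iInter fun _ => ?_
    exact isClosed_le (continuous_const.inner continuous_id).abs continuous_const
  refine ⟨(isCompact_closedBall 0 1).of_isClosed_subset hcl hsub, ?_, ?_, ?_, hsub⟩
  · intro x hx y hy a b ha hb hab
    constructor
    · have h1 := norm_add_le (a • x) (b • y)
      rw [norm_smul, norm_smul, Real.norm_of_nonneg ha, Real.norm_of_nonneg hb] at h1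
      nlinarith [hx.1, hy.1]
    · intro c hc
      rw [inner_add_right, real_inner_smul_right, real_inner_smul_right]
      have h1 := abs_le.1 (hx.2 c hc)
      have h2 := abs_le.1 (hy.2 c hc)
      rw [abs_le]
      constructor <;> nlinarith [h1.1, h1.2, h2.1, h2.2]
  · intro z hz
    exact ⟨by simpa using hz.1, fun c hc => by simpa [inner_neg_right] using hz.2 c hc⟩
  · intro z hz
    have hz1 : ‖z‖ ≤ 1 / 2 := by simpa using hz
    refine ⟨by linarith, fun c _ => ?_⟩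
    have h1 := abs_real_inner_le_norm (u c) z
    have h2 : (1 : ℝ) / 2 ≤ s0 := by unfold s0 tau; norm_num
    nlinarith [hu c, norm_nonneg (u c), norm_nonneg z]

end Crest.Agent.R225
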