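import Crest.Agent.R225.LGeom

/-! Counting grid points in balls; existence of the finite net. -/

set_option autoImplicit false
open MeasureTheory Finset Classical
open scoped RealInnerProductSpace

noncomputable section
namespace Crest.Agent.R225
open Crest.Agent.R43

variable {n : ℕ}

theorem pt_apply (δ : ℝ) (k : Fin n → ℤ) (i : Fin n) : pt δ k i = δ * (k i : ℝ) := rfl

theorem pt_add (δ : ℝ) (k l : Fin n → ℤ) : pt δ (k + l) = pt δ k + pt δ l := by
  ext i
  simp [pt_apply, mul_add]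

theorem pt_sub (δ : ℝ) (k l : Fin n → ℤ) : pt δ (k - l) = pt δ k - pt δ l := by
  ext i
  simp [pt_apply, mul_sub]

theorem pt_injective {δ : ℝ} (hδ : 0 < δ) : Function.Injective (pt δ : (Fin n → ℤ) → E n) := by
  intro k l h
  funext i
  have h1 : δ * (k i : ℝ) = δ * (l i : ℝ) := by
    rw [← pt_apply, ← pt_apply, h]
  exact_mod_cast mul_left_cancel₀ hδ.ne' h1

/-- each coordinate satisfies `|δ k i - c i| ≤ dist`. -/
theorem mem_gball {δ : ℝ} (hδ : 0 < δ) {c : E n} {R : ℝ} {k : Fin n → ℤ} :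
    k ∈ gball δ c R ↔ dist (pt δ k) c ≤ R := by
  unfold gball
  rw [mem_filter]
  refine ⟨fun h => h.2, fun h => ⟨?_, h⟩⟩
  rw [Fintype.mem_piFinset]
  intro i
  have h1 : dist (pt δ k i) (c i) ≤ R := (PiLp.dist_apply_le _ _ i).trans h
  rw [Real.dist_eq, pt_apply, abs_le] at h1
  rw [Finset.mem_Icc, Int.ceil_le, Int.le_floor, div_le_iff₀ hδ, le_div_iff₀ hδ]
  constructor <;> linarith [h1.1, h1.2]

/-- coordinatewise closeness gives closeness in norm -/
theorem dist_le_of_coord {δ : ℝ} (hδ : 0 ≤ δ) {x y : E n} (h : ∀ i, |x i - y i| ≤ δ) :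
    dist x y ≤ δ * n := by
  rw [EuclideanSpace.dist_eq]
  refine Real.sqrt_le_iff.2 ⟨by positivity, ?_⟩
  have h1 : ∑ i, dist (x i) (y i) ^ 2 ≤ ∑ _i : Fin n, δ ^ 2 := by
    refine sum_le_sum fun i _ => ?_
    rw [Real.dist_eq]
    exact pow_le_pow_left₀ (abs_nonneg _) (h i) 2
  rw [sum_const, card_univ, Fintype.card_fin, nsmul_eq_mul] at h1
  have h2 : (n : ℝ) ≤ (n : ℝ) ^ 2 := by exact_mod_cast Nat.le_self_pow two_ne_zero n
  have h3 : (n : ℝ) * δ ^ 2 ≤ (n : ℝ) ^ 2 * δ ^ 2 := by gcongr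
  rw [mul_pow]; linarith

/-- the half-open lgCube with corner `pt δ k` -/
def lgCube (δ : ℝ) (k : Fin n → ℤ) : Set (E n) :=
  {x | ∀ i, δ * (k i : ℝ) ≤ x i ∧ x i < δ * (k i : ℝ) + δ}

theorem cube_eq (δ : ℝ) (k : Fin n → ℤ) : lgCube δ k = (WithLp.ofLp : E n → (Fin n → ℝ)) ⁻¹'
    (Set.pi Set.univ fun i => Set.Ico (δ * (k i : ℝ)) (δ * (k i : ℝ) + δ)) := by
  ext x
  simp [lgCube, Set.mem_pi]

theorem measurableSet_cube (δ : ℝ) (k : Fin n → ℤ) : MeasurableSet (lgCube δ k) := by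
  rw [cube_eq]
  exact (PiLp.volume_preserving_ofLp (Fin n)).measurable
    (MeasurableSet.univ_pi fun i => measurableSet_Ico)

theorem volume_cube {δ : ℝ} (hδ : 0 < δ) (k : Fin n → ℤ) :
    volume (lgCube δ k) = ENNReal.ofReal (δ ^ n) := by
  rw [cube_eq, (PiLp.volume_preserving_ofLp (Fin n)).measure_preimage
    (MeasurableSet.univ_pi fun i => measurableSet_Ico).nullMeasurableSet, Real.volume_pi_Ico]
  simp [ENNReal.ofReal_pow hδ.le]

theorem volume_real_cube {δ : ℝ} (hδ : 0 < δ) (k : Fin n → ℤ) :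
    (volume : Measure (E n)).real (lgCube δ k) = δ ^ n := by
  rw [measureReal_def, volume_cube hδ, ENNReal.toReal_ofReal (by positivity)]

theorem mem_cube_iff {δ : ℝ} (hδ : 0 < δ) {k : Fin n → ℤ} {x : E n} :
    x ∈ lgCube δ k ↔ ∀ i, ⌊x i / δ⌋ = k i := by
  refine forall_congr' fun i => ?_
  rw [Int.floor_eq_iff, le_div_iff₀ hδ, div_lt_iff₀ hδ]
  constructor <;> rintro ⟨h1, h2⟩ <;> constructor <;> linarith

theorem disjoint_cube {δ : ℝ} (hδ : 0 < δ) {k l : Fin n → ℤ} (h : k ≠ l) :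
    Disjoint (lgCube δ k) (lgCube δ l) := by
  rw [Set.disjoint_left]
  intro x hk hl
  rw [mem_cube_iff hδ] at hk hl
  exact h (funext fun i => (hk i).symm.trans (hl i))

theorem mem_cube_floor {δ : ℝ} (hδ : 0 < δ) (x : E n) : x ∈ lgCube δ (fun i => ⌊x i / δ⌋) :=
  (mem_cube_iff hδ).2 fun _ => rfl

theorem dist_le_of_mem_cube {δ : ℝ} (hδ : 0 < δ) {k : Fin n → ℤ} {x y : E n} (hx : x ∈ lgCube δ k)
    (hy : y ∈ lgCube δ k) : dist x y ≤ δ * n := by
  refine dist_le_of_coord hδ.le fun i => abs_le.2 ?_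
  constructor <;> linarith [(hx i).1, (hx i).2, (hy i).1, (hy i).2]

theorem pt_mem_cube {δ : ℝ} (hδ : 0 < δ) (k : Fin n → ℤ) : pt δ k ∈ lgCube δ k := by
  intro i
  rw [pt_apply]
  constructor <;> linarith

/-- `k i = ⌊x i / δ⌋`; the distance is `≤ δ √n ≤ δ n`. -/
theorem exists_pt_near {δ : ℝ} (hδ : 0 < δ) (x : E n) :
    ∃ k : Fin n → ℤ, dist (pt δ k) x ≤ δ * n ∧ ∀ i, |δ * (k i : ℝ) - x i| ≤ δ := by
  have h := mem_cube_floor hδ x
  refine ⟨fun i => ⌊x i / δ⌋, dist_le_of_mem_cube hδ (pt_mem_cube hδ _) h, fun i => abs_le.2 ?_⟩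
  constructor <;> linarith [(h i).1, (h i).2]

theorem vol_biUnion_cube {δ : ℝ} (hδ : 0 < δ) (F : Finset (Fin n → ℤ)) :
    vol (⋃ k ∈ F, lgCube δ k) = δ ^ n * (F.card : ℝ) := by
  have h := measureReal_biUnion_finset (μ := (volume : Measure (E n))) (s := F) (f := lgCube δ)
    (fun k _ l _ hkl => disjoint_cube hδ hkl) (fun k _ => measurableSet_cube δ k)
    (fun k _ => by rw [volume_cube hδ]; exact ENNReal.ofReal_ne_top)
  simp only [volume_real_cube hδ, sum_const, nsmul_eq_mul] at h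
  rw [mul_comm]
  exact h

theorem biUnion_cube_subset {δ : ℝ} (hδ : 0 < δ) (c : E n) (R : ℝ) :
    (⋃ k ∈ gball δ c R, lgCube δ k) ⊆ Metric.closedBall c (R + δ * n) := by
  intro x hx
  simp only [Set.mem_iUnion] at hx
  obtain ⟨k, hk, hx⟩ := hx
  rw [mem_gball hδ] at hk
  have h1 := dist_le_of_mem_cube hδ hx (pt_mem_cube hδ k)
  have h2 := dist_triangle x (pt δ k) c
  rw [Metric.mem_closedBall]
  linarith

/-- the half-open cubes `pt δ k + [0,δ)^n` are disjoint, have volume `δ ^ n`, and lie in the ball of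
radius `R + δ n`. -/
theorem card_gball_le {δ : ℝ} (hδ : 0 < δ) (c : E n) {R : ℝ} (hR : 0 ≤ R) :
    δ ^ n * ((gball δ c R).card : ℝ) ≤ (R + δ * n) ^ n * om n := by
  rw [← vol_biUnion_cube hδ, ← vol_closedBall c (by positivity)]
  exact vol_mono_of_bdd (biUnion_cube_subset hδ c R) Metric.isBounded_closedBall

/-- the cubes of the points of `gball δ c R` cover the ball of radius `R - δ n`. -/
theorem le_card_gball {δ : ℝ} (hδ : 0 < δ) (c : E n) {R : ℝ} (hR : δ * n ≤ R) :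
    (R - δ * n) ^ n * om n ≤ δ ^ n * ((gball δ c R).card : ℝ) := by
  rw [← vol_biUnion_cube hδ, ← vol_closedBall c (sub_nonneg.2 hR)]
  refine vol_mono_of_bdd ?_ (Metric.isBounded_closedBall.subset (biUnion_cube_subset hδ c R))
  intro x hx
  simp only [Set.mem_iUnion]
  refine ⟨fun i => ⌊x i / δ⌋, ?_, mem_cube_floor hδ x⟩
  rw [mem_gball hδ]
  have h1 := dist_le_of_mem_cube hδ (pt_mem_cube hδ _) (mem_cube_floor hδ x)
  have h2 := dist_triangle (pt δ fun i => ⌊x i / δ⌋) x c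
  rw [Metric.mem_closedBall] at hx
  linarith

/-- number of grid points of norm at most `1 - a` -/
theorem sum_ind_le (P : Par n) (F : Finset (Fin n → ℤ)) {a : ℝ} (ha : a ≤ 1) :
    P.δ ^ n * ∑ g ∈ F, (if ‖pt P.δ g‖ ≤ 1 - a then (1 : ℝ) else 0) ≤
      Real.exp (1 / 2 - n * a) * om n := by
  have hδ := P.δ_pos
  have hn : (0 : ℝ) < n := by have := P.n_ge; exact_mod_cast (by omega : 0 < n)
  have h1 : ∑ g ∈ F, (if ‖pt P.δ g‖ ≤ 1 - a then (1 : ℝ) else 0) ≤
      ((gball P.δ (0 : E n) (1 - a)).card : ℝ) := by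
    rw [sum_boole]
    refine Nat.cast_le.2 (card_le_card fun g hg => ?_)
    rw [mem_gball hδ, dist_zero_right]
    exact (mem_filter.1 hg).2
  have h2 := card_gball_le hδ (0 : E n) (sub_nonneg.2 ha)
  have h3 : (1 - a + P.δ * n) ^ n ≤ Real.exp (1 / 2 - n * a) := by
    have h4 : 1 - a + P.δ * n ≤ Real.exp (P.δ * n - a) := by
      have := Real.add_one_le_exp (P.δ * n - a)
      linarith
    have h5 : 0 ≤ 1 - a + P.δ * n := by
      have : 0 ≤ P.δ * n := by positivity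
      linarith
    refine (pow_le_pow_left₀ h5 h4 n).trans ?_
    rw [← Real.exp_nat_mul]
    refine Real.exp_le_exp.2 ?_
    have h6 : (n : ℝ) * (P.δ * n) ≤ 1 / 2 := by
      have := mul_le_mul_of_nonneg_left P.δ_le hn.le
      refine this.trans (le_of_eq ?_)
      field_simp
    linarith
  have h7 := (om_pos n).le
  calc _ ≤ P.δ ^ n * ((gball P.δ (0 : E n) (1 - a)).card : ℝ) := by gcongr
    _ ≤ (1 - a + P.δ * n) ^ n * om n := h2
    _ ≤ _ := by gcongr

theorem le_sum_ind (N : ℕ) {t : ℝ} (ht : t ≤ N) :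
    t ≤ ∑ j ∈ range N, (if (j : ℝ) ≤ t then (1 : ℝ) else 0) := by
  induction N generalizing t with
  | zero => simpa using ht
  | succ N ih =>
    rw [sum_range_succ]
    by_cases h : (N : ℝ) ≤ t
    · rw [if_pos h]
      have h1 : ∑ j ∈ range N, (if (j : ℝ) ≤ t then (1 : ℝ) else 0) = N := by
        rw [sum_congr rfl (g := fun _ => (1 : ℝ))]
        · simp
        · intro j hj
          have : (j : ℝ) ≤ N := by exact_mod_cast (mem_range.1 hj).le
          rw [if_pos (this.trans h)]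
      rw [h1]
      push_cast at ht
      exact ht
    · rw [if_neg h, add_zero]
      exact ih (not_le.1 h).le

theorem exp_half_le_two : Real.exp (1 / 2) ≤ 2 := by
  have h1 : Real.exp (1 / 2) ^ 2 = Real.exp 1 := by rw [← Real.exp_nat_mul]; norm_num
  have h2 := Real.exp_one_lt_d9
  have h3 := Real.exp_pos (1 / 2)
  nlinarith

theorem sum_exp_le (N : ℕ) : ∑ j ∈ range N, Real.exp (1 / 2 - j) ≤ 4 := by
  have h1 : ∀ j : ℕ, Real.exp (1 / 2 - j) ≤ 2 * (1 / 2) ^ j := by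
    intro j
    have h2 : Real.exp (-1) ≤ 1 / 2 := by
      have := Real.exp_neg_one_lt_d9
      linarith
    have h3 : Real.exp (1 / 2 - j) = Real.exp (1 / 2) * Real.exp (-1) ^ j := by
      rw [← Real.exp_nat_mul, ← Real.exp_add]; congr 1; ring
    rw [h3]
    have := exp_half_le_two
    gcongr
  refine (sum_le_sum fun j _ => h1 j).trans ?_
  rw [← mul_sum]
  have := sum_geometric_two_le N
  linarith

/-- Sum of the penalised cost over grid points.  `pcst` vanishes outside the unit ball;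
`6 * #gball 1 ≤ 6 (1 + δ n)^n ω / δ^n ≤ 6 e^{1/2} ω / δ^n` (`δ n ≤ 1/(2n)`);
`n (1 - ‖z‖) ≤ ∑_{j < n} 1[‖z‖ ≤ 1 - j/n]` and `(1 - j/n + δ n)^n ≤ e^{1/2} e^{-j}`, sum `≤ 5`;
core: `n² (1 - dc + δ n)^n ≤ n² exp (1 - n dc) ≤ 1` (`P.core`; `dc ≤ tau / 4`). -/
theorem sum_pcst_le (P : Par n) (F : Finset (Fin n → ℤ)) :
    P.δ ^ n * ∑ g ∈ F, pcst P.dc (pt P.δ g) ≤ (20 / tau + 20) * om n := by
  have hδ := P.δ_pos
  have hn : (0 : ℝ) < n := by have := P.n_ge; exact_mod_cast (by omega : 0 < n)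
  have htau : 0 < tau := by unfold tau; positivity
  have hdc : P.dc ≤ 1 := by
    have h1 := P.small
    have h2 := P.ε_pos
    have h3 := P.d0_pos
    have h4 : tau ≤ 1 := by unfold tau; norm_num
    linarith
  have hom := (om_pos n).le
  have hpt : ∀ z : E n, pcst P.dc z ≤ 6 * (if ‖z‖ ≤ 1 - 0 then (1 : ℝ) else 0) +
      4 / tau * ∑ j ∈ range n, (if ‖z‖ ≤ 1 - (j : ℝ) / n then (1 : ℝ) else 0) +
      (n : ℝ) ^ 2 * (if ‖z‖ ≤ 1 - P.dc then (1 : ℝ) else 0) := by
    intro z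
    have h1 : (n : ℝ) * (1 - ‖z‖) ≤
        ∑ j ∈ range n, (if ‖z‖ ≤ 1 - (j : ℝ) / n then (1 : ℝ) else 0) := by
      have h2 : (n : ℝ) * (1 - ‖z‖) ≤ n := by
        have := mul_nonneg hn.le (norm_nonneg z)
        linarith
      refine (le_sum_ind n h2).trans (le_of_eq (sum_congr rfl fun j _ => ?_))
      have : ((j : ℝ) ≤ n * (1 - ‖z‖)) ↔ ‖z‖ ≤ 1 - (j : ℝ) / n := by
        rw [le_sub_comm, div_le_iff₀ hn, mul_comm]
      simp only [this]
    have h0 : 0 ≤ ∑ j ∈ range n, (if ‖z‖ ≤ 1 - (j : ℝ) / n then (1 : ℝ) else 0) :=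
      sum_nonneg fun j _ => by split_ifs <;> norm_num
    have h3 : (if ‖z‖ < 1 - P.dc then (n : ℝ) ^ 2 else 0) ≤
        (n : ℝ) ^ 2 * (if ‖z‖ ≤ 1 - P.dc then (1 : ℝ) else 0) := by
      by_cases h : ‖z‖ < 1 - P.dc
      · rw [if_pos h, if_pos h.le, mul_one]
      · rw [if_neg h]; split_ifs <;> positivity
    have h4 : 0 < 4 / tau := by positivity
    unfold pcst cst
    rw [sub_zero]
    by_cases h : ‖z‖ ≤ 1
    · rw [if_pos h, if_pos h]
      have := mul_le_mul_of_nonneg_left h1 h4.le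
      nlinarith
    · rw [if_neg h, if_neg h]
      have := mul_nonneg h4.le h0
      linarith
  have hA := sum_ind_le P F (a := 0) zero_le_one
  have hC := sum_ind_le P F hdc
  have hB : P.δ ^ n * ∑ g ∈ F, ∑ j ∈ range n,
      (if ‖pt P.δ g‖ ≤ 1 - (j : ℝ) / n then (1 : ℝ) else 0) ≤ 4 * om n := by
    rw [sum_comm, mul_sum]
    calc _ ≤ ∑ j ∈ range n, Real.exp (1 / 2 - j) * om n := by
          refine sum_le_sum fun j hj => ?_
          have hj' : (j : ℝ) ≤ n := by exact_mod_cast (mem_range.1 hj).le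
          have := sum_ind_le P F (a := (j : ℝ) / n) ((div_le_one hn).2 hj')
          rwa [mul_div_cancel₀ _ hn.ne'] at this
      _ ≤ 4 * om n := by
          rw [← sum_mul]
          exact mul_le_mul_of_nonneg_right (sum_exp_le n) hom
  have hA' : Real.exp (1 / 2 - n * 0) ≤ 2 := by simpa using exp_half_le_two
  have hC' : (n : ℝ) ^ 2 * Real.exp (1 / 2 - n * P.dc) ≤ 1 := by
    refine le_trans ?_ P.core
    gcongr
    norm_num
  have hsum := mul_le_mul_of_nonneg_left (sum_le_sum fun g (_ : g ∈ F) => hpt (pt P.δ g))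
    (pow_nonneg hδ.le n)
  refine hsum.trans ?_
  rw [sum_add_distrib, sum_add_distrib, ← mul_sum, ← mul_sum, ← mul_sum]
  set A := ∑ g ∈ F, (if ‖pt P.δ g‖ ≤ 1 - 0 then (1 : ℝ) else 0)
  set B := ∑ g ∈ F, ∑ j ∈ range n, (if ‖pt P.δ g‖ ≤ 1 - (j : ℝ) / n then (1 : ℝ) else 0)
  set C := ∑ g ∈ F, (if ‖pt P.δ g‖ ≤ 1 - P.dc then (1 : ℝ) else 0)
  have e1 : P.δ ^ n * (6 * A + 4 / tau * B + (n : ℝ) ^ 2 * C) =
      6 * (P.δ ^ n * A) + 4 / tau * (P.δ ^ n * B) + (n : ℝ) ^ 2 * (P.δ ^ n * C) := by ring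
  have b1 : P.δ ^ n * A ≤ 2 * om n := hA.trans (by gcongr)
  have b2 : 4 / tau * (P.δ ^ n * B) ≤ 4 / tau * (4 * om n) := by gcongr
  have b3 : (n : ℝ) ^ 2 * (P.δ ^ n * C) ≤ om n := by
    calc _ ≤ (n : ℝ) ^ 2 * (Real.exp (1 / 2 - n * P.dc) * om n) := by gcongr
      _ = ((n : ℝ) ^ 2 * Real.exp (1 / 2 - n * P.dc)) * om n := by ring
      _ ≤ 1 * om n := by gcongr
      _ = om n := one_mul _
  have b4 : 0 ≤ 1 / tau * om n := by positivity
  have e2 : 4 / tau * (4 * om n) = 16 * (1 / tau * om n) := by ring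
  have e3 : (20 / tau + 20) * om n = 20 * (1 / tau * om n) + 20 * om n := by ring
  rw [e1, e3]
  linarith

/-- Cover the compact unit ball `B` by finitely many balls of radius `ε'/1` centred in `B`, with
`ε' ≤ ε / 2` so small that `lam n * vol (ball ε') ≤ 1`; `disjointed` gives a measurable partition of
`B` into cells `A c ⊆ B ∩ ball (u c) ε'`, `u c ∈ B`; `q c = lam n * vol (A c)`.  For `‖z‖ ≤ 2` and
`v ∈ A c`, `|⟪v, z⟫ - ⟪u c, z⟫| ≤ 2 ε' ≤ ε`, so
`Cut z (s + ε) ⊆ ⋃_{s < ⟪u c, z⟫} A c ⊆ Cut z (s - ε)`. -/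
theorem exists_net (hn : 0 < n) {ε : ℝ} (hε : 0 < ε) :
    ∃ (ι : Type) (_ : Fintype ι) (u : ι → E n) (q : ι → ℝ), IsNet ε u q := by
  have hnr : (0 : ℝ) < n := by exact_mod_cast hn
  have hlam : 0 ≤ lam n := div_nonneg (by norm_num) (capv_nonneg n s0)
  obtain ⟨δ, hδ, hδε, hδl⟩ : ∃ δ : ℝ, 0 < δ ∧ δ ≤ ε / (2 * n) ∧ δ ≤ 1 / (lam n + 1) :=
    ⟨min (ε / (2 * n)) (1 / (lam n + 1)), lt_min (by positivity) (by positivity), min_le_left _ _,
      min_le_right _ _⟩
  have hδε' : 2 * (δ * n) ≤ ε := by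
    rw [le_div_iff₀ (by positivity)] at hδε
    linarith
  have hδl' : lam n * δ + δ ≤ 1 := by
    rw [le_div_iff₀ (by positivity)] at hδl
    linarith
  have hδ1 : δ ≤ 1 := by nlinarith [mul_nonneg hlam hδ.le]
  set G : Finset (Fin n → ℤ) := gball δ (0 : E n) (1 + δ * n) with hG
  set A : G → Set (E n) := fun k => Metric.closedBall (0 : E n) 1 ∩ lgCube δ k.1 with hA
  set u : G → E n := fun k => if h : (A k).Nonempty then h.choose else 0 with hu
  have hum : ∀ k : G, ∀ v ∈ A k, u k ∈ A k := by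
    intro k v hv
    have h : (A k).Nonempty := ⟨v, hv⟩
    simp only [hu, dif_pos h]
    exact h.choose_spec
  have hAm : ∀ k : G, MeasurableSet (A k) := fun k =>
    Metric.isClosed_closedBall.measurableSet.inter (measurableSet_cube δ _)
  have hAf : ∀ k : G, volume (A k) ≠ ⊤ := fun k =>
    ne_top_of_le_ne_top measure_closedBall_lt_top.ne (measure_mono Set.inter_subset_left)
  have hsum : ∀ D : Finset G, ∑ c ∈ D, lam n * vol (A c) = lam n * vol (⋃ c ∈ D, A c) := by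
    intro D
    rw [← mul_sum]
    congr 1
    exact (measureReal_biUnion_finset (μ := (volume : Measure (E n))) (s := D) (f := A)
      (fun k _ l _ hkl => (disjoint_cube hδ (fun h => hkl (Subtype.ext h))).mono
        Set.inter_subset_right Set.inter_subset_right) (fun k _ => hAm k)
      (fun k _ => hAf k)).symm
  have hsub : ∀ D : Finset G, (⋃ c ∈ D, A c) ⊆ Metric.closedBall (0 : E n) 1 := by
    intro D x hx
    simp only [Set.mem_iUnion] at hx
    obtain ⟨k, _, hx⟩ := hx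
    exact hx.1
  have hclose : ∀ (k : G) (v z : E n), v ∈ A k → ‖z‖ ≤ 2 → |⟪v, z⟫ - ⟪u k, z⟫| ≤ ε := by
    intro k v z hv hz
    have h1 := dist_le_of_mem_cube hδ hv.2 (hum k v hv).2
    rw [dist_eq_norm] at h1
    rw [← inner_sub_left]
    refine (abs_real_inner_le_norm _ _).trans ?_
    calc ‖v - u k‖ * ‖z‖ ≤ (δ * n) * 2 := by gcongr
      _ ≤ ε := by linarith
  refine ⟨G, inferInstance, u, fun c => lam n * vol (A c), ?_, ?_, ?_, ?_, ?_⟩
  · intro c
    refine ⟨mul_nonneg hlam ENNReal.toReal_nonneg, ?_⟩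
    have h1 : vol (A c) ≤ δ ^ n := by
      rw [← volume_real_cube hδ c.1]
      exact measureReal_mono Set.inter_subset_right
        (by rw [volume_cube hδ]; exact ENNReal.ofReal_ne_top)
    have h2 : δ ^ n ≤ δ := pow_le_of_le_one hδ.le hδ1 hn.ne'
    have h3 : lam n * vol (A c) ≤ lam n * δ := mul_le_mul_of_nonneg_left (h1.trans h2) hlam
    beta_reduce
    linarith
  · intro c
    by_cases h : (A c).Nonempty
    · obtain ⟨v, hv⟩ := h
      simpa using (hum c v hv).1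
    · simp [hu, dif_neg h]
  · rw [hsum]
    exact mul_le_mul_of_nonneg_left (vol_mono_of_bdd (hsub _) Metric.isBounded_closedBall) hlam
  · intro z s hz
    rw [hsum]
    refine mul_le_mul_of_nonneg_left
      (vol_mono_of_bdd ?_ (Metric.isBounded_closedBall.subset (hsub _))) hlam
    intro v hv
    have hk : (fun i => ⌊v i / δ⌋) ∈ G := by
      rw [hG, mem_gball hδ]
      have h1 := dist_le_of_mem_cube hδ (pt_mem_cube hδ _) (mem_cube_floor hδ v)
      have h2 := dist_triangle (pt δ fun i => ⌊v i / δ⌋) v 0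
      have h3 : dist v 0 ≤ 1 := by rw [dist_zero_right]; exact hv.1
      linarith
    have hvA : v ∈ A ⟨_, hk⟩ := ⟨by simpa using hv.1, mem_cube_floor hδ v⟩
    simp only [Set.mem_iUnion]
    refine ⟨⟨_, hk⟩, mem_filter.2 ⟨mem_univ _, ?_⟩, hvA⟩
    have h4 := abs_le.1 (hclose _ v z hvA hz)
    linarith [hv.2, h4.2]
  · intro z s hz
    rw [hsum]
    refine mul_le_mul_of_nonneg_left (vol_mono_of_bdd ?_
      ((Metric.isBounded_closedBall (x := (0 : E n)) (r := 1)).subset ?_)) hlam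
    · intro v hv
      simp only [Set.mem_iUnion] at hv
      obtain ⟨k, hk, hv⟩ := hv
      have h4 := abs_le.1 (hclose k v z hv hz)
      have h5 := (mem_filter.1 hk).2
      refine ⟨by simpa using hv.1, ?_⟩
      by_cases hlt : s - ε < ⟪v, z⟫
      · exact hlt
      · exfalso
        linarith [h4.1, not_lt.1 hlt]
    · intro v hv
      simpa using hv.1

end Crest.Agent.R225
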