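import Crest.Agent.R225.LRegion

/-! Existence of a body that no admissible configuration covers; parameters. -/

set_option autoImplicit false
open MeasureTheory Finset Classical
open scoped RealInnerProductSpace

noncomputable section
namespace Crest.Agent.R225
open Crest.Agent.R43

variable {n : ℕ}

theorem lm_mass_union_le {ι : Type} [Fintype ι] {q : ι → ℝ} (hq : IsProb q) (A B : Finset ι) :
    mass q (A ∪ B) ≤ mass q A + mass q B := by
  unfold mass
  rw [← Finset.sum_union_inter]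
  have : 0 ≤ ∑ c ∈ A ∩ B, q c := Finset.sum_nonneg fun c _ => (hq c).1
  linarith

theorem lm_card_small {α : Type} (G : Finset α) (N : ℕ) :
    (G.powerset.filter fun X => X.card ≤ N).card ≤ (G.card + 1) ^ N := by
  have h1 : (G.powerset.filter fun X => X.card ≤ N) ⊆
      (range (N + 1)).biUnion fun k => G.powersetCard k := by
    intro X hX
    simp only [mem_filter, mem_powerset] at hX
    simp only [mem_biUnion, mem_range, mem_powersetCard]
    exact ⟨X.card, by omega, hX.1, rfl⟩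
  refine (card_le_card h1).trans (card_biUnion_le.trans ?_)
  rw [add_pow]
  refine sum_le_sum fun k hk => ?_
  rw [card_powersetCard, one_pow, mul_one]
  have h2 : 1 ≤ N.choose k := Nat.choose_pos (by have := mem_range.1 hk; omega)
  exact (Nat.choose_le_pow _ _).trans (Nat.le_mul_of_pos_right _ h2)

theorem lm_Ex_card {ι : Type} [Fintype ι] (q : ι → ℝ) :
    Ex q (fun ξ => ((univ.filter fun c => ξ c = true).card : ℝ)) = ∑ c, q c := by
  have h1 : ∀ ξ : ι → Bool, ((univ.filter fun c => ξ c = true).card : ℝ) = ∑ c, b2r (ξ c) := by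
    intro ξ
    rw [card_filter]
    push_cast
    rfl
  rw [Ex_congr q h1, Ex_sum]
  refine sum_congr rfl fun c _ => ?_
  simpa using Ex_prod q {c} fun _ b => b2r b

/-- Choose regions `w 0, …, w (T-1)` one after the other with `Bad t = ⋃_{s<t} Use (w s)`
(mass `≤ t N 3^n` by `mass_use`), using `select` and `region`; the sets `Use (w t) \ Bad t` are
pairwise disjoint; `indep_trials`. -/
theorem cover_prob {ι : Type} [Fintype ι] {u : ι → E n} {q : ι → ℝ} (P : Par n)
    (hN : IsNet P.ε u q) {X : Finset (Fin n → ℤ)} (hX : P.Adm X) :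
    Pr q (fun ξ => P.Covers (Kp u ξ) X) ≤ (3 / 4) ^ P.T := by
  have hsel : ∀ B : Finset ι, ∃ w, mass q B ≤ P.T * (P.N * 3 ^ n) →
      w ∈ P.W ∧ (P.Q.card : ℝ) / 2 ≤ (P.Good u q X B w).card := by
    intro B
    by_cases hB : mass q B ≤ P.T * (P.N * 3 ^ n)
    · obtain ⟨w, hw⟩ := select P hN hX B hB
      exact ⟨w, fun _ => hw⟩
    · exact ⟨0, fun h => absurd h hB⟩
  choose sel hsel using hsel
  let Bad : ℕ → Finset ι := fun t => Nat.rec ∅ (fun _ B => B ∪ P.Use u X (sel B)) t
  have hsucc : ∀ t, Bad (t + 1) = Bad t ∪ P.Use u X (sel (Bad t)) := fun _ => rfl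
  have hmono : Monotone Bad := monotone_nat_of_le_succ fun t => by
    rw [hsucc]; exact subset_union_left
  have hmass : ∀ t : ℕ, mass q (Bad t) ≤ t * (P.N * 3 ^ n) := by
    intro t
    induction t with
    | zero => simp [Bad, mass]
    | succ t ih =>
      rw [hsucc]
      have h1 := lm_mass_union_le hN.prob (Bad t) (P.Use u X (sel (Bad t)))
      have h2 := mass_use P hN hX.2.1 (sel (Bad t))
      push_cast
      linarith
  have hsel' : ∀ t < P.T, sel (Bad t) ∈ P.W ∧
      (P.Q.card : ℝ) / 2 ≤ (P.Good u q X (Bad t) (sel (Bad t))).card := fun t ht =>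
    hsel _ ((hmass t).trans (mul_le_mul_of_nonneg_right (by exact_mod_cast ht.le) (by positivity)))
  have hEv : ∀ t, ∃ Ev : (ι → Bool) → Prop, t < P.T →
      DepOn Ev (P.Use u X (sel (Bad t)) \ Bad t) ∧ 1 / 4 ≤ Pr q Ev ∧
      ∀ ξ, Ev ξ → ∃ y ∈ P.Q, ∀ x ∈ X, pt P.δ (sel (Bad t) + y - x) ∉ Kp u ξ := by
    intro t
    by_cases ht : t < P.T
    · obtain ⟨Ev, h⟩ := region P hN hX.2.1 (Bad t) (sel (Bad t)) (hsel' t ht).2
      exact ⟨Ev, fun _ => h⟩
    · exact ⟨fun _ => True, fun h => absurd h ht⟩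
  choose Ev hEv using hEv
  have hd : ∀ s t, s < t →
      Disjoint (P.Use u X (sel (Bad s)) \ Bad s) (P.Use u X (sel (Bad t)) \ Bad t) := by
    intro s t hst
    rw [Finset.disjoint_left]
    intro c hc hc'
    refine (mem_sdiff.1 hc').2 (hmono (Nat.succ_le_of_lt hst) ?_)
    rw [Nat.succ_eq_add_one, hsucc]
    exact mem_union_right _ (mem_sdiff.1 hc).1
  refine le_trans (Pr_mono hN.prob fun ξ hξ t ht hE => ?_) (indep_trials hN.prob P.T Ev
    (fun t => P.Use u X (sel (Bad t)) \ Bad t) (fun t ht => (hEv t ht).1)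
    (fun s _ t _ hst => ?_) fun t ht => (hEv t ht).2.1)
  · obtain ⟨y, hy, h⟩ := (hEv t ht).2.2 ξ hE
    obtain ⟨x, hx, h'⟩ := hξ _ (hsel' t ht).1 y hy
    exact h x hx h'
  · rcases lt_or_gt_of_ne hst with h | h
    · exact hd s t h
    · exact (hd t s h).symm

/-- `exists_net`; the number of subsets of `gball δ 0 3` with at most `N` elements is
`≤ (card + 1)^N`, so by `P.union` some admissible `X` covers with probability `≤ 1/4`; by Markov
`Pr (#chosen ≥ 4 lam om) ≤ 1/4`, and otherwise `vol Kp ≥ om - 8 lam om capv = (3/5) om`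
(`vol_Kp_ge`, `lam * capv n s0 = 1/20`). -/
theorem exists_body (P : Par n) :
    ∃ K : Set (E n), IsCompact K ∧ Convex ℝ K ∧ (∀ z ∈ K, -z ∈ K) ∧
      Metric.closedBall (0 : E n) (1 / 2) ⊆ K ∧ K ⊆ Metric.closedBall (0 : E n) 1 ∧
      3 / 5 * om n ≤ vol K ∧ ∀ X, P.Adm X → ¬ P.Covers K X := by
  have hn : 0 < n := by have := P.n_ge; omega
  obtain ⟨ι, _, u, q, hN⟩ := exists_net hn P.ε_pos
  have hcap : 0 < capv n s0 := capv_pos hn (by norm_num [s0, tau])
  have hlam : lam n * capv n s0 = 1 / 20 := div_mul_cancel₀ _ hcap.ne'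
  have hlam0 : 0 < lam n := div_pos (by norm_num) hcap
  have hom := om_pos n
  set F := ((gball P.δ (0 : E n) 3).powerset.filter fun X => X.card ≤ P.N).filter P.Adm with hF
  have h1 : Pr q (fun ξ => ∃ X ∈ F, P.Covers (Kp u ξ) X) ≤ 1 / 4 := by
    refine (Pr_exists_le hN.prob F _).trans ?_
    refine (sum_le_card_nsmul F _ _ fun X hX => cover_prob P hN (mem_filter.1 hX).2).trans ?_
    rw [nsmul_eq_mul]
    refine le_trans (mul_le_mul_of_nonneg_right ?_ (by positivity)) P.union
    exact_mod_cast (card_filter_le _ _).trans (lm_card_small _ _)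
  have h2 : Pr q (fun ξ => 4 * (lam n * om n) ≤ ((univ.filter fun c => ξ c = true).card : ℝ))
      ≤ 1 / 4 := by
    have h4 : 0 < 4 * (lam n * om n) := by positivity
    refine (Pr_le_Ex hN.prob (F := fun ξ => (4 * (lam n * om n))⁻¹ *
      ((univ.filter fun c => ξ c = true).card : ℝ)) (fun ξ => by positivity) fun ξ hξ => ?_).trans ?_
    · rwa [inv_mul_eq_div, le_div_iff₀ h4, one_mul]
    · rw [Ex_const_mul, lm_Ex_card, inv_mul_eq_div, div_le_iff₀ h4]
      linarith [hN.total]
  have h3 : ∃ ξ : ι → Bool, ¬ ((∃ X ∈ F, P.Covers (Kp u ξ) X) ∨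
      4 * (lam n * om n) ≤ ((univ.filter fun c => ξ c = true).card : ℝ)) := by
    by_contra hcon
    simp only [not_exists, not_not] at hcon
    have h5 := (Pr_mono hN.prob (A := fun _ => True) fun ξ _ => hcon ξ).trans
      (Pr_or_le hN.prob _ _)
    have h6 : Pr q (fun _ : ι → Bool => True) = 1 := by simp [Pr, Ex_const]
    linarith
  obtain ⟨ξ, hξ⟩ := h3
  rw [not_or, not_le] at hξ
  obtain ⟨k1, k2, k3, k4, k5⟩ := Kp_props hN.norm_le ξ
  refine ⟨Kp u ξ, k1, k2, k3, k4, k5, le_trans ?_ (vol_Kp_ge hN.norm_le ξ), fun X hX hc => ?_⟩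
  · have h7 := mul_le_mul_of_nonneg_right hξ.2.le hcap.le
    have h8 : 4 * (lam n * om n) * capv n s0 = 4 * (lam n * capv n s0) * om n := by ring
    rw [h8, hlam] at h7
    linarith
  · exact hξ.1 ⟨X, by simp only [hF, mem_filter, mem_powerset]; exact ⟨⟨hX.1, hX.2.1⟩, hX⟩, hc⟩

end Crest.Agent.R225
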