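import Crest.Agent.R225.LSelect
import Crest.Agent.R225.LBern

/-! One test region contains an uncovered point with probability at least 1/4. -/

set_option autoImplicit false
open MeasureTheory Finset Classical
open scoped RealInnerProductSpace

noncomputable section
namespace Crest.Agent.R225
open Crest.Agent.R43

variable {n : ℕ} {ι : Type} [Fintype ι] {u : ι → E n} {q : ι → ℝ}

namespace LRegion

omit [Fintype ι] in
theorem mass_mono (hq : ∀ c, 0 ≤ q c) {A B : Finset ι} (h : A ⊆ B) : mass q A ≤ mass q B :=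
  Finset.sum_le_sum_of_subset_of_nonneg h fun c _ _ => hq c

omit [Fintype ι] in
theorem mass_union_le (hq : ∀ c, 0 ≤ q c) (A B : Finset ι) :
    mass q (A ∪ B) ≤ mass q A + mass q B := by
  unfold mass
  rw [← Finset.sum_union_inter]
  have : 0 ≤ ∑ c ∈ A ∩ B, q c := Finset.sum_nonneg fun c _ => hq c
  linarith

omit [Fintype ι] in
theorem mass_biUnion_le {α : Type} (hq : ∀ c, 0 ≤ q c) (F : Finset α) (B : α → Finset ι) :
    mass q (F.biUnion B) ≤ ∑ x ∈ F, mass q (B x) := by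
  induction F using Finset.induction_on with
  | empty => simp [mass]
  | insert a F ha ih =>
    rw [Finset.biUnion_insert, Finset.sum_insert ha]
    exact (mass_union_le hq _ _).trans (by linarith)

omit [Fintype ι] in
theorem mass_sdiff_ge {α : Type} (hq : ∀ c, 0 ≤ q c) (A Bad : Finset ι) (F : Finset α)
    (B : α → Finset ι) :
    mass q A ≤ mass q ((A \ F.biUnion B) \ Bad) + ∑ x ∈ F, mass q (A ∩ B x) + mass q (A ∩ Bad) := by
  have h : A ⊆ (((A \ F.biUnion B) \ Bad) ∪ F.biUnion fun x => A ∩ B x) ∪ (A ∩ Bad) := by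
    intro c hc
    simp only [Finset.mem_union, Finset.mem_sdiff, Finset.mem_biUnion, Finset.mem_inter]
    by_cases h1 : c ∈ Bad
    · exact Or.inr ⟨hc, h1⟩
    · by_cases h2 : ∃ a ∈ F, c ∈ B a
      · obtain ⟨a, ha, hca⟩ := h2
        exact Or.inl (Or.inr ⟨a, ha, hc, hca⟩)
      · exact Or.inl (Or.inl ⟨⟨hc, h2⟩, h1⟩)
  refine (mass_mono hq h).trans ((mass_union_le hq _ _).trans ?_)
  have h1 := mass_union_le hq ((A \ F.biUnion B) \ Bad) (F.biUnion fun x => A ∩ B x)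
  have h2 := mass_biUnion_le hq F fun x => A ∩ B x
  linarith

theorem cutF_anti (z : E n) {s s' : ℝ} (h : s ≤ s') : cutF u z s' ⊆ cutF u z s := by
  intro c hc
  simp only [cutF, Finset.mem_filter, Finset.mem_univ, true_and] at hc ⊢
  linarith

theorem mem_cutF {z : E n} {s : ℝ} {c : ι} : c ∈ cutF u z s ↔ s < ⟪u c, z⟫ := by
  simp [cutF]

theorem item_prob {α : Type} (P : Par n) (hN : IsNet P.ε u q) {z : E n} (hz : ‖z‖ ≤ 1)
    (hzc : 1 - P.dc ≤ ‖z‖) {σ : ℝ} (hσ : 0 ≤ σ) (hσ' : σ ≤ P.d0) (F : Finset α)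
    (hF : (F.card : ℝ) ≤ P.M) (z' : α → E n) (hz' : ∀ x ∈ F, ‖z' x‖ ≤ 1)
    (hd : ∀ x ∈ F, P.d0 ≤ ‖z - z' x‖) (Bad : Finset ι)
    (hB : mass q (cutF u z s0 ∩ Bad) ≤ Real.exp (-P.κ)) {c : ℝ}
    (hc : cst z + (4 / tau) * n * σ ≤ c) (hc' : c ≤ P.κ) :
    Real.exp (-c) ≤ Pr q (Hit ((cutF u z (s0 + σ) \
      F.biUnion fun x => cutF u (z' x) (s0 + σ)) \ Bad)) := by
  have hq : ∀ c, 0 ≤ q c := fun c => (hN.prob c).1
  have h1 := mass_sdiff_ge hq (cutF u z (s0 + σ)) Bad F fun x => cutF u (z' x) (s0 + σ)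
  have h2 := mass_cut_ge P hN hz hzc hσ hσ'
  have h3 := mass_cut_le_one P hN hz hσ
  have hm0 : 0 ≤ mass q (cutF u z (s0 + σ)) := Finset.sum_nonneg fun c _ => hq c
  have h4 : ∑ x ∈ F, mass q (cutF u z (s0 + σ) ∩ cutF u (z' x) (s0 + σ)) ≤
      mass q (cutF u z (s0 + σ)) / 4 := by
    refine (Finset.sum_le_card_nsmul F _ _
      fun x hx => mass_far P hN hz hzc (hz' x hx) (hd x hx) hσ hσ').trans ?_
    rw [nsmul_eq_mul, ← mul_assoc]
    have h5 : (F.card : ℝ) * Real.exp (-(n * P.d0 ^ 2 / 80)) ≤ 1 / 4 :=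
      (mul_le_mul_of_nonneg_right hF (Real.exp_pos _).le).trans P.far
    nlinarith
  have h5 : mass q (cutF u z (s0 + σ) ∩ Bad) ≤ Real.exp (-c) := by
    refine (mass_mono hq (Finset.inter_subset_inter (cutF_anti z (by linarith))
      (Finset.Subset.refl _))).trans (hB.trans ?_)
    exact Real.exp_le_exp.2 (by linarith)
  have h6 : Real.exp (-c) ≤ Real.exp (-(cst z + (4 / tau) * n * σ)) :=
    Real.exp_le_exp.2 (by linarith)
  have h7 : mass q ((cutF u z (s0 + σ) \ F.biUnion fun x => cutF u (z' x) (s0 + σ)) \ Bad) ≤ 1 :=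
    (mass_mono hq (Finset.sdiff_subset.trans Finset.sdiff_subset)).trans h3
  have h8 := hit_ge hN.prob _ h7
  linarith

theorem tau_pos : 0 < tau := by unfold tau; positivity

theorem six_le_cst {z : E n} (hz : ‖z‖ ≤ 1) : 6 ≤ cst z := by
  unfold cst
  have : 0 ≤ (4 / tau) * n * (1 - ‖z‖) := by
    have := tau_pos
    have h2 : 0 ≤ 1 - ‖z‖ := by linarith
    positivity
  linarith

theorem pcst_nonneg (dc : ℝ) (z : E n) : 0 ≤ pcst dc z := by
  unfold pcst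
  refine add_nonneg ?_ ?_
  · split_ifs with h
    · linarith [six_le_cst h]
    · exact le_rfl
  · split_ifs
    · positivity
    · exact le_rfl

theorem cst_le_pcst (dc : ℝ) {z : E n} (hz : ‖z‖ ≤ 1) : cst z ≤ pcst dc z := by
  unfold pcst
  rw [if_pos hz]
  split_ifs
  · have : (0 : ℝ) ≤ (n : ℝ) ^ 2 := by positivity
    linarith
  · linarith

theorem cst_add_le (P : Par n) {z : E n} (hz : 1 - P.dc ≤ ‖z‖) :
    cst z + (4 / tau) * n * P.d0 ≤ P.κ := by
  unfold cst Par.κ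
  have : 0 ≤ (4 / tau) * n := by
    have := tau_pos
    positivity
  nlinarith

theorem sum_items {α : Type} [DecidableEq α] (A B : Finset α) (g : α × Bool → ℝ) :
    ∑ i ∈ A.image (fun x => (x, false)) ∪ B.image (fun x => (x, true)), g i =
      ∑ x ∈ A, g (x, false) + ∑ x ∈ B, g (x, true) := by
  rw [Finset.sum_union, Finset.sum_image, Finset.sum_image]
  · intro a _ b _ h; exact (Prod.ext_iff.1 h).1
  · intro a _ b _ h; exact (Prod.ext_iff.1 h).1
  · rw [Finset.disjoint_left]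
    intro i h1 h2
    obtain ⟨a, -, rfl⟩ := Finset.mem_image.1 h1
    obtain ⟨b, -, hb⟩ := Finset.mem_image.1 h2
    exact absurd (Prod.ext_iff.1 hb).2 (by simp)

theorem card_gball_d1 (P : Par n) (c : E n) :
    ((gball P.δ c P.d1).card : ℝ) ≤ (4 * P.d1 / rr) ^ n * P.Q.card := by
  have hrr : 0 < rr := by unfold rr; linarith [tau_pos]
  have hδn : 0 ≤ P.δ * n := by have := P.δ_pos; positivity
  have hd1 : 0 ≤ P.d1 := hδn.trans P.δ_d1
  have h1 := card_gball_le P.δ_pos c hd1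
  have h2 := le_card_gball P.δ_pos (0 : E n) (R := rr) (by linarith [P.δ_r])
  have hom := (om_pos n).le
  have h3 : (P.d1 + P.δ * n) ^ n ≤ (4 * P.d1 / rr) ^ n * (rr - P.δ * n) ^ n := by
    rw [← mul_pow]
    refine pow_le_pow_left₀ (by linarith) ?_ n
    have : 4 * P.d1 / rr * (rr / 2) ≤ 4 * P.d1 / rr * (rr - P.δ * n) :=
      mul_le_mul_of_nonneg_left (by linarith [P.δ_r]) (by positivity)
    have e : 4 * P.d1 / rr * (rr / 2) = 2 * P.d1 := by field_simp; ring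
    linarith [P.δ_d1]
  have hp : 0 < P.δ ^ n := pow_pos P.δ_pos n
  refine le_of_mul_le_mul_left ?_ hp
  calc P.δ ^ n * ((gball P.δ c P.d1).card : ℝ) ≤ (P.d1 + P.δ * n) ^ n * om n := h1
    _ ≤ (4 * P.d1 / rr) ^ n * (rr - P.δ * n) ^ n * om n := mul_le_mul_of_nonneg_right h3 hom
    _ = (4 * P.d1 / rr) ^ n * ((rr - P.δ * n) ^ n * om n) := by ring
    _ ≤ (4 * P.d1 / rr) ^ n * (P.δ ^ n * ((gball P.δ 0 rr).card : ℝ)) :=
        mul_le_mul_of_nonneg_left h2 (by positivity)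
    _ = P.δ ^ n * ((4 * P.d1 / rr) ^ n * P.Q.card) := by unfold Par.Q; ring

end LRegion

open LRegion

/-- Items of one good test point `y`.  Let `z x = pt δ (w + y - x)`, `Z = {x ∈ X | ‖z x‖ ≤ 1}`.
Since `tc ≤ M < n²` no `z x` is in the core (`1 - dc ≤ ‖z x‖` on `Z`), `∑_Z cst (z x) ≤ M`, and
`|Z| ≤ M` (`cst ≥ 6`).  Apply `cluster` with `f = z`, `c = cst ∘ z`, `d = d0`, `θ = κ`.  Items are
`(x, false)` for `x ∈ Ind`, with cost `cst (z x)` (`≤ κ`) and
`D = cutF (z x) s0 \ (⋃_{x' ∈ Z, d0 < ‖z x - z x'‖} cutF (z x') s0) \ Bad`, and `(ζ, true)` for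
`ζ ∈ Ctr`, with cost `κ` and
`D = cutF (z ζ) (s0 + d0) \ (⋃_{ζ' ∈ Ctr, ζ' ≠ ζ} cutF (z ζ') (s0 + d0)) \ Bad`.
Mass: by `mass_far` and `P.far` the far part removes at most a quarter of the mass `m` of the cut;
`Bad` removes at most `exp (-κ) ≤ exp (-cost) ≤ m / 4` (`mass_cut_ge`, goodness); so
`mass D ≥ m/2 ≥ 2 exp (-cost)` and `hit_ge` (`mass_cut_le_one`) gives `Pr (Hit D) ≥ exp (-cost)`.
Total cost `≤ |Ctr| κ + ∑_Ind cst ≤ M`.  A vector `v` in a deep `D` lies in no other item (it cuts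
`z ζ` at level `s0`, and individual points are `> d0` away from centres); a vector in individual items
`x, x'` forces `‖z x - z x'‖ ≤ d0`, so its total cost is `< κ` (or `0 ≤ κ`).
If all items are hit then no `z x` (`x ∈ X`) is in `Kp`: outside `Z` the norm is `> 1`; for `x` within
`d0` of a centre `ζ`, `⟪v, z x⟫ ≥ ⟪v, z ζ⟫ - d0 > s0`. -/
theorem items (P : Par n) (hN : IsNet P.ε u q) {X : Finset (Fin n → ℤ)} (Bad : Finset ι)
    (w y : Fin n → ℤ) (hy : y ∈ P.Good u q X Bad w) :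
    ∃ (I : Finset ((Fin n → ℤ) × Bool)) (D : (Fin n → ℤ) × Bool → Finset ι)
      (c : (Fin n → ℤ) × Bool → ℝ),
      (∀ i ∈ I, 0 ≤ c i) ∧ (∀ i ∈ I, Real.exp (-c i) ≤ Pr q (Hit (D i))) ∧
      ∑ i ∈ I, c i ≤ P.M ∧ (∀ v, ∑ i ∈ I.filter (fun i => v ∈ D i), c i ≤ P.κ) ∧
      (∀ i ∈ I, ∀ v ∈ D i, v ∉ Bad ∧ ∃ x ∈ X, ‖pt P.δ (w + y - x)‖ ≤ 1 ∧
        v ∈ cutF u (pt P.δ (w + y - x)) s0) ∧
      (∀ ξ, (∀ i ∈ I, Hit (D i) ξ) → ∀ x ∈ X, pt P.δ (w + y - x) ∉ Kp u ξ) ∧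
      ((X.filter fun x => ‖pt P.δ (w + y - x)‖ ≤ 1).card : ℝ) ≤ P.M := by
  have hq : ∀ c, 0 ≤ q c := fun c => (hN.prob c).1
  set z : (Fin n → ℤ) → E n := fun x => pt P.δ (w + y - x) with hzdef
  set Z := X.filter fun x => ‖pt P.δ (w + y - x)‖ ≤ 1 with hZdef
  have hZ : ∀ x, x ∈ Z ↔ x ∈ X ∧ ‖z x‖ ≤ 1 := fun x => Finset.mem_filter
  obtain ⟨-, htc, hbad⟩ := Finset.mem_filter.1 hy
  have htc' : ∑ x ∈ X, pcst P.dc (z x) ≤ P.M := htc
  have hbad' : ∑ x ∈ Z, mass q (cutF u (z x) s0 ∩ Bad) ≤ Real.exp (-P.κ) := by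
    convert hbad
  have hcore : ∀ x ∈ Z, 1 - P.dc ≤ ‖z x‖ := by
    intro x hx
    by_contra h
    rw [not_le] at h
    have h1 : pcst P.dc (z x) ≤ ∑ x ∈ X, pcst P.dc (z x) :=
      Finset.single_le_sum (f := fun x => pcst P.dc (z x)) (fun x _ => pcst_nonneg _ _)
        ((hZ x).1 hx).1
    have h2 : (n : ℝ) ^ 2 ≤ pcst P.dc (z x) := by
      unfold pcst
      rw [if_pos ((hZ x).1 hx).2, if_pos h]
      linarith [six_le_cst ((hZ x).1 hx).2]
    linarith [P.M_lt]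
  have hsum : ∑ x ∈ Z, cst (z x) ≤ P.M := by
    refine le_trans ?_ htc'
    refine (Finset.sum_le_sum fun x hx => cst_le_pcst P.dc ((hZ x).1 hx).2).trans ?_
    exact Finset.sum_le_sum_of_subset_of_nonneg (Finset.filter_subset _ _)
      fun x _ _ => pcst_nonneg _ _
  have hcard : (Z.card : ℝ) ≤ P.M := by
    refine le_trans ?_ hsum
    have := Finset.card_nsmul_le_sum Z (fun x => cst (z x)) 1
      fun x hx => by linarith [six_le_cst ((hZ x).1 hx).2]
    simpa using this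
  have hbad1 : ∀ x ∈ Z, mass q (cutF u (z x) s0 ∩ Bad) ≤ Real.exp (-P.κ) := fun x hx =>
    (Finset.single_le_sum (f := fun x => mass q (cutF u (z x) s0 ∩ Bad))
      (fun x _ => Finset.sum_nonneg fun c _ => hq c) hx).trans hbad'
  have hd0 : 0 ≤ (4 / tau) * n * P.d0 := by
    have := tau_pos
    have := P.d0_pos
    positivity
  have hcκ : ∀ x ∈ Z, cst (z x) ≤ P.κ := fun x hx => by linarith [cst_add_le P (hcore x hx)]
  have hκ0 : 0 ≤ P.κ := by
    unfold Par.κ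
    have := tau_pos
    have := P.d0_pos
    have := P.dc_pos
    positivity
  obtain ⟨Ind, Ctr, hInd, hCtr, hcov, hCC, hIC, hII, htot⟩ :=
    cluster z (fun x => cst (z x)) (θ := P.κ) P.d0_pos.le Z
      fun x hx => by linarith [six_le_cst ((hZ x).1 hx).2]
  set D0 : (Fin n → ℤ) → Finset ι := fun x => (cutF u (z x) (s0 + 0) \
    (Z.filter fun x' => P.d0 < ‖z x - z x'‖).biUnion fun x' => cutF u (z x') (s0 + 0)) \ Bad
    with hD0
  set D1 : (Fin n → ℤ) → Finset ι := fun x => (cutF u (z x) (s0 + P.d0) \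
    (Ctr.erase x).biUnion fun x' => cutF u (z x') (s0 + P.d0)) \ Bad with hD1
  have mD0 : ∀ x v, v ∈ D0 x ↔ (s0 < ⟪u v, z x⟫ ∧
      ∀ x' ∈ Z, P.d0 < ‖z x - z x'‖ → ¬ s0 < ⟪u v, z x'⟫) ∧ v ∉ Bad := by
    intro x v
    simp only [hD0, Finset.mem_sdiff, Finset.mem_biUnion, Finset.mem_filter, mem_cutF, add_zero,
      not_exists, not_and, and_imp]
  have mD1 : ∀ x v, v ∈ D1 x ↔ (s0 + P.d0 < ⟪u v, z x⟫ ∧
      ∀ x', x' ≠ x → x' ∈ Ctr → ¬ s0 + P.d0 < ⟪u v, z x'⟫) ∧ v ∉ Bad := by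
    intro x v
    simp only [hD1, Finset.mem_sdiff, Finset.mem_biUnion, Finset.mem_erase, mem_cutF,
      not_exists, not_and, and_imp]
  have hI : ∀ i, i ∈ Ind.image (fun x => (x, false)) ∪ Ctr.image (fun x => (x, true)) →
      (∃ x ∈ Ind, i = (x, false)) ∨ ∃ x ∈ Ctr, i = (x, true) := by
    intro i hi
    rcases Finset.mem_union.1 hi with h | h
    · obtain ⟨x, hx, rfl⟩ := Finset.mem_image.1 h
      exact Or.inl ⟨x, hx, rfl⟩
    · obtain ⟨x, hx, rfl⟩ := Finset.mem_image.1 h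
      exact Or.inr ⟨x, hx, rfl⟩
  refine ⟨Ind.image (fun x => (x, false)) ∪ Ctr.image (fun x => (x, true)),
    fun i => cond i.2 (D1 i.1) (D0 i.1), fun i => cond i.2 P.κ (cst (z i.1)), ?_, ?_, ?_, ?_, ?_,
    ?_, hcard⟩
  · intro i hi
    rcases hI i hi with ⟨x, hx, rfl⟩ | ⟨x, hx, rfl⟩
    · have := six_le_cst ((hZ x).1 (hInd hx)).2
      simp only [cond_false]
      linarith
    · exact hκ0
  · intro i hi
    rcases hI i hi with ⟨x, hx, rfl⟩ | ⟨x, hx, rfl⟩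
    · have hxZ := hInd hx
      refine item_prob P hN ((hZ x).1 hxZ).2 (hcore x hxZ) le_rfl P.d0_pos.le _ ?_ z ?_ ?_ Bad
        (hbad1 x hxZ) (by simp) (hcκ x hxZ)
      · exact le_trans (by exact_mod_cast Finset.card_filter_le _ _) hcard
      · exact fun x' hx' => ((hZ x').1 (Finset.mem_filter.1 hx').1).2
      · exact fun x' hx' => (Finset.mem_filter.1 hx').2.le
    · have hxZ := hCtr hx
      refine item_prob P hN ((hZ x).1 hxZ).2 (hcore x hxZ) P.d0_pos.le le_rfl _ ?_ z ?_ ?_ Bad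
        (hbad1 x hxZ) (cst_add_le P (hcore x hxZ)) le_rfl
      · refine le_trans ?_ hcard
        exact_mod_cast Finset.card_le_card ((Finset.erase_subset _ _).trans hCtr)
      · exact fun x' hx' => ((hZ x').1 (hCtr (Finset.mem_of_mem_erase hx'))).2
      · intro x' hx'
        rw [← dist_eq_norm]
        exact (hCC x hx x' (Finset.mem_of_mem_erase hx') (Finset.ne_of_mem_erase hx').symm).le
  · rw [sum_items]
    simp only [cond_false, cond_true, Finset.sum_const, nsmul_eq_mul]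
    linarith
  · intro v
    rw [Finset.sum_filter, sum_items]
    simp only [cond_false, cond_true]
    rw [← Finset.sum_filter, ← Finset.sum_filter]
    by_cases h : ∃ ζ ∈ Ctr, v ∈ D1 ζ
    · obtain ⟨ζ, hζ, hv⟩ := h
      have h1 : Ind.filter (fun x => v ∈ D0 x) = ∅ := by
        rw [Finset.filter_eq_empty_iff]
        intro x hx hv'
        refine ((mD0 x v).1 hv').1.2 ζ (hCtr hζ) ?_ ?_
        · rw [← dist_eq_norm]; exact hIC x hx ζ hζ
        · linarith [((mD1 ζ v).1 hv).1.1, P.d0_pos]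
      have h2 : Ctr.filter (fun x => v ∈ D1 x) = {ζ} := by
        rw [Finset.eq_singleton_iff_unique_mem]
        refine ⟨Finset.mem_filter.2 ⟨hζ, hv⟩, fun x hx => ?_⟩
        by_contra hne
        obtain ⟨hx1, hx2⟩ := Finset.mem_filter.1 hx
        exact ((mD1 ζ v).1 hv).1.2 x hne hx1 ((mD1 x v).1 hx2).1.1
      rw [h1, h2]
      simp
    · have h2 : Ctr.filter (fun x => v ∈ D1 x) = ∅ := by
        rw [Finset.filter_eq_empty_iff]
        exact fun x hx hv => h ⟨x, hx, hv⟩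
      rw [h2, Finset.sum_empty, add_zero]
      rcases (Ind.filter fun x => v ∈ D0 x).eq_empty_or_nonempty with h1 | ⟨x₀, hx₀⟩
      · rw [h1, Finset.sum_empty]; exact hκ0
      · obtain ⟨hx1, hx2⟩ := Finset.mem_filter.1 hx₀
        refine le_trans (Finset.sum_le_sum_of_subset_of_nonneg ?_ ?_) (hII x₀ hx1).le
        · intro x hx
          obtain ⟨hx3, hx4⟩ := Finset.mem_filter.1 hx
          refine Finset.mem_filter.2 ⟨hx3, ?_⟩
          by_contra hlt
          rw [not_le, dist_comm, dist_eq_norm] at hlt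
          exact ((mD0 x₀ v).1 hx2).1.2 x (hInd hx3) hlt ((mD0 x v).1 hx4).1.1
        · intro x hx _
          linarith [six_le_cst ((hZ x).1 (hInd (Finset.mem_filter.1 hx).1)).2]
  · intro i hi v hv
    rcases hI i hi with ⟨x, hx, rfl⟩ | ⟨x, hx, rfl⟩
    · have h := (mD0 x v).1 hv
      exact ⟨h.2, x, ((hZ x).1 (hInd hx)).1, ((hZ x).1 (hInd hx)).2, mem_cutF.2 h.1.1⟩
    · have h := (mD1 x v).1 hv
      exact ⟨h.2, x, ((hZ x).1 (hCtr hx)).1, ((hZ x).1 (hCtr hx)).2,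
        mem_cutF.2 (by linarith [h.1.1, P.d0_pos])⟩
  · intro ξ hξ x hx hK
    obtain ⟨hK1, hK2⟩ := hK
    rcases hcov x ((hZ x).2 ⟨hx, hK1⟩) with h | ⟨ζ, hζ, hd⟩
    · obtain ⟨c, hc, hcξ⟩ := hξ (x, false)
        (Finset.mem_union_left _ (Finset.mem_image_of_mem _ h))
      have h1 := ((mD0 x c).1 hc).1.1
      have h2 : ⟪u c, z x⟫ ≤ s0 := (le_abs_self _).trans (hK2 c hcξ)
      linarith
    · obtain ⟨c, hc, hcξ⟩ := hξ (ζ, true)
        (Finset.mem_union_right _ (Finset.mem_image_of_mem _ hζ))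
      have h1 := ((mD1 ζ c).1 hc).1.1
      have h2 : ⟪u c, z x⟫ ≤ s0 := (le_abs_self _).trans (hK2 c hcξ)
      have h3 : ⟪u c, z ζ - z x⟫ ≤ ‖u c‖ * ‖z ζ - z x‖ := real_inner_le_norm _ _
      rw [inner_sub_right] at h3
      rw [dist_comm, dist_eq_norm] at hd
      have h4 : ‖u c‖ * ‖z ζ - z x‖ ≤ 1 * P.d0 :=
        mul_le_mul (hN.norm_le c) hd (norm_nonneg _) zero_le_one
      linarith

/-- Choose items for each good `y` (`items`, `choose`) and apply `second_moment` with `Y = Good`.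
The overlap of `y, y'` lies in `⋃_{x ∈ Z y, x' ∈ Z y'} cutF (z) s0 ∩ cutF (z') s0`; if all distances
`‖z - z'‖` are `≥ d1` its mass is `≤ M² exp (-n d1²/40)` (`mass_far1`), and `P.ovl` says the pair is
not bad.  So for a bad pair `pt δ y'` is within `d1` of one of `≤ M * N` centres determined by `y`:
at most `M N #gball d1 ≤ M N (4 d1 / rr)^n |Q| ≤ 2 M N (4 d1/rr)^n |Good| ≤ exp (-M) |Good|` choices
(`card_gball_le`, `le_card_gball`, `(d1 + δn)/(rr - δn) ≤ 4 d1 / rr`, `P.pairs`).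
The event depends only on `⋃ D ⊆ Use \ Bad`. -/
theorem region (P : Par n) (hN : IsNet P.ε u q) {X : Finset (Fin n → ℤ)} (hX : X.card ≤ P.N)
    (Bad : Finset ι) (w : Fin n → ℤ) (hw : (P.Q.card : ℝ) / 2 ≤ (P.Good u q X Bad w).card) :
    ∃ Ev : (ι → Bool) → Prop, DepOn Ev (P.Use u X w \ Bad) ∧ 1 / 4 ≤ Pr q Ev ∧
      ∀ ξ, Ev ξ → ∃ y ∈ P.Q, ∀ x ∈ X, pt P.δ (w + y - x) ∉ Kp u ξ := by
  have hq : ∀ c, 0 ≤ q c := fun c => (hN.prob c).1
  choose! I D c h1 h2 h3 h4 h5 h6 h7 using fun y => items P hN (X := X) Bad w y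
  set Y := P.Good u q X Bad w with hY
  have hYQ : Y ⊆ P.Q := Finset.filter_subset _ _
  have hrr : 0 < rr := by unfold rr; linarith [tau_pos]
  have hQ : 0 < P.Q.card := by
    refine Finset.card_pos.2 ⟨0, (mem_gball P.δ_pos).2 ?_⟩
    have : pt P.δ (0 : Fin n → ℤ) = 0 := by
      have := pt_sub P.δ (0 : Fin n → ℤ) 0
      rwa [sub_self, sub_self] at this
    rw [this, dist_self]
    exact hrr.le
  have hYne : Y.Nonempty := by
    rw [← Finset.card_pos]
    have : (0 : ℝ) < P.Q.card := by exact_mod_cast hQ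
    have : (0 : ℝ) < Y.card := by linarith
    exact_mod_cast this
  have hκ0 : 0 ≤ P.κ := by
    unfold Par.κ
    have := tau_pos
    have := P.d0_pos
    have := P.dc_pos
    positivity
  set Z : (Fin n → ℤ) → Finset (Fin n → ℤ) := fun y =>
    X.filter fun x => ‖pt P.δ (w + y - x)‖ ≤ 1 with hZ
  have hδn : 0 ≤ P.δ * n := by have := P.δ_pos; positivity
  have hd1 : 0 ≤ P.d1 := hδn.trans P.δ_d1
  -- bad pairs are close
  have hbad : ∀ y ∈ Y, ∀ y' ∈ Y,
      1 < mass q ((I y).biUnion (D y) ∩ (I y').biUnion (D y')) * Real.exp (2 * P.κ) →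
      y' ∈ (Z y ×ˢ X).biUnion fun p => gball P.δ (pt P.δ (y - p.1 + p.2)) P.d1 := by
    intro y hy y' hy' hlt
    by_contra hn
    have hfar : ∀ p ∈ Z y ×ˢ Z y', P.d1 ≤ ‖pt P.δ (w + y - p.1) - pt P.δ (w + y' - p.2)‖ := by
      intro p hp
      obtain ⟨hp1, hp2⟩ := Finset.mem_product.1 hp
      by_contra hlt'
      refine hn (Finset.mem_biUnion.2 ⟨p, Finset.mem_product.2 ⟨hp1, (Finset.mem_filter.1 hp2).1⟩,
        (mem_gball P.δ_pos).2 ?_⟩)
      rw [dist_comm, dist_eq_norm, ← pt_sub]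
      rw [← pt_sub, not_le] at hlt'
      have e : y - p.1 + p.2 - y' = w + y - p.1 - (w + y' - p.2) := by ring
      rw [e]
      exact hlt'.le
    have hsub : (I y).biUnion (D y) ∩ (I y').biUnion (D y') ⊆ (Z y ×ˢ Z y').biUnion fun p =>
        cutF u (pt P.δ (w + y - p.1)) s0 ∩ cutF u (pt P.δ (w + y' - p.2)) s0 := by
      intro v hv
      obtain ⟨hv1, hv2⟩ := Finset.mem_inter.1 hv
      obtain ⟨i, hi, hvi⟩ := Finset.mem_biUnion.1 hv1
      obtain ⟨i', hi', hvi'⟩ := Finset.mem_biUnion.1 hv2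
      obtain ⟨-, x, hx, hx1, hx2⟩ := h5 y hy i hi v hvi
      obtain ⟨-, x', hx', hx1', hx2'⟩ := h5 y' hy' i' hi' v hvi'
      exact Finset.mem_biUnion.2 ⟨(x, x'), Finset.mem_product.2
        ⟨Finset.mem_filter.2 ⟨hx, hx1⟩, Finset.mem_filter.2 ⟨hx', hx1'⟩⟩,
        Finset.mem_inter.2 ⟨hx2, hx2'⟩⟩
    have hm : mass q ((I y).biUnion (D y) ∩ (I y').biUnion (D y')) ≤
        P.M ^ 2 * Real.exp (-(n * P.d1 ^ 2 / 40)) := by
      refine (mass_mono hq hsub).trans ((mass_biUnion_le hq _ _).trans ?_)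
      refine (Finset.sum_le_card_nsmul _ _ _ fun p hp => mass_far1 P hN
        (Finset.mem_filter.1 (Finset.mem_product.1 hp).1).2
        (Finset.mem_filter.1 (Finset.mem_product.1 hp).2).2 (hfar p hp)).trans ?_
      rw [nsmul_eq_mul, Finset.card_product, Nat.cast_mul, sq P.M]
      refine mul_le_mul_of_nonneg_right ?_ (Real.exp_pos _).le
      exact mul_le_mul (h7 y hy) (h7 y' hy') (Nat.cast_nonneg _) P.M_pos.le
    have hovl := P.ovl
    have e : P.M ^ 2 * Real.exp (-(n * P.d1 ^ 2 / 40)) * Real.exp (2 * P.κ) =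
        P.M ^ 2 * Real.exp (2 * (6 + (4 / tau) * n * (P.dc + P.d0)) - n * P.d1 ^ 2 / 40) := by
      rw [mul_assoc, ← Real.exp_add]
      congr 2
      unfold Par.κ
      ring
    have := mul_le_mul_of_nonneg_right hm (Real.exp_pos (2 * P.κ)).le
    linarith
  have hcount : ∀ y ∈ Y, (((Z y ×ˢ X).biUnion fun p =>
      gball P.δ (pt P.δ (y - p.1 + p.2)) P.d1).card : ℝ) ≤ Real.exp (-P.M) * Y.card := by
    intro y hy
    have a1 : (((Z y ×ˢ X).biUnion fun p => gball P.δ (pt P.δ (y - p.1 + p.2)) P.d1).card : ℝ) ≤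
        ∑ p ∈ Z y ×ˢ X, ((gball P.δ (pt P.δ (y - p.1 + p.2)) P.d1).card : ℝ) := by
      exact_mod_cast Finset.card_biUnion_le
    refine a1.trans ((Finset.sum_le_card_nsmul _ _ _ fun p _ => card_gball_d1 P _).trans ?_)
    rw [nsmul_eq_mul, Finset.card_product, Nat.cast_mul]
    have a2 : ((Z y).card : ℝ) * X.card ≤ P.M * P.N :=
      mul_le_mul (h7 y hy) (by exact_mod_cast hX) (Nat.cast_nonneg _) P.M_pos.le
    have a3 : (0 : ℝ) ≤ (4 * P.d1 / rr) ^ n := by positivity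
    have a4 : (4 * P.d1 / rr) ^ n * (P.Q.card : ℝ) ≤ (4 * P.d1 / rr) ^ n * (2 * Y.card) :=
      mul_le_mul_of_nonneg_left (by linarith) a3
    have a5 := P.M_pos
    calc ((Z y).card : ℝ) * X.card * ((4 * P.d1 / rr) ^ n * P.Q.card)
        ≤ P.M * P.N * ((4 * P.d1 / rr) ^ n * (2 * Y.card)) :=
          mul_le_mul a2 a4 (by positivity) (by positivity)
      _ = 2 * P.M * P.N * (4 * P.d1 / rr) ^ n * Y.card := by ring
      _ ≤ Real.exp (-P.M) * Y.card := mul_le_mul_of_nonneg_right P.pairs (Nat.cast_nonneg _)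
  refine ⟨fun ξ => ∃ y ∈ Y, ∀ i ∈ I y, Hit (D y i) ξ, ?_, ?_, ?_⟩
  · have key : ∀ ξ η : ι → Bool, (∀ v ∈ P.Use u X w \ Bad, ξ v = η v) →
        (∃ y ∈ Y, ∀ i ∈ I y, Hit (D y i) ξ) → ∃ y ∈ Y, ∀ i ∈ I y, Hit (D y i) η := by
      rintro ξ η h ⟨y, hy, hh⟩
      refine ⟨y, hy, fun i hi => ?_⟩
      obtain ⟨v, hv, hvξ⟩ := hh i hi
      obtain ⟨hB, x, hx, hx1, hx2⟩ := h5 y hy i hi v hv
      refine ⟨v, hv, ?_⟩
      rw [← h v (Finset.mem_sdiff.2 ⟨Finset.mem_filter.2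
        ⟨Finset.mem_univ _, x, hx, y, hYQ hy, hx1, mem_cutF.1 hx2⟩, hB⟩)]
      exact hvξ
    intro ξ η h
    exact propext ⟨key ξ η h, key η ξ fun v hv => (h v hv).symm⟩
  · refine second_moment hN.prob Y hYne I D c hκ0 h1 h2 h3 h4 ?_
    rw [Finset.card_filter, Finset.sum_product]
    push_cast
    refine (Finset.sum_le_card_nsmul _ _ (Real.exp (-P.M) * Y.card) fun y hy => ?_).trans
      (le_of_eq ?_)
    · refine le_trans ?_ (hcount y hy)
      rw [Finset.sum_boole]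
      exact_mod_cast Finset.card_le_card fun y' hy' =>
        hbad y hy y' (Finset.mem_filter.1 hy').1 (Finset.mem_filter.1 hy').2
    · rw [nsmul_eq_mul]; ring
  · rintro ξ ⟨y, hy, hh⟩
    exact ⟨y, hYQ hy, h6 y hy ξ hh⟩

end Crest.Agent.R225
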