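import Crest.Agent.R225.LGrid

/-! Net masses of cuts; choice of a good test region. -/

set_option autoImplicit false
open MeasureTheory Finset Classical
open scoped RealInnerProductSpace

noncomputable section
namespace Crest.Agent.R225
open Crest.Agent.R43

variable {n : ℕ} {ι : Type} [Fintype ι] {u : ι → E n} {q : ι → ℝ}

theorem sel_tau : tau = 1 / 10 ^ 7 := rfl

theorem sel_n_pos (P : Par n) : (0 : ℝ) < n := by
  have := P.n_ge
  exact_mod_cast (by omega : 0 < n)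

theorem sel_n_ge (P : Par n) : (2 : ℝ) ≤ n := by exact_mod_cast P.n_ge

theorem sel_cap_pos (P : Par n) : 0 < capv n s0 :=
  capv_pos (by have := P.n_ge; omega) (by unfold s0 tau; norm_num)

theorem sel_lam_pos (P : Par n) : 0 < lam n := div_pos (by norm_num) (sel_cap_pos P)

theorem sel_lam_mul (P : Par n) : lam n * capv n s0 = 1 / 20 :=
  div_mul_cancel₀ _ (sel_cap_pos P).ne'

theorem sel_nε (P : Par n) : 2 * n * P.ε ≤ tau := by
  have h := P.ε_le
  have hn := sel_n_pos P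
  rw [le_div_iff₀ (by positivity)] at h
  linarith

theorem sel_lam_cap_le (P : Par n) {Δ : ℝ} (h0 : 0 ≤ Δ) :
    lam n * capv n (s0 - Δ) ≤ (1 + Δ / tau) ^ n / 20 := by
  calc lam n * capv n (s0 - Δ) ≤ lam n * ((1 + Δ / tau) ^ n * capv n s0) :=
        mul_le_mul_of_nonneg_left (capv_le_pow n h0) (sel_lam_pos P).le
    _ = (1 + Δ / tau) ^ n * (lam n * capv n s0) := by ring
    _ = _ := by rw [sel_lam_mul P]; ring

theorem sel_lam_cap_one (P : Par n) : lam n * capv n (s0 - P.ε) ≤ 1 := by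
  refine (sel_lam_cap_le P P.ε_pos.le).trans ?_
  have ht : 0 < tau := by rw [sel_tau]; norm_num
  have h1 : (1 + P.ε / tau) ^ n ≤ Real.exp (P.ε / tau) ^ n :=
    pow_le_pow_left₀ (by have := P.ε_pos; positivity)
      (by linarith [Real.add_one_le_exp (P.ε / tau)]) n
  have h2 : Real.exp (P.ε / tau) ^ n ≤ Real.exp 1 := by
    rw [← Real.exp_nat_mul, Real.exp_le_exp, ← mul_div_assoc, div_le_one ht]
    have := sel_nε P
    have := mul_pos (sel_n_pos P) P.ε_pos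
    linarith
  linarith [Real.exp_one_lt_d9]

theorem sel_mass_mono (hq : IsProb q) {D D' : Finset ι} (h : D ⊆ D') : mass q D ≤ mass q D' :=
  sum_le_sum_of_subset_of_nonneg h fun c _ _ => (hq c).1

theorem sel_mass_nonneg (hq : IsProb q) (D : Finset ι) : 0 ≤ mass q D :=
  sum_nonneg fun c _ => (hq c).1

theorem sel_mass_biUnion (hq : IsProb q) {α : Type} (S : Finset α) (D : α → Finset ι) :
    mass q (S.biUnion D) ≤ ∑ x ∈ S, mass q (D x) := by
  induction S using Finset.induction_on with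
  | empty => simp [mass]
  | insert a S ha ih =>
    rw [biUnion_insert, sum_insert ha]
    have h1 : mass q (D a ∪ S.biUnion D) + mass q (D a ∩ S.biUnion D) =
        mass q (D a) + mass q (S.biUnion D) := sum_union_inter
    linarith [sel_mass_nonneg hq (D a ∩ S.biUnion D)]

/-- upper bound for the mass of a cut -/
theorem sel_mass_le (P : Par n) (hN : IsNet P.ε u q) {z : E n} {ρ s t : ℝ} (hρ : 0 < ρ)
    (hρ2 : ρ ≤ 2) (hz : ‖z‖ ≤ ρ) (hs : 0 ≤ s - P.ε) (ht : t ≤ (s - P.ε) / ρ) :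
    mass q (cutF u z s) ≤ lam n * capv n t :=
  (hN.upper z s (hz.trans hρ2)).trans (mul_le_mul_of_nonneg_left
    ((vol_Cut_le hs hρ hz).trans (capv_anti n ht)) (sel_lam_pos P).le)

/-- lower bound for the mass of a cut -/
theorem sel_le_mass (P : Par n) (hN : IsNet P.ε u q) {z : E n} (hz : ‖z‖ ≤ 1)
    (hz' : 1 / 2 ≤ ‖z‖) {s t : ℝ} (hs : 0 ≤ s + P.ε) (hs1 : s + P.ε ≤ 1)
    (ht : s + P.ε + 2 * (1 - ‖z‖) ≤ t) : lam n * capv n t ≤ mass q (cutF u z s) := by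
  have hz0 : 0 < ‖z‖ := by linarith
  refine le_trans (mul_le_mul_of_nonneg_left ((capv_anti n ?_).trans
    (le_vol_Cut hs hz0 le_rfl)) (sel_lam_pos P).le) (hN.lower z s (by linarith))
  refine le_trans ?_ ht
  rw [div_le_iff₀ hz0]
  nlinarith [mul_nonneg (sub_nonneg.2 hz) (sub_nonneg.2 hs1),
    mul_nonneg (sub_nonneg.2 hz) (sub_nonneg.2 hz')]

/-- upper bound for the mass of the intersection of two cuts -/
theorem sel_mass_inter (P : Par n) (hN : IsNet P.ε u q) {z z' : E n} (hz : ‖z‖ ≤ 1)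
    (hz' : ‖z'‖ ≤ 1) {d s t : ℝ} (hd0 : 0 ≤ d) (hd1 : d ≤ 1) (hd : d ≤ ‖z - z'‖)
    (hs : 0 ≤ s - P.ε) (ht : t ≤ (s - P.ε) * (1 + d ^ 2 / 8)) :
    mass q (cutF u z s ∩ cutF u z' s) ≤ lam n * capv n t := by
  have hsub : cutF u z s ∩ cutF u z' s ⊆ cutF u ((1 / 2 : ℝ) • (z + z')) s := by
    intro c hc
    simp only [cutF, mem_inter, mem_filter, mem_univ, true_and] at hc ⊢
    rw [real_inner_smul_right, inner_add_right]
    linarith [hc.1, hc.2]
  have hn : ‖(1 / 2 : ℝ) • (z + z')‖ ≤ 2 := by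
    rw [norm_smul, Real.norm_of_nonneg (by norm_num)]
    linarith [norm_add_le z z']
  exact (sel_mass_mono hN.prob hsub).trans ((hN.upper _ s hn).trans (mul_le_mul_of_nonneg_left
    ((vol_Cut_mid hs hz hz' hd0 hd1 hd).trans (capv_anti n ht)) (sel_lam_pos P).le))

/-- `mass ≤ lam * vol (Cut z (s0 - ε)) ≤ lam * capv (s0 - ε) ≤ (1/20) (1 + ε/tau)^n ≤ e^{1/2}/20`. -/
theorem mass_cut_le_one (P : Par n) (hN : IsNet P.ε u q) {z : E n} (hz : ‖z‖ ≤ 1) {σ : ℝ}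
    (hσ : 0 ≤ σ) : mass q (cutF u z (s0 + σ)) ≤ 1 := by
  have h1 := P.small
  have h2 := P.d0_pos
  have h3 := P.dc_pos
  refine (sel_mass_le P hN one_pos one_le_two hz ?_ ?_).trans (sel_lam_cap_one P)
  · unfold s0; rw [sel_tau] at h1 ⊢; linarith
  · rw [div_one]; linarith

/-- `mass ≥ lam * capv ((s0 + σ + ε)/‖z‖) ≥ lam * capv (s0 + Δ)`, `Δ = σ + ε + 2 (1 - ‖z‖) ≤ tau/2`
(`a / ‖z‖ ≤ a + 2 (1 - ‖z‖)` for `a ≤ 1`, `‖z‖ ≥ 1/2`), `capv_ge_exp`, `2 n ε / tau ≤ 1`, `e^5 ≥ 80`. -/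
theorem mass_cut_ge (P : Par n) (hN : IsNet P.ε u q) {z : E n} (hz : ‖z‖ ≤ 1)
    (hz' : 1 - P.dc ≤ ‖z‖) {σ : ℝ} (hσ : 0 ≤ σ) (hσ' : σ ≤ P.d0) :
    4 * Real.exp (-(cst z + (4 / tau) * n * σ)) ≤ mass q (cutF u z (s0 + σ)) := by
  have h1 := P.small
  have h2 := P.d0_pos
  have h3 := P.dc_pos
  have h4 := P.ε_pos
  have ht : 0 < tau := by rw [sel_tau]; norm_num
  have ht1 : tau ≤ 1 / 2 := by rw [sel_tau]; norm_num
  set Δ : ℝ := σ + P.ε + 2 * (1 - ‖z‖) with hΔ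
  have hΔ0 : 0 ≤ Δ := by linarith
  have hΔ1 : Δ ≤ tau / 2 := by linarith
  refine le_trans ?_ (sel_le_mass P hN hz (by linarith) (t := s0 + Δ)
    (by unfold s0; linarith) (by unfold s0; linarith) (by linarith))
  have h5 : lam n * (Real.exp (-(2 * n * Δ / tau)) * capv n s0) ≤ lam n * capv n (s0 + Δ) :=
    mul_le_mul_of_nonneg_left (capv_ge_exp n hΔ0 hΔ1) (sel_lam_pos P).le
  rw [mul_left_comm, sel_lam_mul P] at h5
  refine le_trans ?_ h5
  have h6 : -(cst z + 4 / tau * n * σ) + 5 ≤ -(2 * n * Δ / tau) := by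
    have e1 : 2 * n * Δ / tau = 2 / tau * n * σ + 2 * n * P.ε / tau + 4 / tau * n * (1 - ‖z‖) := by
      rw [hΔ]; ring
    have e2 : 2 * n * P.ε / tau ≤ 1 := (div_le_one ht).2 (sel_nε P)
    have e3 : 0 ≤ 2 / tau * n * σ := by positivity
    have e4 : 4 / tau * n * σ = 2 * (2 / tau * n * σ) := by ring
    unfold cst
    linarith
  have h7 := Real.exp_le_exp.2 h6
  rw [Real.exp_add] at h7
  have h8 : 80 ≤ Real.exp 5 := by
    have h9 : Real.exp 5 = Real.exp 1 ^ 5 := by rw [← Real.exp_nat_mul]; norm_num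
    have h10 : (2.7 : ℝ) ^ 5 ≤ Real.exp 1 ^ 5 :=
      pow_le_pow_left₀ (by norm_num) (by linarith [Real.exp_one_gt_d9]) 5
    rw [h9]
    exact le_trans (by norm_num) h10
  nlinarith [Real.exp_pos (-(cst z + 4 / tau * n * σ))]

/-- `cutF z ∩ cutF z' ⊆ cutF mid`; `mass ≤ lam * capv ((s0+σ-ε)(1 + d0²/8)) ≤ lam * capv (s + d0²/20)`
with `s = s0 + σ + ε + 2 dc` (`P.sep`), `capv_L2`, and `mass (cutF z) ≥ lam * capv s`. -/
theorem mass_far (P : Par n) (hN : IsNet P.ε u q) {z z' : E n} (hz : ‖z‖ ≤ 1)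
    (hzc : 1 - P.dc ≤ ‖z‖) (hz' : ‖z'‖ ≤ 1) (hd : P.d0 ≤ ‖z - z'‖) {σ : ℝ} (hσ : 0 ≤ σ)
    (hσ' : σ ≤ P.d0) :
    mass q (cutF u z (s0 + σ) ∩ cutF u z' (s0 + σ)) ≤
      Real.exp (-(n * P.d0 ^ 2 / 80)) * mass q (cutF u z (s0 + σ)) := by
  have h1 := P.small
  have h2 := P.d0_pos
  have h3 := P.dc_pos
  have h4 := P.ε_pos
  have h5 := P.sep
  have hs0 : s0 = 1 - 1 / 10 ^ 7 := rfl
  rw [sel_tau] at h1
  set s : ℝ := s0 + σ + P.ε + 2 * P.dc with hs
  have hd2 : P.d0 ^ 2 ≤ 1 := pow_le_one₀ h2.le (by linarith)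
  have a1 := sel_mass_inter P hN hz hz' h2.le (by linarith) hd (s := s0 + σ)
    (t := s + P.d0 ^ 2 / 20) (by linarith) (by
      have : 9 / 10 * P.d0 ^ 2 ≤ (s0 + σ - P.ε) * P.d0 ^ 2 :=
        mul_le_mul_of_nonneg_right (by linarith) (sq_nonneg _)
      nlinarith [sq_nonneg P.d0])
  have a2 := capv_L2 n (s := s) (Δ := P.d0 ^ 2 / 20) (by linarith) (by positivity) (by linarith)
  have a3 := sel_le_mass P hN hz (by linarith) (s := s0 + σ) (t := s) (by linarith) (by linarith)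
    (by linarith)
  have e1 : (n : ℝ) * (P.d0 ^ 2 / 20) / 4 = n * P.d0 ^ 2 / 80 := by ring
  rw [e1] at a2
  calc _ ≤ lam n * capv n (s + P.d0 ^ 2 / 20) := a1
    _ ≤ lam n * (Real.exp (-(n * P.d0 ^ 2 / 80)) * capv n s) :=
        mul_le_mul_of_nonneg_left a2 (sel_lam_pos P).le
    _ = Real.exp (-(n * P.d0 ^ 2 / 80)) * (lam n * capv n s) := by ring
    _ ≤ _ := mul_le_mul_of_nonneg_left a3 (Real.exp_pos _).le

/-- `mass ≤ lam * capv ((s0-ε)(1 + d1²/8)) ≤ lam * capv (s0 - ε + d1²/10) ≤ exp (-n d1²/40) *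
lam * capv (s0 - ε)` and `lam * capv (s0 - ε) ≤ 1`. -/
theorem mass_far1 (P : Par n) (hN : IsNet P.ε u q) {z z' : E n} (hz : ‖z‖ ≤ 1)
    (hz' : ‖z'‖ ≤ 1) (hd : P.d1 ≤ ‖z - z'‖) :
    mass q (cutF u z s0 ∩ cutF u z' s0) ≤ Real.exp (-(n * P.d1 ^ 2 / 40)) := by
  have h1 := P.small
  have h2 := P.d0_pos
  have h3 := P.dc_pos
  have h4 := P.ε_pos
  have h5 := P.d1_le
  have h6 : 0 ≤ P.d1 := le_trans (mul_pos P.δ_pos (sel_n_pos P)).le P.δ_d1
  have hs0 : s0 = 1 - 1 / 10 ^ 7 := rfl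
  rw [sel_tau] at h1
  have hd2 : P.d1 ^ 2 ≤ 1 := pow_le_one₀ h6 (by linarith)
  have a1 := sel_mass_inter P hN hz hz' h6 (by linarith) hd (s := s0)
    (t := s0 - P.ε + P.d1 ^ 2 / 10) (by linarith) (by
      have : 9 / 10 * P.d1 ^ 2 ≤ (s0 - P.ε) * P.d1 ^ 2 :=
        mul_le_mul_of_nonneg_right (by linarith) (sq_nonneg _)
      nlinarith [sq_nonneg P.d1])
  have a2 := capv_L2 n (s := s0 - P.ε) (Δ := P.d1 ^ 2 / 10) (by linarith) (by positivity)
    (by linarith)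
  have e1 : (n : ℝ) * (P.d1 ^ 2 / 10) / 4 = n * P.d1 ^ 2 / 40 := by ring
  rw [e1] at a2
  calc _ ≤ lam n * capv n (s0 - P.ε + P.d1 ^ 2 / 10) := a1
    _ ≤ lam n * (Real.exp (-(n * P.d1 ^ 2 / 40)) * capv n (s0 - P.ε)) :=
        mul_le_mul_of_nonneg_left a2 (sel_lam_pos P).le
    _ = Real.exp (-(n * P.d1 ^ 2 / 40)) * (lam n * capv n (s0 - P.ε)) := by ring
    _ ≤ _ := mul_le_of_le_one_right (Real.exp_pos _).le (sel_lam_cap_one P)

/-- `Use ⊆ ⋃_{x ∈ X, ‖w - x‖ ≤ 1 + rr} cutF (w - x) (s0 - rr)`, each of mass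
`≤ lam * capv ((s0 - rr - ε)/(1 + rr)) ≤ lam * capv (s0 - (tau + ε)) ≤ 3^n / 20`. -/
theorem mass_use (P : Par n) (hN : IsNet P.ε u q) {X : Finset (Fin n → ℤ)} (hX : X.card ≤ P.N)
    (w : Fin n → ℤ) : mass q (P.Use u X w) ≤ P.N * 3 ^ n := by
  have h1 := P.small
  have h2 := P.d0_pos
  have h3 := P.dc_pos
  have h4 := P.ε_pos
  have hs0 : s0 = 1 - tau := rfl
  have hrr : rr = tau / 2 := rfl
  have ht : 0 < tau := by rw [sel_tau]; norm_num
  have ht1 : tau ≤ 1 / 10 := by rw [sel_tau]; norm_num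
  have hsub : P.Use u X w ⊆ (X.filter fun x => ‖pt P.δ (w - x)‖ ≤ 1 + rr).biUnion
      fun x => cutF u (pt P.δ (w - x)) (s0 - rr) := by
    intro c hc
    obtain ⟨x, hx, y, hy, a1, a2⟩ := (mem_filter.1 hc).2
    have hy' : ‖pt P.δ y‖ ≤ rr := by simpa using (mem_gball P.δ_pos).1 hy
    have e : pt P.δ (w - x) = pt P.δ (w + y - x) - pt P.δ y := by
      rw [← pt_sub]; congr 1; abel
    refine mem_biUnion.2 ⟨x, mem_filter.2 ⟨hx, ?_⟩, mem_filter.2 ⟨mem_univ _, ?_⟩⟩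
    · rw [e]; linarith [norm_sub_le (pt P.δ (w + y - x)) (pt P.δ y)]
    · rw [e, inner_sub_right]
      have b1 := real_inner_le_norm (u c) (pt P.δ y)
      have b2 : ‖u c‖ * ‖pt P.δ y‖ ≤ 1 * rr :=
        mul_le_mul (hN.norm_le c) hy' (norm_nonneg _) zero_le_one
      linarith
  have hone : ∀ x ∈ X.filter (fun x => ‖pt P.δ (w - x)‖ ≤ 1 + rr),
      mass q (cutF u (pt P.δ (w - x)) (s0 - rr)) ≤ 3 ^ n := by
    intro x hx
    have a1 := sel_mass_le P hN (ρ := 1 + rr) (s := s0 - rr) (t := s0 - (tau + P.ε))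
      (by linarith) (by linarith) (mem_filter.1 hx).2 (by linarith) (by
        rw [le_div_iff₀ (by linarith), hrr, hs0]
        nlinarith)
    have a2 := sel_lam_cap_le P (Δ := tau + P.ε) (by linarith)
    have a3 : (1 + (tau + P.ε) / tau) ^ n ≤ 3 ^ n := by
      refine pow_le_pow_left₀ (by positivity) ?_ n
      have : (tau + P.ε) / tau ≤ 2 := by rw [div_le_iff₀ ht]; linarith
      linarith
    have a4 : (0 : ℝ) < 3 ^ n := by positivity
    linarith
  refine (sel_mass_mono hN.prob hsub).trans ((sel_mass_biUnion hN.prob _ _).trans ?_)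
  refine (sum_le_card_nsmul _ _ _ hone).trans ?_
  rw [nsmul_eq_mul]
  refine mul_le_mul_of_nonneg_right ?_ (by positivity)
  exact_mod_cast (card_filter_le _ _).trans hX

theorem sel_pt_zero (δ : ℝ) : pt δ (0 : Fin n → ℤ) = 0 := by
  have := pt_sub δ (0 : Fin n → ℤ) 0
  rwa [sub_self, sub_self] at this

theorem sel_pcst_nonneg (dc : ℝ) (z : E n) : 0 ≤ pcst dc z := by
  unfold pcst cst
  have ht : 0 < tau := by rw [sel_tau]; norm_num
  refine add_nonneg ?_ (by split_ifs <;> positivity)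
  split_ifs with h
  · have := sub_nonneg.2 h
    positivity
  · exact le_rfl

theorem sel_card_small (P : Par n) (c : E n) :
    ((gball P.δ c th).card : ℝ) ≤ (4 * th) ^ n * P.W.card := by
  have hth : th = 1 / 2000 := rfl
  have h1 := P.δ_th
  have h0 := (mul_pos P.δ_pos (sel_n_pos P)).le
  have a1 := card_gball_le P.δ_pos c (R := th) (by rw [hth]; norm_num)
  have a2 := le_card_gball P.δ_pos (0 : E n) (R := 1) (by linarith)
  have a3 : (th + P.δ * n) ^ n ≤ (4 * th) ^ n * (1 - P.δ * n) ^ n := by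
    rw [← mul_pow]
    refine pow_le_pow_left₀ (by linarith) ?_ n
    rw [hth] at h1 ⊢
    linarith
  have hδn : 0 < P.δ ^ n := pow_pos P.δ_pos n
  have a4 : (0 : ℝ) ≤ (4 * th) ^ n := by rw [hth]; positivity
  refine le_of_mul_le_mul_left ?_ hδn
  calc _ ≤ (th + P.δ * n) ^ n * om n := a1
    _ ≤ (4 * th) ^ n * (1 - P.δ * n) ^ n * om n := mul_le_mul_of_nonneg_right a3 (om_pos n).le
    _ = (4 * th) ^ n * ((1 - P.δ * n) ^ n * om n) := by ring
    _ ≤ (4 * th) ^ n * (P.δ ^ n * P.W.card) := mul_le_mul_of_nonneg_left a2 a4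
    _ = _ := by ring

theorem sel_row (P : Par n) (hN : IsNet P.ε u q) (Bad : Finset ι) (y x : Fin n → ℤ) :
    ∑ w ∈ P.W, (if ‖pt P.δ (w + y - x)‖ ≤ 1 then
      mass q (cutF u (pt P.δ (w + y - x)) s0 ∩ Bad) else 0) ≤
        mass q Bad * ((4 * th) ^ n * P.W.card) := by
  have h1 : ∀ w, (if ‖pt P.δ (w + y - x)‖ ≤ 1 then
      mass q (cutF u (pt P.δ (w + y - x)) s0 ∩ Bad) else 0) =
      ∑ c ∈ Bad, q c * (if ‖pt P.δ (w + y - x)‖ ≤ 1 ∧ s0 < ⟪u c, pt P.δ (w + y - x)⟫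
        then 1 else 0) := by
    intro w
    split_ifs with h
    · simp only [h, true_and, mul_ite, mul_one, mul_zero]
      rw [← sum_filter]
      refine sum_congr ?_ fun _ _ => rfl
      ext c
      simp only [cutF, mem_inter, mem_filter, mem_univ, true_and]
      tauto
    · simp [h]
  simp only [h1]
  rw [sum_comm, mass, sum_mul]
  refine sum_le_sum fun c _ => ?_
  rw [← mul_sum, sum_boole]
  refine mul_le_mul_of_nonneg_left ?_ (hN.prob c).1
  obtain ⟨cc, hcc⟩ := zcap_subset (hN.norm_le c)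
  refine le_trans ?_ (sel_card_small P (cc - pt P.δ (y - x)))
  refine Nat.cast_le.2 (card_le_card fun w hw => (mem_gball P.δ_pos).2 ?_)
  have h2 := hcc _ (mem_filter.1 hw).2.1 (mem_filter.1 hw).2.2
  rw [add_sub_assoc, pt_add] at h2
  rw [dist_eq_norm] at h2 ⊢
  convert h2 using 2
  abel

/-- Average over `(w, y) ∈ W × Q`.  By admissibility and Markov at most a quarter of the pairs have
`tc > M`.  The average of the second quantity is
`∑_{c ∈ Bad} q c * ∑_{x ∈ X} avg_{y} avg_{w} 1[w + y - x ∈ ball (centre c) th]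
≤ mass Bad * N * max #gball th / #W ≤ T N 3^n * N * (4 th)^n ≤ exp (-κ) / 4`
(`zcap_subset`, `card_gball_le`, `le_card_gball`, `(th + δn)/(1 - δn) ≤ 4 th`, `P.bad`), so again at
most a quarter of the pairs fail.  Hence some `w` has at least half of `Q` good (`W` is nonempty). -/
theorem select (P : Par n) (hN : IsNet P.ε u q) {X : Finset (Fin n → ℤ)} (hX : P.Adm X)
    (Bad : Finset ι) (hB : mass q Bad ≤ P.T * (P.N * 3 ^ n)) :
    ∃ w ∈ P.W, (P.Q.card : ℝ) / 2 ≤ (P.Good u q X Bad w).card := by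
  have hq := hN.prob
  have hWne : P.W.Nonempty := ⟨0, (mem_gball P.δ_pos).2 (by simp [sel_pt_zero])⟩
  set f2 : (Fin n → ℤ) → (Fin n → ℤ) → ℝ := fun w y =>
    ∑ x ∈ X.filter (fun x => ‖pt P.δ (w + y - x)‖ ≤ 1),
      mass q (cutF u (pt P.δ (w + y - x)) s0 ∩ Bad) with hf2
  have hκ : 0 < Real.exp (-P.κ) := Real.exp_pos _
  have hM := P.M_pos
  have hsum2 : ∑ w ∈ P.W, ∑ y ∈ P.Q, f2 w y ≤ Real.exp (-P.κ) / 4 * P.W.card * P.Q.card := by
    rw [sum_comm]
    have h1 : ∀ y ∈ P.Q, ∑ w ∈ P.W, f2 w y ≤ Real.exp (-P.κ) / 4 * P.W.card := by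
      intro y _
      simp only [hf2, sum_filter]
      rw [sum_comm]
      refine (sum_le_card_nsmul _ _ _ fun x _ => sel_row P hN Bad y x).trans ?_
      rw [nsmul_eq_mul]
      have a1 : (X.card : ℝ) ≤ P.N := by exact_mod_cast hX.2.1
      have a2 : (0 : ℝ) ≤ (4 * th) ^ n := by unfold th; positivity
      have a3 := sel_mass_nonneg hq Bad
      calc (X.card : ℝ) * (mass q Bad * ((4 * th) ^ n * P.W.card))
          ≤ P.N * (P.T * (P.N * 3 ^ n) * ((4 * th) ^ n * P.W.card)) := by gcongr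
        _ = (P.T * (P.N : ℝ) ^ 2 * 3 ^ n * (4 * th) ^ n) * P.W.card := by ring
        _ ≤ _ := mul_le_mul_of_nonneg_right P.bad (by positivity)
    refine (sum_le_card_nsmul _ _ _ h1).trans (le_of_eq ?_)
    rw [nsmul_eq_mul]; ring
  have hrow : ∀ w, (P.Q.card : ℝ) - (P.Good u q X Bad w).card ≤
      (∑ y ∈ P.Q, P.tc X (w + y)) / P.M + (∑ y ∈ P.Q, f2 w y) / Real.exp (-P.κ) := by
    intro w
    unfold Par.Good
    rw [sum_div, sum_div, ← sum_add_distrib, card_filter, card_eq_sum_ones, Nat.cast_sum,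
      Nat.cast_sum, ← sum_sub_distrib]
    refine sum_le_sum fun y _ => ?_
    have a1 : 0 ≤ P.tc X (w + y) := sum_nonneg fun x _ => sel_pcst_nonneg _ _
    have a2 : 0 ≤ f2 w y := sum_nonneg fun x _ => sel_mass_nonneg hq _
    have a3 := div_nonneg a1 hM.le
    have a4 := div_nonneg a2 hκ.le
    split_ifs with h
    · simp only [Nat.cast_one, sub_self]; linarith
    · simp only [Nat.cast_one, Nat.cast_zero, sub_zero]
      rcases not_and_or.1 h with h | h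
      · have := (one_le_div hM).2 (not_le.1 h).le
        linarith
      · have : 1 ≤ f2 w y / Real.exp (-P.κ) := (one_le_div hκ).2 (not_le.1 h).le
        linarith
  have htot : ∑ w ∈ P.W, ((P.Q.card : ℝ) - (P.Good u q X Bad w).card) ≤
      ∑ _w ∈ P.W, (P.Q.card : ℝ) / 2 := by
    refine (sum_le_sum fun w _ => hrow w).trans ?_
    rw [sum_add_distrib, ← sum_div, ← sum_div, sum_const, nsmul_eq_mul]
    have a1 : (∑ w ∈ P.W, ∑ y ∈ P.Q, P.tc X (w + y)) / P.M ≤ P.W.card * P.Q.card / 4 := by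
      rw [div_le_iff₀ hM]; linarith [hX.2.2]
    have a2 : (∑ w ∈ P.W, ∑ y ∈ P.Q, f2 w y) / Real.exp (-P.κ) ≤ P.W.card * P.Q.card / 4 := by
      rw [div_le_iff₀ hκ]; linarith
    linarith
  obtain ⟨w, hw, h⟩ := exists_le_of_sum_le hWne htot
  exact ⟨w, hw, by linarith⟩

end Crest.Agent.R225
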