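import Crest.Agent.R225.UDefs

/-! Affine dependence modulo primes. -/

set_option autoImplicit false
open MeasureTheory Finset Classical Filter
open scoped Pointwise ENNReal

noncomputable section
namespace Crest.Agent.R225

variable {J : Type} [Fintype J]

/-- the points are affinely dependent modulo `l` -/
def DepMod (l : ℕ) {j : ℕ} (x : Fin j → J → ℤ) : Prop :=
  ∃ c : Fin j → ZMod l, c ≠ 0 ∧ ∑ k, c k = 0 ∧ ∀ i, ∑ k, c k * (x k i : ZMod l) = 0

/-- a nontrivial integral affine combination lies in `A` -/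
def IntComb (A : Finset (J → ℤ)) {j : ℕ} (x : Fin j → J → ℤ) : Prop :=
  ∃ c : Fin j → ℤ, ∑ k, c k = 1 ∧ (∀ k, c ≠ Pi.single k 1) ∧ (fun i => ∑ k, c k * x k i) ∈ A

/-- dependent, or the affine span modulo `p` contains another point of `A` -/
def BadT (p : ℕ) (A : Finset (J → ℤ)) {j : ℕ} (x : Fin j → J → ℤ) : Prop :=
  DepMod p x ∨ ∃ e ∈ A, (∀ k, e ≠ x k) ∧ DepMod p (Fin.cons e x : Fin (j + 1) → J → ℤ)

/-- Dirichlet's box principle, `Q = j B`: among `t = 0, …, Q^j` two have all `(t * c k).val` in the same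
intervals of length `l / Q`; the differences `m k` satisfy `|m k| < l / Q`, `m ≡ (t - t') c ≢ 0`, and
`∑ m k`, `∑ m k x k i` are multiples of `l` of size `< l`. -/
theorem thue {l j B : ℕ} (hl : l.Prime) (hB : 1 ≤ B) {x : Fin j → J → ℤ} (hx : ∀ k i, |x k i| ≤ B)
    (hlt : (j * B) ^ j < l) (h : DepMod l x) :
    ∃ m : Fin j → ℤ, m ≠ 0 ∧ ∑ k, m k = 0 ∧ ∀ i, ∑ k, m k * x k i = 0 := by
  obtain ⟨c, hc0, hc1, hc2⟩ := h
  have : Fact l.Prime := ⟨hl⟩
  have hl0 : 0 < l := hl.pos
  have hj : 0 < j := by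
    rcases Nat.eq_zero_or_pos j with h0 | h0
    · subst h0; exact absurd (Subsingleton.elim _ _) hc0
    · exact h0
  set Q := j * B with hQ
  have hQ0 : 0 < Q := Nat.mul_pos hj hB
  let f : Fin (Q ^ j + 1) → (Fin j → Fin Q) := fun t k =>
    ⟨(((t : ℕ) : ZMod l) * c k).val * Q / l, by
      rw [Nat.div_lt_iff_lt_mul hl0, mul_comm Q l]
      exact Nat.mul_lt_mul_of_pos_right (ZMod.val_lt _) hQ0⟩
  obtain ⟨t, t', htt, hf⟩ := Fintype.exists_ne_map_eq_of_card_lt f (by simp)
  let m : Fin j → ℤ := fun k =>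
    (((((t : ℕ) : ZMod l) * c k).val : ℕ) : ℤ) - (((((t' : ℕ) : ZMod l) * c k).val : ℕ) : ℤ)
  have hm : ∀ k, ((m k : ℤ) : ZMod l) = (((t : ℕ) : ZMod l) - ((t' : ℕ) : ZMod l)) * c k := by
    intro k; simp only [m]; push_cast; simp only [ZMod.natCast_val, ZMod.cast_id', id_eq]; ring
  have hsmall : ∀ k, |m k| * Q < l := by
    intro k
    have h1 : (((t : ℕ) : ZMod l) * c k).val * Q / l = (((t' : ℕ) : ZMod l) * c k).val * Q / l :=
      congrArg Fin.val (congrFun hf k)
    simp only [m]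
    generalize (((t : ℕ) : ZMod l) * c k).val = u at h1 ⊢
    generalize (((t' : ℕ) : ZMod l) * c k).val = v at h1 ⊢
    have e1 := Nat.div_add_mod (u * Q) l
    have e2 := Nat.div_add_mod (v * Q) l
    have e3 := Nat.mod_lt (u * Q) hl0
    have e4 := Nat.mod_lt (v * Q) hl0
    rw [h1] at e1
    have e5 : |((u : ℤ) - v)| * Q = |((u * Q : ℕ) : ℤ) - ((v * Q : ℕ) : ℤ)| := by
      push_cast
      rw [← sub_mul, abs_mul, abs_of_nonneg (by positivity : (0 : ℤ) ≤ (Q : ℤ))]
    rw [e5, abs_lt]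
    generalize u * Q = U at *
    generalize v * Q = V at *
    generalize l * (V / l) = W at *
    omega
  have hsum : (∑ k, |m k|) * B < l := by
    have h1 : ∑ k, |m k| * Q < ∑ _k : Fin j, (l : ℤ) :=
      Finset.sum_lt_sum_of_nonempty ⟨⟨0, hj⟩, Finset.mem_univ _⟩ fun k _ => hsmall k
    rw [← Finset.sum_mul] at h1
    simp only [Finset.sum_const, Finset.card_univ, Fintype.card_fin, nsmul_eq_mul, hQ] at h1
    push_cast at h1
    have hj' : (0 : ℤ) < j := by exact_mod_cast hj
    have : (j : ℤ) * ((∑ k, |m k|) * B) < j * l := by linarith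
    exact lt_of_mul_lt_mul_left this hj'.le
  have key : ∀ z : ℤ, (z : ZMod l) = 0 → |z| ≤ (∑ k, |m k|) * B → z = 0 := by
    intro z hz hz'
    rw [ZMod.intCast_zmod_eq_zero_iff_dvd] at hz
    exact Int.eq_zero_of_abs_lt_dvd hz (lt_of_le_of_lt hz' hsum)
  refine ⟨m, ?_, ?_, ?_⟩
  · intro h0
    apply hc0
    funext k
    have h1 := hm k
    rw [h0] at h1
    simp only [Pi.zero_apply, Int.cast_zero] at h1
    rcases mul_eq_zero.1 h1.symm with h2 | h2
    · exfalso
      apply htt
      have h3 := (ZMod.natCast_eq_natCast_iff' _ _ _).1 (sub_eq_zero.1 h2)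
      have h4 := t.2
      have h5 := t'.2
      rw [Nat.mod_eq_of_lt (by omega), Nat.mod_eq_of_lt (by omega)] at h3
      exact Fin.ext h3
    · exact h2
  · apply key
    · push_cast
      simp only [hm, ← Finset.mul_sum, hc1, mul_zero]
    · have h1 : |∑ k, m k| ≤ ∑ k, |m k| := Finset.abs_sum_le_sum_abs _ _
      have h2 : (0 : ℤ) ≤ ∑ k, |m k| := Finset.sum_nonneg fun k _ => abs_nonneg _
      have h3 : (1 : ℤ) ≤ B := by exact_mod_cast hB
      nlinarith
  · intro i
    apply key
    · push_cast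
      simp only [hm, mul_assoc, ← Finset.mul_sum, hc2, mul_zero]
    · refine (Finset.abs_sum_le_sum_abs _ _).trans ?_
      rw [Finset.sum_mul]
      refine Finset.sum_le_sum fun k _ => ?_
      rw [abs_mul]
      exact mul_le_mul_of_nonneg_left (hx k i) (abs_nonneg _)

omit [Fintype J] in
/-- an integral relation can be made primitive -/
theorem exists_prim {j : ℕ} {x : Fin j → J → ℤ} {m : Fin j → ℤ} (h0 : m ≠ 0) (h1 : ∑ k, m k = 0)
    (h2 : ∀ i, ∑ k, m k * x k i = 0) :
    ∃ m : Fin j → ℤ, (∀ q : ℕ, q.Prime → ∃ k, ¬ (q : ℤ) ∣ m k) ∧ ∑ k, m k = 0 ∧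
      ∀ i, ∑ k, m k * x k i = 0 := by
  have hne : (Finset.univ : Finset (Fin j)).Nonempty := by
    by_contra h
    rw [Finset.not_nonempty_iff_eq_empty] at h
    apply h0
    funext k
    have := Finset.mem_univ k
    rw [h] at this
    simp at this
  obtain ⟨g, hg, hg1⟩ := Finset.extract_gcd m hne
  have hd : Finset.univ.gcd m ≠ 0 := by
    intro h
    apply h0
    funext k
    rw [hg k (Finset.mem_univ _), h]
    simp
  refine ⟨g, ?_, ?_, ?_⟩
  · intro q hq
    by_contra h
    push Not at h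
    have h3 : (q : ℤ) ∣ Finset.univ.gcd g := Finset.dvd_gcd fun k _ => h k
    rw [hg1] at h3
    have h4 : q ∣ 1 := by exact_mod_cast h3
    exact hq.one_lt.ne' (Nat.dvd_one.1 h4)
  · apply mul_left_cancel₀ hd
    rw [Finset.mul_sum, mul_zero, ← h1]
    exact Finset.sum_congr rfl fun k hk => (hg k hk).symm
  · intro i
    apply mul_left_cancel₀ hd
    rw [Finset.mul_sum, mul_zero, ← h2 i]
    exact Finset.sum_congr rfl fun k hk => by rw [← mul_assoc, ← hg k hk]

omit [Fintype J] in
/-- an integral relation gives a dependence modulo `2` -/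
theorem depMod_two {j : ℕ} {x : Fin j → J → ℤ}
    (h : ∃ m : Fin j → ℤ, m ≠ 0 ∧ ∑ k, m k = 0 ∧ ∀ i, ∑ k, m k * x k i = 0) : DepMod 2 x := by
  obtain ⟨m, h0, h1, h2⟩ := h
  obtain ⟨m, h0, h1, h2⟩ := exists_prim h0 h1 h2
  refine ⟨fun k => (m k : ZMod 2), ?_, ?_, ?_⟩
  · intro h
    obtain ⟨k, hk⟩ := h0 2 Nat.prime_two
    exact hk ((ZMod.intCast_zmod_eq_zero_iff_dvd _ _).1 (congrFun h k))
  · have := congrArg (Int.cast : ℤ → ZMod 2) h1
    simpa using this
  · intro i
    have := congrArg (Int.cast : ℤ → ZMod 2) (h2 i)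
    simpa using this

/-- An integral dependence can be divided by its gcd, and then gives `DepMod 2`.  If
`DepMod p (cons e x)`, `thue` gives a primitive integral relation `m`; `m 0 = 0` is a dependence of `x`;
a prime `l ∣ m 0` gives `DepMod l x` (and `DepMod 2 x` by `thue` if `l` is large); `m 0 = ±1` gives
`IntComb`. -/
theorem bad_reduce {p j B : ℕ} (hp : p.Prime) (hB : 1 ≤ B) {A : Finset (J → ℤ)}
    (hA : ∀ e ∈ A, ∀ i, |e i| ≤ B) {x : Fin j → J → ℤ} (hx : ∀ k, x k ∈ A)
    (hlt : ((j + 1) * B) ^ (j + 1) < p) (h : BadT p A x) :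
    (∃ l : ℕ, l.Prime ∧ l ≤ ((j + 1) * B) ^ (j + 1) + 2 ∧ DepMod l x) ∨ IntComb A x := by
  have hxB : ∀ k i, |x k i| ≤ B := fun k i => hA _ (hx k) i
  have hle : (j * B) ^ j ≤ ((j + 1) * B) ^ (j + 1) :=
    (Nat.pow_le_pow_left (Nat.mul_le_mul_right _ (Nat.le_succ j)) j).trans
      (Nat.pow_le_pow_right (Nat.mul_pos (Nat.succ_pos j) hB) (Nat.le_succ j))
  have key : ∀ q : ℕ, q.Prime → DepMod q x →
      ∃ l : ℕ, l.Prime ∧ l ≤ ((j + 1) * B) ^ (j + 1) + 2 ∧ DepMod l x := by
    intro q hq hd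
    by_cases hq' : q ≤ ((j + 1) * B) ^ (j + 1) + 2
    · exact ⟨q, hq, hq', hd⟩
    · exact ⟨2, Nat.prime_two, by omega, depMod_two (thue hq hB hxB (by omega) hd)⟩
  rcases h with h | ⟨e, he, hex, h⟩
  · exact Or.inl (key p hp h)
  have hcB : ∀ k i, |(Fin.cons e x : Fin (j + 1) → J → ℤ) k i| ≤ B := by
    intro k i
    refine Fin.cases ?_ (fun k => ?_) k
    · exact hA e he i
    · exact hxB k i
  obtain ⟨m, h0, h1, h2⟩ := thue hp hB hcB hlt h
  obtain ⟨m, h0, h1, h2⟩ := exists_prim h0 h1 h2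
  simp only [Fin.sum_univ_succ, Fin.cons_zero, Fin.cons_succ] at h1 h2
  by_cases hm : (m 0).natAbs = 1
  · right
    have hsq : m 0 * m 0 = 1 := by
      rw [← Int.natAbs_mul_self, hm]; rfl
    have hcomb : (fun i => ∑ k, (-m 0 * m k.succ) * x k i) = e := by
      funext i
      simp only [mul_assoc, ← Finset.mul_sum]
      have := h2 i
      linear_combination (-m 0) * this + e i * hsq
    refine ⟨fun k => -m 0 * m k.succ, ?_, ?_, ?_⟩
    · rw [← Finset.mul_sum]
      linear_combination (-m 0) * h1 + hsq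
    · intro k hk
      apply hex k
      rw [← hcomb]
      funext i
      have : ∀ k', -m 0 * m k'.succ = (Pi.single k 1 : Fin j → ℤ) k' := fun k' => congrFun hk k'
      simp only [this]
      rw [Finset.sum_eq_single k]
      · simp
      · intro b _ hb; simp [hb]
      · simp
    · rw [hcomb]; exact he
  · left
    obtain ⟨q, hq, hqm⟩ := Nat.exists_prime_and_dvd hm
    have hqm' : ((m 0 : ℤ) : ZMod q) = 0 :=
      (ZMod.intCast_zmod_eq_zero_iff_dvd _ _).2 (Int.natCast_dvd.2 hqm)
    refine key q hq ⟨fun k => (m k.succ : ZMod q), ?_, ?_, ?_⟩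
    · intro h
      obtain ⟨k, hk⟩ := h0 q hq
      apply hk
      refine Fin.cases ?_ (fun k => ?_) k
      · exact Int.natCast_dvd.2 hqm
      · exact (ZMod.intCast_zmod_eq_zero_iff_dvd _ _).1 (congrFun h k)
    · have := congrArg (Int.cast : ℤ → ZMod q) h1
      simpa [hqm'] using this
    · intro i
      have := congrArg (Int.cast : ℤ → ZMod q) (h2 i)
      simpa [hqm'] using this

/-- a small set of coordinates that determines the vectors of a span -/
theorem exists_coords {K : Type} [Field K] {d : ℕ} (v : Fin d → J → K) :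
    ∃ T : Finset J, T.card ≤ d ∧ ∀ w ∈ Submodule.span K (Set.range v), (∀ i ∈ T, w i = 0) → w = 0 := by
  set W := Submodule.span K (Set.range v) with hW
  let φ : J → Module.Dual K W := fun i => (LinearMap.proj i).comp W.subtype
  obtain ⟨κ, a, ha, hsp, hli⟩ := exists_linearIndependent' K φ
  have : Finite κ := Finite.of_injective a ha
  have : Fintype κ := Fintype.ofFinite κ
  refine ⟨Finset.univ.image a, ?_, ?_⟩
  · have h1 := hli.fintype_card_le_finrank
    rw [Subspace.dual_finrank_eq] at h1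
    have h2 : Module.finrank K W ≤ d := by
      have := finrank_range_le_card (R := K) v
      simpa [Set.finrank] using this
    exact (Finset.card_image_le.trans (by simpa using h1)).trans h2
  · intro w hw h0
    funext i
    have h1 : φ i ∈ Submodule.span K (Set.range (φ ∘ a)) := by
      rw [hsp]; exact Submodule.subset_span ⟨i, rfl⟩
    have h2 : ∀ ψ ∈ Submodule.span K (Set.range (φ ∘ a)), ψ ⟨w, hw⟩ = 0 := by
      intro ψ hψ
      induction hψ using Submodule.span_induction with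
      | mem y hy =>
        obtain ⟨k, rfl⟩ := hy
        exact h0 (a k) (Finset.mem_image_of_mem _ (Finset.mem_univ _))
      | zero => rfl
      | add y z _ _ hy hz => simp [hy, hz]
      | smul c y _ hy => simp [hy]
    exact h2 _ h1

/-- Points of a box in a `d`-dimensional subspace mod `l`.  There is a set `T` of at most `d`
coordinates such that a vector of the span vanishing on `T` vanishes (a basis among the coordinate
functionals restricted to the span); `x ↦ (x|_T, ((x i + B) / l)_{i ∉ T})` is injective on `F`;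
`2B/l + 2 ≤ 2B + 1`. -/
theorem card_box_span {l d B : ℕ} [Fact l.Prime] (hB : 1 ≤ B) (hd : d ≤ Fintype.card J)
    (v : Fin d → J → ZMod l) (F : Finset (J → ℤ)) (hF : ∀ x ∈ F, ∀ i, |x i| ≤ B)
    (hs : ∀ x ∈ F, (fun i => (x i : ZMod l)) ∈ Submodule.span (ZMod l) (Set.range v)) :
    (F.card : ℝ) ≤ (2 * B + 1 : ℝ) ^ d * (2 * B / l + 2 : ℝ) ^ (Fintype.card J - d) := by
  have hl : l.Prime := Fact.out
  have hl0 : (0 : ℤ) < l := by exact_mod_cast hl.pos
  obtain ⟨T, hT, hT0⟩ := exists_coords v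
  let S : J → Finset ℤ := fun i =>
    if i ∈ T then Finset.Icc (-(B : ℤ)) B else Finset.Icc 0 ((2 * B / l : ℕ) : ℤ)
  let g : (J → ℤ) → (J → ℤ) := fun x i => if i ∈ T then x i else (x i + B) / l
  have hmaps : ∀ x ∈ F, g x ∈ Fintype.piFinset S := by
    intro x hx
    rw [Fintype.mem_piFinset]
    intro i
    have h1 := abs_le.1 (hF x hx i)
    simp only [g, S]
    split_ifs with hi
    · exact Finset.mem_Icc.2 h1
    · refine Finset.mem_Icc.2 ⟨Int.ediv_nonneg (by omega) hl0.le, ?_⟩
      push_cast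
      exact Int.ediv_le_ediv hl0 (by omega)
  have hinj : Set.InjOn g F := by
    intro x hx y hy hxy
    have h1 := hT0 _ (Submodule.sub_mem _ (hs x hx) (hs y hy)) (by
      intro i hi
      have := congrFun hxy i
      simp only [g, if_pos hi] at this
      simp [this])
    funext i
    have h2 := congrFun hxy i
    simp only [g] at h2
    split_ifs at h2 with hi
    · exact h2
    · have h3 : ((x i : ℤ) : ZMod l) - ((y i : ℤ) : ZMod l) = 0 := congrFun h1 i
      have h4 : ((x i + B : ℤ) : ZMod l) = ((y i + B : ℤ) : ZMod l) := by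
        push_cast; linear_combination h3
      have h5 := (ZMod.intCast_eq_intCast_iff' _ _ _).1 h4
      have e1 := Int.mul_ediv_add_emod (x i + B) l
      have e2 := Int.mul_ediv_add_emod (y i + B) l
      rw [h2, h5] at e1
      omega
  have hcard := Finset.card_le_card_of_injOn g hmaps hinj
  rw [Fintype.card_piFinset] at hcard
  have hS : ∀ i, (S i).card = if i ∈ T then 2 * B + 1 else 2 * B / l + 1 := by
    intro i
    simp only [S]
    split_ifs
    · rw [Int.card_Icc]; omega
    · rw [Int.card_Icc]; generalize 2 * B / l = u; omega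
  simp only [hS] at hcard
  rw [Finset.prod_ite] at hcard
  simp only [Finset.prod_const] at hcard
  have e1 : (Finset.univ.filter fun i => i ∈ T).card = T.card := by congr 1; ext; simp
  have e2 : (Finset.univ.filter fun i => ¬ i ∈ T).card = (d - T.card) + (Fintype.card J - d) := by
    have := Finset.card_filter_add_card_filter_not (s := (Finset.univ : Finset J)) (fun i => i ∈ T)
    rw [e1, Finset.card_univ] at this
    omega
  rw [e1, e2, pow_add, ← mul_assoc] at hcard
  have h1 : (2 * B + 1) ^ T.card * (2 * B / l + 1) ^ (d - T.card) ≤ (2 * B + 1) ^ d := by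
    calc _ ≤ (2 * B + 1) ^ T.card * (2 * B + 1) ^ (d - T.card) :=
          Nat.mul_le_mul_left _ (Nat.pow_le_pow_left (Nat.succ_le_succ (Nat.div_le_self _ _)) _)
      _ = _ := by rw [← pow_add]; congr 1; omega
  have h2 := hcard.trans (Nat.mul_le_mul_right _ h1)
  have h3 : (F.card : ℝ) ≤ (2 * B + 1 : ℝ) ^ d * (((2 * B / l : ℕ) : ℝ) + 1) ^ (Fintype.card J - d) := by
    exact_mod_cast h2
  refine h3.trans (mul_le_mul_of_nonneg_left (pow_le_pow_left₀ (by positivity) ?_ _) (by positivity))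
  have h4 : ((2 * B / l : ℕ) : ℝ) ≤ ((2 * B : ℕ) : ℝ) / l := Nat.cast_div_le
  push_cast at h4
  linarith

end Crest.Agent.R225
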