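import Crest.Agent.R225.UIso

/-! Lattices from homomorphisms; invariance of the statement; small dimensions. -/

set_option autoImplicit false
open MeasureTheory Finset Classical Filter
open scoped Pointwise ENNReal

noncomputable section
namespace Crest.Agent.R225

/-- `K` has a lattice covering of density at most `d` -/
def LatCov {J : Type} [Fintype J] [DecidableEq J] (K : Set (J → ℝ)) (d : ℝ) : Prop :=
  ∃ g : Matrix J J ℝ, g.det ≠ 0 ∧ (∀ x : J → ℝ, ∃ z : J → ℤ, x - g.mulVec (fun i => (z i : ℝ)) ∈ K) ∧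
    vl K / |g.det| ≤ d

variable {J : Type} [Fintype J] [DecidableEq J]

/-- `g = A⁻¹ g'`. -/
theorem LatCov.of_image {K : Set (J → ℝ)} (hK : Body K) {A : Matrix J J ℝ} (hA : A.det ≠ 0) {d : ℝ}
    (h : LatCov (A.mulVec '' K) d) : LatCov K d := by
  obtain ⟨g, hg, hc, hd⟩ := h
  have hu : IsUnit A.det := Ne.isUnit hA
  have hdet : (A⁻¹ * g).det = A.det⁻¹ * g.det := by
    rw [Matrix.det_mul, Matrix.det_nonsing_inv, Ring.inverse_eq_inv']
  refine ⟨A⁻¹ * g, ?_, fun x => ?_, ?_⟩
  · rw [hdet]
    exact mul_ne_zero (inv_ne_zero hA) hg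
  · obtain ⟨z, k, hk, hz⟩ := hc (A.mulVec x)
    refine ⟨z, ?_⟩
    have h1 := congrArg (A⁻¹).mulVec hz
    rw [Matrix.mulVec_sub, Matrix.mulVec_mulVec, Matrix.mulVec_mulVec, Matrix.mulVec_mulVec,
      Matrix.nonsing_inv_mul _ hu, Matrix.one_mulVec, Matrix.one_mulVec] at h1
    rw [← h1]
    exact hk
  · rw [(hK.image hA).2] at hd
    rw [hdet, abs_mul, abs_inv]
    refine le_trans (le_of_eq ?_) hd
    have h1 : |A.det| ≠ 0 := abs_ne_zero.2 hA
    have h2 : |g.det| ≠ 0 := abs_ne_zero.2 hg
    field_simp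

/-- reindexing along an equivalence (`Matrix.reindex`, `volume_preserving_piCongrLeft`/
`MeasurableEquiv.piCongrLeft`/`arrowCongr'`). -/
theorem latCov_reindex {J' : Type} [Fintype J'] [DecidableEq J'] (e : J ≃ J') {K : Set (J' → ℝ)}
    (hK : Body K) : Body {x : J → ℝ | (fun j => x (e.symm j)) ∈ K} ∧
      ∀ d, LatCov {x : J → ℝ | (fun j => x (e.symm j)) ∈ K} d → LatCov K d := by
  let L : (J → ℝ) ≃ₗ[ℝ] (J' → ℝ) := LinearEquiv.funCongrLeft ℝ ℝ e.symm
  let H : (J → ℝ) ≃ₜ (J' → ℝ) := L.toContinuousLinearEquiv.toHomeomorph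
  have hH : {x : J → ℝ | (fun j => x (e.symm j)) ∈ K} = H ⁻¹' K := rfl
  refine ⟨⟨?_, ?_, ?_⟩, fun d => ?_⟩
  · rw [hH]
    exact H.isCompact_preimage.2 hK.1
  · exact hK.2.1.linear_preimage L.toLinearMap
  · rw [hH, ← H.preimage_interior]
    exact hK.2.2.preimage H.surjective
  · rintro ⟨g, hg, hc, hd⟩
    have hv : vl {x : J → ℝ | (fun j => x (e.symm j)) ∈ K} = vl K := by
      have := (volume_preserving_arrowCongr' e (MeasurableEquiv.refl ℝ)
        (MeasurePreserving.id volume)).measure_preimage_equiv K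
      exact congrArg ENNReal.toReal this
    refine ⟨Matrix.reindex e e g, by rwa [Matrix.det_reindex_self], fun y => ?_, ?_⟩
    · obtain ⟨z, hz⟩ := hc fun i => y (e i)
      refine ⟨fun j => z (e.symm j), ?_⟩
      rw [Set.mem_ofPred_eq] at hz
      convert hz using 1
      rw [Matrix.reindex_apply, Matrix.submatrix_mulVec_equiv]
      funext j
      simp [Function.comp_def]
    · rwa [Matrix.det_reindex_self, ← hv]

/-- The kernel `Λ` of the surjective homomorphism `f : ℤ^J → G` has index `|G|`; a basis of `Λ` indexed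
by `J` (`Submodule.exists_smith_normal_form`/`AddSubgroup.index_eq_natAbs_det`, `basisOfFiniteIndex…`)
gives an integer matrix `B` with `|det B| = |G|` whose columns span `Λ`; `g = diagonal w * B`. -/
theorem exists_lattice {G : Type} [AddCommGroup G] [Fintype G] (f : (J → ℤ) →+ G)
    (hf : Function.Surjective f) (w : J → ℝ) (hw : ∀ i, 0 < w i) :
    ∃ g : Matrix J J ℝ, |g.det| = Fintype.card G * ∏ i, w i ∧
      ∀ v : J → ℤ, f v = 0 → ∃ z : J → ℤ, g.mulVec (fun i => (z i : ℝ)) = fun i => w i * v i := by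
  have hidx : f.ker.index = Fintype.card G := by
    rw [AddSubgroup.index_ker, AddMonoidHom.range_eq_top.2 hf, AddSubgroup.card_top,
      Nat.card_eq_fintype_card]
  have : f.ker.FiniteIndex := ⟨by rw [hidx]; exact Fintype.card_ne_zero⟩
  have hfree : Module.Free ℤ f.ker := inferInstanceAs (Module.Free ℤ f.ker.toIntSubmodule)
  have hfin : Module.Finite ℤ f.ker := inferInstanceAs (Module.Finite ℤ f.ker.toIntSubmodule)
  have hrk : Module.finrank ℤ f.ker = Fintype.card J := by
    rw [AddSubgroup.finrank_eq_of_finiteIndex, Module.finrank_fintype_fun_eq_card]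
  let b : Module.Basis J ℤ f.ker :=
    (Module.finBasisOfFinrankEq ℤ f.ker hrk).reindex (Fintype.equivFin J).symm
  have h1 := AddSubgroup.index_eq_natAbs_det (Pi.basisFun ℤ J) f.ker b
  rw [hidx, Pi.basisFun_det_apply] at h1
  set B : Matrix J J ℤ := Matrix.of fun j => (b j : J → ℤ) with hB
  refine ⟨Matrix.diagonal w * (B.transpose.map fun z => (z : ℝ)), ?_, fun v hv => ?_⟩
  · rw [Matrix.det_mul, Matrix.det_diagonal, abs_mul, abs_of_pos (prod_pos fun i _ => hw i),
      mul_comm, h1]
    congr 1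
    have := (Int.castRingHom ℝ).map_det B.transpose
    simp only [eq_intCast, RingHom.mapMatrix_apply, Int.coe_castRingHom] at this
    rw [← this, Matrix.det_transpose, Nat.cast_natAbs, Int.cast_abs]
  · refine ⟨fun j => b.repr ⟨v, hv⟩ j, ?_⟩
    funext i
    rw [← Matrix.mulVec_mulVec, Matrix.mulVec_diagonal]
    congr 1
    have h2 := congrArg (fun u : f.ker => (((u : J → ℤ) i : ℤ) : ℝ)) (b.sum_repr ⟨v, hv⟩)
    simp only [AddSubmonoidClass.coe_finsetSum, AddSubgroupClass.coe_zsmul, Finset.sum_apply,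
      Pi.smul_apply, smul_eq_mul, Int.cast_sum, Int.cast_mul] at h2
    rw [← h2]
    simp only [Matrix.mulVec, dotProduct, Matrix.map_apply, Matrix.transpose_apply, hB,
      Matrix.of_apply]
    exact sum_congr rfl fun j _ => mul_comm _ _

/-- Choose `v : Option J → K` maximising `|det (v (some i) - v none)|` (compactness; positive as `K` has
interior), `A` the matrix with these columns.  In the coordinates `A⁻¹ (x - v none)` the body lies in
`[-1,1]^n` (replace `v (some i)` by `x`, Cramer) and contains the simplex, hence the cube `[0,1/n]^n`;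
`g = (1/n) A` covers, and the density is `≤ (2n)^n`. -/
theorem latCov_small {K : Set (J → ℝ)} (hK : Body K) (hJ : 0 < Fintype.card J) :
    LatCov K ((2 * Fintype.card J : ℝ) ^ Fintype.card J) := by
  have hn : (0 : ℝ) < Fintype.card J := by exact_mod_cast hJ
  let mat : (J → ℝ) × (J → J → ℝ) → Matrix J J ℝ := fun q => Matrix.of fun i j => q.2 j i - q.1 i
  have hcont : Continuous fun q => |(mat q).det| := by
    refine Continuous.abs (Continuous.matrix_det ?_)
    refine continuous_matrix fun i j => ?_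
    simp only [mat, Matrix.of_apply]
    fun_prop
  have hcomp : IsCompact (K ×ˢ Set.univ.pi fun _ : J => K) :=
    hK.1.prod (isCompact_univ_pi fun _ => hK.1)
  obtain ⟨c, hc⟩ := hK.2.2
  have hcK : c ∈ K := interior_subset hc
  obtain ⟨⟨v₀, V⟩, ⟨hv₀, hV⟩, hmax⟩ := hcomp.exists_isMaxOn
    ⟨(c, fun _ => c), hcK, fun _ _ => hcK⟩ hcont.continuousOn
  have hV' : ∀ j, V j ∈ K := fun j => hV j (Set.mem_univ j)
  set A : Matrix J J ℝ := mat (v₀, V) with hA
  have hle : ∀ (u : J → ℝ) (U : J → J → ℝ), u ∈ K → (∀ j, U j ∈ K) →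
      |(mat (u, U)).det| ≤ |A.det| := fun u U hu hU => hmax ⟨hu, fun j _ => hU j⟩
  have hdet : A.det ≠ 0 := by
    obtain ⟨r, hr, hball⟩ := Metric.mem_nhds_iff.1 (mem_interior_iff_mem_nhds.1 hc)
    have h1 := hle c (fun j => c + Pi.single j (r / 2)) hcK fun j => hball (by
      rw [Metric.mem_ball, dist_eq_norm, add_sub_cancel_left, Pi.norm_single, Real.norm_eq_abs,
        abs_of_pos (by linarith)]
      linarith)
    have h2 : mat (c, fun j => c + Pi.single j (r / 2)) = Matrix.diagonal fun _ => r / 2 := by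
      ext i j
      by_cases hij : i = j
      · subst hij
        simp [mat]
      · simp [mat, hij]
    rw [h2, Matrix.det_diagonal] at h1
    have h3 : 0 < ∏ _i : J, r / 2 := prod_pos fun _ _ => by linarith
    exact abs_pos.1 (lt_of_lt_of_le (abs_pos.2 h3.ne') h1)
  have hu : IsUnit A.det := Ne.isUnit hdet
  have hApos : 0 < |A.det| := abs_pos.2 hdet
  have hsub : K ⊆ (fun x => -v₀ + x) ⁻¹' (A.mulVec '' Set.Icc (fun _ => -1) (fun _ => 1)) := by
    intro x hx
    refine ⟨A⁻¹.mulVec (-v₀ + x), ?_, ?_⟩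
    · have h1 : ∀ j, |A⁻¹.mulVec (-v₀ + x) j| ≤ 1 := by
        intro j
        have h2 := congrFun (Matrix.det_smul_inv_mulVec_eq_cramer A (-v₀ + x) hu) j
        rw [Matrix.cramer_apply, Pi.smul_apply, smul_eq_mul] at h2
        have h3 : A.updateCol j (-v₀ + x) = mat (v₀, Function.update V j x) := by
          ext i k
          by_cases hk : k = j
          · subst hk
            simp [mat, sub_eq_neg_add]
          · simp [mat, hA, Matrix.updateCol_ne hk, Function.update_of_ne hk]
        have h4 := hle v₀ (Function.update V j x) hv₀ fun k => by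
          by_cases hk : k = j
          · subst hk
            simpa using hx
          · rw [Function.update_of_ne hk]
            exact hV' k
        rw [← h3, ← h2, abs_mul] at h4
        exact (mul_le_iff_le_one_right hApos).1 h4
      exact ⟨fun j => (abs_le.1 (h1 j)).1, fun j => (abs_le.1 (h1 j)).2⟩
    · rw [Matrix.mulVec_mulVec, Matrix.mul_nonsing_inv _ hu, Matrix.one_mulVec]
  have hvol : vl K ≤ |A.det| * 2 ^ Fintype.card J := by
    have h1 := measure_mono (μ := volume) hsub
    have hf : A.mulVec = Matrix.toLin' A := funext fun x => (Matrix.toLin'_apply A x).symm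
    rw [measure_preimage_add, hf, Measure.addHaar_image_linearMap, LinearMap.det_toLin'] at h1
    refine (ENNReal.toReal_mono ?_ h1).trans (le_of_eq ?_)
    · exact ENNReal.mul_ne_top ENNReal.ofReal_ne_top isCompact_Icc.measure_lt_top.ne
    · rw [ENNReal.toReal_mul, ENNReal.toReal_ofReal (abs_nonneg _),
        Real.volume_Icc_pi_toReal (fun _ => by norm_num)]
      norm_num
  refine ⟨((Fintype.card J : ℝ)⁻¹) • A, ?_, fun x => ?_, ?_⟩
  · rw [Matrix.det_smul]
    exact mul_ne_zero (pow_ne_zero _ (inv_ne_zero hn.ne')) hdet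
  · set y : J → ℝ := (Fintype.card J : ℝ) • A⁻¹.mulVec (x - v₀) with hy
    refine ⟨fun i => ⌊y i⌋, ?_⟩
    have h1 : x - v₀ = ((Fintype.card J : ℝ)⁻¹ • A).mulVec y := by
      rw [hy, Matrix.smul_mulVec, Matrix.mulVec_smul, smul_smul, inv_mul_cancel₀ hn.ne', one_smul,
        Matrix.mulVec_mulVec, Matrix.mul_nonsing_inv _ hu, Matrix.one_mulVec]
    have h2 : x - ((Fintype.card J : ℝ)⁻¹ • A).mulVec (fun i => (⌊y i⌋ : ℝ)) =
        ∑ j : J, (Fintype.card J : ℝ)⁻¹ • (v₀ + Int.fract (y j) • (V j - v₀)) := by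
      rw [← smul_sum, sum_add_distrib, sum_const, card_univ, smul_add, ← Nat.cast_smul_eq_nsmul ℝ,
        smul_smul, inv_mul_cancel₀ hn.ne', one_smul, ← sub_add_cancel x v₀, h1, add_sub_right_comm,
        ← Matrix.mulVec_sub, add_comm, Matrix.smul_mulVec]
      congr 2
      funext i
      simp only [Matrix.mulVec, dotProduct, hA, mat, Matrix.of_apply, Finset.sum_apply,
        Pi.smul_apply, Pi.sub_apply, smul_eq_mul, Int.fract]
      exact sum_congr rfl fun j _ => mul_comm _ _
    rw [h2]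
    refine hK.2.1.sum_mem (fun _ _ => (inv_pos.2 hn).le) ?_ fun j _ => ?_
    · rw [sum_const, card_univ, nsmul_eq_mul, mul_inv_cancel₀ hn.ne']
    · exact hK.2.1.add_smul_sub_mem hv₀ (hV' j) ⟨Int.fract_nonneg _, (Int.fract_lt_one _).le⟩
  · rw [Matrix.det_smul, abs_mul, abs_of_pos (pow_pos (inv_pos.2 hn) _), div_le_iff₀ (by positivity)]
    refine hvol.trans (le_of_eq ?_)
    rw [mul_pow, inv_pow]
    field_simp

end Crest.Agent.R225
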