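import Crest.Agent.R225.UTail

set_option autoImplicit false
open MeasureTheory Finset Classical Filter
open scoped Pointwise ENNReal

noncomputable section
namespace Crest.Agent.R225

variable {J : Type} [Fintype J]

omit [Fintype J] in
theorem USec_cont {ι : Type} (t : ι → ℝ) : Continuous fun y : J → ℝ => (Sum.elim y t : J ⊕ ι → ℝ) := by
  refine continuous_pi fun i => ?_
  rcases i with i | i
  · exact continuous_apply i
  · exact continuous_const

omit [Fintype J] in
theorem USec_compact {ι : Type} {K : Set (J ⊕ ι → ℝ)} (h1 : IsCompact K) (t : ι → ℝ) :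
    IsCompact (sec K t) := by
  have hc : Continuous fun (x : J ⊕ ι → ℝ) (i : J) => x (Sum.inl i) := by fun_prop
  refine (h1.image hc).of_isClosed_subset (h1.isClosed.preimage (USec_cont t)) fun y hy => ?_
  exact ⟨Sum.elim y t, hy, rfl⟩

omit [Fintype J] in
theorem USec_comb {ι : Type} (a b : ℝ) (x y : J → ℝ) (s t : ι → ℝ) :
    (Sum.elim (a • x + b • y) (a • s + b • t) : J ⊕ ι → ℝ) =
      a • Sum.elim x s + b • Sum.elim y t := by
  funext i
  rcases i with i | i <;> rfl

/-- a closed set stable under midpoints is convex -/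
theorem USec_convex_of_mid {E : Type} [AddCommGroup E] [Module ℝ E] [TopologicalSpace E]
    [ContinuousAdd E] [ContinuousSMul ℝ E] {S : Set E} (hS : IsClosed S)
    (h : ∀ x ∈ S, ∀ y ∈ S, (1 / 2 : ℝ) • x + (1 / 2 : ℝ) • y ∈ S) : Convex ℝ S := by
  intro x hx y hy a b ha hb hab
  obtain rfl : a = 1 - b := by linarith
  by_contra hcon
  let f : ℝ → E := fun r => (1 - r) • x + r • y
  have hf : Continuous f := by fun_prop
  have hT : IsClosed (f ⁻¹' S) := hS.preimage hf
  have h0 : (0 : ℝ) ∈ f ⁻¹' S := by simpa [f] using hx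
  have h1 : (1 : ℝ) ∈ f ⁻¹' S := by simpa [f] using hy
  obtain ⟨p, hp, hp'⟩ := (isCompact_Icc.inter_left hT : IsCompact (f ⁻¹' S ∩ Set.Icc 0 b)).exists_isGreatest
    ⟨0, h0, le_rfl, hb⟩
  obtain ⟨q, hq, hq'⟩ := (isCompact_Icc.inter_left hT : IsCompact (f ⁻¹' S ∩ Set.Icc b 1)).exists_isLeast
    ⟨1, h1, by linarith, le_rfl⟩
  have hpb : p < b := lt_of_le_of_ne hp.2.2 fun e => hcon (by subst e; exact hp.1)
  have hqb : b < q := lt_of_le_of_ne hq.2.1 fun e => hcon (by subst e; exact hq.1)
  have hm : (p + q) / 2 ∈ f ⁻¹' S := by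
    have := h _ hp.1 _ hq.1
    have e : f ((p + q) / 2) = (1 / 2 : ℝ) • f p + (1 / 2 : ℝ) • f q := by
      simp only [f]
      module
    rw [Set.mem_preimage, e]
    exact this
  rcases le_total ((p + q) / 2) b with hle | hle
  · have := hp' ⟨hm, by linarith [hp.2.1], hle⟩
    linarith
  · have := hq' ⟨hm, hle, by linarith [hq.2.2]⟩
    linarith

/-- upper semicontinuity of the volume of sections -/
theorem USec_closed {ι : Type} {K : Set (J ⊕ ι → ℝ)} (h1 : IsCompact K) (v : ℝ) :
    IsClosed {t : ι → ℝ | v ≤ vl (sec K t)} := by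
  rw [← isOpen_compl_iff, isOpen_iff_forall_mem_open]
  intro t ht
  have ht' : vl (sec K t) < v := not_le.1 ht
  have hlt : volume (sec K t) < ENNReal.ofReal v := by
    rw [← ENNReal.ofReal_toReal (USec_compact h1 t).measure_lt_top.ne]
    exact (ENNReal.ofReal_lt_ofReal_iff_of_nonneg ENNReal.toReal_nonneg).2 ht'
  obtain ⟨U, hU1, hU2, hU3⟩ := Set.exists_isOpen_lt_of_lt _ _ hlt
  have hc : Continuous fun (x : J ⊕ ι → ℝ) (i : J) => x (Sum.inl i) := by fun_prop
  have hc' : Continuous fun (x : J ⊕ ι → ℝ) (i : ι) => x (Sum.inr i) := by fun_prop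
  have hK : IsCompact (K \ (fun (x : J ⊕ ι → ℝ) (i : J) => x (Sum.inl i)) ⁻¹' U) :=
    h1.diff (hU2.preimage hc)
  refine ⟨_, fun s hs => ?_, (hK.image hc').isClosed.isOpen_compl, ?_⟩
  · have hsub : sec K s ⊆ U := fun y hy => by
      by_contra hyU
      exact hs ⟨Sum.elim y s, ⟨hy, hyU⟩, rfl⟩
    have h2 : volume (sec K s) < ENNReal.ofReal v := (measure_mono hsub).trans_lt hU3
    exact not_le.2 (ENNReal.toReal_lt_of_lt_ofReal h2)
  · rintro ⟨x, ⟨hx1, hx2⟩, rfl⟩
    refine hx2 (hU1 ?_)
    have e : (Sum.elim (fun i => x (Sum.inl i)) (fun i => x (Sum.inr i)) : J ⊕ ι → ℝ) = x := by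
      funext i
      rcases i with i | i <;> rfl
    change Sum.elim (fun i => x (Sum.inl i)) (fun i => x (Sum.inr i)) ∈ K
    rwa [e]

/-- Sections of a compact convex set are quasi-concave in volume.  Midpoints: `bm_mid`; dyadic `λ` by
induction; for general `λ` and dyadic `λ'` close to it, `sec K t_λ ⊇ (1-θ) sec K t_λ' + θ y` for a point
`y` of one of the end sections, with `θ → 0`, so the volume is `≥ (1-θ)^N v`. -/
theorem convex_sec_ge {ι : Type} [Fintype ι] {K : Set (J ⊕ ι → ℝ)} (h1 : IsCompact K)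
    (h2 : Convex ℝ K) {v : ℝ} (hv : 0 < v) : Convex ℝ {t : ι → ℝ | v ≤ vl (sec K t)} := by
  refine USec_convex_of_mid (USec_closed h1 v) fun s hs t ht => ?_
  have hm := fun t => (USec_compact h1 t).measurableSet
  have hf := fun t => (USec_compact h1 t).measure_lt_top (μ := volume).ne
  have h := bm_mid (hm s) (hm t) (hm ((1 / 2 : ℝ) • s + (1 / 2 : ℝ) • t)) fun x hx y hy => by
    change Sum.elim _ _ ∈ K
    rw [USec_comb]
    exact h2 hx hy (by norm_num) (by norm_num) (by norm_num)
  have h3 := ENNReal.toReal_mono (ENNReal.pow_ne_top (hf _)) h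
  rw [ENNReal.toReal_mul, ENNReal.toReal_pow] at h3
  have h4 : v * v ≤ vl (sec K s) * vl (sec K t) := mul_le_mul hs ht hv.le (hv.le.trans hs)
  change v ≤ vl _
  refine le_of_sq_le_sq ?_ ENNReal.toReal_nonneg
  rw [sq]
  exact h4.trans h3

/-- a convex set with a point in each closed orthant around `x` contains `x` (induction on a finite set
of coordinates on which the points already agree with `x`). -/
theorem mem_of_orthants {ι : Type} [Fintype ι] {S : Set (ι → ℝ)} (hS : Convex ℝ S) (x : ι → ℝ)
    (h : ∀ σ : ι → Bool, ∃ a ∈ S, ∀ i, if σ i then x i ≤ a i else a i ≤ x i) : x ∈ S := by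
  have key : ∀ F : Finset ι, ∀ σ : ι → Bool, ∃ a ∈ S,
      (∀ i, if σ i then x i ≤ a i else a i ≤ x i) ∧ ∀ i ∈ F, a i = x i := by
    intro F
    induction F using Finset.induction_on with
    | empty =>
      intro σ
      obtain ⟨a, ha, ha'⟩ := h σ
      exact ⟨a, ha, ha', by simp⟩
    | insert j F hj ih =>
      intro σ
      obtain ⟨a, ha, ha1, ha2⟩ := ih (Function.update σ j false)
      obtain ⟨b, hb, hb1, hb2⟩ := ih (Function.update σ j true)
      have haj : a j ≤ x j := by simpa using ha1 j
      have hbj : x j ≤ b j := by simpa using hb1 j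
      obtain ⟨s, t, hs, ht, hst, e⟩ := (Convex.mem_Icc (haj.trans hbj)).1 ⟨haj, hbj⟩
      have hx : ∀ i, x i = s * x i + t * x i := fun i => by rw [← add_mul, hst, one_mul]
      refine ⟨s • a + t • b, hS ha hb hs ht hst, fun i => ?_, fun i hi => ?_⟩
      · change if σ i then x i ≤ s * a i + t * b i else s * a i + t * b i ≤ x i
        by_cases hij : i = j
        · subst hij
          rw [e]
          split_ifs <;> exact le_rfl
        · have h1 := ha1 i
          have h2 := hb1 i
          rw [Function.update_of_ne hij] at h1 h2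
          split_ifs at h1 h2 ⊢
          · rw [hx i]
            gcongr
          · rw [hx i]
            gcongr
      · change s * a i + t * b i = x i
        rcases Finset.mem_insert.1 hi with rfl | hi
        · exact e
        · rw [ha2 i hi, hb2 i hi, ← hx i]
  obtain ⟨a, ha, -, ha'⟩ := key Finset.univ fun _ => true
  have : a = x := funext fun i => ha' i (Finset.mem_univ i)
  rwa [← this]

theorem sec_props {ι : Type} [Fintype ι] {K : Set (J ⊕ ι → ℝ)} (h1 : IsCompact K) (h2 : Convex ℝ K)
    (t : ι → ℝ) : IsCompact (sec K t) ∧ Convex ℝ (sec K t) := by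
  refine ⟨USec_compact h1 t, fun x hx y hy a b ha hb hab => ?_⟩
  have e : t = a • t + b • t := by rw [← add_smul, hab, one_smul]
  change Sum.elim _ t ∈ K
  rw [e, USec_comb]
  exact h2 hx hy ha hb hab

/-- Fubini for `J ⊕ ι → ℝ` (`MeasurableEquiv.sumPiEquivProdPi`, volume preserving). -/
theorem vl_inter_eq_integral {ι : Type} [Fintype ι] {K : Set (J ⊕ ι → ℝ)} (h1 : IsCompact K)
    {B : Set (ι → ℝ)} (hB : MeasurableSet B) :
    vl (K ∩ {x | (fun i => x (Sum.inr i)) ∈ B}) = ∫ t in B, vl (sec K t) ∧
      Integrable (fun t => vl (sec K t)) := by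
  have hmp := volume_measurePreserving_sumPiEquivProdPi_symm (fun _ : J ⊕ ι => ℝ)
  set e := (MeasurableEquiv.sumPiEquivProdPi (fun _ : J ⊕ ι => ℝ)).symm with he
  have hee : ∀ y t, e (y, t) = Sum.elim y t := fun y t => by
    funext i
    rcases i with i | i <;> rfl
  have hK := h1.measurableSet
  have hmeas : Measurable fun t : ι → ℝ => volume (sec K t) := by
    have := measurable_measure_prodMk_right (μ := (volume : Measure (J → ℝ))) (e.measurable hK)
    simp only [Set.preimage_preimage, hee] at this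
    exact this
  have key : ∀ {B : Set (ι → ℝ)}, MeasurableSet B →
      volume (K ∩ {x | (fun i => x (Sum.inr i)) ∈ B}) = ∫⁻ t in B, volume (sec K t) := by
    intro B hB
    have hc' : Measurable fun (x : J ⊕ ι → ℝ) (i : ι) => x (Sum.inr i) := by fun_prop
    have hm : MeasurableSet (K ∩ {x | (fun i => x (Sum.inr i)) ∈ B}) := hK.inter (hc' hB)
    rw [← hmp.measure_preimage hm.nullMeasurableSet, Measure.volume_eq_prod,
      Measure.prod_apply_symm (e.measurable hm), ← lintegral_indicator hB]
    refine lintegral_congr fun t => ?_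
    by_cases ht : t ∈ B
    · rw [Set.indicator_of_mem ht]
      congr 1
      ext y
      simp only [Set.mem_preimage, hee, Set.mem_inter_iff]
      exact ⟨fun h => h.1, fun h => ⟨h, ht⟩⟩
    · rw [Set.indicator_of_notMem ht]
      convert measure_empty (μ := (volume : Measure (J → ℝ)))
      ext y
      simp only [Set.mem_preimage, hee, Set.mem_inter_iff]
      exact ⟨fun h => ht h.2, fun h => h.elim⟩
  constructor
  · rw [vl, key hB, ← integral_toReal hmeas.aemeasurable
      (Eventually.of_forall fun t => (USec_compact h1 t).measure_lt_top)]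
    rfl
  · refine integrable_toReal_of_lintegral_ne_top hmeas.aemeasurable ?_
    have := key MeasurableSet.univ
    rw [Measure.restrict_univ] at this
    rw [← this]
    exact ((measure_mono Set.inter_subset_left).trans_lt h1.measure_lt_top).ne

end Crest.Agent.R225
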