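import Crest.Agent.R225.UDefs

/-! One-dimensional Gaussian facts for a level; typical sets; hashing. -/

set_option autoImplicit false
open MeasureTheory Finset Classical

noncomputable section
namespace Crest.Agent.R225

theorem phi_pos (x : ℝ) : 0 < phi x := by
  unfold phi
  positivity

/-- `phi` is even and decreasing in `|x|`. -/
theorem phi_anti {x y : ℝ} (h : |x| ≤ |y|) : phi y ≤ phi x := by
  unfold phi
  refine div_le_div_of_nonneg_right (Real.exp_le_exp.2 ?_) (Real.sqrt_nonneg _)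
  have := sq_le_sq.2 h
  linarith

/-- on the cell `[b c, b (c+1)]` the density is at least `wc b c / b`. -/
theorem wc_le {b : ℝ} (hb : 0 < b) (c : ℤ) {u : ℝ} (h0 : 0 ≤ u) (h1 : u ≤ 1) :
    wc b c ≤ b * phi (b * (c + u)) := by
  unfold wc
  refine mul_le_mul_of_nonneg_left (phi_anti ?_) hb.le
  rw [abs_mul, abs_mul]
  refine mul_le_mul_of_nonneg_left ?_ (abs_nonneg _)
  refine le_trans ?_ (le_abs_self _)
  rw [abs_le]
  constructor
  · have := neg_abs_le (c : ℝ)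
    have := le_max_left |(c : ℝ)| |(c : ℝ) + 1|
    linarith
  · have := le_abs_self ((c : ℝ) + 1)
    have := le_max_right |(c : ℝ)| |(c : ℝ) + 1|
    linarith

theorem UVAna_sqrt_bounds : 2 ≤ Real.sqrt (2 * Real.pi) ∧ Real.sqrt (2 * Real.pi) ≤ 3 := by
  constructor
  · exact Real.le_sqrt_of_sq_le (by linarith [Real.pi_gt_three])
  · exact Real.sqrt_le_iff.2 ⟨by norm_num, by linarith [Real.pi_lt_four]⟩

theorem UVAna_phi_le (x : ℝ) : phi x ≤ Real.exp (-(x ^ 2 / 2)) / 2 :=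
  div_le_div_of_nonneg_left (Real.exp_pos _).le two_pos UVAna_sqrt_bounds.1

theorem UVAna_le_phi (x : ℝ) : Real.exp (-(x ^ 2 / 2)) / 3 ≤ phi x :=
  div_le_div_of_nonneg_left (Real.exp_pos _).le (by linarith [UVAna_sqrt_bounds.1])
    UVAna_sqrt_bounds.2

theorem UVAna_phi_le_half (x : ℝ) : phi x ≤ 1 / 2 := by
  refine (UVAna_phi_le x).trans (div_le_div_of_nonneg_right ?_ zero_le_two)
  exact Real.exp_le_one_iff.2 (by have := sq_nonneg x; linarith)

theorem UVAna_phi_eq : phi = fun x => Real.exp (-(1 / 2) * x ^ 2) / Real.sqrt (2 * Real.pi) := by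
  funext x
  unfold phi
  congr 2
  ring

theorem UVAna_integrable : Integrable phi := by
  rw [UVAna_phi_eq]
  exact (integrable_exp_neg_mul_sq (by norm_num : (0 : ℝ) < 1 / 2)).div_const _

theorem UVAna_integral_Ioi : ∫ x in Set.Ioi (0 : ℝ), phi x = 1 / 2 := by
  rw [UVAna_phi_eq, integral_div, integral_gaussian_Ioi,
    show Real.pi / (1 / 2) = 2 * Real.pi by ring]
  have : Real.sqrt (2 * Real.pi) ≠ 0 := by linarith [UVAna_sqrt_bounds.1]
  field_simp

theorem UVAna_tail {η : ℝ} (hη : 1 ≤ η) : ∫ x in Set.Ioi η, phi x ≤ phi η := by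
  have hd : ∀ x ∈ Set.Ici η, HasDerivAt (fun x => -phi x) (x * phi x) x := by
    intro x _
    have h1 : HasDerivAt (fun x : ℝ => -(x ^ 2 / 2)) (-x) x :=
      (((hasDerivAt_pow 2 x).div_const 2).fun_neg).congr_deriv (by simp)
    exact ((h1.exp.div_const (Real.sqrt (2 * Real.pi))).fun_neg).congr_deriv (by unfold phi; ring)
  have hl : Filter.Tendsto (fun x => -phi x) Filter.atTop (nhds 0) := by
    have h1 : Filter.Tendsto (fun x : ℝ => -(x ^ 2 / 2)) Filter.atTop Filter.atBot :=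
      Filter.tendsto_neg_atTop_atBot.comp
        ((Filter.tendsto_pow_atTop two_ne_zero).atTop_div_const two_pos)
    have h2 := ((Real.tendsto_exp_atBot.comp h1).div_const (Real.sqrt (2 * Real.pi))).neg
    simpa [phi] using h2
  have hi : IntegrableOn (fun x => x * phi x) (Set.Ioi η) :=
    integrableOn_Ioi_deriv_of_nonneg' hd (fun x hx => by
      have : η < x := hx
      exact mul_nonneg (by linarith) (phi_pos x).le) hl
  have hv := integral_Ioi_of_hasDerivAt_of_tendsto' hd hi hl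
  rw [zero_sub, neg_neg] at hv
  rw [← hv]
  refine setIntegral_mono_on UVAna_integrable.integrableOn hi measurableSet_Ioi fun x hx => ?_
  have : η < x := hx
  exact le_mul_of_one_le_left (phi_pos x).le (by linarith)

theorem UVAna_sum {b : ℝ} (hb : 0 < b) (p : ℕ) (hη : 1 ≤ b * p) :
    ∑ s ∈ range p, b * phi (b * (s + 1)) ≤ 1 / 2 ∧
      1 / 2 - phi (b * p) - b / 2 ≤ ∑ s ∈ range p, b * phi (b * (s + 1)) := by
  have hanti : AntitoneOn (fun x : ℝ => phi (b * x)) (Set.Icc 0 (0 + (p : ℝ))) := by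
    intro x hx y hy hxy
    refine phi_anti ?_
    rw [abs_of_nonneg (mul_nonneg hb.le hx.1), abs_of_nonneg (mul_nonneg hb.le hy.1)]
    exact mul_le_mul_of_nonneg_left hxy hb.le
  have h1 := mul_le_mul_of_nonneg_left hanti.sum_le_integral hb.le
  have h2 := mul_le_mul_of_nonneg_left hanti.integral_le_sum hb.le
  rw [intervalIntegral.mul_integral_comp_mul_left] at h1 h2
  simp only [zero_add, mul_zero, Nat.cast_add, Nat.cast_one] at h1 h2
  have h3 := intervalIntegral.integral_interval_add_Ioi (a := 0) (b := b * p)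
    UVAna_integrable.integrableOn UVAna_integrable.integrableOn
  rw [UVAna_integral_Ioi] at h3
  have h4 := UVAna_tail hη
  have h5 : 0 ≤ ∫ x in Set.Ioi (b * p), phi x :=
    setIntegral_nonneg measurableSet_Ioi fun x _ => (phi_pos x).le
  have h6 : ∑ s ∈ range p, phi (b * (s + 1)) + phi (b * 0) =
      ∑ s ∈ range p, phi (b * s) + phi (b * p) := by
    have := Finset.sum_range_succ' (fun s : ℕ => phi (b * s)) p
    rw [Finset.sum_range_succ] at this
    simpa using this.symm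
  have h7 := UVAna_phi_le_half (b * 0)
  have h8 := (phi_pos (b * p)).le
  have h9 : ∑ s ∈ range p, phi (b * s) - 1 / 2 ≤ ∑ s ∈ range p, phi (b * (s + 1)) := by linarith
  have h10 := mul_le_mul_of_nonneg_left h9 hb.le
  rw [← Finset.mul_sum]
  constructor <;> linarith

theorem UVAna_wc1 (b : ℝ) (s : ℕ) : wc b (s : ℕ) = b * phi (b * (s + 1)) := by
  have h0 : (0 : ℝ) ≤ s := Nat.cast_nonneg s
  unfold wc
  rw [Int.cast_natCast, abs_of_nonneg h0, abs_of_nonneg (by linarith), max_eq_right (by linarith)]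

theorem UVAna_wc2 (b : ℝ) {s p : ℕ} (h : s < p) :
    wc b (((s : ℕ) : ℤ) - p) = b * phi (b * (p - s)) := by
  have h0 : (s : ℝ) + 1 ≤ p := by exact_mod_cast h
  unfold wc
  rw [Int.cast_sub, Int.cast_natCast, Int.cast_natCast, abs_of_nonpos (by linarith),
    abs_of_nonpos (by linarith), max_eq_left (by linarith), neg_sub]

theorem UVAna_sum_P1 (b : ℝ) (p : ℕ) :
    ∑ s : Fin p, P1 b p (s : ℕ) = 2 * ∑ s ∈ range p, b * phi (b * (s + 1)) := by
  rw [Fin.sum_univ_eq_sum_range (fun s : ℕ => P1 b p s), two_mul]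
  conv_rhs => arg 2; rw [← Finset.sum_range_reflect]
  rw [← Finset.sum_add_distrib]
  refine Finset.sum_congr rfl fun s hs => ?_
  have hs' := Finset.mem_range.1 hs
  rw [P1, UVAna_wc1, UVAna_wc2 b hs']
  congr 3
  rw [show p - 1 - s = p - (s + 1) by omega, Nat.cast_sub hs']
  push_cast
  ring

theorem UVAna_mid {b η : ℝ} {p : ℕ} (hb : 0 < b) (hη : 1 ≤ η) (hbp : b * p = η)
    (hp : 8 * η ^ 2 ≤ p) :
    Real.exp (-(η ^ 2 / 8)) / (24 * η) ≤ ∑ s ∈ univ.filter (fun s : Fin p =>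
      max (wc b (s : ℕ)) (wc b (((s : ℕ) : ℤ) - p)) ≤ 2 / 3 * P1 b p (s : ℕ)), P1 b p (s : ℕ) := by
  have hη0 : 0 < η := by linarith
  have hη2 : 1 ≤ η ^ 2 := one_le_pow₀ hη
  have hp8 : (8 : ℝ) ≤ p := by linarith
  have hp0 : (0 : ℝ) < p := by linarith
  set k : ℕ := ⌊(p : ℝ) / (4 * η ^ 2)⌋₊ with hk
  set m : ℕ := (p + 1) / 2 with hm
  have hk1 : (k : ℝ) ≤ p / (4 * η ^ 2) := Nat.floor_le (by positivity)
  have hk2 : (p : ℝ) / (8 * η ^ 2) ≤ k := by
    have h1 := Nat.lt_floor_add_one ((p : ℝ) / (4 * η ^ 2))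
    have h2 : 1 ≤ (p : ℝ) / (8 * η ^ 2) := (one_le_div (by positivity)).2 hp
    have h3 : (p : ℝ) / (4 * η ^ 2) = 2 * (p / (8 * η ^ 2)) := by field_simp; ring
    linarith
  have hk3 : 4 * η ^ 2 * k ≤ p := by rwa [le_div_iff₀ (by positivity), mul_comm] at hk1
  have hk4 : 4 * k ≤ p := by
    have : (4 : ℝ) * k ≤ p := le_trans (by nlinarith [Nat.cast_nonneg (α := ℝ) k]) hk3
    exact_mod_cast this
  have hp8' : 8 ≤ p := by exact_mod_cast hp8
  rw [Finset.sum_filter, Fin.sum_univ_eq_sum_range (fun s : ℕ =>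
    if max (wc b (s : ℕ)) (wc b (((s : ℕ) : ℤ) - p)) ≤ 2 / 3 * P1 b p (s : ℕ) then
      P1 b p (s : ℕ) else 0)]
  have hsub : Finset.Ico m (m + k) ⊆ range p := fun s hs => by
    have := Finset.mem_Ico.1 hs
    exact Finset.mem_range.2 (by omega)
  refine le_trans ?_ (Finset.sum_le_sum_of_subset_of_nonneg hsub fun s hs _ => ?_)
  swap
  · split_ifs
    · rw [P1, UVAna_wc1, UVAna_wc2 b (Finset.mem_range.1 hs)]
      exact add_nonneg (mul_pos hb (phi_pos _)).le (mul_pos hb (phi_pos _)).le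
    · exact le_rfl
  have hterm : ∀ s ∈ Finset.Ico m (m + k), b * (Real.exp (-(η ^ 2 / 8)) / 3) ≤
      if max (wc b (s : ℕ)) (wc b (((s : ℕ) : ℤ) - p)) ≤ 2 / 3 * P1 b p (s : ℕ) then
        P1 b p (s : ℕ) else 0 := by
    intro s hs
    have hsp := Finset.mem_range.1 (hsub hs)
    obtain ⟨hs1, hs2⟩ := Finset.mem_Ico.1 hs
    have e1 : (p : ℝ) ≤ 2 * s := by exact_mod_cast (by omega : p ≤ 2 * s)
    have e2 : (2 * s + 1 : ℝ) ≤ p + 2 * k := by exact_mod_cast (by omega : 2 * s + 1 ≤ p + 2 * k)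
    have e3 : (s : ℝ) + 1 ≤ p := by exact_mod_cast hsp
    have hw1 := mul_pos hb (phi_pos (b * (s + 1)))
    have h12 : phi (b * (s + 1)) ≤ phi (b * (p - s)) := by
      refine phi_anti ?_
      rw [abs_of_nonneg (mul_nonneg hb.le (by linarith)),
        abs_of_nonneg (mul_nonneg hb.le (by linarith))]
      exact mul_le_mul_of_nonneg_left (by linarith) hb.le
    have h21 : phi (b * (p - s)) ≤ 2 * phi (b * (s + 1)) := by
      have f1 : (b * (s + 1)) ^ 2 - (b * (p - s)) ^ 2 = b ^ 2 * (p + 1) * (2 * s + 1 - p) := by ring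
      have f2 : b ^ 2 * (p + 1) * (2 * s + 1 - p) ≤ b ^ 2 * (2 * p) * (2 * k) :=
        mul_le_mul (mul_le_mul_of_nonneg_left (by linarith) (sq_nonneg b)) (by linarith)
          (by linarith) (by positivity)
      have f3 : b ^ 2 * (2 * p) * (2 * k) * p = 4 * η ^ 2 * k := by rw [← hbp]; ring
      have f4 : b ^ 2 * (2 * p) * (2 * k) ≤ 1 := by
        refine le_of_mul_le_mul_right ?_ hp0
        rw [f3, one_mul]
        exact hk3
      have f5 : Real.exp (1 / 2) ≤ 2 := by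
        have := Real.exp_one_lt_d9
        have h2 : Real.exp (1 / 2) ^ 2 = Real.exp 1 := by rw [← Real.exp_nat_mul]; norm_num
        nlinarith [Real.exp_pos (1 / 2)]
      unfold phi
      rw [← mul_div_assoc]
      refine div_le_div_of_nonneg_right ?_ (Real.sqrt_nonneg _)
      calc Real.exp (-((b * (p - s)) ^ 2 / 2))
          ≤ Real.exp (1 / 2 + -((b * (s + 1)) ^ 2 / 2)) := Real.exp_le_exp.2 (by linarith)
        _ ≤ _ := by
          rw [Real.exp_add]
          exact mul_le_mul_of_nonneg_right f5 (Real.exp_pos _).le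
    have h12' := mul_le_mul_of_nonneg_left h12 hb.le
    have h21' := mul_le_mul_of_nonneg_left h21 hb.le
    have hlow : Real.exp (-(η ^ 2 / 8)) / 3 ≤ phi (b * (p - s)) := by
      refine le_trans ?_ (phi_anti (y := η / 2) ?_)
      · rw [show η ^ 2 / 8 = (η / 2) ^ 2 / 2 by ring]
        exact UVAna_le_phi _
      · rw [abs_of_nonneg (mul_nonneg hb.le (by linarith)), abs_of_nonneg (by linarith), ← hbp,
          mul_div_assoc]
        exact mul_le_mul_of_nonneg_left (by linarith) hb.le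
    have hlow' := mul_le_mul_of_nonneg_left hlow hb.le
    rw [P1, UVAna_wc1, UVAna_wc2 b hsp, if_pos (max_le (by linarith) (by linarith))]
    linarith
  refine le_trans ?_ (Finset.card_nsmul_le_sum _ _ _ hterm)
  rw [Nat.card_Ico, Nat.add_sub_cancel_left, nsmul_eq_mul]
  calc Real.exp (-(η ^ 2 / 8)) / (24 * η)
      = (p / (8 * η ^ 2)) * (b * (Real.exp (-(η ^ 2 / 8)) / 3)) := by
        rw [← hbp]; field_simp; ring
    _ ≤ _ := mul_le_mul_of_nonneg_right hk2 (by positivity)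

/-- Let `η = √(48 log a)`, `b = η / p`, so `e^{-η²/2} = a^{-24}`, `e^{-η²/8} = a^{-6}`.  For `0 ≤ s < p`:
`wc b s = b phi (b (s+1))`, `wc b (s - p) = b phi (b (p - s))`.
* `∑_s P1 = 2 ∑_{c=1}^p b phi (b c)`, which lies between `2 ∫_b^{η+b} phi ≥ 1 - b - e^{-η²/2}` and
  `2 ∫_0^η phi ≤ 1` (monotonicity, `AntitoneOn.integral_le_sum`/`sum_le_integral`; Gaussian tail
  `2 ∫_η^∞ phi ≤ e^{-η²/2}`, any bound giving `1 - 3/a^24` is fine; `b ≤ a^{-24}`).
* `b a^{-25} ≤ b phi η ≤ P1 ≤ 2 b phi 0 ≤ b`, `25 log a ≤ a`, `b ≥ a^{-26}`.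
* if `|p - 2s - 1| ≤ p / η²` the ratio of the two weights is
  `exp (b² (p+1)(p-2s-1)/2) ∈ [1/2, 2]`, and `P1 ≥ b phi (b (p+1)/2) ≥ b a^{-6}/7`; there are at least
  `p / (2η²)` such `s`, total `≥ a^{-6} / (14 η) ≥ a^{-7}`. -/
theorem level_ana : ∃ A₀ : ℕ, ∀ a p : ℕ, A₀ ≤ a → a ^ 25 < p → p ≤ 2 * a ^ 25 → ∃ b : ℝ,
    0 < b ∧ b ≤ 1 ∧ b * (p + 1) ≤ a ∧
    1 - 3 / (a : ℝ) ^ 24 ≤ ∑ s : Fin p, P1 b p (s : ℕ) ∧ ∑ s : Fin p, P1 b p (s : ℕ) ≤ 1 ∧
    (∀ s : Fin p, b * Real.exp (-(a : ℝ)) ≤ P1 b p (s : ℕ) ∧ P1 b p (s : ℕ) ≤ b ∧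
      1 / (a : ℝ) ^ 51 ≤ P1 b p (s : ℕ)) ∧
    1 / (a : ℝ) ^ 7 ≤ ∑ s ∈ univ.filter (fun s : Fin p =>
      max (wc b (s : ℕ)) (wc b (((s : ℕ) : ℤ) - p)) ≤ 2 / 3 * P1 b p (s : ℕ)), P1 b p (s : ℕ) := by
  obtain ⟨A₁, hA₁⟩ : ∃ A₁ : ℕ, ∀ a : ℕ, A₁ ≤ a → 100 * Real.log a ≤ a := by
    have h := (Real.isLittleO_log_id_atTop.bound (by norm_num : (0 : ℝ) < 1 / 100))
    obtain ⟨A₁, hA₁⟩ := Filter.eventually_atTop.1 (tendsto_natCast_atTop_atTop.eventually h)
    refine ⟨A₁, fun a ha => ?_⟩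
    have h1 := hA₁ a ha
    simp only [Real.norm_eq_abs, id, Nat.abs_cast] at h1
    have := le_abs_self (Real.log a)
    linarith
  refine ⟨max A₁ 1000, fun a p ha hp1 hp2 => ?_⟩
  have hlog := hA₁ a (le_of_max_le_left ha)
  have ha1 : (1000 : ℝ) ≤ a := by exact_mod_cast le_of_max_le_right ha
  have ha0 : (0 : ℝ) < a := by linarith
  have hp1' : (a : ℝ) ^ 25 ≤ p := by exact_mod_cast hp1.le
  have hp2' : (p : ℝ) ≤ 2 * (a : ℝ) ^ 25 := by exact_mod_cast hp2
  have hL : 1 ≤ Real.log a := by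
    rw [Real.le_log_iff_exp_le ha0]
    linarith [Real.exp_one_lt_d9]
  set η : ℝ := Real.sqrt (48 * Real.log a) with hηdef
  have hη2 : η ^ 2 = 48 * Real.log a := Real.sq_sqrt (by linarith)
  have hη1 : 1 ≤ η := Real.le_sqrt_of_sq_le (by linarith)
  have hηa : 24 * η ≤ a := by
    refine (pow_le_pow_iff_left₀ (by linarith) ha0.le two_ne_zero).1 ?_
    rw [mul_pow, hη2]
    nlinarith
  have ha24 : (1 : ℝ) ≤ (a : ℝ) ^ 24 := one_le_pow₀ (by linarith)
  have ha25 : (a : ℝ) ≤ (a : ℝ) ^ 25 := by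
    rw [pow_succ]; exact le_mul_of_one_le_left ha0.le ha24
  have hp0 : (0 : ℝ) < p := by linarith
  set b : ℝ := η / p with hbdef
  have hb : 0 < b := div_pos (by linarith) hp0
  have hbp : b * p = η := div_mul_cancel₀ _ hp0.ne'
  have hb24 : b ≤ 1 / (a : ℝ) ^ 24 := by
    rw [hbdef, div_le_div_iff₀ hp0 (by positivity), one_mul]
    refine le_trans ?_ hp1'
    rw [pow_succ' (a : ℝ) 24]
    exact mul_le_mul_of_nonneg_right (by linarith) (by positivity)
  have hb1 : b ≤ 1 := hb24.trans ((div_le_one (by positivity)).2 ha24)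
  have hb26 : 1 / (a : ℝ) ^ 26 ≤ b := by
    rw [hbdef, div_le_div_iff₀ (by positivity) hp0, one_mul]
    refine hp2'.trans ?_
    rw [pow_succ' (a : ℝ) 25, ← mul_assoc]
    exact mul_le_mul_of_nonneg_right (by nlinarith) (by positivity)
  have hexp : ∀ m : ℕ, Real.exp (-(m * Real.log a)) = 1 / (a : ℝ) ^ m := fun m => by
    rw [Real.exp_neg, Real.exp_nat_mul, Real.exp_log ha0, one_div]
  have he24 : Real.exp (-(η ^ 2 / 2)) = 1 / (a : ℝ) ^ 24 := by
    rw [← hexp 24, hη2]; congr 1; push_cast; ring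
  have he6 : Real.exp (-(η ^ 2 / 8)) = 1 / (a : ℝ) ^ 6 := by
    rw [← hexp 6, hη2]; congr 1; push_cast; ring
  have hsum := UVAna_sum hb p (by linarith)
  rw [hbp] at hsum
  have hphi1 := UVAna_phi_le η
  have hphi2 := UVAna_le_phi η
  rw [he24] at hphi1 hphi2
  have hphi3 : 1 / (a : ℝ) ^ 25 ≤ phi η := by
    refine le_trans ?_ hphi2
    rw [div_div, pow_succ]
    exact one_div_le_one_div_of_le (by positivity)
      (mul_le_mul_of_nonneg_left (by linarith) (by positivity))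
  refine ⟨b, hb, hb1, by linarith, ?_, ?_, fun s => ?_, ?_⟩
  · rw [UVAna_sum_P1]
    have h1 : (0 : ℝ) ≤ 1 / (a : ℝ) ^ 24 := by positivity
    have h2 : 3 / (a : ℝ) ^ 24 = 3 * (1 / (a : ℝ) ^ 24) := by ring
    linarith [hsum.2]
  · rw [UVAna_sum_P1]
    linarith [hsum.1]
  · have hs : (s : ℝ) + 1 ≤ p := by exact_mod_cast s.2
    have h0 : (0 : ℝ) ≤ s := Nat.cast_nonneg _
    have h1 : phi η ≤ phi (b * ((s : ℕ) + 1)) := by
      refine phi_anti ?_
      rw [abs_of_nonneg (mul_nonneg hb.le (by linarith)), abs_of_nonneg (by linarith), ← hbp]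
      exact mul_le_mul_of_nonneg_left hs hb.le
    have h2 : b * (1 / (a : ℝ) ^ 25) ≤ P1 b p (s : ℕ) := by
      rw [P1, UVAna_wc1, UVAna_wc2 b s.2]
      have := mul_le_mul_of_nonneg_left (hphi3.trans h1) hb.le
      have := mul_pos hb (phi_pos (b * (p - (s : ℕ))))
      linarith
    refine ⟨le_trans (mul_le_mul_of_nonneg_left ?_ hb.le) h2, ?_, le_trans ?_ h2⟩
    · rw [← hexp 25]
      exact Real.exp_le_exp.2 (by push_cast; linarith)
    · rw [P1, UVAna_wc1, UVAna_wc2 b s.2]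
      have := mul_le_mul_of_nonneg_left (UVAna_phi_le_half (b * ((s : ℕ) + 1))) hb.le
      have := mul_le_mul_of_nonneg_left (UVAna_phi_le_half (b * (p - (s : ℕ)))) hb.le
      linarith
    · rw [show 1 / (a : ℝ) ^ 51 = 1 / (a : ℝ) ^ 26 * (1 / (a : ℝ) ^ 25) by field_simp]
      exact mul_le_mul_of_nonneg_right hb26 (by positivity)
  · refine le_trans ?_ (UVAna_mid hb hη1 hbp ?_)
    · rw [he6, div_div, pow_succ]
      exact one_div_le_one_div_of_le (by positivity)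
        (mul_le_mul_of_nonneg_left hηa (by positivity))
    · have h1 : (a : ℝ) * 4 ≤ (a : ℝ) ^ 25 := by
        rw [pow_succ' (a : ℝ) 24]
        refine mul_le_mul_of_nonneg_left (le_trans (by linarith) (?_ : (a : ℝ) ≤ a ^ 24)) ha0.le
        exact le_self_pow₀ (by linarith) (by norm_num)
      linarith

end Crest.Agent.R225
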