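import Crest.Agent.R225.UCore
import Crest.Agent.R225.ULattice
import Crest.Agent.R225.USec
import Crest.Agent.R225.UVAna

/-! Assembling the lattice. -/

set_option autoImplicit false
open MeasureTheory Finset Classical Filter
open scoped Pointwise ENNReal

noncomputable section
namespace Crest.Agent.R225

namespace Asm

theorem sum_smul_mem {E α : Type*} [AddCommGroup E] [Module ℝ E] {K : Set E} (hK : Convex ℝ K)
    (hne : K.Nonempty) (s : Finset α) (a : α → ℝ) (v : α → E) (ha : ∀ i ∈ s, 0 ≤ a i)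
    (hv : ∀ i ∈ s, v i ∈ K) : ∑ i ∈ s, a i • v i ∈ (∑ i ∈ s, a i) • K := by
  induction s using Finset.induction_on with
  | empty => simp [Set.zero_smul_set hne]
  | insert i s hi ih =>
    rw [sum_insert hi, sum_insert hi, hK.add_smul (ha i (mem_insert_self _ _))
      (sum_nonneg fun j hj => ha j (mem_insert_of_mem hj))]
    exact Set.add_mem_add (Set.smul_mem_smul_set (hv i (mem_insert_self _ _)))
      (ih (fun j hj => ha j (mem_insert_of_mem hj)) fun j hj => hv j (mem_insert_of_mem hj))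

theorem hsh_add {J : Type} [Fintype J] {p : ℕ} (a : J → ZMod p) (x y : J → ℤ) :
    hsh a (x + y) = hsh a x + hsh a y := by
  simp [hsh, mul_add, sum_add_distrib]

theorem hsh_sub {J : Type} [Fintype J] {p : ℕ} (a : J → ZMod p) (x y : J → ℤ) :
    hsh a (x - y) = hsh a x - hsh a y := by
  simp [hsh, mul_sub, sum_sub_distrib]

/-- the homomorphism whose kernel is the lattice -/
def hom {J ι G : Type} [Fintype J] [Fintype ι] [AddCommGroup G] {p : ℕ} (π : (ι → ℤ) →+ G)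
    (a : J → ZMod p) (φ : ι → ZMod p) : (J ⊕ ι → ℤ) →+ G × ZMod p :=
  AddMonoidHom.mk' (fun v => (π fun i => v (Sum.inr i),
    hsh a (fun i => v (Sum.inl i)) + hsh φ fun i => v (Sum.inr i))) fun v w => by
      have h1 : (fun i => (v + w) (Sum.inl i)) =
          (fun i => v (Sum.inl i)) + fun i => w (Sum.inl i) := rfl
      have h2 : (fun i => (v + w) (Sum.inr i)) =
          (fun i => v (Sum.inr i)) + fun i => w (Sum.inr i) := rfl
      rw [h1, h2, map_add, hsh_add, hsh_add]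
      refine Prod.ext rfl ?_
      simp only [Prod.snd_add]
      abel

theorem hom_elim {J ι G : Type} [Fintype J] [Fintype ι] [AddCommGroup G] {p : ℕ}
    (π : (ι → ℤ) →+ G) (a : J → ZMod p) (φ : ι → ZMod p) (y : J → ℤ) (z : ι → ℤ) :
    hom π a φ (Sum.elim y z) = (π z, hsh a y + hsh φ z) := rfl

theorem card_le {ι G : Type} [Fintype ι] [DecidableEq ι] [AddCommGroup G] [Fintype G]
    (π : (ι → ℤ) →+ G) (P : ℕ) (h : ∀ g, ∃ z, π z = g ∧ ∀ i, |z i| ≤ (P : ℤ)) :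
    Fintype.card G ≤ (2 * P + 1) ^ Fintype.card ι := by
  choose z hz hP using h
  have h1 : (univ : Finset G).card ≤
      (Fintype.piFinset fun _ : ι => Finset.Icc (-(P : ℤ)) P).card := by
    refine card_le_card_of_injOn z (fun g _ => ?_) fun g _ g' _ hg => ?_
    · rw [mem_coe, Fintype.mem_piFinset]
      exact fun i => mem_Icc.2 (abs_le.1 (hP g i))
    · rw [← hz g, ← hz g', hg]
  rw [card_univ, Fintype.card_piFinset, prod_const, card_univ] at h1
  refine h1.trans (le_of_eq ?_)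
  congr 1
  rw [Int.card_Icc]
  omega

theorem body_smul {N : ℕ} {C : Set (Fin N → ℝ)} (hC : Body C) {e : ℝ} (he : 0 < e) :
    Body (e • C) ∧ vl (e • C) = e ^ N * vl C := by
  refine ⟨⟨hC.1.smul e, hC.2.1.smul e, ?_⟩, ?_⟩
  · rw [interior_smul₀ he.ne']
    exact hC.2.2.smul_set
  · unfold vl
    rw [Measure.addHaar_smul, ENNReal.toReal_mul, ENNReal.toReal_ofReal (abs_nonneg _),
      abs_of_pos (pow_pos he _)]
    simp

/-- The covering argument. -/
theorem cover {N : ℕ} {ι G : Type} [Fintype ι] [DecidableEq ι] [AddCommGroup G]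
    {K : Set (Fin N ⊕ ι → ℝ)} (hK : Convex ℝ K) {β : ι → ℝ} (hβ : ∀ i, 0 < β i ∧ β i ≤ 1)
    (π : (ι → ℤ) →+ G) {ε : ℝ} (hε : 0 < ε) {Q : ℕ} (hQ : 0 < Q)
    (hk : (Fintype.card ι : ℝ) ≤ ε * Q) (hv : ∀ i, (sec K (Pi.single i 1)).Nonempty)
    {M : ℕ} (hM : 0 < M) {k₀ : Fin N → ℝ}
    (hk₀ : ∀ η : Fin N → ℝ, (∀ i, |η i| ≤ 1 / (ε * M)) → k₀ + η ∈ sec K 0)
    {p : ℕ} (a : Fin N → ZMod p) (φ : ι → ZMod p)
    (h : ∀ (g : G) (u : ι → Fin Q) (b : ZMod p), ∃ (z : ι → ℤ) (y y₀ : Fin N → ℤ), π z = g ∧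
      sc M y ∈ sec K (fun i => β i * (z i + ((u i : ℕ) : ℝ) / Q)) ∧ sc M y₀ ∈ ε • sec K 0 ∧
      hsh a (y + y₀) + hsh φ z = b) (X : Fin N ⊕ ι → ℝ) :
    ∃ v : Fin N ⊕ ι → ℤ, hom π a φ v = 0 ∧
      X - (fun i => Sum.elim (fun _ => 1 / (M : ℝ)) β i * v i) ∈ (1 + 3 * ε) • K := by
  have hQ' : (0 : ℝ) < Q := by exact_mod_cast hQ
  have hM' : (0 : ℝ) < M := by exact_mod_cast hM
  choose w hw using hv
  have hk0 : k₀ ∈ sec K 0 := by
    simpa using hk₀ 0 fun i => by simp only [Pi.zero_apply, abs_zero]; positivity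
  set m : ι → ℤ := fun i => ⌊X (Sum.inr i) / β i⌋ with hm
  set θ : ι → ℝ := fun i => Int.fract (X (Sum.inr i) / β i) with hθ
  have hθ0 : ∀ i, 0 ≤ θ i := fun i => Int.fract_nonneg _
  have hθ1 : ∀ i, θ i < 1 := fun i => Int.fract_lt_one _
  have hu : ∀ i, ⌊(Q : ℝ) * θ i⌋₊ < Q := fun i => by
    rw [Nat.floor_lt (mul_nonneg hQ'.le (hθ0 i))]
    exact mul_lt_of_lt_one_right hQ' (hθ1 i)
  set u : ι → Fin Q := fun i => ⟨_, hu i⟩ with hudef
  set δ : ι → ℝ := fun i => β i * (θ i - ((u i : ℕ) : ℝ) / Q) with hδ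
  have hδ0 : ∀ i, 0 ≤ δ i := fun i => by
    refine mul_nonneg (hβ i).1.le (sub_nonneg.2 ?_)
    rw [div_le_iff₀ hQ', mul_comm]
    exact Nat.floor_le (mul_nonneg hQ'.le (hθ0 i))
  have hδ1 : ∀ i, δ i ≤ 1 / Q := fun i => by
    have h1 : θ i - ((u i : ℕ) : ℝ) / Q ≤ 1 / Q := by
      rw [sub_le_iff_le_add, ← add_div, le_div_iff₀ hQ', mul_comm, add_comm]
      exact (Nat.lt_floor_add_one _).le
    calc δ i ≤ β i * (1 / Q) := mul_le_mul_of_nonneg_left h1 (hβ i).1.le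
      _ ≤ 1 * (1 / Q) := mul_le_mul_of_nonneg_right (hβ i).2 (by positivity)
      _ = 1 / Q := one_mul _
  have hδs : ∑ i, δ i ≤ ε := by
    calc ∑ i, δ i ≤ ∑ _i : ι, 1 / (Q : ℝ) := sum_le_sum fun i _ => hδ1 i
      _ = Fintype.card ι / Q := by simp [div_eq_mul_inv]
      _ ≤ ε := by rwa [div_le_iff₀ hQ']
  have hX : ∀ i, X (Sum.inr i) = β i * (m i + ((u i : ℕ) : ℝ) / Q) + δ i := fun i => by
    have h1 : (m i : ℝ) + θ i = X (Sum.inr i) / β i := Int.floor_add_fract _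
    have h2 : X (Sum.inr i) = β i * (m i + θ i) := by
      rw [h1, mul_div_cancel₀ _ (hβ i).1.ne']
    rw [h2, hδ]
    ring
  have hKne : K.Nonempty := ⟨_, hk0⟩
  set P : Fin N ⊕ ι → ℝ := ∑ i, δ i • Sum.elim (w i) (Pi.single i 1) +
    (ε - ∑ i, δ i) • Sum.elim k₀ 0 with hP
  have hPK : P ∈ ε • K := by
    have h1 := sum_smul_mem hK hKne univ δ (fun i => Sum.elim (w i) (Pi.single i 1))
      (fun i _ => hδ0 i) fun i _ => hw i
    have h2 : ε • K = (∑ i, δ i) • K + (ε - ∑ i, δ i) • K := by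
      rw [← hK.add_smul (sum_nonneg fun i _ => hδ0 i) (sub_nonneg.2 hδs), add_sub_cancel]
    rw [h2]
    exact Set.add_mem_add h1 (Set.smul_mem_smul_set hk0)
  have hPr : ∀ i, P (Sum.inr i) = δ i := fun i => by
    simp [hP, Finset.sum_apply, Pi.single_apply]
  set Y : Fin N → ℤ := fun i => ⌊M * (X (Sum.inl i) - P (Sum.inl i) - ε * k₀ i)⌋ with hY
  set η : Fin N → ℝ := fun i => (X (Sum.inl i) - P (Sum.inl i) - ε * k₀ i - Y i / M) / ε with hη
  have hηb : ∀ i, |η i| ≤ 1 / (ε * M) := fun i => by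
    have h1 : (Y i : ℝ) ≤ M * (X (Sum.inl i) - P (Sum.inl i) - ε * k₀ i) := Int.floor_le _
    have h2 : M * (X (Sum.inl i) - P (Sum.inl i) - ε * k₀ i) < Y i + 1 := Int.lt_floor_add_one _
    have h3 : η i = (M * (X (Sum.inl i) - P (Sum.inl i) - ε * k₀ i) - Y i) / (ε * M) := by
      rw [hη]
      field_simp
    rw [h3, abs_div, abs_of_pos (mul_pos hε hM')]
    refine div_le_div_of_nonneg_right (abs_le.2 ⟨by linarith, by linarith⟩) (mul_pos hε hM').le
  have hk1 := hk₀ η hηb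
  obtain ⟨z, y, y₀, hz, hy, ⟨k₂, hk₂, hy₀⟩, hb⟩ := h (π m) u (hsh a Y + hsh φ m)
  refine ⟨Sum.elim (Y - (y + y₀)) (m - z), ?_, ?_⟩
  · rw [hom_elim, map_sub, hz, sub_self, hsh_sub, hsh_sub]
    refine Prod.ext rfl ?_
    simp only [Prod.snd_zero]
    linear_combination -hb
  · have e : (1 + 3 * ε) • K = (1 : ℝ) • K + ε • K + ε • K + ε • K := by
      rw [← hK.add_smul zero_le_one hε.le, ← hK.add_smul (by positivity) hε.le,
        ← hK.add_smul (by positivity) hε.le]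
      congr 1
      ring
    have e2 : X - (fun i => Sum.elim (fun _ => 1 / (M : ℝ)) β i *
        ((Sum.elim (Y - (y + y₀)) (m - z) i : ℤ) : ℝ)) =
        (1 : ℝ) • Sum.elim (sc M y) (fun i => β i * (z i + ((u i : ℕ) : ℝ) / Q)) + P +
          ε • Sum.elim (k₀ + η) 0 + ε • Sum.elim k₂ 0 := by
      funext i
      rcases i with i | i
      · have h1 : ε * k₂ i = (y₀ i : ℝ) / M := congrFun hy₀ i
        have h2 : ε * η i = X (Sum.inl i) - P (Sum.inl i) - ε * k₀ i - Y i / M := by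
          rw [hη, mul_div_cancel₀ _ hε.ne']
        simp only [Pi.sub_apply, Sum.elim_inl, Pi.add_apply, Pi.smul_apply, smul_eq_mul, sc,
          one_mul, mul_add, h1, h2]
        push_cast
        ring
      · simp only [Pi.sub_apply, Sum.elim_inr, Pi.add_apply, Pi.smul_apply, smul_eq_mul,
          one_mul, hPr, hX i, Pi.zero_apply, mul_zero, add_zero]
        push_cast
        ring
    rw [e, e2]
    exact Set.add_mem_add (Set.add_mem_add (Set.add_mem_add (Set.smul_mem_smul_set hy) hPK)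
      (Set.smul_mem_smul_set hk1)) (Set.smul_mem_smul_set hk₂)

theorem omg_pos {ι : Type} [Fintype ι] {β : ι → ℝ} (hβ : ∀ i, 0 < β i) (z : ι → ℤ) :
    0 < omg β z :=
  prod_pos fun i _ => mul_pos (hβ i) (phi_pos _)

theorem omg_le {ι : Type} [Fintype ι] {β : ι → ℝ} (hβ : ∀ i, 0 < β i) (z : ι → ℤ) {u : ι → ℝ}
    (h0 : ∀ i, 0 ≤ u i) (h1 : ∀ i, u i ≤ 1) :
    omg β z ≤ (∏ i, β i) * ∏ i, phi (β i * (z i + u i)) := by
  rw [← prod_mul_distrib]
  exact prod_le_prod (fun i _ => (mul_pos (hβ i) (phi_pos _)).le)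
    fun i _ => wc_le (hβ i) _ (h0 i) (h1 i)

theorem omg_le_zero {ι : Type} [Fintype ι] {β : ι → ℝ} (hβ : ∀ i, 0 < β i) (z : ι → ℤ) :
    omg β z ≤ (∏ i, β i) * ∏ _i : ι, phi 0 := by
  rw [← prod_mul_distrib]
  exact prod_le_prod (fun i _ => (mul_pos (hβ i) (phi_pos _)).le)
    fun i _ => mul_le_mul_of_nonneg_left (phi_anti (by rw [abs_zero]; exact abs_nonneg _)) (hβ i).le

end Asm

/-- `cH, N₀ ≥ 1` from `core`; `k = card ι`, `D = |G| ∏ β`, `σ = vl K / (D V)`.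
Index set `𝓙 = G × (ι → Fin Q)`; for `j = (g, u)`, `S j` = the tree of `g` (`P = k²`), and for `z ∈ S j`
the height is `t j z i = β i (z i + u i / Q)` (`|t| ≤ k`); by `wc_le`,
`v = c omg β z vl K / ∏ β ≤ c ∏ phi (t i) vl K ≤ vl (sec K t)`, so (`sec_props`, `body_of_vl_pos`,
`Body.exists_shrink`) there is a body `C j z ⊆ sec K t` with `vl = v = c |G| omg β z V σ ≤ cH N σ`, and
`∑_z vl (C j z) / σ ≥ c cV V`.  `K₀ = sec K 0`; `vl K₀ / σ ≥ c (phi 0)^k D V ≥ c cV V / 2^k` (as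
`|S| ≤ 2^k`, `omg β z ≤ ∏ β * (phi 0)^k`); `C₀ = ε' • K₀`, `0 < ε' ≤ ε`, `vl C₀ = min (ε^N vl K₀) (σ/16)`.
`|G| ≤ (2k²+1)^k` since every `g` is `π z` with `|z i| ≤ k²` (trees are nonempty, `cV > 0`).
Apply `core`, with `M` also so large that `k₀ + [-1/(εM), 1/(εM)]^N ⊆ K₀` for an interior point `k₀`.
`f v = (π (v ∘ inr), hsh a (v ∘ inl) + hsh φ (v ∘ inr))` is onto `G × ZMod p`; `exists_lattice` with
`w = Sum.elim (1/M) β` gives `g₀`, `|det g₀| = |G| p ∏ β / M^N ≥ vl K / V`.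
Covering: let `s = 1 + 2ε + ε'`, `g = s⁻¹ • g₀`.  For a point `s • x = (y, t)` write
`t i = β i (m i + θ i)`, `θ i ∈ [0,1)`, `u i = ⌊Q θ i⌋`, `δ i = β i (θ i - u i / Q) ∈ [0, 1/Q]`,
`∑ δ ≤ k/Q ≤ ε`.  Subtract `∑ δ i • v i + (ε - ∑ δ) • v₀ ∈ ε K` (`v i ∈ K` of height `Pi.single i 1`,
`v₀ ∈ K` of height `0`), then `(e, 0)` with `e ∈ ε K₀` to reach `(sc M Y, β (m + u/Q))`.  For
`j = (π m, u)`, `b = hsh a Y + hsh φ m` get `z, y₁, y₀`; `(Y - y₁ - y₀, m - z) ∈ ker f`, and the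
remainder is `(sc M y₁, t j z) + (sc M y₀, 0) ∈ K + ε' K`.  By convexity the total lies in `s K`. -/
theorem assemble : ∃ cH : ℝ, 0 < cH ∧ ∃ N₀ : ℕ, ∀ N : ℕ, N₀ ≤ N →
    ∀ (ι G : Type) [Fintype ι] [DecidableEq ι] [AddCommGroup G] [Fintype G]
      (K : Set (Fin N ⊕ ι → ℝ)) (β : ι → ℝ) (π : (ι → ℤ) →+ G) (c cV H V ε x : ℝ) (Q : ℕ),
      Body K → 0 < c → 0 < cV → 0 < V → 0 < ε → 0 ≤ x → 0 < Q →
      (∀ t : ι → ℝ, (∀ i, |t i| ≤ Fintype.card ι + 1) →
        c * (∏ i, phi (t i)) * vl K ≤ vl (sec K t)) →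
      (∀ i, 0 < β i ∧ β i ≤ 1) →
      (∀ g, ∃ S : Finset (ι → ℤ), IsTree S ∧
        (∀ z ∈ S, π z = g ∧ (∀ i, |z i| ≤ ((Fintype.card ι ^ 2 : ℕ) : ℤ) ∧
          β i * (|(z i : ℝ)| + 1) ≤ Fintype.card ι) ∧
          (Fintype.card G : ℝ) * omg β z ≤ Real.exp (-H)) ∧
        cV ≤ (Fintype.card G : ℝ) * ∑ z ∈ S, omg β z) →
      c * Real.exp (-H) * V ≤ cH * N → (Fintype.card ι : ℝ) ≤ ε * Q →
      (2 * (Fintype.card ι : ℝ) ^ 2 + 1) ^ Fintype.card ι * (Q : ℝ) ^ Fintype.card ι *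
        2 ^ Fintype.card ι * Real.exp (-x) ≤ 1 / 8 →
      Real.exp (-(c * cV * V / 4) + 2 ^ Fintype.card ι * (2 * x + 2)) <
        min (ε ^ N * (c * cV * V / 2 ^ Fintype.card ι) / 8) (1 / 128) →
      LatCov K ((1 + 3 * ε) ^ (N + Fintype.card ι) * V) := by
  obtain ⟨cH, hcH, N₀, hcore⟩ := core
  refine ⟨cH, hcH, max N₀ 1, fun N hN ι G _ _ _ _ K β π c cV H V ε x Q hK hc hcV hV hε hx hQ hsec
    hβ hS hH hk hsum hexp => ?_⟩
  have hN0 : 0 < N := lt_of_lt_of_le one_pos ((le_max_right _ _).trans hN)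
  choose S hSt hSz hSY using hS
  set k := Fintype.card ι with hkdef
  have hβ0 : ∀ i, 0 < β i := fun i => (hβ i).1
  have hB : 0 < ∏ i, β i := prod_pos fun i _ => hβ0 i
  have hG : (0 : ℝ) < Fintype.card G := by exact_mod_cast Fintype.card_pos
  have hvK : 0 < vl K := hK.vl_pos
  have hQ' : (0 : ℝ) < Q := by exact_mod_cast hQ
  set σ : ℝ := vl K / (Fintype.card G * (∏ i, β i) * V) with hσ
  have hσ0 : 0 < σ := by positivity
  have hbody : ∀ t : ι → ℝ, (∀ i, |t i| ≤ k + 1) → Body (sec K t) := fun t ht =>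
    body_of_vl_pos (sec_props hK.1 hK.2.1 t).1 (sec_props hK.1 hK.2.1 t).2
      (lt_of_lt_of_le (mul_pos (mul_pos hc (prod_pos fun i _ => phi_pos _)) hvK) (hsec t ht))
  have hu0 : ∀ (u : ι → Fin Q) i, 0 ≤ ((u i : ℕ) : ℝ) / Q := fun u i => by positivity
  have hu1 : ∀ (u : ι → Fin Q) i, ((u i : ℕ) : ℝ) / Q ≤ 1 := fun u i => by
    rw [div_le_one hQ']
    exact_mod_cast (u i).2.le
  have hC : ∀ (j : G × (ι → Fin Q)) (z : ι → ℤ), ∃ C : Set (Fin N → ℝ), z ∈ S j.1 →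
      Body C ∧ C ⊆ sec K (fun i => β i * (z i + ((j.2 i : ℕ) : ℝ) / Q)) ∧
        vl C = c * (Fintype.card G * omg β z) * V * σ := by
    intro j z
    by_cases hz : z ∈ S j.1
    · have ht : ∀ i, |β i * (z i + ((j.2 i : ℕ) : ℝ) / Q)| ≤ k + 1 := fun i => by
        have h1 := ((hSz j.1 z hz).2.1 i).2
        rw [abs_mul, abs_of_pos (hβ0 i)]
        have h2 : |(z i : ℝ) + ((j.2 i : ℕ) : ℝ) / Q| ≤ |(z i : ℝ)| + 1 :=
          (abs_add_le _ _).trans (by rw [abs_of_nonneg (hu0 j.2 i)]; linarith [hu1 j.2 i])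
        linarith [mul_le_mul_of_nonneg_left h2 (hβ0 i).le]
      have hv : c * (Fintype.card G * omg β z) * V * σ = c * (omg β z / ∏ i, β i) * vl K := by
        rw [hσ]
        field_simp
      obtain ⟨C, h1, h2, h3⟩ := (hbody _ ht).exists_shrink hN0
        (v := c * (Fintype.card G * omg β z) * V * σ)
        (by have := Asm.omg_pos hβ0 z; positivity) (by
          refine le_trans ?_ (hsec _ ht)
          rw [hv]
          have := Asm.omg_le hβ0 z (hu0 j.2) (hu1 j.2)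
          gcongr
          rwa [div_le_iff₀ hB, mul_comm])
      exact ⟨C, fun _ => ⟨h1, h2, h3⟩⟩
    · exact ⟨∅, fun h => absurd h hz⟩
  choose C hC using hC
  have hK₀ : Body (sec K 0) := hbody 0 fun i => by
    simp only [Pi.zero_apply, abs_zero]; positivity
  obtain ⟨hE, hEv⟩ := Asm.body_smul hK₀ hε
  obtain ⟨C₀, hC₀, hC₀s, hC₀v⟩ := hE.exists_shrink hN0
    (v := min (ε ^ N * vl (sec K 0)) (σ / 16))
    (lt_min (mul_pos (pow_pos hε _) hK₀.vl_pos) (by positivity)) (hEv ▸ min_le_left _ _)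
  have hScard : ∀ g, ((S g).card : ℝ) ≤ 2 ^ k := fun g => by
    exact_mod_cast (hSt g).card_le
  have hGcard : (Fintype.card G : ℝ) ≤ (2 * (k : ℝ) ^ 2 + 1) ^ k := by
    have := Asm.card_le π (k ^ 2) fun g => by
      have hne : (S g).Nonempty := by
        rw [nonempty_iff_ne_empty]
        intro h
        have := hSY g
        rw [h, sum_empty, mul_zero] at this
        exact absurd hcV (not_lt.2 this)
      obtain ⟨z, hz⟩ := hne
      exact ⟨z, (hSz g z hz).1, fun i => ((hSz g z hz).2.1 i).1⟩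
    exact_mod_cast this
  have hK₀v : c * cV * V / 2 ^ k ≤ vl (sec K 0) / σ := by
    have h1 := hsec 0 fun i => by simp only [Pi.zero_apply, abs_zero]; positivity
    simp only [Pi.zero_apply] at h1
    have hp0 : 0 < ∏ _i : ι, phi 0 := prod_pos fun _ _ => phi_pos _
    have h2 : cV ≤ Fintype.card G * (2 ^ k * ((∏ i, β i) * ∏ _i : ι, phi 0)) := by
      refine (hSY 0).trans (mul_le_mul_of_nonneg_left ?_ hG.le)
      refine (sum_le_card_nsmul _ _ _ fun z _ => Asm.omg_le_zero hβ0 z).trans ?_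
      rw [nsmul_eq_mul]
      exact mul_le_mul_of_nonneg_right (hScard 0) (by positivity)
    rw [div_le_div_iff₀ (by positivity) hσ0]
    have h3 : c * cV * V * σ = c * (cV / (Fintype.card G * ∏ i, β i)) * vl K := by
      rw [hσ]
      field_simp
    have h4 : cV / (Fintype.card G * ∏ i, β i) ≤ (∏ _i : ι, phi 0) * 2 ^ k := by
      rw [div_le_iff₀ (by positivity)]
      linarith
    rw [h3]
    calc c * (cV / (Fintype.card G * ∏ i, β i)) * vl K
        ≤ c * ((∏ _i : ι, phi 0) * 2 ^ k) * vl K := by gcongr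
      _ = c * (∏ _i : ι, phi 0) * vl K * 2 ^ k := by ring
      _ ≤ vl (sec K 0) * 2 ^ k := by gcongr
  have hev := hcore N ((le_max_left _ _).trans hN) ι (G × (ι → Fin Q)) σ x (k ^ 2)
    (fun j => S j.1) C C₀ hσ0 hx (fun j => hSt j.1)
    (fun j z hz i => ((hSz j.1 z hz).2.1 i).1)
    (fun j z hz => ⟨(hC j z hz).1, by
      rw [(hC j z hz).2.2]
      refine mul_le_mul_of_nonneg_right (le_trans ?_ hH) hσ0.le
      gcongr
      exact (hSz j.1 z hz).2.2⟩)
    hC₀ (hC₀v ▸ min_le_right _ _)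
    (by
      refine le_trans (mul_le_mul_of_nonneg_right ?_ (Real.exp_pos _).le) hsum
      refine (sum_le_card_nsmul _ _ _ fun j _ => hScard j.1).trans ?_
      rw [nsmul_eq_mul, card_univ, Fintype.card_prod, Fintype.card_fun, Fintype.card_fin]
      push_cast
      gcongr)
    (fun j => by
      have h1 : c * cV * V / 4 ≤ (∑ z ∈ S j.1, vl (C j z)) / (4 * σ) := by
        rw [sum_congr rfl fun z hz => (hC j z hz).2.2, ← sum_mul, ← sum_mul, ← mul_sum, ← mul_sum,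
          mul_div_mul_right _ _ hσ0.ne']
        gcongr
        exact hSY j.1
      have h2 : ((S j.1).card : ℝ) * (2 * x + 2) ≤ 2 ^ k * (2 * x + 2) :=
        mul_le_mul_of_nonneg_right (hScard j.1) (by positivity)
      refine lt_of_le_of_lt (Real.exp_le_exp.2 (by linarith)) (hexp.trans_le ?_)
      rw [hC₀v, ← min_div_div_right (by positivity)]
      refine min_le_min ?_ (le_of_eq ?_)
      · calc ε ^ N * (c * cV * V / 2 ^ k) / 8 ≤ ε ^ N * (vl (sec K 0) / σ) / 8 := by gcongr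
          _ = ε ^ N * vl (sec K 0) / (8 * σ) := by field_simp
      · field_simp
        norm_num)
  obtain ⟨k₀, hk₀⟩ := hK₀.2.2
  obtain ⟨r, hr, hball⟩ := Metric.mem_nhds_iff.1 (mem_interior_iff_mem_nhds.1 hk₀)
  have hev2 : ∀ᶠ M : ℕ in atTop, 1 / (ε * r) < (M : ℝ) :=
    tendsto_natCast_atTop_atTop.eventually (eventually_gt_atTop _)
  obtain ⟨M, ⟨p, hp, hpM, a, φ, hcov⟩, hM2⟩ := (hev.and hev2).exists
  have hM' : (0 : ℝ) < M := lt_trans (by positivity) hM2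
  have hM : 0 < M := by exact_mod_cast hM'
  have hr' : 1 / (ε * M) < r := by
    rw [div_lt_iff₀ (by positivity)] at hM2 ⊢
    linarith
  have hcov' : ∀ (g : G) (u : ι → Fin Q) (b : ZMod p), ∃ (z : ι → ℤ) (y y₀ : Fin N → ℤ),
      π z = g ∧ sc M y ∈ sec K (fun i => β i * (z i + ((u i : ℕ) : ℝ) / Q)) ∧
      sc M y₀ ∈ ε • sec K 0 ∧ hsh a (y + y₀) + hsh φ z = b := fun g u b => by
    obtain ⟨z, hz, y, hy, y₀, hy₀, hb⟩ := hcov (g, u) b
    exact ⟨z, y, y₀, (hSz g z hz).1,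
      (hC (g, u) z hz).2.1 ((mem_gp (hC (g, u) z hz).1.1.isBounded hM).1 hy),
      hC₀s ((mem_gp hC₀.1.isBounded hM).1 hy₀), hb⟩
  have hsurj : Function.Surjective (Asm.hom π a φ) := by
    rintro ⟨g, b⟩
    obtain ⟨z, y, y₀, hz, -, -, hb⟩ := hcov' g (fun _ => ⟨0, hQ⟩) b
    exact ⟨Sum.elim (y + y₀) z, by rw [Asm.hom_elim, hz, hb]⟩
  have : NeZero p := ⟨hp.out.ne_zero⟩
  obtain ⟨g₀, hdet, hg₀⟩ := exists_lattice (Asm.hom π a φ) hsurj
    (Sum.elim (fun _ => 1 / (M : ℝ)) β) (by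
      rintro (i | i)
      · simp only [Sum.elim_inl]; positivity
      · exact hβ0 i)
  have hs : (0 : ℝ) < 1 + 3 * ε := by positivity
  have hdet' : vl K / V ≤ |g₀.det| := by
    rw [hdet, Fintype.card_prod, ZMod.card, Fintype.prod_sum_type]
    simp only [Sum.elim_inl, Sum.elim_inr, prod_const, card_univ, Fintype.card_fin]
    push_cast
    have h1 : vl K / V = Fintype.card G * (σ * (M : ℝ) ^ N) * ((1 / (M : ℝ)) ^ N * ∏ i, β i) := by
      rw [hσ, one_div, inv_pow]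
      field_simp
    rw [h1]
    gcongr
  have hdet0 : 0 < |g₀.det| := lt_of_lt_of_le (by positivity) hdet'
  have hdet2 : |((1 + 3 * ε)⁻¹ • g₀).det| = |g₀.det| / (1 + 3 * ε) ^ (N + k) := by
    rw [Matrix.det_smul, abs_mul, abs_of_pos (by positivity), Fintype.card_sum, Fintype.card_fin,
      inv_pow, mul_comm, div_eq_mul_inv]
  refine ⟨(1 + 3 * ε)⁻¹ • g₀, ?_, fun X => ?_, ?_⟩
  · rw [← abs_pos, hdet2]
    positivity
  · obtain ⟨v, hv, y, hy, hyv⟩ := Asm.cover hK.2.1 hβ π hε hQ hk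
      (fun i => ((hbody (Pi.single i 1) fun i' => by
        rw [Pi.single_apply]
        have : (0 : ℝ) ≤ k := Nat.cast_nonneg _
        split_ifs
        · rw [abs_one]; linarith
        · rw [abs_zero]; linarith).2.2.mono interior_subset))
      hM (k₀ := k₀) (fun η hη => hball (by
        rw [Metric.mem_ball, dist_eq_norm, add_sub_cancel_left, pi_norm_lt_iff hr]
        exact fun i => lt_of_le_of_lt (hη i) hr')) a φ hcov' ((1 + 3 * ε) • X)
    obtain ⟨z, hz⟩ := hg₀ v hv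
    refine ⟨z, ?_⟩
    have : X - ((1 + 3 * ε)⁻¹ • g₀).mulVec (fun i => (z i : ℝ)) = y := by
      rw [Matrix.smul_mulVec, hz]
      apply smul_right_injective _ hs.ne'
      simp only [smul_sub, smul_smul, mul_inv_cancel₀ hs.ne', one_smul]
      exact hyv.symm
    rwa [this]
  · rw [hdet2, div_div_eq_mul_div, div_le_iff₀ hdet0]
    rw [div_le_iff₀ hV] at hdet'
    calc vl K * (1 + 3 * ε) ^ (N + k) ≤ |g₀.det| * V * (1 + 3 * ε) ^ (N + k) := by gcongr
      _ = _ := by ring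

end Crest.Agent.R225
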