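import Crest.Agent.R225.UCount
import Crest.Agent.R225.UArith

/-! Few tuples of grid points are dependent modulo a small prime. -/

set_option autoImplicit false
open MeasureTheory Finset Classical Filter
open scoped Pointwise ENNReal

noncomputable section
namespace Crest.Agent.R225

/-- counting tuples by fixing all coordinates but one -/
theorem card_filter_ins {X : Type} (A : Finset X) {n : ℕ} (k : Fin (n + 1))
    (P : (Fin (n + 1) → X) → Prop) {b : ℝ}
    (h : ∀ w : Fin n → X, ((A.filter fun y => P (k.insertNth y w)).card : ℝ) ≤ b) :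
    (((Fintype.piFinset fun _ : Fin (n + 1) => A).filter P).card : ℝ) ≤ b * (A.card : ℝ) ^ n := by
  have h1 := Finset.card_eq_sum_card_fiberwise (f := fun x : Fin (n + 1) → X => k.removeNth x)
    (s := (Fintype.piFinset fun _ : Fin (n + 1) => A).filter P)
    (t := Fintype.piFinset fun _ : Fin n => A) (by
      intro x hx
      simp only [Finset.coe_filter, Fintype.mem_piFinset, Set.mem_ofPred_eq] at hx
      simp only [Finset.mem_coe, Fintype.mem_piFinset]
      intro i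
      exact hx.1 _)
  rw [h1]
  push_cast
  refine (Finset.sum_le_card_nsmul _ _ b ?_).trans ?_
  · intro w _
    refine le_trans ?_ (h w)
    norm_cast
    refine Finset.card_le_card_of_injOn (fun x => x k) ?_ ?_
    · intro x hx
      simp only [Finset.coe_filter, Finset.mem_filter, Fintype.mem_piFinset, Set.mem_ofPred_eq] at hx ⊢
      refine ⟨hx.1.1 k, ?_⟩
      rw [← hx.2, Fin.insertNth_self_removeNth]
      exact hx.1.2
    · intro x hx y hy hxy
      simp only [Finset.coe_filter, Set.mem_ofPred_eq] at hx hy hxy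
      rw [← Fin.insertNth_self_removeNth k x, ← Fin.insertNth_self_removeNth k y, hx.2, hy.2, hxy]
  · simp [mul_comm]

/-- `y` is congruent mod `l` to a linear combination of the `w k` -/
def InSpan {J : Type} (l : ℕ) {n : ℕ} (w : Fin n → J → ℤ) (y : J → ℤ) : Prop :=
  (fun i => (y i : ZMod l)) ∈ Submodule.span (ZMod l) (Set.range fun k i => (w k i : ZMod l))

theorem DepMod.inSpan {J : Type} {l n : ℕ} [Fact l.Prime] {x : Fin (n + 1) → J → ℤ}
    (h : DepMod l x) : ∃ k, InSpan l (k.removeNth x) (x k) := by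
  obtain ⟨c, hc0, -, hc⟩ := h
  obtain ⟨k, hk⟩ := Function.ne_iff.1 hc0
  refine ⟨k, ?_⟩
  unfold InSpan
  rw [Submodule.mem_span_range_iff_exists_fun]
  refine ⟨fun k' => -(c k)⁻¹ * c (k.succAbove k'), ?_⟩
  funext i
  have h1 := hc i
  rw [Fin.sum_univ_succAbove _ k] at h1
  simp only [Finset.sum_apply, Pi.smul_apply, smul_eq_mul, Fin.removeNth, mul_assoc,
    ← Finset.mul_sum]
  have h2 : (c k)⁻¹ * c k = 1 := inv_mul_cancel₀ hk
  linear_combination (-(c k)⁻¹) * h1 + (x k i : ZMod l) * h2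

theorem count_l {J : Type} (A : Finset (J → ℤ)) {l n : ℕ} [Fact l.Prime] {b : ℝ}
    (h : ∀ w : Fin n → J → ℤ, ((A.filter fun y => InSpan l w y).card : ℝ) ≤ b) :
    (((Fintype.piFinset fun _ : Fin (n + 1) => A).filter fun x => DepMod l x).card : ℝ) ≤
      (n + 1) * (b * (A.card : ℝ) ^ n) := by
  have h1 : ((Fintype.piFinset fun _ : Fin (n + 1) => A).filter fun x => DepMod l x) ⊆
      Finset.univ.biUnion fun k : Fin (n + 1) =>
        (Fintype.piFinset fun _ : Fin (n + 1) => A).filter fun x => InSpan l (k.removeNth x) (x k) := by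
    intro x hx
    rw [Finset.mem_filter] at hx
    obtain ⟨k, hk⟩ := hx.2.inSpan
    exact Finset.mem_biUnion.2 ⟨k, Finset.mem_univ _, Finset.mem_filter.2 ⟨hx.1, hk⟩⟩
  have h2 := (Finset.card_le_card h1).trans Finset.card_biUnion_le
  have h3 : (((Fintype.piFinset fun _ : Fin (n + 1) => A).filter fun x => DepMod l x).card : ℝ) ≤
      ∑ k : Fin (n + 1), (((Fintype.piFinset fun _ : Fin (n + 1) => A).filter
        fun x => InSpan l (k.removeNth x) (x k)).card : ℝ) := by exact_mod_cast h2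
  refine h3.trans ((Finset.sum_le_card_nsmul _ _ (b * (A.card : ℝ) ^ n) ?_).trans (by simp))
  intro k _
  refine card_filter_ins A k _ fun w => ?_
  simpa using h w

theorem span_small {J : Type} (A : Finset (J → ℤ)) {l n : ℕ} [Fact l.Prime] {b : ℝ}
    (h : ∀ r : J → ZMod l, ((A.filter fun y => (fun i => (y i : ZMod l)) = r).card : ℝ) ≤ b)
    (w : Fin n → J → ℤ) : ((A.filter fun y => InSpan l w y).card : ℝ) ≤ (l : ℝ) ^ n * b := by
  have h1 : (A.filter fun y => InSpan l w y) ⊆ Finset.univ.biUnion fun c : Fin n → ZMod l =>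
      A.filter fun y => (fun i => (y i : ZMod l)) = ∑ k, c k • fun i => (w k i : ZMod l) := by
    intro y hy
    rw [Finset.mem_filter] at hy
    obtain ⟨c, hc⟩ := (Submodule.mem_span_range_iff_exists_fun _).1 hy.2
    exact Finset.mem_biUnion.2 ⟨c, Finset.mem_univ _, Finset.mem_filter.2 ⟨hy.1, hc.symm⟩⟩
  have h2 := (Finset.card_le_card h1).trans Finset.card_biUnion_le
  have h3 : ((A.filter fun y => InSpan l w y).card : ℝ) ≤ ∑ c : Fin n → ZMod l,
      ((A.filter fun y => (fun i => (y i : ZMod l)) = ∑ k, c k • fun i => (w k i : ZMod l)).card : ℝ) := by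
    exact_mod_cast h2
  refine h3.trans ((Finset.sum_le_card_nsmul _ _ b fun c _ => h _).trans ?_)
  simp [ZMod.card]

theorem res_class {N M l : ℕ} (hl : 0 < l) {C : Set (Fin N → ℝ)} {b : ℝ}
    (A : Finset (Fin N → ℤ)) (hA : ∀ y ∈ A, sc M y ∈ C)
    (h : ∀ (s : Fin N → ℝ) (F : Finset (Fin N → ℤ)), (∀ x ∈ F, sc M x - s ∈ (l : ℝ)⁻¹ • C) →
      (F.card : ℝ) ≤ b) (r : Fin N → ZMod l) :
    ((A.filter fun y => (fun i => (y i : ZMod l)) = r).card : ℝ) ≤ b := by
  set F := A.filter fun y => (fun i => (y i : ZMod l)) = r with hF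
  rcases F.eq_empty_or_nonempty with h0 | ⟨y₀, hy₀⟩
  · have := h 0 ∅ (by simp)
    rw [h0]; exact this
  have hdvd : ∀ y ∈ F, ∀ i, y i = y₀ i + l * ((y i - y₀ i) / l) := by
    intro y hy i
    have h1 := congrFun ((Finset.mem_filter.1 hy).2.trans (Finset.mem_filter.1 hy₀).2.symm) i
    have h2 : (l : ℤ) ∣ y i - y₀ i := by
      rw [← ZMod.intCast_zmod_eq_zero_iff_dvd]; push_cast; exact sub_eq_zero.2 h1
    rw [Int.mul_ediv_cancel' h2]; ring
  have hinj : Set.InjOn (fun y : Fin N → ℤ => fun i => (y i - y₀ i) / l) F := by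
    intro y hy y' hy' hyy
    funext i
    rw [hdvd y hy i, hdvd y' hy' i]
    exact congrArg (fun t => y₀ i + l * t) (congrFun hyy i)
  rw [← Finset.card_image_of_injOn hinj]
  refine h (-((l : ℝ)⁻¹ • sc M y₀)) _ ?_
  intro z hz
  obtain ⟨y, hy, rfl⟩ := Finset.mem_image.1 hz
  refine ⟨sc M y, hA y (Finset.mem_filter.1 hy).1, ?_⟩
  funext i
  have h1 : (y i : ℝ) = y₀ i + l * (((y i - y₀ i) / l : ℤ) : ℝ) := by exact_mod_cast hdvd y hy i
  have hl' : (l : ℝ) ≠ 0 := by positivity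
  simp only [sc, Pi.smul_apply, smul_eq_mul, Pi.sub_apply, Pi.neg_apply]
  rw [h1]
  field_simp
  ring

theorem sum_inv_pow_le (s : Finset ℕ) (hs : ∀ l ∈ s, 2 ≤ l) (e : ℕ) :
    ∑ l ∈ s, ((l : ℝ)⁻¹) ^ (e + 2) ≤ (2⁻¹ : ℝ) ^ e := by
  have h1 : ∑ l ∈ s, ((l : ℝ) ^ 2)⁻¹ ≤ 1 := by
    have h2 : s ⊆ Finset.Ioc 1 (s.sup id + 1) := fun l hl =>
      Finset.mem_Ioc.2 ⟨hs l hl, (Finset.le_sup (f := id) hl).trans (Nat.le_succ _)⟩
    refine (Finset.sum_le_sum_of_subset_of_nonneg h2 fun _ _ _ => by positivity).trans ?_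
    refine (sum_Ioc_inv_sq_le_sub one_ne_zero (by omega)).trans ?_
    simp only [Nat.cast_one, inv_one, sub_le_self_iff]
    positivity
  calc ∑ l ∈ s, ((l : ℝ)⁻¹) ^ (e + 2) ≤ ∑ l ∈ s, (2⁻¹ : ℝ) ^ e * ((l : ℝ) ^ 2)⁻¹ := by
        refine Finset.sum_le_sum fun l hl => ?_
        rw [pow_add, inv_pow _ 2]
        refine mul_le_mul_of_nonneg_right (pow_le_pow_left₀ (by positivity) ?_ _) (by positivity)
        exact inv_anti₀ (by norm_num) (by exact_mod_cast hs l hl)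
    _ ≤ _ := by
        rw [← Finset.mul_sum]
        exact mul_le_of_le_one_right (by positivity) h1

theorem num_small {n e : ℕ} (h : 10 * (n + 1) ≤ n + e + 2) :
    (n + 1 : ℝ) * 4 * (2⁻¹ : ℝ) ^ e ≤ Real.exp (-(((n + e + 2 : ℕ) : ℝ) / 4)) / 2 := by
  have h1 : (3 / 4 : ℝ) ^ (n + e + 2) ≤ Real.exp (-(((n + e + 2 : ℕ) : ℝ) / 4)) := by
    have h2 : (3 / 4 : ℝ) ≤ Real.exp (-(1 / 4)) := by
      have := Real.add_one_le_exp (-(1 / 4) : ℝ); linarith
    refine (pow_le_pow_left₀ (by norm_num) h2 _).trans ?_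
    rw [← Real.exp_nat_mul]
    apply le_of_eq; congr 1; ring
  have h2 : (3 / 2 : ℝ) ^ (10 * (n + 1)) ≤ (3 / 2 : ℝ) ^ (n + e + 2) :=
    pow_le_pow_right₀ (by norm_num) h
  have h3 : (56 : ℝ) ^ (n + 1) ≤ (3 / 2 : ℝ) ^ (10 * (n + 1)) := by
    rw [pow_mul]; exact pow_le_pow_left₀ (by norm_num) (by norm_num) _
  have h4 : (n + 1 : ℝ) ≤ 28 ^ n := by
    have : n < 28 ^ n := Nat.lt_pow_self (by norm_num)
    exact_mod_cast this
  have h5 : (56 : ℝ) ^ (n + 1) = 56 * (2 ^ n * 28 ^ n) := by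
    rw [← mul_pow, pow_succ]; norm_num [mul_comm]
  have h6 : (3 / 2 : ℝ) ^ (n + e + 2) = (3 / 4) ^ (n + e + 2) * (2 ^ n * 2 ^ e * 4) := by
    rw [show (3 / 2 : ℝ) = 3 / 4 * 2 by norm_num, mul_pow, pow_add 2, pow_add 2]; norm_num
  have h7 : (0 : ℝ) < 2 ^ n := by positivity
  have h8 : (0 : ℝ) < 2 ^ e := by positivity
  have h9 : 14 * (n + 1 : ℝ) ≤ (3 / 4) ^ (n + e + 2) * 2 ^ e := by
    have : 2 ^ n * (4 * (14 * (n + 1 : ℝ))) ≤ 2 ^ n * (4 * ((3 / 4) ^ (n + e + 2) * 2 ^ e)) := by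
      nlinarith
    have := le_of_mul_le_mul_left this h7
    linarith
  rw [inv_pow, ← div_eq_mul_inv, div_le_iff₀ h8]
  have : (0 : ℝ) ≤ n := by positivity
  nlinarith

/-- `A = gp M C`, entries bounded by `B = R M`.  If `DepMod l x` then for some `k`, `x k` is congruent
mod `l` to a linear combination of the other `x k'` (at most `j - 1 ≤ j` vectors).
* `l ≤ √M` (i.e. `l² ≤ M`): at most `l^(j-1)` coefficient vectors; the points of `A` in a residue class
  `r + l ℤ^N` correspond to `y` with `sc M y - (-(1/l) sc M r) ∈ (1/l) C`, at most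
  `(1/l + κ/M)^N vl C M^N ≤ 2 l^{-N} vl C M^N ≤ 4 l^{-N} |A|` (`grid_count`, `card_gp_bounds`, `M` large).
  Total proportion `≤ ∑_{l ≥ 2} 4 j l^(j-1-N) ≤ N 2^(-9N/10) ≤ e^{-N/4} / 2` (`N ≥ 40`, `10 j ≤ N`).
* `l² > M`: `card_box_span` gives proportion `≤ j (2B+1)^j (2B/√M + 2)^(N-j) / |A| = O(M^{-(N-j)/2})` for
  each of the `≤ ((j+1) B)^(j+1) + 2 = O(M^{j+1})` values of `l`; this tends to `0` as `3j + 2 < N`
  (finitely many `j`). -/
theorem count_depMod {N : ℕ} (hN : 40 ≤ N) {C : Set (Fin N → ℝ)} (hC : Body C) {R : ℕ} (hR : 1 ≤ R)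
    (hCR : ∀ x ∈ C, ∀ i, |x i| ≤ R) : ∀ᶠ M : ℕ in atTop, ∀ j : ℕ, 10 * j ≤ N →
      (((Fintype.piFinset fun _ : Fin j => gp M C).filter fun x => ∃ l : ℕ, l.Prime ∧
        l ≤ ((j + 1) * (R * M)) ^ (j + 1) + 2 ∧ DepMod l x).card : ℝ) ≤
        Real.exp (-((N : ℝ) / 4)) * ((gp M C).card : ℝ) ^ j := by
  have hfin : {j : ℕ | 10 * j ≤ N}.Finite :=
    (Set.finite_le_nat N).subset fun j hj => by simp only [Set.mem_ofPred_eq] at *; omega
  refine (Filter.eventually_all_finite hfin).2 ?_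
  intro j hj
  simp only [Set.mem_ofPred_eq] at hj
  rcases j with _ | n
  · refine Filter.Eventually.of_forall fun M => ?_
    rw [Finset.filter_eq_empty_iff.2]
    · simp only [Finset.card_empty, Nat.cast_zero]; positivity
    · rintro x - ⟨l, -, -, c, hc, -⟩
      exact hc (Subsingleton.elim _ _)
  obtain ⟨e, rfl⟩ : ∃ e, N = n + e + 2 := ⟨N - n - 2, by omega⟩
  obtain ⟨cY, -, -, hg⟩ := grid_count
  obtain ⟨κ, hκ, hg⟩ := hg _ C hC
  have hV := hC.vl_pos
  set V := vl C with hVdef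
  set ε := Real.exp (-(((n + e + 2 : ℕ) : ℝ) / 4)) with hε
  have hε0 : 0 < ε := Real.exp_pos _
  have hsq : Tendsto (fun M : ℕ => Real.sqrt M) atTop atTop :=
    Real.tendsto_sqrt_atTop.comp tendsto_natCast_atTop_atTop
  have ev1 : ∀ᶠ M : ℕ in atTop, (1 + κ / Real.sqrt M) ^ (n + e + 2) ≤ 2 := by
    have h1 : Tendsto (fun M : ℕ => (1 + κ / Real.sqrt M) ^ (n + e + 2)) atTop
        (nhds ((1 + 0) ^ (n + e + 2))) :=
      ((tendsto_const_nhds.div_atTop hsq).const_add 1).pow _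
    exact h1.eventually_le_const (by norm_num)
  set K : ℝ := 4 * ((n + 2) * R) ^ (n + 2) * (n + 1) * ((3 * R) ^ n * (4 * R) ^ (e + 2)) with hK
  have ev2 : ∀ᶠ M : ℕ in atTop, 4 * K / (ε * V) ≤ Real.sqrt M := hsq.eventually_ge_atTop _
  filter_upwards [ev1, ev2, card_gp_bounds hC, Filter.eventually_ge_atTop 1] with M h1 h2 h3 hM
  obtain ⟨hg, -, -⟩ := hg M hM
  set A := gp M C with hA
  have hAC : ∀ y ∈ A, sc M y ∈ C := fun y hy => (mem_gp hC.1.isBounded hM).1 hy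
  have hM0 : (0 : ℝ) < M := by exact_mod_cast hM
  have hAB : ∀ y ∈ A, ∀ i, |y i| ≤ (R * M : ℕ) := by
    intro y hy i
    have h4 := hCR _ (hAC y hy) i
    simp only [sc, abs_div, abs_of_pos hM0] at h4
    rw [div_le_iff₀ hM0] at h4
    have : ((|y i| : ℤ) : ℝ) ≤ ((R * M : ℕ) : ℤ) := by push_cast; exact h4
    exact_mod_cast this
  set u := Real.sqrt M with hu
  have huu : (M : ℝ) = u ^ 2 := (Real.sq_sqrt hM0.le).symm
  have hu1 : 1 ≤ u := Real.one_le_sqrt.2 (by exact_mod_cast hM)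
  have hu0 : 0 < u := by linarith
  have hR1 : (1 : ℝ) ≤ R := by exact_mod_cast hR
  set L := ((n + 1 + 1) * (R * M)) ^ (n + 1 + 1) + 2 with hL
  set a : ℝ := (A.card : ℝ) with ha
  have ha0 : 0 ≤ a := Nat.cast_nonneg _
  set D : ℕ → ℝ := fun l =>
    (((Fintype.piFinset fun _ : Fin (n + 1) => A).filter fun x => DepMod l x).card : ℝ) with hD
  set P := (Finset.range (L + 1)).filter Nat.Prime with hP
  have hsub : ((Fintype.piFinset fun _ : Fin (n + 1) => A).filter fun x => ∃ l : ℕ, l.Prime ∧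
      l ≤ L ∧ DepMod l x) ⊆ P.biUnion fun l =>
        (Fintype.piFinset fun _ : Fin (n + 1) => A).filter fun x => DepMod l x := by
    intro x hx
    obtain ⟨hx, l, hl, hlL, hd⟩ := Finset.mem_filter.1 hx
    exact Finset.mem_biUnion.2 ⟨l, Finset.mem_filter.2 ⟨Finset.mem_range.2 (by omega), hl⟩,
      Finset.mem_filter.2 ⟨hx, hd⟩⟩
  have hle : (((Fintype.piFinset fun _ : Fin (n + 1) => A).filter fun x => ∃ l : ℕ, l.Prime ∧
      l ≤ L ∧ DepMod l x).card : ℝ) ≤ ∑ l ∈ P, D l := by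
    have := (Finset.card_le_card hsub).trans Finset.card_biUnion_le
    simp only [hD]
    exact_mod_cast this
  refine hle.trans ?_
  clear_value a
  have hsmall : ∀ l ∈ P.filter fun l : ℕ => (l : ℝ) ≤ u,
      D l ≤ (n + 1) * 4 * a ^ (n + 1) * ((l : ℝ)⁻¹) ^ (e + 2) := by
    intro l hl
    obtain ⟨hl, hlu⟩ := Finset.mem_filter.1 hl
    have hlp := (Finset.mem_filter.1 hl).2
    have : Fact l.Prime := ⟨hlp⟩
    have hl0 : (0 : ℝ) < l := by exact_mod_cast hlp.pos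
    have hb : ((l : ℝ)⁻¹ + κ / M) ^ (n + e + 2) * V * (M : ℝ) ^ (n + e + 2) ≤
        ((l : ℝ)⁻¹) ^ (n + e + 2) * (4 * a) := by
      have e1 : (l : ℝ)⁻¹ + κ / M ≤ (l : ℝ)⁻¹ * (1 + κ / u) := by
        rw [mul_add, mul_one, huu, inv_mul_eq_div, div_div]
        gcongr
        nlinarith
      have e2 : ((l : ℝ)⁻¹ + κ / M) ^ (n + e + 2) ≤ ((l : ℝ)⁻¹) ^ (n + e + 2) * 2 := by
        refine (pow_le_pow_left₀ (by positivity) e1 _).trans ?_
        rw [mul_pow]
        exact mul_le_mul_of_nonneg_left h1 (by positivity)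
      calc _ = ((l : ℝ)⁻¹ + κ / M) ^ (n + e + 2) * (V * (M : ℝ) ^ (n + e + 2)) := by ring
        _ ≤ (((l : ℝ)⁻¹) ^ (n + e + 2) * 2) * (2 * a) :=
          mul_le_mul e2 (by linarith [h3.1]) (by positivity) (by positivity)
        _ = _ := by ring
    have h6 := res_class hlp.pos A hAC
      fun s F hF => (hg s _ F (inv_pos.2 hl0) hF).trans hb
    have h7 := span_small (n := n) A (l := l) (b := ((l : ℝ)⁻¹) ^ (n + e + 2) * (4 * a))
      fun r => by convert h6 r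
    have h5 := count_l A h7
    rw [← ha] at h5
    refine h5.trans (le_of_eq ?_)
    have e3 : (l : ℝ) ^ n * ((l : ℝ)⁻¹) ^ n = 1 := by
      rw [← mul_pow, mul_inv_cancel₀ hl0.ne', one_pow]
    rw [add_assoc n e 2, pow_add ((l : ℝ)⁻¹) n]
    linear_combination ((n + 1) * 4 * a ^ (n + 1) * ((l : ℝ)⁻¹) ^ (e + 2)) * e3
  have hlarge : ∀ l ∈ P.filter fun l : ℕ => ¬ (l : ℝ) ≤ u,
      D l ≤ (n + 1) * (((3 * R) ^ n * (4 * R) ^ (e + 2) * u ^ (2 * n + e + 2)) * a ^ n) := by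
    intro l hl
    obtain ⟨hl, hlu⟩ := Finset.mem_filter.1 hl
    have hlp := (Finset.mem_filter.1 hl).2
    have : Fact l.Prime := ⟨hlp⟩
    rw [ha]
    refine count_l A fun w => ?_
    have h5 := card_box_span (l := l) (d := n) (B := R * M) (Nat.mul_pos hR hM) (by simp; omega)
      (fun k i => (w k i : ZMod l)) (A.filter fun y => InSpan l w y)
      (fun y hy => hAB y (Finset.mem_filter.1 hy).1) (fun y hy => (Finset.mem_filter.1 hy).2)
    refine h5.trans ?_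
    rw [Fintype.card_fin, show n + e + 2 - n = e + 2 by omega]
    push_cast
    have e1 : (2 * (R * M) + 1 : ℝ) ≤ 3 * R * u ^ 2 := by
      rw [huu]; nlinarith [mul_le_mul hR1 (one_le_pow₀ hu1 (n := 2)) zero_le_one (by positivity)]
    have e2 : (2 * (R * M) / l + 2 : ℝ) ≤ 4 * R * u := by
      have e3 : (2 * (R * M) / l : ℝ) ≤ 2 * (R * M) / u := by
        gcongr; linarith [not_le.1 hlu]
      have e4 : (2 * (R * M) / u : ℝ) = 2 * R * u := by rw [huu]; field_simp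
      nlinarith [mul_le_mul hR1 hu1 zero_le_one (by positivity)]
    calc _ ≤ (3 * R * u ^ 2) ^ n * (4 * R * u) ^ (e + 2) := by gcongr
      _ = _ := by rw [mul_pow (3 * R : ℝ), mul_pow (4 * R : ℝ), ← pow_mul]; ring
  rw [← Finset.sum_filter_add_sum_filter_not P fun l : ℕ => (l : ℝ) ≤ u]
  have s1 : ∑ l ∈ P.filter fun l : ℕ => (l : ℝ) ≤ u, D l ≤ ε / 2 * a ^ (n + 1) := by
    refine (Finset.sum_le_sum hsmall).trans ?_
    rw [← Finset.mul_sum]
    have h5 := sum_inv_pow_le (P.filter fun l : ℕ => (l : ℝ) ≤ u)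
      (fun l hl => (Finset.mem_filter.1 (Finset.mem_filter.1 hl).1).2.two_le) e
    have h6 := num_small hj
    calc _ ≤ (n + 1) * 4 * a ^ (n + 1) * (2⁻¹ : ℝ) ^ e := by gcongr
      _ = ((n + 1) * 4 * (2⁻¹ : ℝ) ^ e) * a ^ (n + 1) := by ring
      _ ≤ _ := by gcongr
  have s2 : ∑ l ∈ P.filter fun l : ℕ => ¬ (l : ℝ) ≤ u, D l ≤ ε / 2 * a ^ (n + 1) := by
    refine (Finset.sum_le_card_nsmul _ _ _ hlarge).trans ?_
    have h5 : ((P.filter fun l : ℕ => ¬ (l : ℝ) ≤ u).card : ℝ) ≤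
        4 * ((n + 2) * R) ^ (n + 2) * u ^ (2 * n + 4) := by
      have h6 : (P.filter fun l : ℕ => ¬ (l : ℝ) ≤ u).card ≤ L + 1 :=
        (Finset.card_filter_le _ _).trans ((Finset.card_filter_le _ _).trans (by simp))
      have h7 : ((L + 1 : ℕ) : ℝ) = ((n + 2) * R) ^ (n + 2) * u ^ (2 * n + 4) + 3 := by
        rw [hL]; push_cast; rw [huu, ← mul_assoc, mul_pow, ← pow_mul]; ring_nf
      have h8 : (1 : ℝ) ≤ ((n + 2) * R) ^ (n + 2) * u ^ (2 * n + 4) := by
        have : (0 : ℝ) ≤ n := by positivity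
        exact one_le_mul_of_one_le_of_one_le (one_le_pow₀ (by nlinarith)) (one_le_pow₀ hu1)
      have h9 : ((P.filter fun l : ℕ => ¬ (l : ℝ) ≤ u).card : ℝ) ≤ ((L + 1 : ℕ) : ℝ) := by
        exact_mod_cast h6
      linarith
    rw [nsmul_eq_mul]
    have h6 : K * u ^ (4 * n + e + 6) ≤ ε / 2 * a := by
      have e1 : K ≤ ε * V / 4 * u := by
        rw [div_le_iff₀ (by positivity)] at h2; linarith
      have e2 : u * u ^ (4 * n + e + 6) ≤ (M : ℝ) ^ (n + e + 2) := by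
        rw [huu, ← pow_mul, ← pow_succ']
        exact pow_le_pow_right₀ hu1 (by omega)
      calc K * u ^ (4 * n + e + 6) ≤ ε * V / 4 * u * u ^ (4 * n + e + 6) := by gcongr
        _ = ε * V / 4 * (u * u ^ (4 * n + e + 6)) := by ring
        _ ≤ ε * V / 4 * (M : ℝ) ^ (n + e + 2) := by gcongr
        _ = ε / 2 * (V * (M : ℝ) ^ (n + e + 2) / 2) := by ring
        _ ≤ _ := by gcongr; exact h3.1
    calc _ ≤ (4 * ((n + 2) * R) ^ (n + 2) * u ^ (2 * n + 4)) *
          ((n + 1) * (((3 * R) ^ n * (4 * R) ^ (e + 2) * u ^ (2 * n + e + 2)) * a ^ n)) := by gcongr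
      _ = K * u ^ (4 * n + e + 6) * a ^ n := by rw [hK]; ring
      _ ≤ ε / 2 * a * a ^ n := by gcongr
      _ = _ := by ring
  linarith

end Crest.Agent.R225
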