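import Crest.Agent.R225.UCount
import Crest.Agent.R225.UArith

/-! Few tuples of grid points have a nontrivial integral affine combination in the body. -/

set_option autoImplicit false
open MeasureTheory Finset Classical Filter
open scoped Pointwise ENNReal

noncomputable section
namespace Crest.Agent.R225

namespace Bad2

theorem fib {α : Type} [Zero α] {j : ℕ} (A : Finset α) (T : Finset (Fin j))
    (S : Finset (Fin j → α)) (hS : ∀ x ∈ S, ∀ k, x k ∈ A) {b : ℝ} (hb : 0 ≤ b)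
    (h : ∀ x0 : Fin j → α, ((S.filter fun x => ∀ k ∉ T, x k = x0 k).card : ℝ) ≤ b) :
    (S.card : ℝ) * (A.card : ℝ) ^ T.card ≤ b * (A.card : ℝ) ^ j := by
  let f : (Fin j → α) → Fin j → α := fun x k => if k ∈ T then 0 else x k
  have h1 : (S.card : ℝ) ≤ (S.image f).card * b := by
    rw [card_eq_sum_card_image f S]
    push_cast
    rw [← nsmul_eq_mul]
    refine sum_le_card_nsmul _ _ _ fun y _ => le_trans ?_ (h y)
    refine Nat.cast_le.2 (card_le_card fun x hx => ?_)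
    rw [mem_filter] at hx ⊢
    refine ⟨hx.1, fun k hk => ?_⟩
    rw [← hx.2]
    simp only [f, if_neg hk]
  have h2 : (S.image f).card ≤ A.card ^ Tᶜ.card := by
    have : S.image f ⊆ Fintype.piFinset fun k => if k ∈ T then ({0} : Finset α) else A := by
      intro y hy
      obtain ⟨x, hx, rfl⟩ := mem_image.1 hy
      rw [Fintype.mem_piFinset]
      intro k
      by_cases hk : k ∈ T
      · simp [f, hk]
      · simpa [f, hk] using hS x hx k
    refine (card_le_card this).trans (le_of_eq ?_)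
    rw [Fintype.card_piFinset, ← prod_mul_prod_compl T,
      prod_congr rfl (g := fun _ => 1) fun k hk => by simp [hk],
      prod_congr (s₁ := Tᶜ) rfl (g := fun _ => A.card) fun k hk => by
        simp [mem_compl.1 hk]]
    simp
  have h3 : ((S.image f).card : ℝ) ≤ (A.card : ℝ) ^ Tᶜ.card := by exact_mod_cast h2
  have h4 : Tᶜ.card + T.card = j := by simp
  calc (S.card : ℝ) * (A.card : ℝ) ^ T.card
      ≤ ((A.card : ℝ) ^ Tᶜ.card * b) * (A.card : ℝ) ^ T.card := by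
        gcongr
        exact h1.trans (by gcongr)
    _ = b * (A.card : ℝ) ^ j := by
        conv_rhs => rw [← h4, pow_add]
        ring

theorem fib1 {α : Type} [Zero α] {j : ℕ} (A : Finset α) (hA : 0 < A.card) (k : Fin j)
    (S : Finset (Fin j → α)) (hS : ∀ x ∈ S, ∀ k, x k ∈ A) {β : ℝ} (hβ : 0 ≤ β)
    (h : ∀ (x0 : Fin j → α) (F : Finset α),
      (∀ y ∈ F, ∃ x ∈ S, x k = y ∧ ∀ k', k' ≠ k → x k' = x0 k') → (F.card : ℝ) ≤ β * A.card) :
    (S.card : ℝ) ≤ β * (A.card : ℝ) ^ j := by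
  have ha : (0 : ℝ) < A.card := by exact_mod_cast hA
  have := fib A {k} S hS (b := β * A.card) (by positivity) fun x0 => by
    rw [← card_image_of_injOn (f := fun x => x k)]
    · refine h x0 _ fun y hy => ?_
      obtain ⟨x, hx, rfl⟩ := mem_image.1 hy
      rw [mem_filter] at hx
      exact ⟨x, hx.1, rfl, fun k' hk' => hx.2 k' (by simpa using hk')⟩
    · intro x hx x' hx' hxx
      rw [mem_coe, mem_filter] at hx hx'
      funext k'
      by_cases hk : k' = k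
      · rw [hk]; exact hxx
      · rw [hx.2 k' (by simpa using hk), hx'.2 k' (by simpa using hk)]
  rw [card_singleton, pow_one] at this
  exact le_of_mul_le_mul_right (this.trans (le_of_eq (by ring))) ha

theorem fib2 {α : Type} [Zero α] {j : ℕ} (A : Finset α) (hA : 0 < A.card) {k k' : Fin j}
    (hk : k ≠ k') (S : Finset (Fin j → α)) (hS : ∀ x ∈ S, ∀ k, x k ∈ A) {β : ℝ} (hβ : 0 ≤ β)
    (h : ∀ (x0 : Fin j → α) (F : Finset (α × α)),
      (∀ y ∈ F, ∃ x ∈ S, x k = y.1 ∧ x k' = y.2 ∧ ∀ i, i ≠ k → i ≠ k' → x i = x0 i) →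
        (F.card : ℝ) ≤ β * (A.card : ℝ) ^ 2) :
    (S.card : ℝ) ≤ β * (A.card : ℝ) ^ j := by
  have ha : (0 : ℝ) < A.card := by exact_mod_cast hA
  have := fib A {k, k'} S hS (b := β * (A.card : ℝ) ^ 2) (by positivity) fun x0 => by
    rw [← card_image_of_injOn (f := fun x => (x k, x k'))]
    · refine h x0 _ fun y hy => ?_
      obtain ⟨x, hx, rfl⟩ := mem_image.1 hy
      rw [mem_filter] at hx
      exact ⟨x, hx.1, rfl, rfl, fun i h1 h2 => hx.2 i (by simp [h1, h2])⟩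
    · intro x hx x' hx' hxx
      rw [mem_coe, mem_filter] at hx hx'
      simp only [Prod.mk.injEq] at hxx
      funext i
      by_cases h1 : i = k
      · rw [h1]; exact hxx.1
      by_cases h2 : i = k'
      · rw [h2]; exact hxx.2
      rw [hx.2 i (by simp [h1, h2]), hx'.2 i (by simp [h1, h2])]
  rw [card_pair hk] at this
  exact le_of_mul_le_mul_right (this.trans (le_of_eq (by ring))) (pow_pos ha 2)

variable {N j : ℕ}

theorem sc_sum (M : ℕ) (c : Fin j → ℤ) (x : Fin j → Fin N → ℤ) :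
    sc M (fun i => ∑ k, c k * x k i) = ∑ k, (c k : ℝ) • sc M (x k) := by
  funext i
  simp [sc, sum_div, mul_div_assoc]

theorem sc_add (M : ℕ) (x y : Fin N → ℤ) : sc M (x + y) = sc M x + sc M y := by
  funext i
  simp [sc, add_div]

theorem sc_zsmul (M : ℕ) (e : ℤ) (x : Fin N → ℤ) : sc M (e • x) = (e : ℝ) • sc M x := by
  funext i
  simp [sc, mul_div_assoc]

/-- tuples whose combination with the coefficients `c` lies in `C` -/
def Sc (M : ℕ) (C : Set (Fin N → ℝ)) (c : Fin j → ℤ) : Finset (Fin j → Fin N → ℤ) :=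
  (Fintype.piFinset fun _ : Fin j => gp M C).filter fun x => ∑ k, (c k : ℝ) • sc M (x k) ∈ C

/-- tuples with a short approximate relation -/
def Sd (M : ℕ) (C : Set (Fin N → ℝ)) (Q : ℕ) (l : ℝ) (k : Fin j) (θ : Fin j → ℤ) :
    Finset (Fin j → Fin N → ℤ) :=
  (Fintype.piFinset fun _ : Fin j => gp M C).filter fun x =>
    ‖sc M (x k) + ∑ i ∈ univ.erase k, ((θ i : ℝ) / Q) • sc M (x i)‖ ≤ l

/-- coefficient vectors of size at most `H` -/
def bx (j H : ℕ) : Finset (Fin j → ℤ) := Fintype.piFinset fun _ => Icc (-(H : ℤ)) H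

theorem card_bx (j H : ℕ) : ((bx j H).card : ℝ) = (2 * H + 1) ^ j := by
  have : (Icc (-(H : ℤ)) H).card = 2 * H + 1 := by rw [Int.card_Icc]; omega
  simp [bx, Fintype.card_piFinset, this]

theorem case1 {M : ℕ} {C : Set (Fin N → ℝ)} (hC : Bornology.IsBounded C) (hM : 0 < M)
    (hA : 0 < (gp M C).card) {β : ℝ} (hβ : 0 ≤ β)
    (h : ∀ (s : Fin N → ℝ) (F : Finset ((Fin N → ℤ) × (Fin N → ℤ))),
      (∀ x ∈ F, sc M x.1 ∈ C ∧ sc M x.2 ∈ C ∧ sc M (x.1 + x.2) - s ∈ C) →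
        (F.card : ℝ) ≤ β * ((gp M C).card : ℝ) ^ 2)
    {c : Fin j → ℤ} {k k' : Fin j} (hk : k ≠ k') (h1 : c k = 1) (h2 : c k' = 1) :
    ((Sc M C c).card : ℝ) ≤ β * ((gp M C).card : ℝ) ^ j := by
  have hS : ∀ x ∈ Sc M C c, ∀ k, x k ∈ gp M C := fun x hx =>
    Fintype.mem_piFinset.1 (mem_filter.1 hx).1
  refine fib2 _ hA hk _ hS hβ fun x0 F hF =>
    h (-∑ i ∈ (univ.erase k).erase k', (c i : ℝ) • sc M (x0 i)) F fun y hy => ?_
  obtain ⟨x, hx, e1, e2, e3⟩ := hF y hy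
  refine ⟨e1 ▸ (mem_gp hC hM).1 (hS x hx k), e2 ▸ (mem_gp hC hM).1 (hS x hx k'), ?_⟩
  have := (mem_filter.1 hx).2
  rw [← add_sum_erase _ _ (mem_univ k),
    ← add_sum_erase _ _ (mem_erase.2 ⟨hk.symm, mem_univ k'⟩), h1, h2, e1, e2,
    sum_congr rfl (g := fun i => (c i : ℝ) • sc M (x0 i)) fun i hi => by
      rw [e3 i (mem_erase.1 (mem_erase.1 hi).2).1 (mem_erase.1 hi).1]] at this
  rw [sc_add, sub_neg_eq_add, add_assoc]
  simpa using this

theorem case2 {M : ℕ} {C : Set (Fin N → ℝ)} (hA : 0 < (gp M C).card) {β : ℝ} (hβ : 0 ≤ β)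
    {H : ℕ} (hH : 0 < H)
    (h : ∀ (s : Fin N → ℝ) (F : Finset (Fin N → ℤ)),
      (∀ x ∈ F, sc M x - s ∈ (1 / H : ℝ) • C) → (F.card : ℝ) ≤ β * (gp M C).card)
    {c : Fin j → ℤ} {k : Fin j} (h1 : (c k).natAbs = H) :
    ((Sc M C c).card : ℝ) ≤ β * ((gp M C).card : ℝ) ^ j := by
  have hS : ∀ x ∈ Sc M C c, ∀ k, x k ∈ gp M C := fun x hx =>
    Fintype.mem_piFinset.1 (mem_filter.1 hx).1
  obtain ⟨e, he, hc⟩ : ∃ e : ℤ, e ≠ 0 ∧ c k = H * e := by
    rcases Int.natAbs_eq (c k) with h | h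
    · exact ⟨1, one_ne_zero, by rw [h, h1, mul_one]⟩
    · exact ⟨-1, by norm_num, by rw [h, h1]; ring⟩
  have hH' : (H : ℝ) ≠ 0 := by exact_mod_cast hH.ne'
  refine fib1 _ hA k _ hS hβ fun x0 F hF => ?_
  rw [← card_image_of_injective F (smul_right_injective (Fin N → ℤ) he)]
  refine h (-((1 / H : ℝ) • ∑ i ∈ univ.erase k, (c i : ℝ) • sc M (x0 i))) _ fun y' hy' => ?_
  obtain ⟨y, hy, rfl⟩ := mem_image.1 hy'
  obtain ⟨x, hx, e1, e3⟩ := hF y hy
  have := (mem_filter.1 hx).2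
  rw [← add_sum_erase _ _ (mem_univ k), hc, e1,
    sum_congr rfl (g := fun i => (c i : ℝ) • sc M (x0 i)) fun i hi => by
      rw [e3 i (mem_erase.1 hi).1]] at this
  refine ⟨_, this, ?_⟩
  beta_reduce
  rw [sc_zsmul, sub_neg_eq_add, smul_add, smul_smul]
  congr 2
  push_cast
  field_simp

theorem case3 {M : ℕ} {C : Set (Fin N → ℝ)} (hA : 0 < (gp M C).card) {β l : ℝ} (hβ : 0 ≤ β)
    (h : ∀ (s : Fin N → ℝ) (F : Finset (Fin N → ℤ)),
      (∀ x ∈ F, ‖sc M x - s‖ ≤ l) → (F.card : ℝ) ≤ β * (gp M C).card)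
    (Q : ℕ) (k : Fin j) (θ : Fin j → ℤ) :
    ((Sd M C Q l k θ).card : ℝ) ≤ β * ((gp M C).card : ℝ) ^ j := by
  have hS : ∀ x ∈ Sd M C Q l k θ, ∀ k, x k ∈ gp M C := fun x hx =>
    Fintype.mem_piFinset.1 (mem_filter.1 hx).1
  refine fib1 _ hA k _ hS hβ fun x0 F hF =>
    h (-∑ i ∈ univ.erase k, ((θ i : ℝ) / Q) • sc M (x0 i)) F fun y hy => ?_
  obtain ⟨x, hx, e1, e3⟩ := hF y hy
  have := (mem_filter.1 hx).2
  rw [e1, sum_congr rfl (g := fun i => ((θ i : ℝ) / Q) • sc M (x0 i)) fun i hi => by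
      rw [e3 i (mem_erase.1 hi).1]] at this
  rwa [sub_neg_eq_add]

theorem two_ones {c : Fin j → ℤ} (h1 : ∑ k, c k = 1) (h2 : ∀ k, c ≠ Pi.single k 1)
    (h3 : ∀ k, c k ≤ 1) : ∃ k k', k ≠ k' ∧ c k = 1 ∧ c k' = 1 := by
  obtain ⟨k, hk⟩ : ∃ k, c k = 1 := by
    by_contra h
    have : ∑ k, c k ≤ 0 := sum_nonpos fun k _ => by
      have h4 := h3 k
      have h5 : c k ≠ 1 := fun h' => h ⟨k, h'⟩
      omega
    omega
  by_contra h
  have h4 : ∀ i ∈ univ.erase k, c i ≤ 0 := fun i hi => by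
    have h4 := h3 i
    have h5 : c i ≠ 1 := fun h' => h ⟨k, i, (mem_erase.1 hi).1.symm, hk, h'⟩
    omega
  rw [← add_sum_erase _ _ (mem_univ k), hk] at h1
  have h5 := (sum_eq_zero_iff_of_nonpos h4).1 (by omega)
  refine h2 k (funext fun i => ?_)
  by_cases hi : i = k
  · rw [hi, hk, Pi.single_eq_same]
  · rw [Pi.single_eq_of_ne hi, h5 i (mem_erase.2 ⟨hi, mem_univ _⟩)]

theorem approx {u : Fin j → Fin N → ℝ} {R : ℝ} (hu : ∀ k, ‖u k‖ ≤ R) {c : Fin j → ℤ}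
    (hc : ‖∑ k, (c k : ℝ) • u k‖ ≤ R) {k : Fin j} (hk : ∀ i, (c i).natAbs ≤ (c k).natAbs)
    {Q : ℕ} (hQ : 0 < Q) (hQk : Q ≤ (c k).natAbs) :
    ∃ θ ∈ bx j Q, ‖u k + ∑ i ∈ univ.erase k, ((θ i : ℝ) / Q) • u i‖ ≤ (j + 1) * R / Q := by
  have hR : 0 ≤ R := (norm_nonneg _).trans hc
  have hQ' : (0 : ℝ) < Q := by exact_mod_cast hQ
  have hck : (Q : ℝ) ≤ |(c k : ℝ)| := by
    rw [← Int.cast_abs, ← Nat.cast_natAbs]; exact_mod_cast hQk
  have hck0 : (c k : ℝ) ≠ 0 := abs_pos.1 (hQ'.trans_le hck)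
  have hci : ∀ i, |(c i : ℝ) / c k| ≤ 1 := fun i => by
    rw [abs_div, div_le_one (abs_pos.2 hck0), ← Int.cast_abs, ← Int.cast_abs, ← Nat.cast_natAbs,
      ← Nat.cast_natAbs]
    exact_mod_cast hk i
  refine ⟨fun i => ⌊Q * ((c i : ℝ) / c k)⌋, ?_, ?_⟩
  · rw [bx, Fintype.mem_piFinset]
    intro i
    have h1 := abs_le.1 (hci i)
    rw [mem_Icc, Int.le_floor, Int.floor_le_iff]
    push_cast
    constructor <;> nlinarith [h1.1, h1.2]
  · have e : u k + ∑ i ∈ univ.erase k, (((⌊Q * ((c i : ℝ) / c k)⌋ : ℤ) : ℝ) / Q) • u i =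
        (c k : ℝ)⁻¹ • ∑ i, (c i : ℝ) • u i +
          ∑ i ∈ univ.erase k, (((⌊Q * ((c i : ℝ) / c k)⌋ : ℤ) : ℝ) / Q - c i / c k) • u i := by
      rw [← add_sum_erase _ _ (mem_univ k), smul_add, smul_smul, inv_mul_cancel₀ hck0, one_smul,
        smul_sum, add_assoc, ← sum_add_distrib]
      congr 1
      refine sum_congr rfl fun i _ => ?_
      rw [smul_smul, ← add_smul]
      congr 1
      ring
    rw [e]
    have h1 : ‖(c k : ℝ)⁻¹ • ∑ i, (c i : ℝ) • u i‖ ≤ R / Q := by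
      rw [norm_smul, norm_inv, Real.norm_eq_abs, inv_mul_eq_div]
      exact div_le_div₀ hR hc hQ' hck
    have h2 : ‖∑ i ∈ univ.erase k,
        (((⌊Q * ((c i : ℝ) / c k)⌋ : ℤ) : ℝ) / Q - c i / c k) • u i‖ ≤ j * (R / Q) := by
      refine (norm_sum_le _ _).trans ((sum_le_card_nsmul _ _ (R / Q) fun i _ => ?_).trans ?_)
      · rw [norm_smul, Real.norm_eq_abs]
        have h3 := Int.floor_le (Q * ((c i : ℝ) / c k))
        have h4 := Int.lt_floor_add_one (Q * ((c i : ℝ) / c k))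
        have h5 : |((⌊Q * ((c i : ℝ) / c k)⌋ : ℤ) : ℝ) / Q - c i / c k| ≤ 1 / Q := by
          rw [div_sub' hQ'.ne', abs_div, abs_of_pos hQ']
          gcongr
          exact abs_le.2 ⟨by linarith, by linarith⟩
        calc _ ≤ 1 / Q * R := mul_le_mul h5 (hu i) (norm_nonneg _) (by positivity)
          _ = R / Q := by ring
      · rw [nsmul_eq_mul]
        gcongr
        exact_mod_cast (card_erase_le.trans (by simp))
    refine (norm_add_le _ _).trans ((add_le_add h1 h2).trans (le_of_eq ?_))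
    ring

theorem cover {M : ℕ} {C : Set (Fin N → ℝ)} (hC : Bornology.IsBounded C) (hM : 0 < M) {R : ℝ}
    (hR : ∀ y ∈ C, ‖y‖ ≤ R) {Q : ℕ} (hQ : 0 < Q) {l : ℝ} (hl : (j + 1) * R / Q ≤ l) :
    ((Fintype.piFinset fun _ : Fin j => gp M C).filter fun x => IntComb (gp M C) x) ⊆
      (((bx j 1).filter fun c => ∃ k k', k ≠ k' ∧ c k = 1 ∧ c k' = 1).biUnion (Sc M C) ∪
        (Ioc 1 Q).biUnion fun H =>
          ((bx j H).filter fun c => ∃ k, (c k).natAbs = H).biUnion (Sc M C)) ∪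
        (univ ×ˢ bx j Q).biUnion fun p => Sd M C Q l p.1 p.2 := by
  intro x hx
  obtain ⟨hx, c, h1, h2, h3⟩ := mem_filter.1 hx
  rw [mem_gp hC hM, sc_sum] at h3
  have hxc : x ∈ Sc M C c := mem_filter.2 ⟨hx, h3⟩
  have hne : (univ : Finset (Fin j)).Nonempty := by
    rw [nonempty_iff_ne_empty]
    intro h
    rw [h] at h1
    simp at h1
  obtain ⟨k, -, hk⟩ := exists_max_image univ (fun k => (c k).natAbs) hne
  have hb : ∀ H : ℕ, (c k).natAbs ≤ H → c ∈ bx j H := fun H hH => by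
    rw [bx, Fintype.mem_piFinset]
    intro i
    have := hk i (mem_univ _)
    rw [mem_Icc]
    omega
  simp only [mem_union, mem_biUnion]
  by_cases c1 : (c k).natAbs ≤ 1
  · refine Or.inl (Or.inl ⟨c, mem_filter.2 ⟨hb 1 c1, two_ones h1 h2 fun i => ?_⟩, hxc⟩)
    have := hk i (mem_univ _)
    omega
  by_cases c2 : (c k).natAbs ≤ Q
  · exact Or.inl (Or.inr ⟨(c k).natAbs, mem_Ioc.2 ⟨by omega, c2⟩, c,
      mem_filter.2 ⟨hb _ le_rfl, k, rfl⟩, hxc⟩)
  · obtain ⟨θ, hθ, h4⟩ := approx (u := fun k => sc M (x k))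
      (fun i => hR _ ((mem_gp hC hM).1 (Fintype.mem_piFinset.1 hx i))) (hR _ h3)
      (fun i => hk i (mem_univ _)) hQ (by omega)
    exact Or.inr ⟨(k, θ), mem_product.2 ⟨mem_univ _, hθ⟩, mem_filter.2 ⟨hx, h4.trans hl⟩⟩

theorem card_biUnion_le_real {α β : Type} [DecidableEq β] (s : Finset α) (t : α → Finset β) {b n : ℝ}
    (hb : 0 ≤ b) (hn : (s.card : ℝ) ≤ n) (h : ∀ a ∈ s, ((t a).card : ℝ) ≤ b) :
    ((s.biUnion t).card : ℝ) ≤ n * b := by
  have h1 : ((s.biUnion t).card : ℝ) ≤ ∑ a ∈ s, ((t a).card : ℝ) := by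
    exact_mod_cast card_biUnion_le
  refine h1.trans ((sum_le_card_nsmul _ _ _ h).trans ?_)
  rw [nsmul_eq_mul]
  gcongr

theorem ev_pow (N : ℕ) (t : ℝ) : ∀ᶠ M : ℕ in atTop, (1 + t / M) ^ N ≤ 2 := by
  have h := ((tendsto_const_div_atTop_nhds_zero_nat t).const_add 1).pow N
  rw [add_zero, one_pow] at h
  exact h.eventually (ge_mem_nhds one_lt_two)

theorem sum_H {n Q : ℕ} : ∑ H ∈ Ioc 1 Q, ((2 * H + 1 : ℝ) ^ j * (1 / H) ^ (3 * j + 2 + n)) ≤
    (1 / 2) ^ n := by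
  have h1 : ∀ H ∈ Ioc 1 Q, ((2 * H + 1 : ℝ) ^ j * (1 / H) ^ (3 * j + 2 + n)) ≤
      ((H : ℝ) ^ 2)⁻¹ * (1 / 2) ^ n := by
    intro H hH
    have h2 : (2 : ℝ) ≤ H := by exact_mod_cast (mem_Ioc.1 hH).1
    have h0 : (0 : ℝ) < H := by linarith
    have h3 : (2 * H + 1 : ℝ) ≤ H ^ 3 := by nlinarith [mul_nonneg h0.le (sub_nonneg.2 h2)]
    have h4 : (1 / H : ℝ) ^ n ≤ (1 / 2) ^ n := by gcongr
    calc _ ≤ ((H : ℝ) ^ 3) ^ j * (1 / H) ^ (3 * j + 2 + n) := by gcongr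
      _ = ((H : ℝ) ^ 2)⁻¹ * (1 / H) ^ n := by
          rw [pow_add, pow_add, ← pow_mul]
          simp only [one_div, inv_pow]
          field_simp
      _ ≤ _ := by gcongr
  refine (sum_le_sum h1).trans ?_
  rw [← sum_mul]
  refine mul_le_of_le_one_left (by positivity) ?_
  rcases Nat.eq_zero_or_pos Q with rfl | hQ
  · simp
  · refine (sum_Ioc_inv_sq_le_sub one_ne_zero hQ).trans ?_
    have : (0 : ℝ) ≤ (Q : ℝ)⁻¹ := by positivity
    simp

end Bad2

set_option maxHeartbeats 800000 in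

/-- `A = gp M C`, entries bounded by `B = R M`.  Let `c` be a witness, `H = max |c k|`, attained at `k`.
* `H ≤ 1`: `c ∈ {0, ±1}^j`, `∑ c = 1`, not a unit vector, so two indices `k ≠ k'` have `c = 1`; fixing the
  other points, the pairs `(x k, x k')` are counted by the third part of `grid_count`:
  proportion `≤ 3^j cY^N * 8` for large `M`.
* `2 ≤ H ≤ Q`: fixing the other points, `± x k` satisfies `sc M (± x k) - s ∈ (1/H) C`; proportion
  `≤ ∑_{H ≥ 2} (2H+1)^j * 4 H^{-N} ≤ 8 * 2^(-N/2)` (for `M ≥ M(Q)`, `10 j ≤ N`, `2H + 1 ≤ H^3`).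
* `H > Q`: with `θ k' = round (Q c k' / c k) ∈ [-Q, Q]`, each coordinate of `x k + ∑ θ k' x k' / Q` is at
  most `(j+1) B / Q` in size; proportion `≤ j (2Q+1)^j (2 (j+1) R M / Q + 1)^N / (vl C M^N / 2)
  = O(Q^{j-N})` for `M ≥ Q`; choose `Q` (depending on `N, C`) first.
Choose `c` with `3^{cN} cY^N ≤ e^{-2cN}`, `c ≤ 1/10`, and `N₁` absorbing the constants. -/
theorem count_intComb : ∃ c : ℝ, 0 < c ∧ ∃ N₁ : ℕ, ∀ N : ℕ, N₁ ≤ N → ∀ C : Set (Fin N → ℝ), Body C →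
    ∀ᶠ M : ℕ in atTop, ∀ j : ℕ, (j : ℝ) ≤ c * N →
      (((Fintype.piFinset fun _ : Fin j => gp M C).filter fun x => IntComb (gp M C) x).card : ℝ) ≤
        Real.exp (-(c * N)) * ((gp M C).card : ℝ) ^ j := by
  obtain ⟨cY, hY0, hY1, hg⟩ := grid_count
  have hlog : 0 < -Real.log cY := neg_pos.2 (Real.log_neg hY0 hY1)
  obtain ⟨c, hc⟩ : ∃ c, c = min (1 / 10) (-Real.log cY / 4) := ⟨_, rfl⟩
  have hc0 : 0 < c := hc ▸ lt_min (by norm_num) (by positivity)
  have hc1 : c ≤ 1 / 10 := hc ▸ min_le_left _ _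
  have hc2 : c ≤ -Real.log cY / 4 := hc ▸ min_le_right _ _
  refine ⟨c, hc0, ⌈20 / c⌉₊ + 10, fun N hN C hC => ?_⟩
  have hN10 : 10 ≤ N := by omega
  have hcN : 20 ≤ c * N := by
    have h1 : 20 / c ≤ N := (Nat.le_ceil _).trans (by exact_mod_cast (by omega))
    rw [div_le_iff₀ hc0] at h1
    linarith
  obtain ⟨κ, hκ, hκC⟩ := hg N C hC
  have hB : Body (Metric.closedBall (0 : Fin N → ℝ) 1) :=
    ⟨isCompact_closedBall _ _, convex_closedBall _ _,
      ⟨0, mem_interior_iff_mem_nhds.2 (Metric.closedBall_mem_nhds _ one_pos)⟩⟩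
  obtain ⟨κ', hκ', hκB⟩ := hg N _ hB
  obtain ⟨R, hR0, hR⟩ := hC.1.isBounded.exists_pos_norm_le
  have hv := hC.vl_pos
  have hv' := hB.vl_pos
  obtain ⟨v', hve⟩ : ∃ v', v' = vl (Metric.closedBall (0 : Fin N → ℝ) 1) := ⟨_, rfl⟩
  rw [← hve] at hv' hκB
  obtain ⟨ε, hε⟩ : ∃ ε, ε = Real.exp (-(2 * c * N)) := ⟨_, rfl⟩
  have hε0 : 0 < ε := hε ▸ Real.exp_pos _
  obtain ⟨D, hD⟩ : ∃ D : ℝ, D = (N + 1) * R + κ' := ⟨_, rfl⟩
  have hD0 : 0 < D := by rw [hD]; positivity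
  obtain ⟨Q, hQ⟩ := exists_nat_gt (N * 3 ^ N * (D ^ N * (2 * v' / vl C)) / ε)
  have hQ0' : (0 : ℝ) < Q := lt_of_le_of_lt (by positivity) hQ
  have hQ0 : 0 < Q := by exact_mod_cast hQ0'
  have hQ1 : (1 : ℝ) ≤ Q := by exact_mod_cast hQ0
  filter_upwards [card_gp_bounds hC, eventually_ge_atTop Q, Bad2.ev_pow N (2 * κ),
    Bad2.ev_pow N (κ * Q)] with M ⟨hM1, _⟩ hMQ hM2 hM3 j hj
  have hM : 0 < M := hQ0.trans_le hMQ
  have hM' : (0 : ℝ) < M := by exact_mod_cast hM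
  have hMQ' : (Q : ℝ) ≤ M := by exact_mod_cast hMQ
  have hL : 0 < vl C * (M : ℝ) ^ N := by positivity
  have hA' : (0 : ℝ) < (gp M C).card := lt_of_lt_of_le (by positivity) hM1
  have hA : 0 < (gp M C).card := by exact_mod_cast hA'
  have hj10 : 10 * j ≤ N := by
    have h0 : (0 : ℝ) ≤ N := Nat.cast_nonneg _
    have : (10 * j : ℝ) ≤ N := by linarith only [mul_le_mul_of_nonneg_right hc1 h0, hj]
    exact_mod_cast this
  obtain ⟨g1, -, g3⟩ := hκC M hM
  obtain ⟨g4, -, -⟩ := hκB M hM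
  obtain ⟨a, ha⟩ : ∃ a : ℝ, a = (gp M C).card := ⟨_, rfl⟩
  have haj : 0 < a ^ j := by rw [ha]; positivity
  -- case 1
  have b1 : ((((Bad2.bx j 1).filter fun c => ∃ k k', k ≠ k' ∧ c k = 1 ∧ c k' = 1).biUnion
      (Bad2.Sc M C)).card : ℝ) ≤ 16 * ε * a ^ j := by
    refine (Bad2.card_biUnion_le_real _ _ (b := 16 * cY ^ N * a ^ j) (n := 3 ^ j) (by positivity)
      ?_ fun c hc => ?_).trans ?_
    · refine le_trans (Nat.cast_le.2 (card_filter_le _ _)) ?_
      rw [Bad2.card_bx]; norm_num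
    · obtain ⟨k, k', hk, h1, h2⟩ := (mem_filter.1 hc).2
      rw [ha]
      refine Bad2.case1 hC.1.isBounded hM hA (by positivity) (fun s F hF => ?_) hk h1 h2
      refine (g3 s F hF).trans ?_
      have : (1 + 2 * κ / M) ^ N * vl C * (M : ℝ) ^ N ≤ 4 * (gp M C).card := by
        rw [mul_assoc]
        linarith only [mul_le_mul_of_nonneg_right hM2 hL.le, hM1]
      calc _ ≤ cY ^ N * (4 * ((gp M C).card : ℝ)) ^ 2 := by gcongr
        _ = _ := by ring
    · have h1 : (3 : ℝ) ^ j ≤ Real.exp (2 * j) := by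
        rw [mul_comm, Real.exp_nat_mul]
        exact pow_le_pow_left₀ (by norm_num) (by linarith [Real.add_one_le_exp 2]) j
      have h2 : cY ^ N = Real.exp (N * Real.log cY) := by
        rw [Real.exp_nat_mul, Real.exp_log hY0]
      have h3 : (3 : ℝ) ^ j * cY ^ N ≤ ε := by
        rw [h2, hε]
        refine (mul_le_mul_of_nonneg_right h1 (Real.exp_pos _).le).trans ?_
        rw [← Real.exp_add]
        refine Real.exp_le_exp.2 ?_
        have h0 : (0 : ℝ) ≤ N := Nat.cast_nonneg _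
        linarith only [mul_le_mul_of_nonneg_right hc2 h0, hj]
      calc _ = 16 * ((3 : ℝ) ^ j * cY ^ N) * a ^ j := by ring
        _ ≤ _ := by gcongr
  -- case 2
  have b2 : (((Ioc 1 Q).biUnion fun H => ((Bad2.bx j H).filter fun c =>
      ∃ k, (c k).natAbs = H).biUnion (Bad2.Sc M C)).card : ℝ) ≤ 4 * ε * a ^ j := by
    obtain ⟨n, hn⟩ : ∃ n, N = 3 * j + 2 + n := ⟨N - (3 * j + 2), by omega⟩
    have h1 : (((Ioc 1 Q).biUnion fun H => ((Bad2.bx j H).filter fun c =>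
        ∃ k, (c k).natAbs = H).biUnion (Bad2.Sc M C)).card : ℝ) ≤ ∑ H ∈ Ioc 1 Q,
        ((((Bad2.bx j H).filter fun c => ∃ k, (c k).natAbs = H).biUnion
          (Bad2.Sc M C)).card : ℝ) := by
      exact_mod_cast card_biUnion_le
    have h2 : ∀ H ∈ Ioc 1 Q, ((((Bad2.bx j H).filter fun c => ∃ k, (c k).natAbs = H).biUnion
        (Bad2.Sc M C)).card : ℝ) ≤ (2 * H + 1 : ℝ) ^ j * (1 / H) ^ N * (4 * a ^ j) := by
      intro H hH
      have hH0 : 0 < H := by have := (mem_Ioc.1 hH).1; omega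
      have hH0' : (0 : ℝ) < H := by exact_mod_cast hH0
      have hHQ : (H : ℝ) ≤ Q := by exact_mod_cast (mem_Ioc.1 hH).2
      refine (Bad2.card_biUnion_le_real _ _ (b := 4 * (1 / H) ^ N * a ^ j)
        (n := (2 * H + 1 : ℝ) ^ j) (by positivity) ?_ fun c hc => ?_).trans (le_of_eq (by ring))
      · refine le_trans (Nat.cast_le.2 (card_filter_le _ _)) ?_
        rw [Bad2.card_bx]
      · obtain ⟨k, hk⟩ := (mem_filter.1 hc).2
        rw [ha]
        refine Bad2.case2 hA (by positivity) hH0 (fun s F hF => ?_) hk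
        refine (g1 s _ F (by positivity) hF).trans ?_
        have h3 : (1 / H + κ / M : ℝ) ^ N ≤ (1 / H) ^ N * 2 := by
          calc (1 / H + κ / M : ℝ) ^ N = (1 / H) ^ N * (1 + κ * H / M) ^ N := by
                rw [← mul_pow]; congr 1; field_simp
            _ ≤ (1 / H) ^ N * (1 + κ * Q / M) ^ N := by gcongr
            _ ≤ _ := by gcongr
        rw [mul_assoc]
        calc _ ≤ ((1 / H : ℝ) ^ N * 2) * (2 * (gp M C).card) :=
              mul_le_mul h3 (by linarith) hL.le (by positivity)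
          _ = _ := by ring
    refine h1.trans ((sum_le_sum h2).trans ?_)
    rw [← sum_mul]
    have h3 : ∑ H ∈ Ioc 1 Q, (2 * H + 1 : ℝ) ^ j * (1 / H) ^ N ≤ ε := by
      have h4 := Bad2.sum_H (j := j) (n := n) (Q := Q)
      rw [← hn] at h4
      refine h4.trans ?_
      have h5 : (1 / 2 : ℝ) ^ n ≤ Real.exp (n * (-(1 / 2))) := by
        rw [Real.exp_nat_mul]
        exact pow_le_pow_left₀ (by norm_num) (by linarith [Real.add_one_le_exp (-(1 / 2))]) n
      refine h5.trans ?_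
      rw [hε]
      refine Real.exp_le_exp.2 ?_
      have h6 : (N : ℝ) ≤ 2 * n := by exact_mod_cast (by omega : N ≤ 2 * n)
      have h0 : (0 : ℝ) ≤ N := Nat.cast_nonneg _
      linarith only [mul_le_mul_of_nonneg_right hc1 h0, h6, h0]
    calc _ ≤ ε * (4 * a ^ j) := by gcongr
      _ = _ := by ring
  -- case 3
  have b3 : (((univ ×ˢ Bad2.bx j Q).biUnion fun p =>
      Bad2.Sd M C Q ((N + 1) * R / Q) p.1 p.2).card : ℝ) ≤ ε * a ^ j := by
    obtain ⟨n, hn⟩ : ∃ n, N = n + 1 := ⟨N - 1, by omega⟩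
    refine (Bad2.card_biUnion_le_real _ _ (b := (D / Q) ^ N * (2 * v' / vl C) * a ^ j)
      (n := N * (3 ^ N * Q ^ n)) (by positivity) ?_ fun p _ => ?_).trans ?_
    · rw [card_product, Nat.cast_mul, Bad2.card_bx, card_univ, Fintype.card_fin]
      have h1 : (j : ℝ) ≤ N := by exact_mod_cast (by omega : j ≤ N)
      have h2 : (2 * Q + 1 : ℝ) ^ j ≤ 3 ^ N * Q ^ n := by
        calc (2 * Q + 1 : ℝ) ^ j ≤ (3 * Q) ^ j := by gcongr; linarith
          _ = 3 ^ j * Q ^ j := mul_pow _ _ _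
          _ ≤ 3 ^ N * Q ^ n := mul_le_mul (pow_le_pow_right₀ (by norm_num) (by omega))
              (pow_le_pow_right₀ hQ1 (by omega)) (by positivity) (by positivity)
      gcongr
    · rw [ha]
      refine Bad2.case3 hA (by positivity) (fun s F hF => ?_) _ _ _
      have hl : (0 : ℝ) < (N + 1) * R / Q := by positivity
      refine (g4 s _ F hl fun x hx => ?_).trans ?_
      · rw [smul_unitClosedBall_of_nonneg hl.le, mem_closedBall_zero_iff]
        exact hF x hx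
      · have h1 : ((N + 1) * R / Q + κ' / M : ℝ) ≤ D / Q := by
          rw [hD, add_div]
          gcongr
        have h2 : (M : ℝ) ^ N ≤ 2 / vl C * (gp M C).card := by
          rw [div_mul_eq_mul_div, le_div_iff₀ hv]
          linarith
        calc _ ≤ (D / Q) ^ N * v' * (2 / vl C * (gp M C).card) := by gcongr
          _ = _ := by ring
    · rw [← mul_assoc]
      refine mul_le_mul_of_nonneg_right ?_ haj.le
      rw [div_lt_iff₀ hε0] at hQ
      have h1 : (N : ℝ) * (3 ^ N * Q ^ n) * ((D / Q) ^ N * (2 * v' / vl C)) =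
          N * 3 ^ N * (D ^ N * (2 * v' / vl C)) / Q := by
        have : (Q : ℝ) ^ N = Q ^ n * Q := by rw [hn, pow_succ]
        rw [div_pow, this]
        field_simp
      rw [h1, div_le_iff₀ hQ0']
      linarith
  have hsub := Bad2.cover (j := j) hC.1.isBounded hM hR hQ0 (l := (N + 1) * R / Q) (by
    have h1 : (j : ℝ) ≤ N := by exact_mod_cast (by omega : j ≤ N)
    gcongr)
  have h1 := (card_le_card hsub).trans ((card_union_le _ _).trans
    (Nat.add_le_add_right (card_union_le _ _) _))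
  have h2 := (Nat.cast_le (α := ℝ)).2 h1
  push_cast at h2
  rw [← ha]
  have h3 : 21 * ε ≤ Real.exp (-(c * N)) := by
    have h4 : Real.exp (-(c * N)) = Real.exp (c * N) * ε := by
      rw [hε, ← Real.exp_add]; congr 1; ring
    rw [h4]
    gcongr
    linarith [Real.add_one_le_exp (c * N)]
  have h5 := mul_le_mul_of_nonneg_right h3 haj.le
  linarith

end Crest.Agent.R225
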