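import Crest.Agent.R225.UArith

set_option autoImplicit false
open MeasureTheory Finset Classical Filter
open scoped Pointwise ENNReal

noncomputable section
namespace Crest.Agent.R225

variable {J : Type} [Fintype J] [DecidableEq J]

namespace Bonf

/-- the weight of a subset -/
def wt {X : Type} [DecidableEq X] (Ind : Finset X → Prop) (A : Finset X) (m : ℕ) (I : Finset X) : ℝ :=
  if I.card ≤ m ∧ Ind I then
    (-1) ^ I.card + (if ∃ e ∈ A, e ∉ I ∧ ¬ Ind (insert e I) then 1 else 0) else 0

theorem pointwise {X : Type} [DecidableEq X] (Ind : Finset X → Prop)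
    (hmono : ∀ e I, Ind (insert e I) → Ind I)
    (h0 : Ind ∅) (A Z : Finset X) (hZ : Z ⊆ A) {m : ℕ} (hm : Even m) :
    (if Z = ∅ then 1 else 0 : ℝ) ≤ ∑ I ∈ Z.powerset, wt Ind A m I := by
  split_ifs with hZ0
  · subst hZ0
    simp only [powerset_empty, sum_singleton, wt, card_empty, zero_le, h0, and_self, if_true,
      pow_zero, le_add_iff_nonneg_right]
    split_ifs <;> norm_num
  obtain ⟨e, he⟩ := nonempty_iff_ne_empty.2 hZ0
  rw [← insert_erase he, sum_powerset_insert (notMem_erase e Z), ← sum_add_distrib]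
  refine sum_nonneg fun I hI => ?_
  have heI : e ∉ I := fun h => notMem_erase e Z (mem_powerset.1 hI h)
  have hn : ∀ (P : Prop) [Decidable P], (0 : ℝ) ≤ if P then 1 else 0 := fun P _ => by
    split_ifs <;> norm_num
  unfold wt
  rw [card_insert_of_notMem heI]
  by_cases h1 : I.card ≤ m ∧ Ind I
  · rw [if_pos h1]
    by_cases h2 : I.card + 1 ≤ m ∧ Ind (insert e I)
    · rw [if_pos h2, pow_succ]
      linarith [hn (∃ e ∈ A, e ∉ I ∧ ¬ Ind (insert e I)),
        hn (∃ e' ∈ A, e' ∉ insert e I ∧ ¬ Ind (insert e' (insert e I)))]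
    · rw [if_neg h2, add_zero]
      by_cases h3 : I.card = m
      · rw [h3, hm.neg_one_pow]
        exact add_nonneg zero_le_one (hn _)
      · rw [if_pos ⟨e, hZ he, heI, fun h => h2 ⟨by omega, h⟩⟩]
        rcases neg_one_pow_eq_or ℝ I.card with h | h <;> rw [h] <;> norm_num
  · rw [if_neg h1, if_neg fun h => h1 ⟨by omega, hmono e I h.2⟩, add_zero]

/-- homogeneous coordinates mod `p` -/
def hv (p : ℕ) (x : J → ℤ) : Option J → ZMod p := fun o => o.elim (-1) fun i => (x i : ZMod p)

omit [Fintype J] [DecidableEq J] in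
theorem depMod_of {p : ℕ} [Fact p.Prime] {j : ℕ} {x : Fin j → J → ℤ} (hx : Function.Injective x)
    (h : ¬ LinearIndepOn (ZMod p) (hv p) (Set.range x)) : DepMod p x := by
  rw [linearIndepOn_range_iff hx, Fintype.not_linearIndependent_iff] at h
  obtain ⟨g, hg, i, hi⟩ := h
  refine ⟨g, fun h0 => hi (congrFun h0 i), ?_, fun k => ?_⟩
  · simpa [hv, Finset.sum_apply] using congrFun hg none
  · simpa [hv, Finset.sum_apply] using congrFun hg (some k)

theorem card_sol {p : ℕ} [Fact p.Prime] (I : Finset (J → ℤ))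
    (hI : LinearIndepOn (ZMod p) (hv p) (I : Set (J → ℤ))) :
    (univ.filter fun ab : (J → ZMod p) × ZMod p => ∀ x ∈ I, hsh ab.1 x = ab.2).card *
      p ^ I.card = p ^ (Fintype.card J + 1) := by
  let M : Matrix I (Option J) (ZMod p) := fun x => hv p x
  have h1 : M.rank = Fintype.card I := LinearIndependent.rank_matrix hI
  have h2 := LinearMap.finrank_range_add_finrank_ker M.mulVecLin
  rw [show Module.finrank (ZMod p) (LinearMap.range M.mulVecLin) = M.rank from rfl, h1,
    Fintype.card_coe, Module.finrank_fintype_fun_eq_card, Fintype.card_option] at h2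
  have h3 := Module.natCard_eq_pow_finrank (K := ZMod p) (V := LinearMap.ker M.mulVecLin)
  rw [Nat.card_zmod] at h3
  rw [← h2, pow_add, mul_comm, ← h3]
  congr 1
  have key : ∀ (w : Option J → ZMod p), w ∈ LinearMap.ker M.mulVecLin ↔
      ∀ x ∈ I, hsh (fun i => w (some i)) x = w none := fun w => by
    simp only [LinearMap.mem_ker, Matrix.mulVecLin_apply, funext_iff, Subtype.forall,
      Pi.zero_apply, Matrix.mulVec, dotProduct, Fintype.sum_option, M, hv, hsh, Option.elim]
    refine forall₂_congr fun x _ => ?_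
    rw [neg_one_mul, neg_add_eq_zero, eq_comm]
    simp only [mul_comm]
  rw [← Fintype.card_subtype, ← Nat.card_eq_fintype_card]
  exact Nat.card_congr
    { toFun := fun ab => ⟨fun o => o.elim ab.1.2 ab.1.1, (key _).2 ab.2⟩
      invFun := fun w => ⟨(fun i => w.1 (some i), w.1 none), (key _).1 w.2⟩
      left_inv := fun _ => rfl
      right_inv := fun w => Subtype.ext (funext fun o => by cases o <;> rfl) }

theorem card_bad {X : Type} [DecidableEq X] (j : ℕ) (T : Finset (Finset X))
    (hT : ∀ I ∈ T, I.card = j)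
    (S : Finset (Fin j → X))
    (hS : ∀ x : Fin j → X, Function.Injective x → univ.image x ∈ T → x ∈ S) :
    j.factorial * T.card ≤ S.card := by
  refine (mul_card_image_le_card_of_maps_to (f := fun x => univ.image x)
    (s := S.filter fun x => univ.image x ∈ T) (fun x hx => (mem_filter.1 hx).2) _
    fun I hI => ?_).trans (card_filter_le _ _)
  have e := (equivFinOfCardEq (hT I hI)).symm
  have him : ∀ σ : Equiv.Perm (Fin j), univ.image (fun k => (e (σ k) : X)) = I := fun σ => by
    ext y
    simp only [mem_image, mem_univ, true_and]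
    exact ⟨fun ⟨k, hk⟩ => hk ▸ (e (σ k)).2, fun hy => ⟨σ.symm (e.symm ⟨y, hy⟩), by simp⟩⟩
  calc j.factorial = (univ : Finset (Equiv.Perm (Fin j))).card := by
        rw [card_univ, Fintype.card_perm, Fintype.card_fin]
    _ ≤ _ := by
        refine card_le_card_of_injOn (fun σ k => (e (σ k) : X)) (fun σ _ => ?_)
          fun σ _ τ _ h => Equiv.ext fun k => e.injective (Subtype.ext (congrFun h k))
        simp only [coe_filter, mem_filter, Set.mem_ofPred_eq, him, hI, and_true]
        exact hS _ (Subtype.val_injective.comp (e.injective.comp σ.injective)) (by rw [him]; exact hI)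

theorem sum_alt {X : Type} (A : Finset X) (m : ℕ) {q : ℝ} (hq : 0 ≤ q) (hq1 : q ≤ 1) :
    ∑ I ∈ A.powerset, (if I.card ≤ m then (-q) ^ I.card else 0) ≤
      Real.exp (-(A.card * q)) + Real.exp (2 * (A.card * q)) / 2 ^ m := by
  have h1 : ∀ x : ℝ, ∑ I ∈ A.powerset, x ^ I.card = (1 + x) ^ A.card := fun x => by
    simpa using (prod_one_add (f := fun _ => x) A).symm
  calc _ ≤ ∑ I ∈ A.powerset, ((-q) ^ I.card + (2 * q) ^ I.card / 2 ^ m) := by
        refine sum_le_sum fun I _ => ?_
        split_ifs with h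
        · exact le_add_of_nonneg_right (by positivity)
        · have h2 : q ^ I.card ≤ (2 * q) ^ I.card / 2 ^ m := by
            rw [le_div_iff₀ (by positivity), mul_pow, mul_comm]
            exact mul_le_mul_of_nonneg_right (pow_le_pow_right₀ one_le_two (by omega))
              (by positivity)
          have h3 := neg_abs_le ((-q) ^ I.card)
          rw [abs_pow, abs_neg, abs_of_nonneg hq] at h3
          linarith
    _ = (1 - q) ^ A.card + (1 + 2 * q) ^ A.card / 2 ^ m := by
        rw [sum_add_distrib, ← sum_div, h1, h1, sub_eq_add_neg]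
    _ ≤ _ := by
        rw [show -(A.card * q) = A.card * (-q) by ring, show 2 * (A.card * q) = A.card * (2 * q) by
          ring, Real.exp_nat_mul, Real.exp_nat_mul]
        gcongr
        · exact Real.one_sub_le_exp_neg q
        · linarith [Real.add_one_le_exp (2 * q)]

end Bonf

/-- Bonferroni over independent sets.  Call a finset `I ⊆ A` independent if its points are affinely
independent mod `p`.  For the zero set `Z = {x ∈ A | hsh a x = b}`, let `S j` = number of independent
`j`-subsets of `Z` and `S' j` = number of those `I` for which `insert e I` is dependent for some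
`e ∈ A \ I`.  Then `1[Z = ∅] ≤ ∑_{j ≤ m} (-1)^j S j + ∑_{j < m} S' j` for even `m` (fix `e ∈ Z`; pair `I ∌ e`
with `insert e I`; unpaired sets have `|I| = m` or are counted in `S'`).  An independent `j`-set lies in
`Z` for exactly `p^{N+1-j}` pairs `(a,b)` (surjective linear map).  The number of dependent or
extendable `j`-subsets is `≤ π |A|^j / j!` (each has `j!` injective enumerations), and
`∑_{j ≤ m} (-1)^j C(|A|, j) p^{-j} ≤ (1 - 1/p)^{|A|} + ∑_{j > m} W^j / j! ≤ e^{-W} + 2^{-m} e^{2W}`. -/
theorem bonferroni {p : ℕ} [Fact p.Prime] (A : Finset (J → ℤ)) {m : ℕ} (hm : Even m) {π : ℝ}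
    (hπ : 0 ≤ π)
    (hbad : ∀ j ≤ m, (((Fintype.piFinset fun _ : Fin j => A).filter fun x => BadT p A x).card : ℝ) ≤
      π * (A.card : ℝ) ^ j) :
    ((univ.filter fun ab : (J → ZMod p) × ZMod p => ∀ x ∈ A, hsh ab.1 x ≠ ab.2).card : ℝ) ≤
      (Real.exp (-(A.card / p : ℝ)) + Real.exp (2 * (A.card / p : ℝ)) / 2 ^ m +
        2 * π * Real.exp (A.card / p : ℝ)) * (p : ℝ) ^ (Fintype.card J + 1) := by
  have hp : (1 : ℝ) ≤ p := by exact_mod_cast (Fact.out : p.Prime).one_le
  obtain ⟨Ind, hInd⟩ : ∃ Ind : Finset (J → ℤ) → Prop,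
      ∀ I, Ind I ↔ LinearIndepOn (ZMod p) (Bonf.hv p) (I : Set (J → ℤ)) := ⟨_, fun _ => Iff.rfl⟩
  have hmono : ∀ e I, Ind (insert e I) → Ind I := fun e I h =>
    (hInd _).2 (((hInd _).1 h).mono (coe_subset.2 (subset_insert e I)))
  have h0 : Ind ∅ := (hInd _).2 (by simp)
  obtain ⟨q, hq⟩ : ∃ q : ℝ, q = (p : ℝ)⁻¹ := ⟨_, rfl⟩
  have hq0 : 0 ≤ q := by rw [hq]; positivity
  have hq1 : q ≤ 1 := by rw [hq]; exact inv_le_one_of_one_le₀ hp
  obtain ⟨T, hT⟩ : ∃ T : Finset (Finset (J → ℤ)), T = A.powerset.filter fun I =>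
      I.card ≤ m ∧ (¬ Ind I ∨ ∃ e ∈ A, e ∉ I ∧ ¬ Ind (insert e I)) := ⟨_, rfl⟩
  have hbd : ∑ I ∈ T, q ^ I.card ≤ π * Real.exp (A.card * q) := by
    rw [← sum_fiberwise_of_maps_to (t := range (m + 1)) (g := card) (fun I hI => by
      rw [hT] at hI
      exact mem_range.2 (Nat.lt_succ_of_le (mem_filter.1 hI).2.1))]
    refine le_trans ?_ (mul_le_mul_of_nonneg_left
      (Real.sum_le_exp_of_nonneg (by positivity) (m + 1)) hπ)
    rw [mul_sum]
    refine sum_le_sum fun j hj => ?_
    rw [sum_congr rfl (g := fun _ => q ^ j) fun I hI => by rw [(mem_filter.1 hI).2], sum_const,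
      nsmul_eq_mul, mul_pow, ← mul_div_assoc, le_div_iff₀ (by positivity), mul_right_comm,
      ← mul_assoc]
    refine mul_le_mul_of_nonneg_right (le_trans ?_ (hbad j (Nat.lt_succ_iff.1 (mem_range.1 hj))))
      (by positivity)
    rw [mul_comm]
    norm_cast
    refine Bonf.card_bad j _ (fun I hI => (mem_filter.1 hI).2) _ fun x hx hxT => ?_
    have h1 := (mem_filter.1 hxT).1
    rw [hT, mem_filter, mem_powerset] at h1
    have hr : ((univ.image x : Finset (J → ℤ)) : Set (J → ℤ)) = Set.range x := by simp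
    refine mem_filter.2 ⟨Fintype.mem_piFinset.2 fun k => h1.1 (mem_image_of_mem _ (mem_univ k)), ?_⟩
    rcases h1.2.2 with h2 | ⟨e, he, h2, h3⟩
    · rw [hInd, hr] at h2
      exact Or.inl (Bonf.depMod_of hx h2)
    · rw [hInd, coe_insert, hr, ← Fin.range_cons] at h3
      have h4 : e ∉ Set.range x := by rwa [← hr, mem_coe]
      exact Or.inr ⟨e, he, fun k hk => h4 ⟨k, hk.symm⟩,
        Bonf.depMod_of (Fin.cons_injective_iff.2 ⟨h4, hx⟩) h3⟩
  have hcnt : ∀ I : Finset (J → ℤ), Ind I →
      ((univ.filter fun ab : (J → ZMod p) × ZMod p => ∀ x ∈ I, hsh ab.1 x = ab.2).card : ℝ) =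
        q ^ I.card * (p : ℝ) ^ (Fintype.card J + 1) := fun I hI => by
    have h1 : (_ : ℝ) = _ := congrArg Nat.cast (Bonf.card_sol I ((hInd I).1 hI))
    push_cast at h1
    rw [← h1, hq, inv_pow]
    field_simp
  calc _ = ∑ ab : (J → ZMod p) × ZMod p,
          (if (A.filter fun x => hsh ab.1 x = ab.2) = ∅ then 1 else 0 : ℝ) := by
        rw [sum_boole]
        simp only [filter_eq_empty_iff]
    _ ≤ ∑ ab : (J → ZMod p) × ZMod p, ∑ I ∈ A.powerset,
          (if ∀ x ∈ I, hsh ab.1 x = ab.2 then 1 else 0) * Bonf.wt Ind A m I := by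
        refine sum_le_sum fun ab _ => (Bonf.pointwise Ind hmono h0 A _ (filter_subset _ _) hm).trans
          (le_of_eq ?_)
        simp only [ite_mul, one_mul, zero_mul]
        rw [← sum_filter]
        refine sum_congr ?_ fun _ _ => rfl
        ext I
        simp only [mem_powerset, mem_filter, subset_iff]
        exact ⟨fun h => ⟨fun x hx => (h hx).1, fun x hx => (h hx).2⟩,
          fun h x hx => ⟨h.1 hx, h.2 x hx⟩⟩
    _ ≤ ∑ I ∈ A.powerset, ((if I.card ≤ m then (-q) ^ I.card else 0) +
          (if I ∈ T then q ^ I.card else 0)) * (p : ℝ) ^ (Fintype.card J + 1) := by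
        rw [sum_comm]
        refine sum_le_sum fun I hI => ?_
        rw [← sum_mul, sum_boole]
        have hqI : 0 ≤ q ^ I.card := by positivity
        unfold Bonf.wt
        by_cases h1 : I.card ≤ m ∧ Ind I
        · rw [if_pos h1, if_pos h1.1, hcnt I h1.2, mul_right_comm, neg_pow q, mul_add,
            mul_comm (q ^ I.card)]
          gcongr
          split_ifs with h2 h3 h3
          · simp
          · exact absurd (hT ▸ mem_filter.2 ⟨hI, h1.1, Or.inr h2⟩) h3
          · simpa using hqI
          · simp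
        · rw [if_neg h1, mul_zero]
          refine mul_nonneg ?_ (by positivity)
          by_cases h2 : I.card ≤ m
          · rw [if_pos h2, if_pos (hT ▸ mem_filter.2 ⟨hI, h2, Or.inl fun h => h1 ⟨h2, h⟩⟩)]
            have h3 := neg_abs_le ((-q) ^ I.card)
            rw [abs_pow, abs_neg, abs_of_nonneg hq0] at h3
            linarith
          · rw [if_neg h2, zero_add]
            split_ifs
            · exact hqI
            · exact le_rfl
    _ ≤ _ := by
        rw [← sum_mul, sum_add_distrib, sum_ite_mem, inter_eq_right.2 (hT ▸ filter_subset _ _),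
          div_eq_mul_inv (A.card : ℝ), ← hq]
        have h1 := Bonf.sum_alt A m hq0 hq1
        have h2 : 0 ≤ π * Real.exp (A.card * q) := by positivity
        refine mul_le_mul_of_nonneg_right ?_ (by positivity)
        linarith

end Crest.Agent.R225
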