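import Crest.Agent.R225.UThin

/-! A projection whose cells all have at least Gaussian mass. -/

set_option autoImplicit false
open MeasureTheory Finset Classical Filter
open scoped Pointwise ENNReal

noncomputable section
namespace Crest.Agent.R225

theorem UCells_wc_nonneg {b : ℝ} (hb : 0 < b) (c : ℤ) : 0 ≤ wc b c :=
  (mul_pos hb (phi_pos _)).le

theorem UCells_gint {ε r₀ r δ : ℝ} (hε : 0 < ε) (hr₀ : 0 < r₀) (h1 : r₀ ≤ r) (h2 : r ≤ r₀ * δ)
    (m : ℤ) : wc ε m / δ ≤ gint r (r₀ * (ε * m)) (r₀ * (ε * (m + 1))) := by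
  have hr : 0 < r := hr₀.trans_le h1
  have hδ : 0 < δ := (mul_pos_iff_of_pos_left hr₀).1 (hr.trans_le h2)
  have hcont : Continuous fun s : ℝ => phi (s / r) / r := by
    unfold phi
    fun_prop
  have hle : r₀ * (ε * m) ≤ r₀ * (ε * (m + 1)) :=
    mul_le_mul_of_nonneg_left (mul_le_mul_of_nonneg_left (by linarith) hε.le) hr₀.le
  have key := setIntegral_ge_of_const_le_real (μ := volume) (f := fun s : ℝ => phi (s / r) / r)
    (c := wc ε m / ε / (r₀ * δ)) (s := Set.Icc (r₀ * (ε * m)) (r₀ * (ε * (m + 1))))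
    measurableSet_Icc measure_Icc_lt_top.ne (fun s hs => ?_) hcont.integrableOn_Icc
  · rw [Real.volume_real_Icc_of_le hle] at key
    refine le_trans (le_of_eq ?_) key
    field_simp
    ring
  · have hu : s / r₀ = ε * (m + (s / r₀ / ε - m)) := by field_simp; ring
    have hu0 : 0 ≤ s / r₀ / ε - m := by
      rw [sub_nonneg, le_div_iff₀ hε, le_div_iff₀ hr₀]
      linarith [hs.1]
    have hu1 : s / r₀ / ε - m ≤ 1 := by
      rw [sub_le_iff_le_add, div_le_iff₀ hε, div_le_iff₀ hr₀]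
      linarith [hs.2]
    have h3 := wc_le hε m hu0 hu1
    rw [← hu] at h3
    have h4 : phi (s / r₀) ≤ phi (s / r) := by
      refine phi_anti ?_
      rw [abs_div, abs_div, abs_of_pos hr, abs_of_pos hr₀]
      exact div_le_div_of_nonneg_left (abs_nonneg _) hr₀ h1
    have h5 : wc ε m / ε ≤ phi (s / r) := by
      rw [div_le_iff₀' hε]
      exact h3.trans (mul_le_mul_of_nonneg_left h4 hε.le)
    exact div_le_div₀ (phi_pos _).le h5 hr h2

theorem UCells_pbar {ι J : Type} [Fintype ι] [Fintype J] {K KI : Set (J → ℝ)} (hK : Body K)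
    (hKI : MeasurableSet KI) (hsub : KI ⊆ K) {ε r₀ c₁ : ℝ} (hε : 0 < ε) (hr₀ : 0 < r₀)
    (hr : ∀ x ∈ KI, r₀ ^ 2 ≤ x ⬝ᵥ x ∧
      x ⬝ᵥ x ≤ (r₀ * (1 + 1 / ((Fintype.card ι : ℝ) + 1))) ^ 2)
    (hc : c₁ * vl K ≤ vl KI) (m : ι → ℤ) :
    c₁ * (omg (fun _ => ε) m / Real.exp 1) ≤
      pbar K KI (fun i => r₀ * (ε * m i)) (fun i => r₀ * (ε * (m i + 1))) := by
  have := sm_finite hK hsub
  have hV := sm_vl_pos hK
  have h0 : ∀ x ∈ KI, x ≠ 0 := by
    rintro x hx rfl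
    have := (hr _ hx).1
    simp only [dotProduct_zero] at this
    exact absurd this (not_le.2 (by positivity))
  set q : ℝ := (Fintype.card ι : ℝ) + 1 with hq
  have hq0 : 0 < q := by positivity
  have hom : 0 ≤ omg (fun _ : ι => ε) m := prod_nonneg fun i _ => UCells_wc_nonneg hε _
  have hint : IntegrableOn (fun x : J → ℝ => ∏ i, gint (Real.sqrt (x ⬝ᵥ x)) (r₀ * (ε * m i))
      (r₀ * (ε * (m i + 1)))) KI :=
    IntegrableOn.congr_fun (sm_integrable (gmat ι J) (volume.restrict KI)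
      (smA_meas (fun i => r₀ * (ε * m i)) (fun i => r₀ * (ε * (m i + 1)))))
      (fun x hx => sm_one (h0 x hx) _ _) hKI
  have key := setIntegral_ge_of_const_le_real (c := omg (fun _ => ε) m / Real.exp 1) hKI
    ((measure_mono hsub).trans_lt hK.1.measure_lt_top).ne (fun x hx => ?_) hint
  · rw [pbar, le_div_iff₀ hV]
    refine le_trans ?_ key
    have := mul_le_mul_of_nonneg_left hc (div_nonneg hom (Real.exp_pos 1).le)
    calc _ = omg (fun _ => ε) m / Real.exp 1 * (c₁ * vl K) := by ring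
      _ ≤ _ := this
  · have h1 : r₀ ≤ Real.sqrt (x ⬝ᵥ x) := Real.le_sqrt_of_sq_le (hr x hx).1
    have h2 : Real.sqrt (x ⬝ᵥ x) ≤ r₀ * (1 + 1 / q) :=
      Real.sqrt_le_iff.2 ⟨by positivity, (hr x hx).2⟩
    have h3 : (1 + 1 / q) ^ Fintype.card ι ≤ Real.exp 1 := by
      calc (1 + 1 / q) ^ Fintype.card ι ≤ Real.exp (1 / q) ^ Fintype.card ι :=
            pow_le_pow_left₀ (by positivity) (by linarith [Real.add_one_le_exp (1 / q)]) _
        _ = Real.exp (Fintype.card ι * (1 / q)) := (Real.exp_nat_mul _ _).symm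
        _ ≤ _ := by
          refine Real.exp_le_exp.2 ?_
          rw [mul_one_div, div_le_one hq0]
          linarith
    calc omg (fun _ => ε) m / Real.exp 1 ≤ omg (fun _ => ε) m / (1 + 1 / q) ^ Fintype.card ι :=
          div_le_div_of_nonneg_left hom (by positivity) h3
      _ = ∏ i, wc ε (m i) / (1 + 1 / q) := by
          rw [prod_div_distrib, prod_const, card_univ, omg]
      _ ≤ _ := prod_le_prod (fun i _ => div_nonneg (UCells_wc_nonneg hε _) (by positivity))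
          fun i _ => UCells_gint hε hr₀ h1 h2 _

theorem UCells_abs {q : ℝ} (hq : 1 ≤ q) {x : ℝ} (hx : |x| ≤ (q + 2) ^ 3) :
    1 / q ^ 2 * (|x| + 1) ≤ 30 * q := by
  have hq0 : 0 < q := by linarith
  have h1 : (q + 2) ^ 3 ≤ (3 * q) ^ 3 := pow_le_pow_left₀ (by linarith) (by linarith) 3
  have h2 : 1 ≤ q ^ 3 := one_le_pow₀ hq
  rw [one_div, inv_mul_le_iff₀ (by positivity)]
  nlinarith

theorem UCells_wc_ge {q : ℝ} (hq : 1 ≤ q) {m : ℤ} (hm : |(m : ℝ)| ≤ (q + 2) ^ 3) :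
    Real.exp (-(454 * q ^ 2)) ≤ wc (1 / q ^ 2) m := by
  have hq0 : 0 < q := by linarith
  have hq2 : q ≤ q ^ 2 := le_self_pow₀ hq two_ne_zero
  have h1 : phi (30 * q) ≤ phi (1 / q ^ 2 * max |(m : ℝ)| |(m : ℝ) + 1|) := by
    refine phi_anti ?_
    rw [abs_of_nonneg (a := 30 * q) (by positivity),
      abs_of_nonneg (a := 1 / q ^ 2 * max |(m : ℝ)| |(m : ℝ) + 1|) (by positivity)]
    refine le_trans (mul_le_mul_of_nonneg_left (max_le (by linarith) ?_) (by positivity))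
      (UCells_abs hq hm)
    simpa using abs_add_le (m : ℝ) 1
  have h2 := UVAna_le_phi (30 * q)
  have h3 : Real.exp (-(2 * q ^ 2)) ≤ 1 / q ^ 2 := by
    rw [Real.exp_neg, one_div]
    refine inv_anti₀ (by positivity) ?_
    have := Real.add_one_le_exp (2 * q ^ 2)
    nlinarith
  have h4 : Real.exp (-(2 * q ^ 2)) ≤ 1 / 3 := by
    rw [Real.exp_neg, one_div]
    refine inv_anti₀ (by positivity) ?_
    have := Real.add_one_le_exp (2 * q ^ 2)
    nlinarith
  calc Real.exp (-(454 * q ^ 2))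
      = Real.exp (-(2 * q ^ 2)) * (Real.exp (-((30 * q) ^ 2 / 2)) * Real.exp (-(2 * q ^ 2))) := by
        rw [← Real.exp_add, ← Real.exp_add]; congr 1; ring
    _ ≤ 1 / q ^ 2 * (Real.exp (-((30 * q) ^ 2 / 2)) * (1 / 3)) :=
        mul_le_mul h3 (mul_le_mul_of_nonneg_left h4 (Real.exp_pos _).le) (by positivity)
          (by positivity)
    _ ≤ _ := by
        refine mul_le_mul_of_nonneg_left ?_ (by positivity)
        rw [mul_one_div]
        exact h2.trans h1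

/-- the numerical estimate of the union bound -/
theorem UCells_num {q k w ρ v c₁ N D : ℝ} (hq : 1 ≤ q) (hk0 : 0 ≤ k) (hk : k ≤ q) (hc₁ : 0 < c₁)
    (hD : 500 + |Real.log c₁| ≤ D) (hw : Real.exp (D * q ^ 5) ≤ w) (hρ0 : 0 ≤ ρ) (hρ : ρ ≤ 2 / w)
    (hv : c₁ * (Real.exp (-(454 * q ^ 3)) / Real.exp 1) ≤ v) (hN0 : 0 ≤ N)
    (hN : N ≤ Real.exp (8 * q ^ 2)) :
    N * (4 * (Real.exp (k * (ρ * ((30 * q) ^ 2 + 1))) - 1 + 1 / w ^ 2 / v ^ 2)) < 1 := by
  have hq0 : 0 < q := by linarith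
  have hL : 1 ≤ q ^ 5 := one_le_pow₀ hq
  have hq1 : q ≤ q ^ 5 := le_self_pow₀ hq (by norm_num)
  have hq2 : q ^ 2 ≤ q ^ 5 := pow_le_pow_right₀ hq (by norm_num)
  have hq3 : q ^ 3 ≤ q ^ 5 := pow_le_pow_right₀ hq (by norm_num)
  have hq21 : 1 ≤ q ^ 2 := one_le_pow₀ hq
  have hw0 : 0 < w := (Real.exp_pos _).trans_le hw
  have hl := abs_nonneg (Real.log c₁)
  have hDL : 500 * q ^ 5 + |Real.log c₁| ≤ D * q ^ 5 := by nlinarith
  have hwi : 1 / w ≤ Real.exp (-(D * q ^ 5)) := by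
    rw [Real.exp_neg, one_div]
    exact inv_anti₀ (Real.exp_pos _) hw
  have e8 : (1802 : ℝ) ≤ Real.exp 8 := by
    have h1 : (2.7 : ℝ) ^ 8 ≤ Real.exp 1 ^ 8 :=
      pow_le_pow_left₀ (by norm_num) (by linarith [Real.exp_one_gt_d9]) 8
    rw [← Real.exp_nat_mul] at h1
    norm_num at h1 ⊢
    linarith
  have e3 : q ^ 3 ≤ Real.exp (3 * q) := by
    have := pow_le_pow_left₀ hq0.le (show q ≤ Real.exp q by linarith [Real.add_one_le_exp q]) 3
    rwa [← Real.exp_nat_mul] at this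
  set x := k * (ρ * ((30 * q) ^ 2 + 1)) with hx
  have hx0 : 0 ≤ x := by positivity
  have hx1 : x ≤ Real.exp (-(400 * q ^ 5)) := by
    calc x ≤ q * (2 / w * (901 * q ^ 2)) :=
          mul_le_mul hk (mul_le_mul hρ (by nlinarith) (by positivity) (by positivity))
            (by positivity) hq0.le
      _ = 1802 * q ^ 3 * (1 / w) := by ring
      _ ≤ Real.exp 8 * Real.exp (3 * q) * Real.exp (-(D * q ^ 5)) :=
          mul_le_mul (mul_le_mul e8 e3 (by positivity) (by positivity)) hwi (by positivity)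
            (by positivity)
      _ ≤ _ := by
          rw [← Real.exp_add, ← Real.exp_add]
          exact Real.exp_le_exp.2 (by linarith)
  have hx2 : x ≤ 1 := hx1.trans (Real.exp_le_one_iff.2 (by linarith))
  have hx3 : Real.exp x - 1 ≤ 2 * x := by
    have := Real.abs_exp_sub_one_le (x := x) (by rwa [abs_of_nonneg hx0])
    rw [abs_of_nonneg hx0] at this
    exact (le_abs_self _).trans this
  have hv0 : Real.exp (-(|Real.log c₁| + 454 * q ^ 3 + 1)) ≤ v := by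
    refine le_trans ?_ hv
    rw [← Real.exp_sub, ← Real.exp_log hc₁, ← Real.exp_add, Real.log_exp]
    exact Real.exp_le_exp.2 (by linarith [neg_abs_le (Real.log c₁)])
  have hy : 1 / w ^ 2 / v ^ 2 ≤ Real.exp (-(80 * q ^ 5)) := by
    have h1 : 1 / w / v ≤ Real.exp (-(40 * q ^ 5)) := by
      refine (div_le_div₀ (Real.exp_pos _).le hwi (Real.exp_pos _) hv0).trans ?_
      rw [← Real.exp_sub]
      exact Real.exp_le_exp.2 (by linarith)
    have hv1 : 0 < v := (Real.exp_pos _).trans_le hv0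
    calc 1 / w ^ 2 / v ^ 2 = (1 / w / v) ^ 2 := by ring
      _ ≤ Real.exp (-(40 * q ^ 5)) ^ 2 := pow_le_pow_left₀ (by positivity) h1 2
      _ = _ := by rw [← Real.exp_nat_mul]; congr 1; push_cast; ring
  have hx4 : x ≤ Real.exp (-(80 * q ^ 5)) := hx1.trans (Real.exp_le_exp.2 (by linarith))
  calc N * (4 * (Real.exp x - 1 + 1 / w ^ 2 / v ^ 2))
      ≤ Real.exp (8 * q ^ 2) * (12 * Real.exp (-(80 * q ^ 5))) :=
        (mul_le_mul_of_nonneg_left (by linarith) hN0).trans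
          (mul_le_mul_of_nonneg_right hN (by positivity))
    _ = 12 * Real.exp (8 * q ^ 2 + -(80 * q ^ 5)) := by rw [Real.exp_add]; ring
    _ ≤ 12 * Real.exp (-72) :=
        mul_le_mul_of_nonneg_left (Real.exp_le_exp.2 (by linarith)) (by norm_num)
    _ < 1 := by
        rw [Real.exp_neg, ← div_eq_mul_inv, div_lt_one (Real.exp_pos _)]
        linarith [Real.add_one_le_exp 72]

/-- `k = card ι`, `ε = 1/(k+1)²`, `KI, r₀` from `thin_shell (k+1)`.  For the box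
`∏ [r₀ ε m i, r₀ ε (m i + 1)]` and `r ∈ [r₀, r₀ (1 + 1/(k+1))]`:
`phi (s/r)/r ≥ phi (s/r₀) / (r₀ (1 + 1/(k+1)))`, so `gint r ≥ wc ε (m i) / (1 + 1/(k+1))` (`wc_le`) and
`pbar K KI ≥ c₁ e^{-1} omg ε m =: v ≥ exp (-C (k+1)³)` (`|ε m i| + ε ≤ T = 30 (k+1)`).
`pbox_lower` with `R = r₀`, `ρ = n^{3/4} / r₀² ≤ 2 n^{-1/4}` and a union bound over the
`(2 (k+3)³ + 1)^k` cells give `Γ'` for `n ≥ exp (C (k+1)^5)`; `Γ = Γ' / r₀`, `pbox K KI ≤ pbox K K`. -/
theorem cells : ∃ c C : ℝ, 0 < c ∧ ∀ (ι J : Type) [Fintype ι] [Fintype J] (K : Set (J → ℝ)),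
    Body K → Iso K → Real.exp (C * (Fintype.card ι + 1) ^ 5) ≤ Fintype.card J →
      ∃ Γ : ι → J → ℝ, ∀ m : ι → ℤ, (∀ i, |m i| ≤ ((Fintype.card ι : ℤ) + 3) ^ 3) →
        c * omg (fun _ => 1 / ((Fintype.card ι : ℝ) + 1) ^ 2) m ≤
          pbox K K (fun i => 1 / ((Fintype.card ι : ℝ) + 1) ^ 2 * m i)
            (fun i => 1 / ((Fintype.card ι : ℝ) + 1) ^ 2 * (m i + 1)) Γ := by
  obtain ⟨c₁, C₀, hc₁, hthin⟩ := thin_shell
  set D : ℝ := 500 + |Real.log c₁| + 4 * |C₀| with hD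
  refine ⟨c₁ / Real.exp 1 / 2, 4 * D, by positivity, fun ι J _ _ K hK hI hn => ?_⟩
  set q : ℝ := (Fintype.card ι : ℝ) + 1 with hq
  have hk0 : (0 : ℝ) ≤ Fintype.card ι := Nat.cast_nonneg _
  have hq1 : 1 ≤ q := by linarith
  have hq0 : 0 < q := by linarith
  have hl := abs_nonneg (Real.log c₁)
  have hC := abs_nonneg C₀
  have hL : 1 ≤ q ^ 5 := one_le_pow₀ hq1
  obtain ⟨r₀, hr₀, hnr, hmass⟩ := hthin (Fintype.card ι + 1) (by omega) J K hK hI (by
    refine le_trans (Real.exp_le_exp.2 ?_) hn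
    push_cast
    have h1 : (q + 1) ^ 4 ≤ (2 * q) ^ 4 := pow_le_pow_left₀ (by linarith) (by linarith) 4
    have h2 : q ^ 4 ≤ q ^ 5 := pow_le_pow_right₀ hq1 (by norm_num)
    calc C₀ * (q + 1) ^ 4 ≤ |C₀| * (16 * q ^ 5) :=
          mul_le_mul (le_abs_self _) (by linarith [mul_pow 2 q 4]) (by positivity) hC
      _ = 16 * |C₀| * q ^ 5 := by ring
      _ ≤ _ := mul_le_mul_of_nonneg_right (by linarith) (by positivity))
  push_cast at hmass
  set KI := K ∩ {x | r₀ ^ 2 ≤ x ⬝ᵥ x ∧ x ⬝ᵥ x ≤ (r₀ * (1 + 1 / q)) ^ 2} with hKIdef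
  have hdot : Measurable fun x : J → ℝ => x ⬝ᵥ x := by
    unfold dotProduct
    fun_prop
  have hKI : MeasurableSet KI := hK.1.measurableSet.inter
    ((measurableSet_le measurable_const hdot).inter (measurableSet_le hdot measurable_const))
  have hsub : KI ⊆ K := Set.inter_subset_left
  set ε : ℝ := 1 / q ^ 2 with hε
  have hε0 : 0 < ε := by positivity
  set n : ℝ := (Fintype.card J : ℝ) with hnn
  have hn0 : 0 < n := (Real.exp_pos _).trans_le hn
  set w : ℝ := Real.sqrt (Real.sqrt n) with hw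
  have hw4 : w ^ 4 = n := by
    rw [show w ^ 4 = (w ^ 2) ^ 2 by ring, hw, Real.sq_sqrt (Real.sqrt_nonneg _), Real.sq_sqrt hn0.le]
  have hwD : Real.exp (D * q ^ 5) ≤ w := by
    refine (pow_le_pow_iff_left₀ (Real.exp_pos _).le (Real.sqrt_nonneg _) (by norm_num : 4 ≠ 0)).1 ?_
    rw [hw4, ← Real.exp_nat_mul]
    refine le_trans (le_of_eq ?_) hn
    congr 1
    push_cast
    ring
  have hw0 : 0 < w := (Real.exp_pos _).trans_le hwD
  have hw4' : 4 ≤ w := by
    have := Real.add_one_le_exp (D * q ^ 5)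
    nlinarith
  set ρ : ℝ := w ^ 3 / r₀ ^ 2 with hρ
  have hρ0 : 0 < ρ := by positivity
  have hρ1 : ρ ≤ 2 / w := by
    rw [hρ, div_le_div_iff₀ (by positivity) hw0, ← pow_succ, hw4]
    linarith
  have hρ2 : ρ ≤ 1 / 2 := by
    refine hρ1.trans ?_
    rw [div_le_div_iff₀ hw0 two_pos]
    linarith
  have hnρ : n / (ρ * r₀ ^ 2) ^ 2 = 1 / w ^ 2 := by
    rw [hρ, ← hw4]
    field_simp
  set B : ℤ := ((Fintype.card ι : ℤ) + 3) ^ 3 with hB
  have hBq : (B : ℝ) = (q + 2) ^ 3 := by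
    rw [hB, hq]; push_cast; ring
  set S : Finset (ι → ℤ) := Fintype.piFinset fun _ => Finset.Icc (-B) B with hS
  set v₀ : ℝ := c₁ * (Real.exp (-(454 * q ^ 3)) / Real.exp 1) with hv₀
  have hv₀0 : 0 < v₀ := by positivity
  let bad : (ι → ℤ) → Set (ι → J → ℝ) := fun m =>
    {Γ | pbox K KI (fun i => r₀ * (ε * m i)) (fun i => r₀ * (ε * (m i + 1))) Γ <
      c₁ * (omg (fun _ => ε) m / Real.exp 1) / 2}
  have hbad : ∀ m ∈ S, (gmat ι J).real (bad m) ≤
      4 * (Real.exp (Fintype.card ι * (ρ * ((30 * q) ^ 2 + 1))) - 1 + 1 / w ^ 2 / v₀ ^ 2) := by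
    intro m hm
    have hm' : ∀ i, |(m i : ℝ)| ≤ (q + 2) ^ 3 := fun i => by
      have := Finset.mem_Icc.1 (Fintype.mem_piFinset.1 hm i)
      rw [← hBq]
      exact_mod_cast abs_le.2 this
    have hom : Real.exp (-(454 * q ^ 3)) ≤ omg (fun _ : ι => ε) m := by
      calc Real.exp (-(454 * q ^ 3)) ≤ Real.exp (-(454 * q ^ 2)) ^ Fintype.card ι := by
            rw [← Real.exp_nat_mul]
            refine Real.exp_le_exp.2 ?_
            have : (Fintype.card ι : ℝ) * q ^ 2 ≤ q * q ^ 2 :=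
              mul_le_mul_of_nonneg_right (by linarith) (by positivity)
            nlinarith
        _ = ∏ _i : ι, Real.exp (-(454 * q ^ 2)) := by rw [prod_const, card_univ]
        _ ≤ _ := prod_le_prod (fun _ _ => (Real.exp_pos _).le) fun i _ => UCells_wc_ge hq1 (hm' i)
    have hv : v₀ ≤ c₁ * (omg (fun _ => ε) m / Real.exp 1) :=
      mul_le_mul_of_nonneg_left (div_le_div_of_nonneg_right hom (Real.exp_pos _).le) hc₁.le
    have hab : ∀ i, |r₀ * (ε * m i)| ≤ 30 * q * r₀ ∧ |r₀ * (ε * (m i + 1))| ≤ 30 * q * r₀ := by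
      intro i
      have h1 := UCells_abs hq1 (hm' i)
      have h2 : |(m i : ℝ) + 1| ≤ |(m i : ℝ)| + 1 := by simpa using abs_add_le (m i : ℝ) 1
      rw [abs_mul, abs_mul, abs_mul, abs_mul, abs_of_pos hr₀, abs_of_pos hε0, mul_comm (30 * q)]
      exact ⟨mul_le_mul_of_nonneg_left
          ((mul_le_mul_of_nonneg_left (by linarith) hε0.le).trans h1) hr₀.le,
        mul_le_mul_of_nonneg_left ((mul_le_mul_of_nonneg_left h2 hε0.le).trans h1) hr₀.le⟩
    have h3 := pbox_lower hK hI hKI hsub hr₀ (fun x hx => hx.2.1) hρ0 hρ2 _ _ hab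
      (hv₀0.trans_le hv) (UCells_pbar hK hKI hsub hε0 hr₀ (fun x hx => hx.2) hmass m)
    refine h3.trans ?_
    rw [← hnn, hnρ]
    have h4 : 1 / w ^ 2 / (c₁ * (omg (fun _ => ε) m / Real.exp 1)) ^ 2 ≤ 1 / w ^ 2 / v₀ ^ 2 :=
      div_le_div_of_nonneg_left (by positivity) (by positivity) (pow_le_pow_left₀ hv₀0.le hv 2)
    linarith
  have hcard : (S.card : ℝ) ≤ Real.exp (8 * q ^ 2) := by
    have hB0 : 0 ≤ B := by positivity
    have h1 : (((Finset.Icc (-B) B).card : ℕ) : ℝ) = 2 * (q + 2) ^ 3 + 1 := by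
      have : (((Finset.Icc (-B) B).card : ℕ) : ℤ) = 2 * B + 1 := by
        rw [Int.card_Icc, Int.toNat_of_nonneg (by linarith)]
        ring
      rw [← hBq]
      exact_mod_cast this
    have h2 : 2 * (q + 2) ^ 3 + 1 ≤ Real.exp (8 * q) := by
      have a1 : (q + 2) ^ 3 ≤ Real.exp (q + 1) ^ 3 :=
        pow_le_pow_left₀ (by linarith) (by linarith [Real.add_one_le_exp (q + 1)]) 3
      have a2 : 1 ≤ (q + 2) ^ 3 := one_le_pow₀ (by linarith)
      have a3 : (3 : ℝ) ≤ Real.exp 2 := by linarith [Real.add_one_le_exp 2]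
      rw [← Real.exp_nat_mul] at a1
      calc 2 * (q + 2) ^ 3 + 1 ≤ 3 * (q + 2) ^ 3 := by linarith
        _ ≤ Real.exp 2 * Real.exp ((3 : ℕ) * (q + 1)) :=
            mul_le_mul a3 a1 (by positivity) (by positivity)
        _ ≤ _ := by
            rw [← Real.exp_add]
            exact Real.exp_le_exp.2 (by push_cast; linarith)
    rw [hS, Fintype.card_piFinset, prod_const, card_univ, Nat.cast_pow, h1]
    refine (pow_le_pow_left₀ (by positivity) h2 _).trans ?_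
    rw [← Real.exp_nat_mul]
    refine Real.exp_le_exp.2 ?_
    have : (Fintype.card ι : ℝ) * q ≤ q * q := mul_le_mul_of_nonneg_right (by linarith) hq0.le
    nlinarith
  have hlt : (gmat ι J).real (⋃ m ∈ S, bad m) < 1 := by
    refine (measureReal_biUnion_finset_le S bad).trans_lt ?_
    refine (Finset.sum_le_card_nsmul _ _ _ hbad).trans_lt ?_
    rw [nsmul_eq_mul]
    exact UCells_num hq1 hk0 (by linarith) hc₁ (D := D) (by linarith) hwD hρ0.le hρ1 le_rfl
      (Nat.cast_nonneg _) hcard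
  obtain ⟨Γ', hΓ'⟩ : ∃ Γ', Γ' ∉ ⋃ m ∈ S, bad m := by
    by_contra hcon
    push Not at hcon
    rw [Set.eq_univ_of_forall hcon, probReal_univ] at hlt
    exact lt_irrefl _ hlt
  refine ⟨fun i => r₀⁻¹ • Γ' i, fun m hm => ?_⟩
  have hmS : m ∈ S := Fintype.mem_piFinset.2 fun i => Finset.mem_Icc.2 (abs_le.1 (hm i))
  have h1 : c₁ * (omg (fun _ => ε) m / Real.exp 1) / 2 ≤
      pbox K KI (fun i => r₀ * (ε * m i)) (fun i => r₀ * (ε * (m i + 1))) Γ' :=
    not_lt.1 fun h => hΓ' (Set.mem_biUnion hmS h)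
  refine le_trans (le_of_eq (by ring)) (h1.trans ?_)
  refine div_le_div_of_nonneg_right (ENNReal.toReal_mono
    ((measure_mono Set.inter_subset_left).trans_lt hK.1.measure_lt_top).ne
    (measure_mono fun x hx => ⟨hx.1.1, fun i => ?_⟩)) ENNReal.toReal_nonneg
  have h2 := hx.2 i
  rw [smul_dotProduct, smul_eq_mul, Set.mem_Icc, le_inv_mul_iff₀ hr₀, inv_mul_le_iff₀ hr₀]
  exact h2

end Crest.Agent.R225
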