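import Crest.Agent.R225.UHor

set_option autoImplicit false
open MeasureTheory Finset Classical Filter
open scoped Pointwise ENNReal

noncomputable section
namespace Crest.Agent.R225

private theorem ucore_markov {α : Type} [Fintype α] (f : α → ℝ) (hf : ∀ a, 0 ≤ f a) {t B : ℝ}
    (ht : 0 < t) (h : ∑ a, f a ≤ B) : ((univ.filter fun a => t < f a).card : ℝ) ≤ B / t := by
  rw [le_div_iff₀ ht]
  calc ((univ.filter fun a => t < f a).card : ℝ) * t
      = ∑ a ∈ univ.filter (fun a => t < f a), t := by simp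
    _ ≤ ∑ a ∈ univ.filter (fun a => t < f a), f a :=
        sum_le_sum fun a ha => (mem_filter.1 ha).2.le
    _ ≤ ∑ a, f a := sum_le_sum_of_subset_of_nonneg (filter_subset _ _) fun a _ _ => hf a
    _ ≤ B := h

private theorem ucore_union {α β : Type} [Fintype α] (I : Finset β) (Bad : β → Finset α)
    (B₀ : Finset α) (h : (B₀.card : ℝ) + ∑ i ∈ I, ((Bad i).card : ℝ) < Fintype.card α) :
    ∃ a, a ∉ B₀ ∧ ∀ i ∈ I, a ∉ Bad i := by
  have h1 : (B₀ ∪ I.biUnion Bad).card < (univ : Finset α).card := by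
    have h2 := card_union_le B₀ (I.biUnion Bad)
    have h3 : (I.biUnion Bad).card ≤ ∑ i ∈ I, (Bad i).card := card_biUnion_le
    have h4 : B₀.card + ∑ i ∈ I, (Bad i).card < Fintype.card α := by exact_mod_cast h
    rw [card_univ]
    omega
  obtain ⟨a, -, ha⟩ := exists_mem_notMem_of_card_lt_card h1
  refine ⟨a, fun h => ha (mem_union_left _ h), fun i hi h => ha (mem_union_right _ ?_)⟩
  exact mem_biUnion.2 ⟨i, hi, h⟩

private theorem ucore_sepBy {p : ℕ} [Fact p.Prime] {D : ℕ} (hD : D < p) : SepBy (ZMod p) D := by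
  intro d hd hdD g hg
  rw [zsmul_eq_mul, mul_eq_zero] at hg
  refine hg.resolve_left fun h0 => ?_
  rw [ZMod.intCast_zmod_eq_zero_iff_dvd] at h0
  have := Int.le_of_dvd (abs_pos.2 hd) ((dvd_abs _ _).2 h0)
  omega

private theorem ucore_hsh_add {J : Type} [Fintype J] {p : ℕ} (a : J → ZMod p) (y y' : J → ℤ) :
    hsh a (y + y') = hsh a y + hsh a y' := by
  simp [hsh, mul_add, sum_add_distrib]

private theorem ucore_hsh_neg {J : Type} [Fintype J] {p : ℕ} (ψ : J → ZMod p) (z : J → ℤ) :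
    hsh (-ψ) z = - lin ψ z := by
  simp [hsh, lin, mul_comm]

/-- indicator of the residues missed by `hsh a` on `A` -/
private def ucoreF {J : Type} [Fintype J] {p : ℕ} (a : J → ZMod p) (A : Finset (J → ℤ))
    (g : ZMod p) : ℝ := if ∀ y ∈ A, hsh a y ≠ g then 1 else 0

private theorem ucoreF_nonneg {J : Type} [Fintype J] {p : ℕ} (a : J → ZMod p) (A : Finset (J → ℤ))
    (g : ZMod p) : 0 ≤ ucoreF a A g := by
  unfold ucoreF
  split_ifs <;> norm_num

private theorem ucore_sum_av {N p : ℕ} [Fact p.Prime] (A : Finset (Fin N → ℤ)) {B : ℝ}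
    (h : ((univ.filter fun ab : (Fin N → ZMod p) × ZMod p =>
      ∀ y ∈ A, hsh ab.1 y ≠ ab.2).card : ℝ) ≤ B * (p : ℝ) ^ (N + 1)) :
    ∑ a : Fin N → ZMod p, av (ucoreF a A) ≤ B * (p : ℝ) ^ N := by
  have hp : (0 : ℝ) < p := by exact_mod_cast (Fact.out : p.Prime).pos
  simp only [av, ZMod.card]
  rw [← sum_div, div_le_iff₀ hp, mul_assoc, ← pow_succ]
  refine le_trans (le_of_eq ?_) h
  rw [← Fintype.sum_prod_type' (f := fun a g => ucoreF a A g), card_filter]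
  push_cast
  rfl

/-- The selection at a fixed prime. -/
private theorem ucore_fixed {N : ℕ} {ι 𝓙 : Type} [Fintype ι] [Fintype 𝓙] {p : ℕ} [Fact p.Prime]
    {x : ℝ} (hx : 0 ≤ x) {P : ℕ} (hP : 2 * P < p) (S : 𝓙 → Finset (ι → ℤ))
    (A : 𝓙 → (ι → ℤ) → Finset (Fin N → ℤ)) (A₀ : Finset (Fin N → ℤ)) (V : 𝓙 → (ι → ℤ) → ℝ) (δ : ℝ)
    (hS : ∀ j, IsTree (S j)) (hSP : ∀ j, ∀ z ∈ S j, ∀ i, |z i| ≤ P)
    (hA : ∀ j, ∀ z ∈ S j, ((univ.filter fun ab : (Fin N → ZMod p) × ZMod p =>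
      ∀ y ∈ A j z, hsh ab.1 y ≠ ab.2).card : ℝ) ≤ 3 * Real.exp (-(V j z)) * (p : ℝ) ^ (N + 1))
    (hA₀ : ∀ x ∈ A₀, ∀ y ∈ A₀, (∀ i, (x i : ZMod p) = y i) → x = y) (h8 : 8 * A₀.card ≤ p)
    (hδ : δ ≤ A₀.card / 2 / p)
    (hsum : (∑ j, ((S j).card : ℝ)) * Real.exp (-x) ≤ 1 / 8)
    (hexp : ∀ j, Real.exp (-(∑ z ∈ S j, V j z) + (S j).card * (2 * x + 2)) < δ) :
    ∃ (a : Fin N → ZMod p) (φ : ι → ZMod p), ∀ j (b : ZMod p), ∃ z ∈ S j, ∃ y ∈ A j z,
      ∃ y₀ ∈ A₀, hsh a (y + y₀) + hsh φ z = b := by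
  have hp : (0 : ℝ) < p := by exact_mod_cast (Fact.out : p.Prime).pos
  have hpN : (0 : ℝ) < (p : ℝ) ^ N := pow_pos hp N
  set α : 𝓙 → (ι → ℤ) → ℝ := fun j z => Real.exp x * (3 * Real.exp (-(V j z))) with hα
  have hαpos : ∀ j z, 0 < α j z := fun j z => by simp only [hα]; positivity
  -- a good `a`
  obtain ⟨a, ha0, ha⟩ := ucore_union ((univ : Finset 𝓙).sigma S)
    (fun jz => univ.filter fun a : Fin N → ZMod p => α jz.1 jz.2 < av (ucoreF a (A jz.1 jz.2)))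
    (univ.filter fun a : Fin N → ZMod p => ((A₀.image (hsh a)).card : ℝ) < (A₀.card : ℝ) / 2) (by
      have h1 := few_collisions (p := p) A₀ hA₀ h8
      have h2 : ∑ jz ∈ (univ : Finset 𝓙).sigma S, ((univ.filter fun a : Fin N → ZMod p =>
          α jz.1 jz.2 < av (ucoreF a (A jz.1 jz.2))).card : ℝ) ≤
          ∑ jz ∈ (univ : Finset 𝓙).sigma S, Real.exp (-x) * (p : ℝ) ^ N := by
        refine sum_le_sum fun jz hjz => ?_
        have hz := (mem_sigma.1 hjz).2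
        refine (ucore_markov _ (fun a => ?_) (hαpos _ _) (ucore_sum_av _ (hA _ _ hz))).trans
          (le_of_eq ?_)
        · exact div_nonneg (sum_nonneg fun g _ => ucoreF_nonneg _ _ _) (Nat.cast_nonneg _)
        · simp only [hα]
          rw [Real.exp_neg x]
          field_simp
      rw [sum_const, card_sigma, nsmul_eq_mul] at h2
      push_cast at h2
      rw [← mul_assoc] at h2
      have h3 := mul_le_mul_of_nonneg_right hsum hpN.le
      rw [Fintype.card_fin] at h1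
      have h4 : (Fintype.card (Fin N → ZMod p) : ℝ) = (p : ℝ) ^ N := by simp
      rw [h4]
      have h5 : ((univ.filter fun a : Fin N → ZMod p =>
          ((A₀.image (hsh a)).card : ℝ) < (A₀.card : ℝ) / 2).card : ℝ) ≤ (p : ℝ) ^ N / 4 := by
        convert h1
      linarith)
  have ha1 : (A₀.card : ℝ) / 2 ≤ ((A₀.image (hsh a)).card : ℝ) := by simpa using ha0
  have ha2 : ∀ j, ∀ z ∈ S j, av (ucoreF a (A j z)) ≤ α j z := fun j z hz => by
    simpa using ha ⟨j, z⟩ (mem_sigma.2 ⟨mem_univ _, hz⟩)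
  -- a good `ψ`
  have hcψ : (0 : ℝ) < Fintype.card (ι → ZMod p) := by exact_mod_cast Fintype.card_pos
  obtain ⟨ψ, -, hψ⟩ := ucore_union (univ : Finset 𝓙)
    (fun j => univ.filter fun ψ : ι → ZMod p => Real.exp (x * (S j).card) * ∏ z ∈ S j, α j z <
      tm (fun z => ucoreF a (A j z)) (S j) ψ) ∅ (by
      have h2 : ∑ j, ((univ.filter fun ψ : ι → ZMod p =>
          Real.exp (x * (S j).card) * ∏ z ∈ S j, α j z <
            tm (fun z => ucoreF a (A j z)) (S j) ψ).card : ℝ) ≤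
          ∑ j, ((S j).card : ℝ) * Real.exp (-x) * Fintype.card (ι → ZMod p) := by
        refine sum_le_sum fun j _ => ?_
        have := tree_tail (hS j) (hSP j) (ucore_sepBy hP) (fun z => ucoreF a (A j z))
          (fun z _ g => ucoreF_nonneg _ _ _) (α j) (fun z hz => ⟨hαpos j z, ha2 j z hz⟩) hx
        convert this
      rw [← sum_mul, ← sum_mul] at h2
      have h3 := mul_le_mul_of_nonneg_right hsum hcψ.le
      simp only [card_empty, Nat.cast_zero, zero_add]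
      linarith)
  refine ⟨a, -ψ, fun j b => ?_⟩
  by_contra hcon
  push Not at hcon
  have h1 : tm (fun z => ucoreF a (A j z)) (S j) ψ ≤
      Real.exp (x * (S j).card) * ∏ z ∈ S j, α j z := by simpa using hψ j (mem_univ _)
  have h2 : Real.exp (x * (S j).card) * ∏ z ∈ S j, α j z ≤
      Real.exp (-(∑ z ∈ S j, V j z) + (S j).card * (2 * x + 2)) := by
    have h3 : ∏ z ∈ S j, α j z ≤ ∏ z ∈ S j, Real.exp (x + 2 + -(V j z)) := by
      refine prod_le_prod (fun z _ => (hαpos j z).le) fun z _ => ?_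
      simp only [hα]
      rw [Real.exp_add, Real.exp_add, mul_assoc]
      have : (3 : ℝ) ≤ Real.exp 2 := by linarith [Real.add_one_le_exp 2]
      gcongr
    refine (mul_le_mul_of_nonneg_left h3 (Real.exp_pos _).le).trans (le_of_eq ?_)
    rw [← Real.exp_sum, ← Real.exp_add]
    congr 1
    rw [sum_add_distrib, sum_neg_distrib, sum_const, nsmul_eq_mul]
    ring
  have h3 : ((A₀.image (hsh a)).card : ℝ) / p ≤ tm (fun z => ucoreF a (A j z)) (S j) ψ := by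
    simp only [tm, av, ZMod.card]
    gcongr
    have hinj : Function.Injective fun h : ZMod p => b - h := sub_right_injective
    calc ((A₀.image (hsh a)).card : ℝ)
        = ∑ g ∈ (A₀.image (hsh a)).image (fun h => b - h), (1 : ℝ) := by
          rw [sum_const, card_image_of_injective _ hinj]; simp
      _ = ∑ g ∈ (A₀.image (hsh a)).image (fun h => b - h),
            ∏ z ∈ S j, ucoreF a (A j z) (g + lin ψ z) := by
          refine sum_congr rfl fun g hg => (prod_eq_one fun z hz => ?_).symm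
          obtain ⟨h, hh, rfl⟩ := mem_image.1 hg
          obtain ⟨y₀, hy₀, rfl⟩ := mem_image.1 hh
          refine if_pos fun y hy e => hcon z hz y hy y₀ hy₀ ?_
          rw [ucore_hsh_add, ucore_hsh_neg, e]
          ring
      _ ≤ ∑ g, ∏ z ∈ S j, ucoreF a (A j z) (g + lin ψ z) :=
          sum_le_sum_of_subset_of_nonneg (subset_univ _) fun g _ _ =>
            prod_nonneg fun z _ => ucoreF_nonneg _ _ _
  have h4 : (A₀.card : ℝ) / 2 / p ≤ ((A₀.image (hsh a)).card : ℝ) / p := by gcongr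
  linarith [hexp j]

/-- Take `M` large and a prime `p ∈ [σ M^N, 2 σ M^N]` (Bertrand), `p > 2P`.  For a leaf `(j, z)` let
`F j z g = 1[g ∉ hsh a '' gp M (C j z)]`; `av (F j z)` has mean over `a` at most `3 e^{-V/4}`
(`horizontal`, `V = vl (C j z) / σ`), so by Markov it exceeds `α = 3 e^{x} e^{-V/4}` for a proportion
`≤ e^{-x}` of the `a`; with `few_collisions` for `A₀ = gp M C₀` (`|A₀| / p ∈ [vl C₀/(4σ), 1/8]`) there is
a good `a`.  `tree_tail` and a union bound give `ψ` with `tm (F j) (S j) ψ ≤ e^{x |S|} ∏ α ≤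
exp (-∑ V/4 + |S| (2x+2))` for all `j`.  Put `φ = -ψ`.  If `b` failed for `j`, every `g = b - hsh a x₀`,
`x₀ ∈ A₀`, would have `∏ F = 1`, so `tm ≥ |image| / p ≥ vl C₀ / (8σ)`. -/
theorem core : ∃ cH : ℝ, 0 < cH ∧ ∃ N₀ : ℕ, ∀ N : ℕ, N₀ ≤ N →
    ∀ (ι 𝓙 : Type) [Fintype ι] [Fintype 𝓙] (σ x : ℝ) (P : ℕ) (S : 𝓙 → Finset (ι → ℤ))
      (C : 𝓙 → (ι → ℤ) → Set (Fin N → ℝ)) (C₀ : Set (Fin N → ℝ)), 0 < σ → 0 ≤ x →
      (∀ j, IsTree (S j)) → (∀ j, ∀ z ∈ S j, ∀ i, |z i| ≤ P) →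
      (∀ j, ∀ z ∈ S j, Body (C j z) ∧ vl (C j z) ≤ cH * N * σ) → Body C₀ → vl C₀ ≤ σ / 16 →
      (∑ j, ((S j).card : ℝ)) * Real.exp (-x) ≤ 1 / 8 →
      (∀ j, Real.exp (-((∑ z ∈ S j, vl (C j z)) / (4 * σ)) + (S j).card * (2 * x + 2)) <
        vl C₀ / (8 * σ)) →
      ∀ᶠ M : ℕ in atTop, ∃ (p : ℕ) (_ : Fact p.Prime), σ * (M : ℝ) ^ N ≤ p ∧
        ∃ (a : Fin N → ZMod p) (φ : ι → ZMod p), ∀ j (b : ZMod p), ∃ z ∈ S j, ∃ y ∈ gp M (C j z),
          ∃ y₀ ∈ gp M C₀, hsh a (y + y₀) + hsh φ z = b := by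
  obtain ⟨cH, hcH, N₀, hH⟩ := horizontal
  refine ⟨cH, hcH, max N₀ 2, fun N hN ι 𝓙 _ _ σ x P S C C₀ hσ hx hS hSP hC hC₀ hv₀ hsum hexp => ?_⟩
  have hN0 : N₀ ≤ N := le_trans (le_max_left _ _) hN
  have hN2 : 2 ≤ N := le_trans (le_max_right _ _) hN
  obtain ⟨R, hR⟩ := hC₀.1.isBounded.exists_norm_le
  have hR' : ∀ y ∈ C₀, ∀ i, |y i| ≤ |R| := fun y hy i =>
    ((norm_le_pi_norm y i).trans (hR y hy)).trans (le_abs_self R)
  have e1 : ∀ᶠ M : ℕ in atTop, ∀ j, ∀ z ∈ S j, ∀ (p : ℕ) [Fact p.Prime],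
      σ * (M : ℝ) ^ N ≤ p → (p : ℝ) ≤ 2 * σ * (M : ℝ) ^ N →
      ((univ.filter fun ab : (Fin N → ZMod p) × ZMod p =>
        ∀ x ∈ gp M (C j z), hsh ab.1 x ≠ ab.2).card : ℝ) ≤
        3 * Real.exp (-(vl (C j z) / (4 * σ))) * (p : ℝ) ^ (N + 1) := by
    rw [eventually_all]
    intro j
    rw [eventually_all_finset]
    intro z hz
    exact hH N hN0 (C j z) (hC j z hz).1 σ hσ (hC j z hz).2
  have e3 : ∀ᶠ M : ℕ in atTop, (2 * |R| + 2 * P + 1) / σ ≤ (M : ℝ) :=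
    tendsto_natCast_atTop_atTop.eventually_ge_atTop _
  filter_upwards [e1, card_gp_bounds hC₀, e3, eventually_ge_atTop 1] with M h1 h2 h3 hM
  have hM1 : (1 : ℝ) ≤ M := by exact_mod_cast hM
  have hMN : (M : ℝ) * M ≤ (M : ℝ) ^ N := by
    rw [← pow_two]
    exact pow_le_pow_right₀ hM1 hN2
  rw [div_le_iff₀ hσ] at h3
  have hbig : (2 * |R| + 2 * P + 1) * M ≤ σ * (M : ℝ) ^ N := by
    calc (2 * |R| + 2 * P + 1) * M ≤ (M : ℝ) * σ * M := by gcongr
      _ = σ * (M * M) := by ring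
      _ ≤ σ * (M : ℝ) ^ N := by gcongr
  have hR0 := abs_nonneg R
  have hP0 : (0 : ℝ) ≤ P := Nat.cast_nonneg P
  have hone : (1 : ℝ) ≤ σ * (M : ℝ) ^ N := by nlinarith
  obtain ⟨p, hp, hp1, hp2⟩ := Nat.exists_prime_lt_and_le_two_mul ⌊σ * (M : ℝ) ^ N⌋₊
    (Nat.floor_pos.2 hone).ne'
  have hp1' : σ * (M : ℝ) ^ N < p := by
    have := Nat.lt_floor_add_one (σ * (M : ℝ) ^ N)
    have h : ((⌊σ * (M : ℝ) ^ N⌋₊ + 1 : ℕ) : ℝ) ≤ p := by exact_mod_cast hp1
    push_cast at h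
    linarith
  have hp2' : (p : ℝ) ≤ 2 * σ * (M : ℝ) ^ N := by
    have := Nat.floor_le (le_trans zero_le_one hone)
    have h : (p : ℝ) ≤ ((2 * ⌊σ * (M : ℝ) ^ N⌋₊ : ℕ) : ℝ) := by exact_mod_cast hp2
    push_cast at h
    linarith
  have hp0 : (0 : ℝ) < p := by linarith
  have : Fact p.Prime := ⟨hp⟩
  refine ⟨p, this, hp1'.le, ?_⟩
  have hMpos : (0 : ℝ) < (M : ℝ) ^ N := by positivity
  refine ucore_fixed hx (P := P) ?_ S (fun j z => gp M (C j z)) (gp M C₀)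
    (fun j z => vl (C j z) / (4 * σ)) (vl C₀ / (8 * σ)) hS hSP
    (fun j z hz => h1 j z hz p hp1'.le hp2') ?_ ?_ ?_ hsum fun j => ?_
  · have : ((2 * P : ℕ) : ℝ) < p := by
      push_cast
      nlinarith
    exact_mod_cast this
  · intro y hy y' hy' h
    rw [mem_gp hC₀.1.isBounded hM] at hy hy'
    funext i
    have b1 := hR' _ hy i
    have b2 := hR' _ hy' i
    have hM0 : (0 : ℝ) < M := by linarith
    simp only [sc, abs_div, abs_of_pos hM0] at b1 b2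
    rw [div_le_iff₀ hM0] at b1 b2
    have hd : (p : ℤ) ∣ y' i - y i := (ZMod.intCast_eq_intCast_iff_dvd_sub _ _ _).1 (h i)
    have hlt : |y' i - y i| < (p : ℤ) := by
      have : ((|y' i - y i| : ℤ) : ℝ) < p := by
        push_cast
        have := abs_sub (y' i : ℝ) (y i)
        nlinarith
      exact_mod_cast this
    have := Int.eq_zero_of_abs_lt_dvd hd hlt
    omega
  · have : ((8 * (gp M C₀).card : ℕ) : ℝ) ≤ p := by
      push_cast
      have := mul_le_mul_of_nonneg_right hv₀ hMpos.le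
      linarith [h2.2]
    exact_mod_cast this
  · have hv := hC₀.vl_pos
    rw [div_le_div_iff₀ (by positivity) hp0]
    have h4 := mul_le_mul_of_nonneg_left hp2' hv.le
    have h5 := mul_le_mul_of_nonneg_left h2.1 hσ.le
    nlinarith
  · rw [← sum_div]
    exact hexp j

end Crest.Agent.R225
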