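import Crest.Agent.R225.UYoungN

/-! Counting grid points in convex bodies. -/

set_option autoImplicit false
open MeasureTheory Finset Classical Filter
open scoped Pointwise ENNReal

noncomputable section
namespace Crest.Agent.R225

variable {N : ℕ}

theorem Body.vl_pos {J : Type} [Fintype J] {C : Set (J → ℝ)} (hC : Body C) : 0 < vl C :=
  ENNReal.toReal_pos (Measure.measure_pos_of_nonempty_interior _ hC.2.2).ne'
    hC.1.measure_lt_top.ne

/-- a compact convex set of positive volume has nonempty interior (`Convex.addHaar_frontier`). -/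
theorem body_of_vl_pos {J : Type} [Fintype J] {C : Set (J → ℝ)} (h1 : IsCompact C) (h2 : Convex ℝ C)
    (h3 : 0 < vl C) : Body C := by
  refine ⟨h1, h2, ?_⟩
  by_contra h
  rw [Set.not_nonempty_iff_eq_empty] at h
  have h4 := h2.addHaar_frontier (volume : Measure (J → ℝ))
  rw [frontier, h, Set.sdiff_empty, h1.isClosed.closure_eq] at h4
  rw [vl, h4] at h3
  simp at h3

namespace UCount

theorem volume_smul (C : Set (Fin N → ℝ)) {l : ℝ} (hl : 0 ≤ l) :
    volume (l • C) = ENNReal.ofReal (l ^ N) * volume C := by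
  rw [Measure.addHaar_smul, Module.finrank_fin_fun, abs_of_nonneg (pow_nonneg hl _)]

/-- translate of a dilate -/
def tr (C : Set (Fin N → ℝ)) (l : ℝ) (t : Fin N → ℝ) : Set (Fin N → ℝ) :=
  (fun y => y + t) ⁻¹' (l • C)

theorem volume_tr (C : Set (Fin N → ℝ)) {l : ℝ} (hl : 0 ≤ l) (t : Fin N → ℝ) :
    volume (tr C l t) = ENNReal.ofReal (l ^ N) * volume C := by
  rw [tr, measure_preimage_add_right, volume_smul C hl]

theorem measurableSet_tr {C : Set (Fin N → ℝ)} (hC : IsCompact C) (l : ℝ) (t : Fin N → ℝ) :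
    MeasurableSet (tr C l t) :=
  (measurable_add_const t) (hC.smul l).isClosed.measurableSet

/-- the cell containing `y` -/
def fl (M : ℕ) (y : Fin N → ℝ) : Fin N → ℤ := fun i => ⌊(M : ℝ) * y i⌋

theorem fl_preimage {M : ℕ} (hM : 0 < M) (x : Fin N → ℤ) :
    fl M ⁻¹' {x} = Set.pi Set.univ fun i => Set.Ico ((x i : ℝ) / M) (((x i : ℝ) + 1) / M) := by
  have hM' : (0 : ℝ) < M := by exact_mod_cast hM
  ext y
  simp only [Set.mem_preimage, Set.mem_singleton_iff, Set.mem_pi, Set.mem_univ, true_imp_iff,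
    Set.mem_Ico, funext_iff, fl, Int.floor_eq_iff, div_le_iff₀ hM', lt_div_iff₀ hM',
    mul_comm (M : ℝ)]

theorem measurableSet_fl {M : ℕ} (hM : 0 < M) (x : Fin N → ℤ) : MeasurableSet (fl M ⁻¹' {x}) := by
  rw [fl_preimage hM]
  exact MeasurableSet.univ_pi fun _ => measurableSet_Ico

theorem volume_fl {M : ℕ} (hM : 0 < M) (x : Fin N → ℤ) :
    volume (fl M ⁻¹' {x}) = ENNReal.ofReal ((1 / M : ℝ) ^ N) := by
  have hM' : (0 : ℝ) < M := by exact_mod_cast hM
  rw [fl_preimage hM, Real.volume_pi_Ico]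
  have : ∀ i, ((x i : ℝ) + 1) / M - (x i : ℝ) / M = 1 / M := fun i => by ring
  simp only [this, prod_const, card_univ, Fintype.card_fin]
  rw [ENNReal.ofReal_pow (by positivity)]

theorem volume_fl_finset {M : ℕ} (hM : 0 < M) (F : Finset (Fin N → ℤ)) :
    volume (fl M ⁻¹' (F : Set (Fin N → ℤ))) = F.card * ENNReal.ofReal ((1 / M : ℝ) ^ N) := by
  rw [← sum_measure_preimage_singleton F fun x _ => measurableSet_fl hM x]
  simp only [volume_fl hM, sum_const, nsmul_eq_mul]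

theorem volume_fl_pairs {M : ℕ} (hM : 0 < M) (F : Finset ((Fin N → ℤ) × (Fin N → ℤ))) :
    volume (Prod.map (fl M) (fl M) ⁻¹' (F : Set ((Fin N → ℤ) × (Fin N → ℤ)))) =
      F.card * ENNReal.ofReal ((1 / M : ℝ) ^ N) ^ 2 := by
  have h : ∀ x : (Fin N → ℤ) × (Fin N → ℤ), Prod.map (fl M) (fl M) ⁻¹' {x} =
      (fl M ⁻¹' {x.1}) ×ˢ (fl M ⁻¹' {x.2}) := fun x => by
    ext p
    simp [Prod.ext_iff]
  rw [← sum_measure_preimage_singleton F fun x _ => by
    rw [h]; exact (measurableSet_fl hM _).prod (measurableSet_fl hM _)]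
  simp only [h, Measure.volume_eq_prod, Measure.prod_prod, volume_fl hM, sum_const, nsmul_eq_mul,
    sq]

theorem norm_sub_sc {M : ℕ} (hM : 0 < M) (y : Fin N → ℝ) : ‖y - sc M (fl M y)‖ ≤ 1 / M := by
  have hM' : (0 : ℝ) < M := by exact_mod_cast hM
  refine (pi_norm_le_iff_of_nonneg (by positivity)).2 fun i => ?_
  have h1 := Int.floor_le ((M : ℝ) * y i)
  have h2 := Int.lt_floor_add_one ((M : ℝ) * y i)
  have e : (y - sc M (fl M y)) i = ((M : ℝ) * y i - ⌊(M : ℝ) * y i⌋) / M := by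
    simp only [Pi.sub_apply, sc, fl]
    field_simp
  rw [e, Real.norm_eq_abs, abs_div, abs_of_pos hM', abs_of_nonneg (by linarith)]
  gcongr
  linarith

theorem add_mem {C : Set (Fin N → ℝ)} (hC : Convex ℝ C) {c : Fin N → ℝ} {r : ℝ}
    (hr : Metric.closedBall c r ⊆ C) {l η : ℝ} (hl : 0 ≤ l) (hη : 0 < η) {x e : Fin N → ℝ}
    (hx : x ∈ l • C) (he : ‖e‖ ≤ η * r) : x + e + η • c ∈ (l + η) • C := by
  rw [hC.add_smul hl hη.le, add_assoc]
  refine Set.add_mem_add hx ⟨c + η⁻¹ • e, hr ?_, ?_⟩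
  · rw [mem_closedBall_iff_norm, add_sub_cancel_left, norm_smul, Real.norm_eq_abs,
      abs_of_pos (inv_pos.2 hη), inv_mul_le_iff₀ hη]
    exact he
  · simp only [smul_add, smul_smul, mul_inv_cancel₀ hη.ne', one_smul]
    exact add_comm _ _

theorem sc_add (M : ℕ) (x y : Fin N → ℤ) : sc M (x + y) = sc M x + sc M y := by
  funext i
  simp only [sc, Pi.add_apply, Int.cast_add, add_div]

end UCount

open _root_.Crest.Agent.R225.UCount

/-- shrinking about a point of `C`: `C' = c₀ + θ (C - c₀)` with `θ ^ N vl C = v`. -/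
theorem Body.exists_shrink {C : Set (Fin N → ℝ)} (hN : 0 < N) (hC : Body C) {v : ℝ} (hv : 0 < v)
    (hv' : v ≤ vl C) : ∃ C' : Set (Fin N → ℝ), Body C' ∧ C' ⊆ C ∧ vl C' = v := by
  have h0 := hC.vl_pos
  obtain ⟨c, hc⟩ := hC.2.2
  have hc' : c ∈ C := interior_subset hc
  set θ : ℝ := (v / vl C) ^ ((N : ℝ)⁻¹) with hθ
  have hθ0 : 0 < θ := Real.rpow_pos_of_pos (div_pos hv h0) _
  have hθ1 : θ ≤ 1 := Real.rpow_le_one (div_pos hv h0).le ((div_le_one h0).2 hv') (by positivity)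
  have hθN : θ ^ N = v / vl C := Real.rpow_inv_natCast_pow (div_pos hv h0).le hN.ne'
  have hvl : vl (tr C θ (-((1 - θ) • c))) = v := by
    rw [vl, volume_tr C hθ0.le, ENNReal.toReal_mul, ENNReal.toReal_ofReal (by positivity), hθN]
    exact div_mul_cancel₀ _ h0.ne'
  refine ⟨tr C θ (-((1 - θ) • c)), body_of_vl_pos ?_ ?_ (by rw [hvl]; exact hv), ?_, hvl⟩
  · exact (Homeomorph.addRight (-((1 - θ) • c))).isCompact_preimage.2 (hC.1.smul θ)
  · exact (hC.2.1.smul θ).translate_preimage_left _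
  · rintro y ⟨x, hx, hy⟩
    have e : y = θ • x + (1 - θ) • c := by
      simp only at hy
      rw [hy]
      abel
    rw [e]
    exact hC.2.1 hx hc' hθ0.le (by linarith) (by ring)

theorem mem_gp {J : Type} [Fintype J] {C : Set (J → ℝ)} (hC : Bornology.IsBounded C) {M : ℕ}
    (hM : 0 < M) {x : J → ℤ} : x ∈ gp M C ↔ sc M x ∈ C := by
  have hM' : (0 : ℝ) < M := by exact_mod_cast hM
  obtain ⟨R, hR⟩ := hC.exists_norm_le
  have hf : {x : J → ℤ | sc M x ∈ C}.Finite := by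
    refine (Set.Finite.pi' fun _ : J => Set.finite_Icc (-⌈R * M⌉) ⌈R * M⌉).subset fun x hx i => ?_
    have h1 := (norm_le_pi_norm (sc M x) i).trans (hR _ hx)
    rw [Real.norm_eq_abs, sc, abs_div, abs_of_pos hM', div_le_iff₀ hM'] at h1
    have h2 : ((|x i| : ℤ) : ℝ) ≤ (⌈R * M⌉ : ℤ) := by
      rw [Int.cast_abs]
      exact h1.trans (Int.le_ceil _)
    exact abs_le.1 (Int.cast_le.1 h2)
  rw [gp, dif_pos hf, Set.Finite.mem_toFinset]
  rfl

/-- Let `c₀ ∈ interior C` with `c₀ + [-1/κ, 1/κ]^N ⊆ C`, so `[-1/M, 1/M]^N ⊆ (κ/M) (C - c₀)`.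
Upper bound: the disjoint cubes `sc M x + [0,1/M)^N`, `x ∈ F`, lie in
`s + l C + (κ/M)(C - c₀)`, a translate of `(l + κ/M) C`.  Lower bound: with `η = κ/M ≤ 1`, every point
`y` of `(1-η) C + η c₀` has `sc M ⌊M y⌋ ∈ C`.  Pairs: the products of cubes lie in
`{p.1 ∈ C⁺, p.2 ∈ C⁺, p.1 + p.2 ∈ C⁺⁺}` with translates of `(1+η) C`, `(1+2η) C`; use `young_gap`
(the constant `cY` is the one of `young_gap`). -/
theorem grid_count : ∃ cY : ℝ, 0 < cY ∧ cY < 1 ∧ ∀ (N : ℕ) (C : Set (Fin N → ℝ)), Body C →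
    ∃ κ : ℝ, 0 < κ ∧ ∀ M : ℕ, 0 < M →
      (∀ (s : Fin N → ℝ) (l : ℝ) (F : Finset (Fin N → ℤ)), 0 < l → (∀ x ∈ F, sc M x - s ∈ l • C) →
        (F.card : ℝ) ≤ (l + κ / M) ^ N * vl C * (M : ℝ) ^ N) ∧
      (κ ≤ M → (1 - κ / M) ^ N * vl C * (M : ℝ) ^ N ≤ (gp M C).card) ∧
      (∀ (s : Fin N → ℝ) (F : Finset ((Fin N → ℤ) × (Fin N → ℤ))),
        (∀ x ∈ F, sc M x.1 ∈ C ∧ sc M x.2 ∈ C ∧ sc M (x.1 + x.2) - s ∈ C) →
        (F.card : ℝ) ≤ cY ^ N * ((1 + 2 * κ / M) ^ N * vl C * (M : ℝ) ^ N) ^ 2) := by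
  obtain ⟨cY, hY0, hY1, hY⟩ := young_gap
  refine ⟨cY, hY0, hY1, fun N C hC => ?_⟩
  obtain ⟨c, hc⟩ := hC.2.2
  obtain ⟨r, hr0, hr⟩ := Metric.nhds_basis_closedBall.mem_iff.1 (mem_interior_iff_mem_nhds.1 hc)
  have hCt : volume C ≠ ∞ := hC.1.measure_lt_top.ne
  refine ⟨1 / r, by positivity, fun M hM => ?_⟩
  have hM' : (0 : ℝ) < M := by exact_mod_cast hM
  obtain ⟨η, hη⟩ : ∃ η : ℝ, η = 1 / r / M := ⟨_, rfl⟩
  have hη0 : 0 < η := by rw [hη]; positivity
  have hηr : η * r = 1 / M := by rw [hη]; field_simp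
  have hMN : (1 / M : ℝ) ^ N * (M : ℝ) ^ N = 1 := by
    rw [← mul_pow, one_div_mul_cancel hM'.ne', one_pow]
  have hfl : ∀ y : Fin N → ℝ, ‖y - sc M (fl M y)‖ ≤ η * r := fun y => hηr ▸ norm_sub_sc hM y
  have hmem : ∀ (s : Fin N → ℝ) (l : ℝ) (y : Fin N → ℝ), 0 ≤ l → sc M (fl M y) - s ∈ l • C →
      y ∈ tr C (l + η) (η • c - s) := fun s l y hl hy => by
    have h := add_mem hC.2.1 hr hl hη0 hy (hfl y)
    have e : sc M (fl M y) - s + (y - sc M (fl M y)) + η • c = y + (η • c - s) := by abel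
    rwa [e] at h
  rw [mul_div_assoc, ← hη]
  refine ⟨fun s l F hl hF => ?_, fun hκ => ?_, fun s F hF => ?_⟩
  · have h1 : fl M ⁻¹' (F : Set (Fin N → ℤ)) ⊆ tr C (l + η) (η • c - s) := fun y hy =>
      hmem s l y hl.le (hF _ hy)
    have h2 := measure_mono (μ := volume) h1
    rw [volume_fl_finset hM, volume_tr C (by positivity)] at h2
    have h3 := ENNReal.toReal_mono (ENNReal.mul_ne_top ENNReal.ofReal_ne_top hCt) h2
    rw [ENNReal.toReal_mul, ENNReal.toReal_mul, ENNReal.toReal_natCast,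
      ENNReal.toReal_ofReal (by positivity), ENNReal.toReal_ofReal (by positivity)] at h3
    calc (F.card : ℝ) = F.card * (1 / M : ℝ) ^ N * (M : ℝ) ^ N := by rw [mul_assoc, hMN, mul_one]
      _ ≤ _ := mul_le_mul_of_nonneg_right h3 (by positivity)
  · have hη1 : 0 ≤ 1 - η := by
      rw [hη, sub_nonneg, div_le_one hM']
      exact hκ
    have h1 : tr C (1 - η) (-(η • c)) ⊆ fl M ⁻¹' (gp M C : Set (Fin N → ℤ)) := fun y hy => by
      have h := add_mem hC.2.1 hr hη1 hη0 hy (e := -(y - sc M (fl M y)))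
        (by rw [norm_neg]; exact hfl y)
      have e : y + -(η • c) + -(y - sc M (fl M y)) + η • c = sc M (fl M y) := by abel
      rw [e, sub_add_cancel, one_smul] at h
      exact (mem_gp hC.1.isBounded hM).2 h
    have h2 := measure_mono (μ := volume) h1
    rw [volume_fl_finset hM, volume_tr C hη1] at h2
    have h3 := ENNReal.toReal_mono (ENNReal.mul_ne_top (ENNReal.natCast_ne_top _)
      ENNReal.ofReal_ne_top) h2
    rw [ENNReal.toReal_mul, ENNReal.toReal_mul, ENNReal.toReal_natCast,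
      ENNReal.toReal_ofReal (by positivity), ENNReal.toReal_ofReal (by positivity)] at h3
    calc _ ≤ (gp M C).card * (1 / M : ℝ) ^ N * (M : ℝ) ^ N :=
          mul_le_mul_of_nonneg_right h3 (by positivity)
      _ = _ := by rw [mul_assoc, hMN, mul_one]
  · have h1 : Prod.map (fl M) (fl M) ⁻¹' (F : Set ((Fin N → ℤ) × (Fin N → ℤ))) ⊆
        {p | p.1 ∈ tr C (1 + η) (η • c - 0) ∧ p.2 ∈ tr C (1 + η) (η • c - 0) ∧
          p.1 + p.2 ∈ tr C (1 + 2 * η) ((2 * η) • c - s)} := fun p hp => by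
      obtain ⟨h1, h2, h3⟩ := hF _ hp
      refine ⟨hmem 0 1 _ zero_le_one (by rwa [sub_zero, one_smul]),
        hmem 0 1 _ zero_le_one (by rwa [sub_zero, one_smul]), ?_⟩
      have h := add_mem hC.2.1 hr zero_le_one (η := 2 * η) (by positivity)
        (x := sc M (fl M p.1 + fl M p.2) - s) (by rwa [one_smul])
        (e := (p.1 - sc M (fl M p.1)) + (p.2 - sc M (fl M p.2)))
        ((norm_add_le _ _).trans (by linarith [hfl p.1, hfl p.2]))
      have e : sc M (fl M p.1 + fl M p.2) - s +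
          ((p.1 - sc M (fl M p.1)) + (p.2 - sc M (fl M p.2))) + (2 * η) • c =
          p.1 + p.2 + ((2 * η) • c - s) := by
        rw [sc_add]
        abel
      rwa [e] at h
    have hle : volume (tr C (1 + η) (η • c - 0)) ≤
        ENNReal.ofReal ((1 + 2 * η) ^ N) * volume C := by
      rw [volume_tr C (by positivity)]
      gcongr
      linarith
    have h2 := (measure_mono (μ := volume) h1).trans (hY N _ _ _
      (ENNReal.ofReal ((1 + 2 * η) ^ N) * volume C) (measurableSet_tr hC.1 _ _)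
      (measurableSet_tr hC.1 _ _) (measurableSet_tr hC.1 _ _) hle hle
      (volume_tr C (by positivity) _).le)
    rw [volume_fl_pairs hM] at h2
    have h3 := ENNReal.toReal_mono (ENNReal.mul_ne_top ENNReal.ofReal_ne_top
      (ENNReal.pow_ne_top (ENNReal.mul_ne_top ENNReal.ofReal_ne_top hCt))) h2
    rw [ENNReal.toReal_mul, ENNReal.toReal_mul, ENNReal.toReal_natCast, ENNReal.toReal_pow,
      ENNReal.toReal_pow, ENNReal.toReal_mul, ENNReal.toReal_ofReal (by positivity),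
      ENNReal.toReal_ofReal (by positivity), ENNReal.toReal_ofReal (by positivity)] at h3
    calc (F.card : ℝ) = F.card * ((1 / M : ℝ) ^ N) ^ 2 * ((M : ℝ) ^ N) ^ 2 := by
          rw [mul_assoc, ← mul_pow, hMN, one_pow, mul_one]
      _ ≤ cY ^ N * ((1 + 2 * η) ^ N * vl C) ^ 2 * ((M : ℝ) ^ N) ^ 2 :=
          mul_le_mul_of_nonneg_right h3 (by positivity)
      _ = _ := by ring

/-- consequence: `vl C M^N / 2 ≤ |gp M C| ≤ 2 vl C M^N` for large `M`. -/
theorem card_gp_bounds {C : Set (Fin N → ℝ)} (hC : Body C) : ∀ᶠ M : ℕ in atTop,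
    vl C * (M : ℝ) ^ N / 2 ≤ (gp M C).card ∧ ((gp M C).card : ℝ) ≤ 2 * vl C * (M : ℝ) ^ N := by
  obtain ⟨cY, -, -, h⟩ := grid_count
  obtain ⟨κ, hκ, h⟩ := h N C hC
  have h0 := hC.vl_pos
  have t0 : Tendsto (fun M : ℕ => κ / M) atTop (nhds 0) := tendsto_const_div_atTop_nhds_zero_nat κ
  have t1 : Tendsto (fun M : ℕ => (1 + κ / M) ^ N) atTop (nhds ((1 + 0) ^ N)) :=
    (tendsto_const_nhds.add t0).pow N
  have t2 : Tendsto (fun M : ℕ => (1 - κ / M) ^ N) atTop (nhds ((1 - 0) ^ N)) :=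
    (tendsto_const_nhds.sub t0).pow N
  filter_upwards [t1.eventually (ge_mem_nhds (show (1 + 0 : ℝ) ^ N < 2 by simp)),
    t2.eventually (le_mem_nhds (show (1 / 2 : ℝ) < (1 - 0 : ℝ) ^ N by simp; norm_num)),
    eventually_gt_atTop 0, tendsto_natCast_atTop_atTop.eventually_ge_atTop κ] with M h1 h2 h3 h4
  obtain ⟨a1, a2, -⟩ := h M h3
  have hM' : (0 : ℝ) < M := by exact_mod_cast h3
  have hp : 0 ≤ vl C * (M : ℝ) ^ N := by positivity
  constructor
  · refine le_trans ?_ (a2 h4)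
    rw [mul_assoc]
    nlinarith
  · refine (a1 0 1 (gp M C) one_pos fun x hx => ?_).trans ?_
    · rw [sub_zero, one_smul]
      exact (mem_gp hC.1.isBounded h3).1 hx
    · rw [mul_assoc, mul_assoc]
      exact mul_le_mul_of_nonneg_right h1 hp

end Crest.Agent.R225
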