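import Mathlib

/-!
# rid 225, upper bound (S0347): definitions

Overview.  After a linear change of coordinates `ℝ^n = ℝ^N × ℝ^ι` (`|ι| = k = (log log n)^{O(1)}`),
the sections `sec K t` have volume `≥ c ∏ phi (t i) * vol K` (`UMarg`).  The lattice is
`{(x / M, β z) : π z = 0, a·x + φ·z = 0 in ZMod p}` with a finite "vertical" homomorphism
`π : ℤ^ι → G` (`UVert`) whose fibres all contain a *tree* of constant Gaussian weight and small
leaves, a random `a` (`UHor`: a random hyperplane mod `p` misses the grid points of a convex body of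
density `V ≤ c N` with probability `≤ 3 e^{-V/4}`) and a random `φ` (`UTree`: along a tree the
uncovered fractions multiply).
-/

set_option autoImplicit false
open MeasureTheory Finset

noncomputable section
namespace Crest.Agent.R225

/-- average over a finite type -/
def av {α : Type} [Fintype α] (f : α → ℝ) : ℝ := (∑ a, f a) / Fintype.card α

/-- binary trees: split according to two different values of one coordinate -/
inductive IsTree {ι : Type} : Finset (ι → ℤ) → Prop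
  | empty : IsTree ∅
  | single (z : ι → ℤ) : IsTree {z}
  | node (i : ι) (a b : ℤ) (S₁ S₂ S : Finset (ι → ℤ)) : a ≠ b → (∀ z ∈ S₁, z i = a) →
      (∀ z ∈ S₂, z i = b) → (∀ z, z ∈ S ↔ z ∈ S₁ ∨ z ∈ S₂) → IsTree S₁ → IsTree S₂ → IsTree S

/-- multiplication by every nonzero integer of size at most `D` is injective on `G` -/
def SepBy (G : Type) [AddCommGroup G] (D : ℕ) : Prop :=
  ∀ d : ℤ, d ≠ 0 → |d| ≤ D → ∀ g : G, d • g = 0 → g = 0

/-- the homomorphism `ℤ^ι → G` with values `ψ i` on the basis -/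
def lin {ι G : Type} [Fintype ι] [AddCommGroup G] (ψ : ι → G) (z : ι → ℤ) : G := ∑ i, z i • ψ i

/-- mean of the product of the shifted leaf functions -/
def tm {ι G : Type} [Fintype ι] [AddCommGroup G] [Fintype G] (F : (ι → ℤ) → G → ℝ)
    (S : Finset (ι → ℤ)) (ψ : ι → G) : ℝ := av fun g => ∏ z ∈ S, F z (g + lin ψ z)

/-- standard Gaussian density -/
def phi (x : ℝ) : ℝ := Real.exp (-(x ^ 2 / 2)) / Real.sqrt (2 * Real.pi)

/-- `b * min_{[b c, b (c+1)]} phi` -/
def wc (b : ℝ) (c : ℤ) : ℝ := b * phi (b * max |(c : ℝ)| |(c : ℝ) + 1|)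

/-- product weight of a cell -/
def omg {ι : Type} [Fintype ι] (β : ι → ℝ) (z : ι → ℤ) : ℝ := ∏ i, wc (β i) (z i)

/-- Invariant of the vertical construction: every fibre of `π` contains a tree of weight
`≥ Y` with leaves of weight `≤ τ`. -/
def Inv {ι G' Gt : Type} [Fintype ι] [AddCommGroup G'] [Fintype G'] [AddCommGroup Gt] [Fintype Gt]
    (β : ι → ℝ) (π : (ι → ℤ) →+ G' × Gt) (Y : Gt → ℝ) (P : ℕ) (T τ : ℝ) : Prop :=
  (∀ i, 0 < β i ∧ β i ≤ 1) ∧ ∀ g' g, ∃ S : Finset (ι → ℤ), IsTree S ∧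
    (∀ z ∈ S, π z = (g', g) ∧ (∀ i, |z i| ≤ P ∧ β i * (|(z i : ℝ)| + 1) ≤ T) ∧
      (Fintype.card G' : ℝ) * Fintype.card Gt * omg β z ≤ τ) ∧
    Y g ≤ (Fintype.card G' : ℝ) * Fintype.card Gt * ∑ z ∈ S, omg β z

/-- A new level on top of a group `Gt` with weight function `Y`. -/
def Level {κ Gt Gn : Type} [Fintype κ] [AddCommGroup Gt] [AddCommGroup Gn] [Fintype Gn]
    (Y : Gt → ℝ) (b : ℝ) (ρ : (κ → ℤ) →+ Gn) (ψ : κ → Gt) (Yn : Gn → ℝ) (P : ℕ) (T τ : ℝ) : Prop :=
  0 < b ∧ b ≤ 1 ∧ ∀ gn, ∃ Cb : Finset (κ → ℤ), IsTree Cb ∧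
    (∀ x ∈ Cb, ρ x = gn ∧ (∀ i, |x i| ≤ P ∧ b * (|(x i : ℝ)| + 1) ≤ T) ∧
      (Fintype.card Gn : ℝ) * omg (fun _ => b) x ≤ τ) ∧
    ∀ g, Yn gn ≤ (Fintype.card Gn : ℝ) * ∑ x ∈ Cb, omg (fun _ => b) x * Y (g + lin ψ x)

/-- the cube with two layers `s i`, `s i - p` in each coordinate -/
def cube {κ : Type} [Fintype κ] [DecidableEq κ] (p : ℕ) (s : κ → ℤ) : Finset (κ → ℤ) :=
  Fintype.piFinset fun i => {s i, s i - p}

/-- mass of the two layers -/
def P1 (b : ℝ) (p : ℕ) (s : ℤ) : ℝ := wc b s + wc b (s - p)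

/-- convex body -/
def Body {J : Type} [Fintype J] (K : Set (J → ℝ)) : Prop :=
  IsCompact K ∧ Convex ℝ K ∧ (interior K).Nonempty

/-- real volume -/
def vl {J : Type} [Fintype J] (K : Set (J → ℝ)) : ℝ := (volume K).toReal

/-- horizontal section at height `t` -/
def sec {J ι : Type} (K : Set (J ⊕ ι → ℝ)) (t : ι → ℝ) : Set (J → ℝ) := {y | Sum.elim y t ∈ K}

/-- the point `x / M` -/
def sc {J : Type} (M : ℕ) (x : J → ℤ) : J → ℝ := fun i => (x i : ℝ) / M

open Classical in
/-- grid points `x` with `x / M ∈ C` (empty if there are infinitely many) -/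
def gp {J : Type} (M : ℕ) (C : Set (J → ℝ)) : Finset (J → ℤ) :=
  if h : {x : J → ℤ | sc M x ∈ C}.Finite then h.toFinset else ∅

/-- `a · x` in `ZMod p` -/
def hsh {J : Type} [Fintype J] {p : ℕ} (a : J → ZMod p) (x : J → ℤ) : ZMod p :=
  ∑ i, a i * (x i : ZMod p)

open Classical in
/-- isotropic position (second moments about the origin) -/
def Iso {J : Type} [Fintype J] (K : Set (J → ℝ)) : Prop :=
  ∀ i j, ∫ x in K, x i * x j = if i = j then vl K else 0

/-- standard Gaussian vector -/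
def gm (J : Type) [Fintype J] : Measure (J → ℝ) :=
  Measure.pi fun _ => ProbabilityTheory.gaussianReal 0 1

/-- matrix with independent standard Gaussian entries -/
def gmat (ι J : Type) [Fintype ι] [Fintype J] : Measure (ι → J → ℝ) := Measure.pi fun _ => gm J

/-- proportion of `K` lying in `KI` whose image under `Γ` is in the box `∏ [a i, b i]` -/
def pbox {ι J : Type} [Fintype J] (K KI : Set (J → ℝ)) (a b : ι → ℝ) (Γ : ι → J → ℝ) : ℝ :=
  vl (KI ∩ {x | ∀ i, Γ i ⬝ᵥ x ∈ Set.Icc (a i) (b i)}) / vl K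

/-- Gaussian mass of an interval for the standard deviation `r` -/
def gint (r a b : ℝ) : ℝ := ∫ s in Set.Icc a b, phi (s / r) / r

end Crest.Agent.R225
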