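import Crest.Agent.R225.UDefs

/-! Gaussian projections: first and second moments. -/

set_option autoImplicit false
open MeasureTheory Finset Classical Filter
open scoped Pointwise ENNReal

noncomputable section
namespace Crest.Agent.R225

variable {J ι : Type} [Fintype J] [Fintype ι]

instance : IsProbabilityMeasure (gm J) := by unfold gm; infer_instance
instance : IsProbabilityMeasure (gmat ι J) := by unfold gmat; infer_instance

section aux
open ProbabilityTheory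
open scoped RealInnerProductSpace

theorem ga_inner (x g : J → ℝ) :
    ⟪(WithLp.toLp 2 x : EuclideanSpace ℝ J), (WithLp.toLp 2 g : EuclideanSpace ℝ J)⟫ = g ⬝ᵥ x := by
  simp [PiLp.inner_apply, dotProduct]

theorem ga_map : (gm J).map (WithLp.toLp 2) = stdGaussian (EuclideanSpace ℝ J) :=
  map_pi_eq_stdGaussian

theorem ga_law : HasGaussianLaw (fun g : J → ℝ => (WithLp.toLp 2 g : EuclideanSpace ℝ J)) (gm J) := by
  have : IsGaussian ((gm J).map (fun g : J → ℝ => (WithLp.toLp 2 g : EuclideanSpace ℝ J))) := by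
    rw [ga_map]; infer_instance
  exact IsGaussian.hasGaussianLaw

theorem ga_law_pair (x w : J → ℝ) : HasGaussianLaw (fun g : J → ℝ => (g ⬝ᵥ x, g ⬝ᵥ w)) (gm J) := by
  have := (ga_law (J := J)).map_fun
    ((innerSL ℝ (WithLp.toLp 2 x : EuclideanSpace ℝ J)).prod
      (innerSL ℝ (WithLp.toLp 2 w : EuclideanSpace ℝ J)))
  simpa only [ContinuousLinearMap.prod_apply, innerSL_apply_apply, ga_inner] using this

theorem ga_meas (x : J → ℝ) : Measurable fun g : J → ℝ => g ⬝ᵥ x := by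
  unfold dotProduct
  fun_prop

theorem ga_cov (x w : J → ℝ) :
    cov[fun g : J → ℝ => g ⬝ᵥ x, fun g : J → ℝ => g ⬝ᵥ w; gm J] = x ⬝ᵥ w := by
  have h1 := covarianceBilin_apply_eq_cov (μ := stdGaussian (EuclideanSpace ℝ J))
    IsGaussian.memLp_two_id (WithLp.toLp 2 x) (WithLp.toLp 2 w)
  rw [covarianceBilin_stdGaussian, ← ga_map, covariance_map_fun
    (Measurable.aestronglyMeasurable (by fun_prop)) (Measurable.aestronglyMeasurable (by fun_prop))
    (by fun_prop)] at h1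
  simp only [ga_inner] at h1
  rw [← h1, dotProduct_comm]
  exact ga_inner x w

theorem ga_mean (x : J → ℝ) : ∫ g, g ⬝ᵥ x ∂(gm J) = 0 := by
  have h1 := integral_strongDual_stdGaussian (innerSL ℝ (WithLp.toLp 2 x : EuclideanSpace ℝ J))
  rw [← ga_map, integral_map (by fun_prop) (Measurable.aestronglyMeasurable (by fun_prop))] at h1
  simpa only [innerSL_apply_apply, ga_inner] using h1

theorem ga_map_dot (x : J → ℝ) :
    (gm J).map (fun g => g ⬝ᵥ x) = gaussianReal 0 (x ⬝ᵥ x).toNNReal := by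
  rw [(ga_law_pair x x).fst.map_eq_gaussianReal, ga_mean,
    ← covariance_self (ga_meas x).aemeasurable, ga_cov]

theorem ga_map_pair {x w : J → ℝ} (h : x ⬝ᵥ w = 0) :
    (gm J).map (fun g => (g ⬝ᵥ x, g ⬝ᵥ w)) =
      (gaussianReal 0 (x ⬝ᵥ x).toNNReal).prod (gaussianReal 0 (w ⬝ᵥ w).toNNReal) := by
  rw [← ga_map_dot, ← ga_map_dot]
  exact ((ga_law_pair x w).indepFun_of_covariance_eq_zero
    ((ga_cov x w).trans h)).map_prod_eq_prod_map_map (ga_meas x).aemeasurable (ga_meas w).aemeasurable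

theorem ga_gint {v : ℝ} (hv : 0 < v) (a b : ℝ) :
    (gaussianReal 0 v.toNNReal (Set.Icc a b)).toReal = gint (Real.sqrt v) a b := by
  rw [gaussianReal_apply_eq_integral _ (by simpa using hv),
    ENNReal.toReal_ofReal (integral_nonneg fun s => gaussianPDFReal_nonneg _ _ _), gint]
  congr 1
  funext s
  rw [gaussianPDFReal, phi, Real.coe_toNNReal _ hv.le, div_pow, Real.sq_sqrt hv.le,
    Real.sqrt_mul (by positivity) v, sub_zero, div_div, div_div, mul_comm v 2, neg_div,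
    div_eq_inv_mul (Real.exp _)]

theorem ga_pdf_le {W B m s ρ c : ℝ} (hW : 0 < W) (hWB : W ≤ B) (hBW : B ≤ W * Real.exp (2 * ρ))
    (hs : s * m / B ≤ c) :
    gaussianPDFReal m W.toNNReal s ≤ Real.exp (ρ + c) * gaussianPDFReal 0 B.toNNReal s := by
  have hB : 0 < B := hW.trans_le hWB
  rw [gaussianPDFReal, gaussianPDFReal, Real.coe_toNNReal _ hW.le, Real.coe_toNNReal _ hB.le,
    Real.exp_add, mul_mul_mul_comm, ← Real.exp_add]
  refine mul_le_mul ?_ (Real.exp_le_exp.2 ?_) (Real.exp_pos _).le (by positivity)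
  · rw [← div_eq_mul_inv, inv_eq_one_div, div_le_div_iff₀ (by positivity) (by positivity), one_mul]
    refine Real.sqrt_le_iff.2 ⟨by positivity, ?_⟩
    rw [mul_pow, Real.sq_sqrt (by positivity), ← Real.exp_nat_mul]
    have := mul_le_mul_of_nonneg_left hBW (by positivity : 0 ≤ 2 * Real.pi)
    push_cast
    linarith
  · have h1 : (s - m) ^ 2 / (2 * B) ≤ (s - m) ^ 2 / (2 * W) := by gcongr
    have h2 : (s - m) ^ 2 / (2 * B) = s ^ 2 / (2 * B) - s * m / B + m ^ 2 / (2 * B) := by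
      field_simp; ring
    have h3 : 0 ≤ m ^ 2 / (2 * B) := by positivity
    rw [neg_div, neg_div, sub_zero]
    linarith

end aux

/-- `g ⬝ᵥ x` is `gaussianReal 0 (x ⬝ᵥ x)` under `gm J` (`map_pi_eq_stdGaussian`, `HasGaussianLaw`, or
characteristic functions). -/
theorem gauss_one {x : J → ℝ} (hx : x ≠ 0) (a b : ℝ) :
    (gm J {g | g ⬝ᵥ x ∈ Set.Icc a b}).toReal = gint (Real.sqrt (x ⬝ᵥ x)) a b := by
  have hpos : 0 < x ⬝ᵥ x :=
    lt_of_le_of_ne (sum_nonneg fun i _ => mul_self_nonneg _) fun h =>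
      hx (dotProduct_self_eq_zero.1 h.symm)
  rw [← ga_gint hpos, ← ga_map_dot, Measure.map_apply (ga_meas x) measurableSet_Icc]
  rfl

/-- Write `x' = α x + w`, `w ⊥ x`, `w ≠ 0`.  `U = g·x` and `V = g·w` are independent Gaussians
(`HasGaussianLaw.indepFun_of_covariance_eq_zero`).  `Pr = ∫_{u ∈ I} Pr (V ∈ I - α u) dP_U`, and for
`s, u ∈ I`, with `r' = |x'| ≥ |w| = r' √(1 - ρ'²)`, `α = ρ' |x'| / |x|`, `|ρ'| ≤ ρ`:
`phi ((s - α u)/|w|) / |w| ≤ (1-ρ²)^{-1/2} exp (|s α u| / r'²) phi (s/r') / r' ≤ exp (ρ + ρ T²) phi (s/r')/r'`. -/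
theorem gauss_two {x x' : J → ℝ} {R ρ T a b : ℝ} (hR : 0 < R) (hx : R ^ 2 ≤ x ⬝ᵥ x)
    (hx' : R ^ 2 ≤ x' ⬝ᵥ x') (hρ0 : 0 ≤ ρ) (hρ : ρ ≤ 1 / 2) (hxx : |x ⬝ᵥ x'| ≤ ρ * R ^ 2)
    (ha : |a| ≤ T * R) (hb : |b| ≤ T * R) :
    (gm J {g | g ⬝ᵥ x ∈ Set.Icc a b ∧ g ⬝ᵥ x' ∈ Set.Icc a b}).toReal ≤
      Real.exp (ρ * (T ^ 2 + 1)) * gint (Real.sqrt (x ⬝ᵥ x)) a b * gint (Real.sqrt (x' ⬝ᵥ x')) a b := by
  have hR2 : 0 < R ^ 2 := by positivity
  set A := x ⬝ᵥ x with hA
  set B := x' ⬝ᵥ x' with hB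
  set c := x ⬝ᵥ x' with hc
  have hA0 : 0 < A := hR2.trans_le hx
  have hB0 : 0 < B := hR2.trans_le hx'
  set α := c / A with hα
  set w : J → ℝ := x' - α • x with hw
  have hxw : x ⬝ᵥ w = 0 := by
    rw [hw, dotProduct_sub, dotProduct_smul, smul_eq_mul, ← hA, ← hc, hα]
    field_simp
    ring
  have hW : w ⬝ᵥ w = B - c ^ 2 / A := by
    rw [hw, dotProduct_sub, sub_dotProduct, sub_dotProduct, dotProduct_smul, smul_dotProduct,
      smul_dotProduct, dotProduct_smul, dotProduct_comm x' x, ← hA, ← hB, ← hc, hα]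
    simp only [smul_eq_mul]
    field_simp
    ring
  have hAB : R ^ 2 * R ^ 2 ≤ A * B := mul_le_mul hx hx' hR2.le hA0.le
  have hc2 : c ^ 2 / A ≤ ρ ^ 2 * B := by
    rw [div_le_iff₀ hA0]
    have h1 : c ^ 2 ≤ (ρ * R ^ 2) ^ 2 := by
      rw [← sq_abs c]
      gcongr
    have h2 := mul_le_mul_of_nonneg_left hAB (sq_nonneg ρ)
    nlinarith
  have hc0 : 0 ≤ c ^ 2 / A := by positivity
  have hWl : (1 - ρ ^ 2) * B ≤ w ⬝ᵥ w := by rw [hW]; linarith
  have hρ2 : 3 / 4 ≤ 1 - ρ ^ 2 := by nlinarith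
  have hW0 : 0 < w ⬝ᵥ w := lt_of_lt_of_le (by positivity) hWl
  have hWB : w ⬝ᵥ w ≤ B := by rw [hW]; linarith
  have hBW : B ≤ w ⬝ᵥ w * Real.exp (2 * ρ) := by
    have h1 : 2 * ρ + 1 ≤ Real.exp (2 * ρ) := Real.add_one_le_exp _
    have h2 : 1 ≤ (1 - ρ ^ 2) * (2 * ρ + 1) := by nlinarith
    calc B ≤ (1 - ρ ^ 2) * (2 * ρ + 1) * B := le_mul_of_one_le_left hB0.le h2
      _ = (1 - ρ ^ 2) * B * (2 * ρ + 1) := by ring
      _ ≤ _ := mul_le_mul hWl h1 (by positivity) hW0.le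
  have habs : ∀ s ∈ Set.Icc a b, |s| ≤ T * R := fun s hs =>
    abs_le.2 ⟨(abs_le.1 ha).1.trans hs.1, hs.2.trans (abs_le.1 hb).2⟩
  have hsm : ∀ s ∈ Set.Icc a b, ∀ u ∈ Set.Icc a b, s * (α * u) / B ≤ ρ * T ^ 2 := by
    intro s hs u hu
    have h1 : |s| * |u| ≤ (T * R) * (T * R) :=
      mul_le_mul (habs s hs) (habs u hu) (abs_nonneg _) ((abs_nonneg _).trans ha)
    have h2 : s * u * c ≤ (T * R) * (T * R) * (ρ * R ^ 2) := by
      refine (le_abs_self _).trans ?_
      rw [abs_mul, abs_mul]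
      exact mul_le_mul h1 hxx (abs_nonneg _) (mul_self_nonneg _)
    have h3 : s * (α * u) / B = s * u * c / (A * B) := by
      rw [hα]; field_simp
    rw [h3, div_le_iff₀ (by positivity)]
    have h4 := mul_le_mul_of_nonneg_left hAB (by positivity : 0 ≤ ρ * T ^ 2)
    nlinarith
  set C := Real.exp (ρ + ρ * T ^ 2) with hC
  set S : Set (ℝ × ℝ) := {p | p.1 ∈ Set.Icc a b ∧ α * p.1 + p.2 ∈ Set.Icc a b} with hS
  have hSm : MeasurableSet S :=
    (measurableSet_Icc.preimage measurable_fst).inter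
      (measurableSet_Icc.preimage (by fun_prop : Measurable fun p : ℝ × ℝ => α * p.1 + p.2))
  have h1 : {g : J → ℝ | g ⬝ᵥ x ∈ Set.Icc a b ∧ g ⬝ᵥ x' ∈ Set.Icc a b} =
      (fun g => (g ⬝ᵥ x, g ⬝ᵥ w)) ⁻¹' S := by
    ext g
    have : α * (g ⬝ᵥ x) + g ⬝ᵥ w = g ⬝ᵥ x' := by
      rw [hw, dotProduct_sub, dotProduct_smul, smul_eq_mul]; ring
    simp only [hS, Set.mem_ofPred_eq, Set.mem_preimage, this]
  have h2 : ∀ u, ProbabilityTheory.gaussianReal 0 (w ⬝ᵥ w).toNNReal (Prod.mk u ⁻¹' S) ≤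
      (Set.Icc a b).indicator (fun _ => ENNReal.ofReal C *
        ProbabilityTheory.gaussianReal 0 B.toNNReal (Set.Icc a b)) u := by
    intro u
    by_cases hu : u ∈ Set.Icc a b
    · have h3 : Prod.mk u ⁻¹' S = (fun v => α * u + v) ⁻¹' Set.Icc a b := by
        ext v
        simp only [hS, Set.mem_ofPred_eq, Set.mem_preimage, hu, true_and]
      rw [Set.indicator_of_mem hu, h3, ← Measure.map_apply (by fun_prop) measurableSet_Icc,
        ProbabilityTheory.gaussianReal_map_const_add, zero_add,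
        ProbabilityTheory.gaussianReal_apply _ (by simpa using hW0),
        ProbabilityTheory.gaussianReal_apply _ (by simpa using hB0),
        ← lintegral_const_mul _ (ProbabilityTheory.measurable_gaussianPDF _ _)]
      refine setLIntegral_mono' measurableSet_Icc fun s hs => ?_
      rw [ProbabilityTheory.gaussianPDF, ProbabilityTheory.gaussianPDF,
        ← ENNReal.ofReal_mul (Real.exp_pos _).le]
      exact ENNReal.ofReal_le_ofReal (ga_pdf_le hW0 hWB hBW (hsm s hs u hu))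
    · have h3 : Prod.mk u ⁻¹' S = ∅ := by
        ext v
        simp only [hS, Set.mem_ofPred_eq, Set.mem_preimage, hu, false_and, Set.mem_empty_iff_false]
      simp [h3]
  rw [h1, ← Measure.map_apply ((ga_meas x).prodMk (ga_meas w)) hSm, ga_map_pair hxw,
    Measure.prod_apply hSm]
  refine (ENNReal.toReal_mono ?_ (lintegral_mono h2)).trans (le_of_eq ?_)
  · rw [lintegral_indicator_const measurableSet_Icc]
    finiteness
  · rw [lintegral_indicator_const measurableSet_Icc, ENNReal.toReal_mul, ENNReal.toReal_mul,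
      ga_gint hA0, ga_gint hB0, ENNReal.toReal_ofReal (Real.exp_pos _).le, mul_add, mul_one,
      add_comm (ρ * T ^ 2)]
    ring

end Crest.Agent.R225
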