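import Crest.Agent.R225.UDefs

/-! Trees: random homomorphisms multiply the means along a tree. -/

set_option autoImplicit false
open MeasureTheory Finset Classical

noncomputable section
namespace Crest.Agent.R225

variable {ι G : Type} [Fintype ι] [DecidableEq ι] [AddCommGroup G] [Fintype G]

namespace UTree

section av
variable {α β : Type} [Fintype α] [Fintype β]

theorem av_mono {f g : α → ℝ} (h : ∀ a, f a ≤ g a) : av f ≤ av g :=
  div_le_div_of_nonneg_right (sum_le_sum fun a _ => h a) (Nat.cast_nonneg _)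

theorem av_nonneg {f : α → ℝ} (h : ∀ a, 0 ≤ f a) : 0 ≤ av f :=
  div_nonneg (sum_nonneg fun a _ => h a) (Nat.cast_nonneg _)

theorem av_add (f g : α → ℝ) : av (fun a => f a + g a) = av f + av g := by
  simp only [av, sum_add_distrib, add_div]

theorem av_mul_left (c : ℝ) (f : α → ℝ) : av (fun a => c * f a) = c * av f := by
  simp only [av, ← mul_sum, mul_div_assoc]

theorem av_mul_right (c : ℝ) (f : α → ℝ) : av (fun a => f a * c) = av f * c := by
  simp only [mul_comm _ c, av_mul_left]

theorem av_sum {κ : Type} (S : Finset κ) (f : κ → α → ℝ) :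
    av (fun a => ∑ k ∈ S, f k a) = ∑ k ∈ S, av (f k) := by
  simp only [av, ← sum_div]
  rw [sum_comm]

theorem av_comm (f : α → β → ℝ) : av (fun a => av (f a)) = av fun b => av fun a => f a b := by
  simp only [av, ← sum_div]
  rw [sum_comm, div_right_comm]

theorem av_bij {e : α → α} (he : Function.Injective e) (f : α → ℝ) :
    av (fun a => f (e a)) = av f := by
  simp only [av]
  rw [(Finite.injective_iff_bijective.1 he).sum_comp f]

variable [Nonempty α]

theorem card_pos' : (0 : ℝ) < Fintype.card α := by exact_mod_cast Fintype.card_pos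

theorem av_const (c : ℝ) : av (fun _ : α => c) = c := by
  have := card_pos' (α := α)
  simp only [av, sum_const, card_univ, nsmul_eq_mul]
  field_simp

theorem av_pos {f : α → ℝ} (h : ∀ a, 0 < f a) : 0 < av f :=
  div_pos (sum_pos (fun a _ => h a) univ_nonempty) card_pos'

theorem av_log_le {f : α → ℝ} (h : ∀ a, 0 < f a) :
    av (fun a => Real.log (f a)) ≤ Real.log (av f) := by
  have hm := av_pos h
  have h1 : av (fun a => Real.log (f a)) ≤
      av fun a => (av f)⁻¹ * f a + (Real.log (av f) - 1) := by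
    refine av_mono fun a => ?_
    have := Real.log_le_sub_one_of_pos (div_pos (h a) hm)
    rw [Real.log_div (h a).ne' hm.ne', div_eq_inv_mul] at this
    linarith
  rw [av_add, av_mul_left, av_const, inv_mul_cancel₀ hm.ne'] at h1
  linarith

theorem card_filter_le (p : α → Prop) [DecidablePred p] {c : ℝ}
    (h : av (fun a => if p a then (1 : ℝ) else 0) ≤ c) :
    ((univ.filter p).card : ℝ) ≤ c * Fintype.card α := by
  rw [av, div_le_iff₀ card_pos'] at h
  simpa using h

theorem le_card_mul_av {f : α → ℝ} (h : ∀ a, 0 ≤ f a) (a : α) : f a ≤ Fintype.card α * av f := by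
  rw [av, mul_div_cancel₀ _ card_pos'.ne']
  exact single_le_sum (fun a _ => h a) (mem_univ a)

end av

omit [Fintype G] in
theorem lin_update (ψ : ι → G) (i : ι) (v : G) (z : ι → ℤ) :
    lin (Function.update ψ i (ψ i + v)) z = lin ψ z + z i • v := by
  simp only [lin]
  rw [← add_sum_erase _ _ (mem_univ i), ← add_sum_erase _ (fun j => z j • ψ j) (mem_univ i),
    Function.update_self, sum_congr rfl fun j hj => by
      rw [Function.update_of_ne (ne_of_mem_erase hj)], smul_add]
  abel

theorem av_shift (f : G → ℝ) (c : G) : av (fun g => f (g + c)) = av f :=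
  av_bij (add_left_injective c) f

theorem tm_update (F : (ι → ℤ) → G → ℝ) {S : Finset (ι → ℤ)} {i : ι} {a : ℤ}
    (h : ∀ z ∈ S, z i = a) (ψ : ι → G) (v : G) :
    tm F S (Function.update ψ i (ψ i + v)) = tm F S ψ := by
  rw [tm, tm, ← av_shift (fun g => ∏ z ∈ S, F z (g + lin ψ z)) (a • v)]
  congr 1
  funext g
  refine prod_congr rfl fun z hz => ?_
  rw [lin_update, h z hz]
  congr 1
  abel

theorem av_resample (f : (ι → G) → ℝ) (i : ι) :
    av f = av fun ψ : ι → G => av fun v : G => f (Function.update ψ i (ψ i + v)) := by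
  rw [av_comm]
  have : ∀ v : G, av (fun ψ : ι → G => f (Function.update ψ i (ψ i + v))) = av f := fun v =>
    av_bij (e := fun ψ : ι → G => Function.update ψ i (ψ i + v)) (fun ψ ψ' h => by
      funext j
      have h1 := congrFun h j
      by_cases hj : j = i
      · subst hj
        simpa using h1
      · simpa [Function.update_of_ne hj] using h1) f
  simp only [this, av_const]

omit [DecidableEq ι] in
theorem tm_empty (F : (ι → ℤ) → G → ℝ) (ψ : ι → G) : tm F ∅ ψ = 1 := by
  simp only [tm, prod_empty, av_const]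

omit [DecidableEq ι] in
theorem tm_single (F : (ι → ℤ) → G → ℝ) (z : ι → ℤ) (ψ : ι → G) : tm F {z} ψ = av (F z) := by
  simp only [tm, prod_singleton, av_shift]

omit [Fintype ι] [DecidableEq ι] in
theorem disj {S₁ S₂ : Finset (ι → ℤ)} {i : ι} {a b : ℤ} (hab : a ≠ b)
    (h1 : ∀ z ∈ S₁, z i = a) (h2 : ∀ z ∈ S₂, z i = b) : Disjoint S₁ S₂ :=
  disjoint_left.2 fun z hz hz' => hab ((h1 z hz).symm.trans (h2 z hz'))

omit [Fintype ι] [DecidableEq ι] [Fintype G] in
theorem inj_of_sep {S₁ S₂ : Finset (ι → ℤ)} {i : ι} {a b : ℤ} (hab : a ≠ b)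
    (h1 : ∀ z ∈ S₁, z i = a) (h2 : ∀ z ∈ S₂, z i = b) (n1 : S₁.Nonempty) (n2 : S₂.Nonempty)
    {P : ℕ} (hP1 : ∀ z ∈ S₁, ∀ i, |z i| ≤ P) (hP2 : ∀ z ∈ S₂, ∀ i, |z i| ≤ P)
    (hG : SepBy G (2 * P)) : ∀ g : G, (a - b) • g = 0 → g = 0 := by
  obtain ⟨z, hz⟩ := n1
  obtain ⟨z', hz'⟩ := n2
  have e1 := hP1 z hz i
  have e2 := hP2 z' hz' i
  rw [h1 z hz] at e1
  rw [h2 z' hz'] at e2
  refine hG _ (sub_ne_zero.2 hab) ((abs_sub a b).trans ?_)
  push_cast
  omega

omit [Fintype ι] [DecidableEq ι] in
theorem isTree_image {κ : Type} [DecidableEq (ι ⊕ κ → ℤ)] (x : κ → ℤ) {S : Finset (ι → ℤ)}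
    (hS : IsTree S) : IsTree (S.image fun z => (Sum.elim z x : ι ⊕ κ → ℤ)) := by
  induction hS with
  | empty => exact IsTree.empty
  | single z => rw [image_singleton]; exact IsTree.single _
  | node i a b S₁ S₂ S hab h1 h2 hS _ _ ih1 ih2 =>
    refine IsTree.node (Sum.inl i) a b _ _ _ hab ?_ ?_ ?_ ih1 ih2
    · intro z hz
      obtain ⟨y, hy, rfl⟩ := mem_image.1 hz
      exact h1 y hy
    · intro z hz
      obtain ⟨y, hy, rfl⟩ := mem_image.1 hz
      exact h2 y hy
    · intro z
      simp only [mem_image, hS, or_and_right, exists_or]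

end UTree

open UTree

/-- Stronger claim by induction: if all elements of `S` agree outside a finite set `J` of coordinates
then `|S| ≤ 2 ^ |J|` (at a node with both parts nonempty `i ∈ J`, and both parts agree outside
`J.erase i`). -/
theorem IsTree.card_le {S : Finset (ι → ℤ)} (hS : IsTree S) : S.card ≤ 2 ^ Fintype.card ι := by
  have key : ∀ J : Finset ι, (∀ z ∈ S, ∀ z' ∈ S, ∀ j, j ∉ J → z j = z' j) →
      S.card ≤ 2 ^ J.card := by
    induction hS with
    | empty => intro J _; simp
    | single z => intro J _; rw [card_singleton]; exact Nat.one_le_two_pow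
    | node i a b S₁ S₂ S hab h1 h2 hS _ _ ih1 ih2 =>
      intro J hJ
      obtain rfl : S = S₁ ∪ S₂ := by ext z; rw [hS, mem_union]
      rcases S₁.eq_empty_or_nonempty with rfl | ⟨z₁, hz₁⟩
      · rw [empty_union] at hJ ⊢; exact ih2 J hJ
      rcases S₂.eq_empty_or_nonempty with rfl | ⟨z₂, hz₂⟩
      · rw [union_empty] at hJ ⊢; exact ih1 J hJ
      have hi : i ∈ J := by
        by_contra hi
        have := hJ z₁ (mem_union_left _ hz₁) z₂ (mem_union_right _ hz₂) i hi
        rw [h1 _ hz₁, h2 _ hz₂] at this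
        exact hab this
      have e1 := ih1 (J.erase i) fun z hz z' hz' j hj => by
        by_cases hji : j = i
        · rw [hji, h1 z hz, h1 z' hz']
        · exact hJ z (mem_union_left _ hz) z' (mem_union_left _ hz') j
            fun h => hj (mem_erase.2 ⟨hji, h⟩)
      have e2 := ih2 (J.erase i) fun z hz z' hz' j hj => by
        by_cases hji : j = i
        · rw [hji, h2 z hz, h2 z' hz']
        · exact hJ z (mem_union_right _ hz) z' (mem_union_right _ hz') j
            fun h => hj (mem_erase.2 ⟨hji, h⟩)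
      have e3 := card_union_le S₁ S₂
      rw [← card_erase_add_one hi, pow_succ]
      omega
  exact key univ fun _ _ _ _ j hj => absurd (mem_univ j) hj

/-- Induction over a finite set `J` of "free" coordinates: `piFinset (if i ∈ J then {s i, s i - p}
else {s' i})` is a tree for every `s'`. -/
theorem isTree_cube {κ : Type} [Fintype κ] [DecidableEq κ] (p : ℕ) (s : κ → ℤ) :
    IsTree (cube p s) := by
  have key : ∀ (J : Finset κ) (s' : κ → ℤ),
      IsTree (Fintype.piFinset fun i => if i ∈ J then {s i, s i - p} else {s' i}) := by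
    intro J
    induction J using Finset.induction_on with
    | empty =>
      intro s'
      simp only [notMem_empty, if_false, Fintype.piFinset_singleton]
      exact IsTree.single _
    | insert j J hj ih =>
      intro s'
      have hm : ∀ (c : ℤ) (z : κ → ℤ), z ∈ (Fintype.piFinset fun i =>
          if i ∈ J then {s i, s i - p} else {Function.update s' j c i}) ↔
          z j = c ∧ ∀ i, i ≠ j → z i ∈ (if i ∈ J then {s i, s i - p} else {s' i} : Finset ℤ) := by
        intro c z
        rw [Fintype.mem_piFinset]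
        constructor
        · intro h
          refine ⟨by simpa [hj] using h j, fun i hi => ?_⟩
          simpa only [Function.update_of_ne hi] using h i
        · rintro ⟨h1, h2⟩ i
          by_cases hi : i = j
          · subst hi; simp [hj, h1]
          · simpa only [Function.update_of_ne hi] using h2 i hi
      have hm' : ∀ z : κ → ℤ, z ∈ (Fintype.piFinset fun i =>
          if i ∈ insert j J then {s i, s i - p} else {s' i}) ↔
          (z j = s j ∨ z j = s j - p) ∧
            ∀ i, i ≠ j → z i ∈ (if i ∈ J then {s i, s i - p} else {s' i} : Finset ℤ) := by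
        intro z
        rw [Fintype.mem_piFinset]
        constructor
        · intro h
          refine ⟨by simpa using h j, fun i hi => ?_⟩
          simpa only [mem_insert, hi, false_or] using h i
        · rintro ⟨h1, h2⟩ i
          by_cases hi : i = j
          · subst hi; simpa using h1
          · simpa only [mem_insert, hi, false_or] using h2 i hi
      by_cases hp : s j = s j - p
      · convert ih (Function.update s' j (s j)) using 1
        ext z
        rw [hm, hm', ← hp, or_self]
      · refine IsTree.node j (s j) (s j - p) _ _ _ hp (fun z hz => ((hm _ z).1 hz).1)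
          (fun z hz => ((hm _ z).1 hz).1) (fun z => ?_) (ih _) (ih _)
        rw [hm, hm, hm', or_and_right]
  simpa only [mem_univ, if_true, cube] using key univ s

/-- a tree of trees (induction on the upper tree; the image of a tree under `Sum.elim · x` is a tree). -/
theorem isTree_biUnion {κ : Type} [Fintype κ] {Cb : Finset (κ → ℤ)} (hC : IsTree Cb)
    (S : (κ → ℤ) → Finset (ι → ℤ)) (hS : ∀ x ∈ Cb, IsTree (S x)) :
    IsTree (Cb.biUnion fun x => (S x).image fun z => (Sum.elim z x : ι ⊕ κ → ℤ)) := by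
  induction hC with
  | empty => exact IsTree.empty
  | single x =>
    rw [singleton_biUnion]
    exact isTree_image x (hS x (mem_singleton_self x))
  | node i a b C₁ C₂ C hab h1 h2 hC _ _ ih1 ih2 =>
    refine IsTree.node (Sum.inr i) a b _ _ _ hab ?_ ?_ ?_
      (ih1 fun x hx => hS x ((hC x).2 (Or.inl hx))) (ih2 fun x hx => hS x ((hC x).2 (Or.inr hx)))
    · intro z hz
      obtain ⟨x, hx, hz⟩ := mem_biUnion.1 hz
      obtain ⟨y, -, rfl⟩ := mem_image.1 hz
      exact h1 x hx
    · intro z hz
      obtain ⟨x, hx, hz⟩ := mem_biUnion.1 hz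
      obtain ⟨y, -, rfl⟩ := mem_image.1 hz
      exact h2 x hx
    · intro z
      simp only [mem_biUnion, hC, or_and_right, exists_or]

/-- Key identity.  Changing `ψ i` by `v` shifts the argument by `a • v` on `S₁` and by `b • v` on `S₂`;
`(g, v) ↦ (g + a • v, g + b • v)` is a bijection of `G × G` when `(a - b) • ·` is injective. Also
`tm F S₁ (update ψ i (ψ i + v)) = tm F S₁ ψ`. -/
theorem av_tm_node (F : (ι → ℤ) → G → ℝ) {S₁ S₂ : Finset (ι → ℤ)} {i : ι} {a b : ℤ} (hab : a ≠ b)
    (h1 : ∀ z ∈ S₁, z i = a) (h2 : ∀ z ∈ S₂, z i = b) (hinj : ∀ g : G, (a - b) • g = 0 → g = 0)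
    (ψ : ι → G) :
    av (fun v : G => tm F (S₁ ∪ S₂) (Function.update ψ i (ψ i + v))) = tm F S₁ ψ * tm F S₂ ψ := by
  set A : G → ℝ := fun g => ∏ z ∈ S₁, F z (g + lin ψ z) with hA
  set B : G → ℝ := fun g => ∏ z ∈ S₂, F z (g + lin ψ z) with hB
  have e1 : ∀ v : G, tm F (S₁ ∪ S₂) (Function.update ψ i (ψ i + v)) =
      av fun g => A g * B (g + (b - a) • v) := by
    intro v
    rw [tm, ← av_shift (fun g => A g * B (g + (b - a) • v)) (a • v)]
    congr 1
    funext g
    rw [prod_union (disj hab h1 h2)]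
    congr 1
    · refine prod_congr rfl fun z hz => ?_
      rw [lin_update, h1 z hz]
      congr 1
      abel
    · refine prod_congr rfl fun z hz => ?_
      rw [lin_update, h2 z hz, sub_smul]
      congr 1
      abel
  have e2 : ∀ g : G, av (fun v : G => B (g + (b - a) • v)) = av B := fun g =>
    av_bij (e := fun v : G => g + (b - a) • v) (fun v v' h => by
      have h3 : (b - a) • v = (b - a) • v' := add_left_cancel h
      have h4 := hinj (v' - v) (by
        rw [smul_sub, ← neg_sub b a, neg_smul, neg_smul, h3, sub_self])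
      exact (sub_eq_zero.1 h4).symm) B
  simp only [e1]
  rw [av_comm]
  simp only [av_mul_left, e2, av_mul_right]
  rfl

/-- (T1) Induction on the tree, with `|S| - 1` in place of `|S|` for nonempty `S` (a node with an empty
part is the other part).  At a node: bad for `S` implies bad for `S₁`, bad for `S₂`, or
(good for both and `tm S > e^x * bound₁ * bound₂`); the last has proportion `≤ e^{-x}` by
`av_tm_node`, Markov's inequality in `v`, and the bijection `(ψ, v) ↦ (update ψ i (ψ i + v), v)`. -/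
theorem tree_tail {S : Finset (ι → ℤ)} (hS : IsTree S) {P : ℕ} (hP : ∀ z ∈ S, ∀ i, |z i| ≤ P)
    (hG : SepBy G (2 * P)) (F : (ι → ℤ) → G → ℝ) (hF : ∀ z ∈ S, ∀ g, 0 ≤ F z g)
    (α : (ι → ℤ) → ℝ) (hα : ∀ z ∈ S, 0 < α z ∧ av (F z) ≤ α z) {x : ℝ} (hx : 0 ≤ x) :
    ((univ.filter fun ψ : ι → G => Real.exp (x * S.card) * ∏ z ∈ S, α z < tm F S ψ).card : ℝ) ≤
      S.card * Real.exp (-x) * Fintype.card (ι → G) := by
  have key : av (fun ψ : ι → G => if Real.exp (x * (S.card - 1 : ℕ)) * ∏ z ∈ S, α z < tm F S ψ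
      then (1 : ℝ) else 0) ≤ (S.card - 1 : ℕ) * Real.exp (-x) := by
    induction hS with
    | empty => simp [tm_empty, av_const]
    | single z =>
      have := (hα z (mem_singleton_self z)).2
      simp [tm_single, av_const, not_lt.2 this]
    | node i a b S₁ S₂ S hab h1 h2 hS _ _ ih1 ih2 =>
      obtain rfl : S = S₁ ∪ S₂ := by ext z; rw [hS, mem_union]
      have hP1 := fun z hz => hP z (mem_union_left S₂ hz)
      have hP2 := fun z hz => hP z (mem_union_right S₁ hz)
      have hF1 := fun z hz => hF z (mem_union_left S₂ hz)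
      have hF2 := fun z hz => hF z (mem_union_right S₁ hz)
      have hα1 := fun z hz => hα z (mem_union_left S₂ hz)
      have hα2 := fun z hz => hα z (mem_union_right S₁ hz)
      replace ih1 := ih1 hP1 hF1 hα1
      replace ih2 := ih2 hP2 hF2 hα2
      rcases S₁.eq_empty_or_nonempty with rfl | n1
      · rw [empty_union]; exact ih2
      rcases S₂.eq_empty_or_nonempty with rfl | n2
      · rw [union_empty]; exact ih1
      have hd := disj hab h1 h2
      have hc : (S₁ ∪ S₂).card - 1 = (S₁.card - 1) + (S₂.card - 1) + 1 := by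
        have := card_pos.2 n1
        have := card_pos.2 n2
        rw [card_union_of_disjoint hd]
        omega
      set B₁ := Real.exp (x * (S₁.card - 1 : ℕ)) * ∏ z ∈ S₁, α z with hB₁
      set B₂ := Real.exp (x * (S₂.card - 1 : ℕ)) * ∏ z ∈ S₂, α z with hB₂
      have p1 : 0 < B₁ := mul_pos (Real.exp_pos _) (prod_pos fun z hz => (hα1 z hz).1)
      have p2 : 0 < B₂ := mul_pos (Real.exp_pos _) (prod_pos fun z hz => (hα2 z hz).1)
      have hB : Real.exp (x * ((S₁ ∪ S₂).card - 1 : ℕ)) * ∏ z ∈ S₁ ∪ S₂, α z =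
          Real.exp x * (B₁ * B₂) := by
        rw [hc, prod_union hd, hB₁, hB₂]
        push_cast
        rw [mul_add, mul_add, Real.exp_add, Real.exp_add, mul_one]
        ring
      have pB : 0 < Real.exp x * (B₁ * B₂) := by positivity
      have t0 : ∀ (S : Finset (ι → ℤ)), (∀ z ∈ S, ∀ g, 0 ≤ F z g) → ∀ ψ, 0 ≤ tm F S ψ :=
        fun S h ψ => av_nonneg fun g => prod_nonneg fun z hz => h z hz _
      set R : (ι → G) → ℝ := fun ψ => (if tm F S₁ ψ ≤ B₁ ∧ tm F S₂ ψ ≤ B₂ then
        (Real.exp x * (B₁ * B₂))⁻¹ else 0) * tm F (S₁ ∪ S₂) ψ with hR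
      have hR0 : ∀ ψ, 0 ≤ R ψ := fun ψ =>
        mul_nonneg (by split_ifs <;> positivity) (t0 _ hF ψ)
      have hRav : av R ≤ Real.exp (-x) := by
        rw [av_resample R i, ← av_const (α := ι → G) (Real.exp (-x))]
        refine av_mono fun ψ => ?_
        simp only [hR, tm_update F h1, tm_update F h2, av_mul_left]
        rw [av_tm_node F hab h1 h2 (inj_of_sep hab h1 h2 n1 n2 hP1 hP2 hG)]
        split_ifs with h
        · rw [inv_mul_le_iff₀ pB, Real.exp_neg, mul_right_comm,
            mul_inv_cancel₀ (Real.exp_pos x).ne', one_mul]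
          exact mul_le_mul h.1 h.2 (t0 _ hF2 ψ) p1.le
        · rw [zero_mul]; positivity
      rw [hB]
      refine (av_mono (g := fun ψ => ((if B₁ < tm F S₁ ψ then (1 : ℝ) else 0) +
        if B₂ < tm F S₂ ψ then (1 : ℝ) else 0) + R ψ) fun ψ => ?_).trans ?_
      · have q1 : (0 : ℝ) ≤ if B₁ < tm F S₁ ψ then (1 : ℝ) else 0 := by split_ifs <;> norm_num
        have q2 : (0 : ℝ) ≤ if B₂ < tm F S₂ ψ then (1 : ℝ) else 0 := by split_ifs <;> norm_num
        have q3 := hR0 ψ
        by_cases h : Real.exp x * (B₁ * B₂) < tm F (S₁ ∪ S₂) ψ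
        · rw [if_pos h]
          by_cases g1 : B₁ < tm F S₁ ψ
          · rw [if_pos g1]; linarith
          by_cases g2 : B₂ < tm F S₂ ψ
          · rw [if_pos g2]; linarith
          have : 1 ≤ R ψ := by
            simp only [hR]
            rw [if_pos ⟨not_lt.1 g1, not_lt.1 g2⟩, le_inv_mul_iff₀ pB, mul_one]
            exact h.le
          linarith
        · rw [if_neg h]; linarith
      · rw [av_add, av_add, hc]
        push_cast
        linarith
  have h1 := card_filter_le _ key
  have h2 : ((S.card - 1 : ℕ) : ℝ) ≤ S.card := by exact_mod_cast Nat.sub_le _ _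
  refine le_trans ?_ (h1.trans ?_)
  · refine Nat.cast_le.2 (card_le_card fun ψ hψ => ?_)
    rw [mem_filter] at hψ ⊢
    refine ⟨hψ.1, lt_of_le_of_lt ?_ hψ.2⟩
    exact mul_le_mul_of_nonneg_right (Real.exp_le_exp.2 (mul_le_mul_of_nonneg_left h2 hx))
      (prod_nonneg fun z hz => (hα z hz).1.le)
  · gcongr

/-- (T2) Induction on the tree; at a node Jensen (`log` is concave) and `av_tm_node` give
`av_v log (tm S) ≤ log (tm S₁) + log (tm S₂)`. -/
theorem tree_log {S : Finset (ι → ℤ)} (hS : IsTree S) {P : ℕ} (hP : ∀ z ∈ S, ∀ i, |z i| ≤ P)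
    (hG : SepBy G (2 * P)) (F : (ι → ℤ) → G → ℝ) (hF : ∀ z ∈ S, ∀ g, 0 < F z g) :
    av (fun ψ : ι → G => Real.log (tm F S ψ)) ≤ ∑ z ∈ S, Real.log (av (F z)) := by
  induction hS with
  | empty => simp [tm_empty, av_const]
  | single z => simp [tm_single, av_const]
  | node i a b S₁ S₂ S hab h1 h2 hS _ _ ih1 ih2 =>
    obtain rfl : S = S₁ ∪ S₂ := by ext z; rw [hS, mem_union]
    have hP1 := fun z hz => hP z (mem_union_left S₂ hz)
    have hP2 := fun z hz => hP z (mem_union_right S₁ hz)
    have hF1 := fun z hz => hF z (mem_union_left S₂ hz)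
    have hF2 := fun z hz => hF z (mem_union_right S₁ hz)
    replace ih1 := ih1 hP1 hF1
    replace ih2 := ih2 hP2 hF2
    rcases S₁.eq_empty_or_nonempty with rfl | n1
    · rw [empty_union]; exact ih2
    rcases S₂.eq_empty_or_nonempty with rfl | n2
    · rw [union_empty]; exact ih1
    have t0 : ∀ (S : Finset (ι → ℤ)), (∀ z ∈ S, ∀ g, 0 < F z g) → ∀ ψ, 0 < tm F S ψ :=
      fun S h ψ => av_pos fun g => prod_pos fun z hz => h z hz _
    rw [av_resample _ i, sum_union (disj hab h1 h2)]
    refine le_trans (av_mono (g := fun ψ => Real.log (tm F S₁ ψ) + Real.log (tm F S₂ ψ))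
      fun ψ => ?_) ?_
    · refine (av_log_le fun v => t0 _ hF _).trans_eq ?_
      rw [av_tm_node F hab h1 h2 (inj_of_sep hab h1 h2 n1 n2 hP1 hP2 hG),
        Real.log_mul (t0 _ hF1 ψ).ne' (t0 _ hF2 ψ).ne']
    · rw [av_add]
      exact add_le_add ih1 ih2

/-- Uniform law of large numbers along a tree.  Let `m = av Y ≥ μ`, `λ = δ² / (wm B)`,
`F z g = exp (-λ w z Y g)`, `ℓ ψ = log (tm F S ψ) + λ m`.  Jensen for `exp` gives `ℓ ≥ 0`;
`e^{-t} ≤ 1 - t + t²/2` (`t ≥ 0`), `Y² ≤ B Y` and `tree_log` give `av ℓ ≤ λ² wm B m / 2`.  Markov: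
the proportion of `ψ` with `ℓ ≥ λ δ m / 2` is `≤ λ wm B / δ = δ`.  Otherwise for every `g`,
`exp (-λ S g) ≤ |G| tm`, so `S g ≥ m - ℓ/λ - log |G| / λ ≥ m (1 - δ/2) - δ μ / 2 ≥ (1 - δ) μ`. -/
theorem tree_lln {S : Finset (ι → ℤ)} (hS : IsTree S) {P : ℕ} (hP : ∀ z ∈ S, ∀ i, |z i| ≤ P)
    (hG : SepBy G (2 * P)) (w : (ι → ℤ) → ℝ) {wm B μ δ : ℝ} (hw : ∀ z ∈ S, 0 ≤ w z ∧ w z ≤ wm)
    (hw1 : ∑ z ∈ S, w z = 1) (Y : G → ℝ) (hY : ∀ g, 0 ≤ Y g ∧ Y g ≤ B) (hμ : 0 < μ)
    (hμY : μ ≤ av Y) (hδ : 0 < δ) (hδ1 : δ ≤ 1)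
    (hc : 2 * Real.log (Fintype.card G) * wm * B ≤ δ ^ 3 * μ) :
    ((univ.filter fun ψ : ι → G => ∃ g, ∑ z ∈ S, w z * Y (g + lin ψ z) < (1 - δ) * μ).card : ℝ) ≤
      δ * Fintype.card (ι → G) := by
  set m := av Y with hm
  have hm0 : 0 < m := hμ.trans_le hμY
  have hB : 0 < B := by
    have := av_mono (g := fun _ => B) fun g => (hY g).2
    rw [av_const] at this
    linarith
  have hwm : 0 < wm := by
    by_contra h
    have : ∑ z ∈ S, w z ≤ 0 := sum_nonpos fun z hz => (hw z hz).2.trans (not_lt.1 h)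
    linarith
  set lam := δ ^ 2 / (wm * B) with hlam
  have hl0 : 0 < lam := by positivity
  have hl1 : lam * wm * B = δ ^ 2 := by rw [hlam]; field_simp
  set F : (ι → ℤ) → G → ℝ := fun z g => Real.exp (-(lam * (w z * Y g))) with hF
  have htm : ∀ ψ : ι → G, tm F S ψ =
      av fun g => Real.exp (-(lam * ∑ z ∈ S, w z * Y (g + lin ψ z))) := by
    intro ψ
    simp only [tm, hF, ← Real.exp_sum, mul_sum, sum_neg_distrib]
  have hl : ∀ ψ : ι → G, 0 ≤ Real.log (tm F S ψ) + lam * m := by
    intro ψ
    have h1 := av_log_le (f := fun g => Real.exp (-(lam * ∑ z ∈ S, w z * Y (g + lin ψ z))))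
      fun g => Real.exp_pos _
    simp only [Real.log_exp, ← neg_mul] at h1
    rw [av_mul_left, av_sum] at h1
    simp only [av_mul_left, av_shift, ← hm, ← sum_mul, hw1, neg_mul] at h1
    rw [htm]
    linarith
  have hlog : ∀ z ∈ S, Real.log (av (F z)) ≤ w z * (-(lam * m) + lam * δ ^ 2 * m / 2) := by
    intro z hz
    have h1 := Real.log_le_sub_one_of_pos (av_pos (f := F z) fun g => Real.exp_pos _)
    have h2 : av (F z) ≤ av fun g => 1 + w z * (-lam + lam * δ ^ 2 / 2) * Y g := by
      refine av_mono fun g => ?_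
      set t := lam * (w z * Y g) with ht
      have t0 : 0 ≤ t := mul_nonneg hl0.le (mul_nonneg (hw z hz).1 (hY g).1)
      have t1 : t ≤ δ ^ 2 := by
        rw [← hl1, mul_assoc]
        exact mul_le_mul_of_nonneg_left
          (mul_le_mul (hw z hz).2 (hY g).2 (hY g).1 hwm.le) hl0.le
      have e1 : Real.exp (-t) ≤ 1 - t + t ^ 2 / 2 := by
        have q := Real.quadratic_le_exp_of_nonneg t0
        rw [Real.exp_neg, inv_le_iff_one_le_mul₀ (Real.exp_pos t)]
        have q2 : 0 ≤ 1 - t + t ^ 2 / 2 := by nlinarith [sq_nonneg (t - 1)]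
        nlinarith [mul_le_mul_of_nonneg_left q q2, sq_nonneg (t ^ 2)]
      have e2 : w z * (-lam + lam * δ ^ 2 / 2) * Y g = -t + t * δ ^ 2 / 2 := by rw [ht]; ring
      show Real.exp (-t) ≤ _
      rw [e2]
      nlinarith
    rw [av_add, av_const, av_mul_left, ← hm] at h2
    nlinarith
  have hav : av (fun ψ : ι → G => Real.log (tm F S ψ) + lam * m) ≤ lam * δ ^ 2 * m / 2 := by
    have h1 := (tree_log hS hP hG F fun z _ g => Real.exp_pos _).trans (sum_le_sum hlog)
    rw [← sum_mul, hw1] at h1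
    rw [av_add, av_const]
    linarith
  have hlogG : Real.log (Fintype.card G) ≤ lam * δ * μ / 2 := by
    have : 2 * Real.log (Fintype.card G) * (wm * B) ≤ lam * δ * μ * (wm * B) := by
      calc _ = 2 * Real.log (Fintype.card G) * wm * B := by ring
        _ ≤ δ ^ 3 * μ := hc
        _ = (lam * wm * B) * δ * μ := by rw [hl1]; ring
        _ = _ := by ring
    have := le_of_mul_le_mul_right this (mul_pos hwm hB)
    linarith
  have hq : 0 < lam * δ * m / 2 := by positivity
  refine card_filter_le _ ((av_mono (g := fun ψ : ι → G =>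
    (lam * δ * m / 2)⁻¹ * (Real.log (tm F S ψ) + lam * m)) fun ψ => ?_).trans ?_)
  · split_ifs with h
    · obtain ⟨g, hg⟩ := h
      rw [le_inv_mul_iff₀ hq, mul_one]
      have h1 := le_card_mul_av
        (f := fun g => Real.exp (-(lam * ∑ z ∈ S, w z * Y (g + lin ψ z))))
        (fun g => (Real.exp_pos _).le) g
      rw [← htm] at h1
      have h2 : 0 < tm F S ψ := by rw [htm]; exact av_pos fun g => Real.exp_pos _
      have h3 := Real.log_le_log (Real.exp_pos _) h1
      rw [Real.log_exp, Real.log_mul card_pos'.ne' h2.ne'] at h3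
      have h4 := mul_le_mul_of_nonneg_left hg.le hl0.le
      have h5 : 0 ≤ lam * ((m - μ) * (1 - δ / 2)) :=
        mul_nonneg hl0.le (mul_nonneg (by linarith) (by linarith))
      nlinarith
    · exact mul_nonneg (inv_nonneg.2 hq.le) (hl ψ)
  · rw [av_mul_left, inv_mul_le_iff₀ hq]
    refine hav.trans_eq ?_
    ring

end Crest.Agent.R225
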