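import Crest.Agent.R225.UBad1
import Crest.Agent.R225.UBad2
import Crest.Agent.R225.UTree
import Crest.Agent.R225.UBonf

/-! The horizontal estimates: a random hyperplane mod `p` rarely misses a convex body; the core selection. -/

set_option autoImplicit false
open MeasureTheory Finset Classical Filter
open scoped Pointwise ENNReal

noncomputable section
namespace Crest.Agent.R225

namespace UHor

theorem card_le_image_add {α β : Type} [DecidableEq α] [DecidableEq β] (f : α → β) (A : Finset α) :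
    A.card ≤ (A.image f).card + (A.offDiag.filter fun q => f q.1 = f q.2).card := by
  have h1 := card_filter_add_card_filter_not (s := A) fun x => ∃ y ∈ A, x ≠ y ∧ f x = f y
  have h2 : (A.filter fun x => ∃ y ∈ A, x ≠ y ∧ f x = f y).card ≤
      (A.offDiag.filter fun q => f q.1 = f q.2).card := by
    refine card_le_card_of_surjOn Prod.fst fun x hx => ?_
    obtain ⟨hx, y, hy, hne, e⟩ := mem_filter.1 hx
    exact ⟨(x, y), mem_filter.2 ⟨mem_offDiag.2 ⟨hx, hy, hne⟩, e⟩, rfl⟩
  have h3 : (A.filter fun x => ¬ ∃ y ∈ A, x ≠ y ∧ f x = f y).card ≤ (A.image f).card := by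
    refine card_le_card_of_injOn f (fun x hx => mem_image_of_mem f (mem_filter.1 hx).1) ?_
    intro x hx y hy e
    by_contra hne
    exact (mem_filter.1 hx).2 ⟨y, (mem_filter.1 hy).1, hne, e⟩
  omega

theorem card_coll {J : Type} [Fintype J] [DecidableEq J] {p : ℕ} [Fact p.Prime] {x y : J → ℤ}
    {i : J} (hi : (x i : ZMod p) ≠ y i) :
    (univ.filter fun a : J → ZMod p => hsh a x = hsh a y).card * p ≤ p ^ Fintype.card J := by
  have hup : ∀ (a : J → ZMod p) (t : ZMod p) (z : J → ℤ),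
      hsh (a + Pi.single i t) z = hsh a z + t * (z i : ZMod p) := by
    intro a t z
    simp only [hsh, Pi.add_apply, add_mul, sum_add_distrib]
    congr 1
    rw [sum_eq_single i]
    · simp
    · intro j _ hj; simp [hj]
    · simp
  have h := card_le_card_of_injOn (s := (univ.filter fun a : J → ZMod p => hsh a x = hsh a y) ×ˢ
    (univ : Finset (ZMod p))) (t := univ) (fun q => q.1 + Pi.single i q.2)
    (fun _ _ => mem_univ _) (by
      rintro ⟨a, t⟩ ha ⟨a', t'⟩ ha' e
      simp only [coe_product, coe_filter, mem_univ, true_and, coe_univ, Set.mem_prod,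
        Set.mem_ofPred_eq, Set.mem_univ, and_true] at ha ha' e
      have e1 := hup a t x
      have e2 := hup a t y
      rw [e, hup] at e1 e2
      have e3 : (t - t') * ((x i : ZMod p) - y i) = 0 := by
        linear_combination e2 - e1 - ha + ha'
      have e4 : t = t' := sub_eq_zero.1 ((mul_eq_zero.1 e3).resolve_right (sub_ne_zero.2 hi))
      subst e4
      rw [add_right_cancel e])
  simpa [ZMod.card] using h

end UHor

/-- Let `c ≤ 1/10` be as in `count_intComb`, `m` = the even number `2 ⌊c N / 2⌋`, `cH = c / 20`.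
`W = |A| / p ∈ [vl C / (4σ), 2 cH N]` (`card_gp_bounds`); `((j+1) R M)^(j+1) < σ M^N ≤ p` for large `M`
(`j + 1 < N`), so `bad_reduce`, `count_depMod`, `count_intComb` give `π = 2 e^{-c N}` in `bonferroni`;
`e^{2W} / 2^m ≤ e^{-W}` and `4 e^{-cN} e^{W} ≤ e^{-W}` for large `N`. -/
theorem horizontal : ∃ cH : ℝ, 0 < cH ∧ ∃ N₀ : ℕ, ∀ N : ℕ, N₀ ≤ N → ∀ C : Set (Fin N → ℝ), Body C →
    ∀ σ : ℝ, 0 < σ → vl C ≤ cH * N * σ → ∀ᶠ M : ℕ in atTop, ∀ (p : ℕ) [Fact p.Prime],
      σ * (M : ℝ) ^ N ≤ p → (p : ℝ) ≤ 2 * σ * (M : ℝ) ^ N →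
      ((univ.filter fun ab : (Fin N → ZMod p) × ZMod p =>
        ∀ x ∈ gp M C, hsh ab.1 x ≠ ab.2).card : ℝ) ≤
        3 * Real.exp (-(vl C / (4 * σ))) * (p : ℝ) ^ (N + 1) := by
  obtain ⟨c₀, hc₀, N₁, hint⟩ := count_intComb
  set c := min c₀ (1 / 10) with hc
  have hc0 : 0 < c := lt_min hc₀ (by norm_num)
  have hc1 : c ≤ c₀ := min_le_left _ _
  have hc2 : c ≤ 1 / 10 := min_le_right _ _
  refine ⟨c / 20, by positivity, max (max N₁ 40) ⌈5 / c⌉₊, fun N hN C hC σ hσ hV => ?_⟩
  have hN1 : N₁ ≤ N := (le_max_left _ _).trans ((le_max_left _ _).trans hN)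
  have hN2 : 40 ≤ N := (le_max_right _ _).trans ((le_max_left _ _).trans hN)
  have hN3 : 5 ≤ c * N := by
    have h1 : 5 / c ≤ N := Nat.ceil_le.1 ((le_max_right _ _).trans hN)
    rw [div_le_iff₀ hc0] at h1
    linarith
  have hN0 : (0 : ℝ) ≤ N := Nat.cast_nonneg N
  obtain ⟨R, hR, hCR⟩ : ∃ R : ℕ, 1 ≤ R ∧ ∀ x ∈ C, ∀ i, |x i| ≤ R := by
    obtain ⟨r, hr⟩ := hC.1.isBounded.exists_norm_le
    refine ⟨⌈r⌉₊ + 1, by omega, fun x hx i => ?_⟩
    have h1 := (norm_le_pi_norm x i).trans (hr x hx)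
    have h2 := Nat.le_ceil r
    rw [Real.norm_eq_abs] at h1
    push_cast
    linarith
  set m := 2 * ⌊c * N / 2⌋₊ with hm
  have hm1 : (m : ℝ) ≤ c * N := by
    have := Nat.floor_le (show 0 ≤ c * N / 2 by positivity)
    rw [hm]; push_cast; linarith
  have hm2 : c * N - 2 ≤ m := by
    have := Nat.lt_floor_add_one (c * N / 2)
    rw [hm]; push_cast; linarith
  have hbig : ∀ᶠ M : ℕ in atTop, ((N * R : ℕ) : ℝ) ^ (N - 1) / σ < M :=
    tendsto_natCast_atTop_atTop.eventually_gt_atTop _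
  filter_upwards [hint N hN1 C hC, count_depMod hN2 hC hR hCR, card_gp_bounds hC, hbig,
    eventually_gt_atTop 0] with M h1 h2 h3 h4 hM p _ hp1 hp2
  have hMpos : (0 : ℝ) < M := by exact_mod_cast hM
  have hp0 : (0 : ℝ) < p := by exact_mod_cast (Fact.out : p.Prime).pos
  set A := gp M C with hA
  have hAB : ∀ e ∈ A, ∀ i, |e i| ≤ (R * M : ℕ) := by
    intro e he i
    have h5 := hCR _ ((mem_gp hC.1.isBounded hM).1 he) i
    rw [sc, abs_div, abs_of_pos hMpos, div_le_iff₀ hMpos] at h5
    exact_mod_cast h5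
  have hRM : 1 ≤ R * M := Nat.mul_pos hR hM
  have hbad : ∀ j ≤ m, (((Fintype.piFinset fun _ : Fin j => A).filter
      fun x => BadT p A x).card : ℝ) ≤ 2 * Real.exp (-(c * N)) * (A.card : ℝ) ^ j := by
    intro j hj
    have hj1 : (j : ℝ) ≤ c * N := (Nat.cast_le.2 hj).trans hm1
    have hj2 : 10 * j ≤ N := by
      have : (10 : ℝ) * j ≤ N := by nlinarith
      exact_mod_cast this
    have hlt : ((j + 1) * (R * M)) ^ (j + 1) < p := by
      have e1 : ((j + 1) * (R * M)) ^ (j + 1) ≤ (N * R) ^ (N - 1) * M ^ (N - 1) := by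
        rw [← mul_pow, mul_assoc]
        exact (Nat.pow_le_pow_left (Nat.mul_le_mul_right _ (by omega)) _).trans
          (Nat.pow_le_pow_right (Nat.mul_pos (by omega) hRM) (by omega))
      have e2 : ((N * R : ℕ) : ℝ) ^ (N - 1) * (M : ℝ) ^ (N - 1) < p := by
        rw [div_lt_iff₀ hσ] at h4
        calc _ < (M * σ) * (M : ℝ) ^ (N - 1) := mul_lt_mul_of_pos_right h4 (by positivity)
          _ = σ * (M : ℝ) ^ (N - 1 + 1) := by ring
          _ ≤ p := by rwa [show N - 1 + 1 = N by omega]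
      exact e1.trans_lt (by exact_mod_cast e2)
    have hsub : ((Fintype.piFinset fun _ : Fin j => A).filter fun x => BadT p A x) ⊆
        ((Fintype.piFinset fun _ : Fin j => A).filter fun x => ∃ l : ℕ, l.Prime ∧
          l ≤ ((j + 1) * (R * M)) ^ (j + 1) + 2 ∧ DepMod l x) ∪
        ((Fintype.piFinset fun _ : Fin j => A).filter fun x => IntComb A x) := by
      intro x hx
      rw [mem_filter] at hx
      rcases bad_reduce Fact.out hRM hAB (Fintype.mem_piFinset.1 hx.1) hlt hx.2 with h | h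
      · exact mem_union_left _ (mem_filter.2 ⟨hx.1, h⟩)
      · exact mem_union_right _ (mem_filter.2 ⟨hx.1, h⟩)
    have e1 := (Nat.cast_le (α := ℝ)).2 ((card_le_card hsub).trans (card_union_le _ _))
    have e2 := h1 j (hj1.trans (mul_le_mul_of_nonneg_right hc1 hN0))
    have e3 := h2 j hj2
    have e4 : Real.exp (-(c₀ * N)) ≤ Real.exp (-(c * N)) :=
      Real.exp_le_exp.2 (by nlinarith)
    have e5 : Real.exp (-((N : ℝ) / 4)) ≤ Real.exp (-(c * N)) :=
      Real.exp_le_exp.2 (by nlinarith)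
    have e6 : (0 : ℝ) ≤ (A.card : ℝ) ^ j := by positivity
    push_cast at e1
    nlinarith [mul_le_mul_of_nonneg_right e4 e6, mul_le_mul_of_nonneg_right e5 e6]
  have hb := bonferroni (p := p) A (m := m) (even_two_mul _) (by positivity) hbad
  rw [Fintype.card_fin] at hb
  refine hb.trans (mul_le_mul_of_nonneg_right ?_ (by positivity))
  set W : ℝ := A.card / p with hW
  have hMN : (0 : ℝ) < (M : ℝ) ^ N := by positivity
  have hW1 : vl C / (4 * σ) ≤ W := by
    rw [hW, div_le_div_iff₀ (by positivity) hp0]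
    have := hC.vl_pos
    nlinarith [mul_le_mul_of_nonneg_left hp2 this.le, mul_le_mul_of_nonneg_right h3.1 hσ.le]
  have hW2 : W ≤ c * N / 10 := by
    rw [hW, div_le_iff₀ hp0]
    nlinarith [mul_le_mul_of_nonneg_right hV hMN.le,
      mul_le_mul_of_nonneg_left hp1 (show 0 ≤ c * N by positivity), h3.2]
  have t1 : Real.exp (2 * W) / 2 ^ m ≤ Real.exp (-W) := by
    rw [div_le_iff₀ (by positivity)]
    have q1 : Real.exp (m / 2) ≤ 2 ^ m := by
      rw [show (m : ℝ) / 2 = m * (1 / 2) by ring, Real.exp_nat_mul]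
      refine pow_le_pow_left₀ (Real.exp_pos _).le ?_ m
      rw [← Real.le_log_iff_exp_le (by norm_num)]
      linarith [Real.log_two_gt_d9]
    calc Real.exp (2 * W) ≤ Real.exp (-W + m / 2) := Real.exp_le_exp.2 (by linarith)
      _ = Real.exp (-W) * Real.exp (m / 2) := Real.exp_add _ _
      _ ≤ _ := mul_le_mul_of_nonneg_left q1 (Real.exp_pos _).le
  have t2 : 2 * (2 * Real.exp (-(c * N))) * Real.exp W ≤ Real.exp (-W) := by
    have q1 : 4 ≤ Real.exp (c * N - 2 * W) := by
      linarith [Real.add_one_le_exp (c * N - 2 * W)]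
    calc _ = 4 * Real.exp (-(c * N) + W) := by rw [Real.exp_add]; ring
      _ ≤ Real.exp (c * N - 2 * W) * Real.exp (-(c * N) + W) :=
        mul_le_mul_of_nonneg_right q1 (Real.exp_pos _).le
      _ = _ := by rw [← Real.exp_add]; congr 1; ring
  have t3 : Real.exp (-W) ≤ Real.exp (-(vl C / (4 * σ))) := Real.exp_le_exp.2 (by linarith)
  linarith

/-- Few collisions: if distinct points of `A` are distinct mod `p` and `8 |A| ≤ p`, then for all but a
quarter of the `a` the image `hsh a '' A` has at least `|A| / 2` elements (the expected number of ordered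
colliding pairs is `≤ |A|² / p`; `|image| ≥ |A| - #pairs`; Markov). -/
theorem few_collisions {J : Type} [Fintype J] [DecidableEq J] {p : ℕ} [Fact p.Prime] (A : Finset (J → ℤ))
    (hA : ∀ x ∈ A, ∀ y ∈ A, (∀ i, (x i : ZMod p) = y i) → x = y) (h8 : 8 * A.card ≤ p) :
    ((univ.filter fun a : J → ZMod p =>
      ((A.image (hsh a)).card : ℝ) < (A.card : ℝ) / 2).card : ℝ) ≤ (p : ℝ) ^ Fintype.card J / 4 := by
  rcases A.eq_empty_or_nonempty with rfl | hne
  · simp only [image_empty, card_empty, Nat.cast_zero, zero_div, lt_self_iff_false, filter_false]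
    positivity
  have hA0 : (0 : ℝ) < A.card := by exact_mod_cast card_pos.2 hne
  have hp0 : (0 : ℝ) < p := by exact_mod_cast (Fact.out : p.Prime).pos
  set col : (J → ZMod p) → ℕ := fun a => (A.offDiag.filter fun q => hsh a q.1 = hsh a q.2).card
    with hcol
  have h1 : (∑ a, col a) * p ≤ A.card * A.card * p ^ Fintype.card J := by
    have e1 : ∑ a, col a =
        ∑ q ∈ A.offDiag, (univ.filter fun a : J → ZMod p => hsh a q.1 = hsh a q.2).card := by
      simp only [hcol, card_filter]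
      exact sum_comm
    rw [e1, sum_mul]
    refine (sum_le_card_nsmul _ _ (p ^ Fintype.card J) fun q hq => ?_).trans ?_
    · obtain ⟨hx, hy, hxy⟩ := mem_offDiag.1 hq
      have : ∃ i, (q.1 i : ZMod p) ≠ q.2 i := by
        by_contra h
        push Not at h
        exact hxy (hA _ hx _ hy h)
      obtain ⟨i, hi⟩ := this
      exact UHor.card_coll hi
    · rw [smul_eq_mul, offDiag_card]
      exact Nat.mul_le_mul_right _ (Nat.sub_le _ _)
  set Bd := univ.filter fun a : J → ZMod p => ((A.image (hsh a)).card : ℝ) < (A.card : ℝ) / 2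
  have h2 : (Bd.card : ℝ) * ((A.card : ℝ) / 2) ≤ ∑ a, (col a : ℝ) := by
    rw [← nsmul_eq_mul]
    refine (card_nsmul_le_sum _ (fun a => (col a : ℝ)) _ fun a ha => ?_).trans
      (sum_le_sum_of_subset_of_nonneg (subset_univ _) fun _ _ _ => Nat.cast_nonneg _)
    have e1 := (mem_filter.1 ha).2
    have e2 : (A.card : ℝ) ≤ (A.image (hsh a)).card + col a := by
      exact_mod_cast UHor.card_le_image_add (hsh a) A
    linarith
  have h3 : (∑ a, (col a : ℝ)) * p ≤ A.card * A.card * (p : ℝ) ^ Fintype.card J := by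
    exact_mod_cast h1
  have h4 : 8 * (A.card : ℝ) ≤ p := by exact_mod_cast h8
  have h5 : (0 : ℝ) ≤ (p : ℝ) ^ Fintype.card J := by positivity
  have h6 : (Bd.card : ℝ) * (A.card * p) ≤ (p : ℝ) ^ Fintype.card J / 4 * (A.card * p) := by
    nlinarith [mul_le_mul_of_nonneg_right h2 hp0.le,
      mul_le_mul_of_nonneg_left h4 (mul_nonneg hA0.le h5)]
  exact le_of_mul_le_mul_right h6 (mul_pos hA0 hp0)

end Crest.Agent.R225
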