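import Crest.Agent.R225.UDefs

/-! Isotropic position, moments, log-concavity of sections. -/

set_option autoImplicit false
open MeasureTheory Finset Classical Filter
open scoped Pointwise ENNReal

noncomputable section
namespace Crest.Agent.R225

variable {J : Type} [Fintype J] [DecidableEq J]

theorem Body.image {K : Set (J → ℝ)} (hK : Body K) {A : Matrix J J ℝ} (hA : A.det ≠ 0) :
    Body (A.mulVec '' K) ∧ vl (A.mulVec '' K) = |A.det| * vl K := by
  have hf : A.mulVec = Matrix.toLin' A := funext fun x => (Matrix.toLin'_apply A x).symm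
  have hs : Function.Surjective (Matrix.toLin' A) := by
    rw [← hf]
    exact Matrix.mulVec_surjective_iff_isUnit.2
      ((Matrix.isUnit_iff_isUnit_det A).2 (Ne.isUnit hA))
  rw [hf]
  refine ⟨⟨hK.1.image (LinearMap.continuous_of_finiteDimensional _), hK.2.1.linear_image _, ?_⟩, ?_⟩
  · exact (hK.2.2.image _).mono
      ((LinearMap.isOpenMap_of_finiteDimensional _ hs).image_interior_subset K)
  · rw [vl, Measure.addHaar_image_linearMap, LinearMap.det_toLin', ENNReal.toReal_mul,
      ENNReal.toReal_ofReal (abs_nonneg _), vl]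

omit [DecidableEq J] in
theorem iso_vl_pos {K : Set (J → ℝ)} (hK : Body K) : 0 < vl K :=
  ENNReal.toReal_pos (Measure.measure_pos_of_nonempty_interior _ hK.2.2).ne'
    hK.1.measure_lt_top.ne

omit [DecidableEq J] in
theorem iso_int {K : Set (J → ℝ)} (hK : Body K) (i j : J) :
    Integrable (fun x : J → ℝ => x i * x j) (volume.restrict K) :=
  ContinuousOn.integrableOn_compact hK.1 (by fun_prop)

omit [DecidableEq J] in
theorem iso_int_dot {K : Set (J → ℝ)} (hK : Body K) (u v : J → ℝ) :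
    ∫ x in K, (u ⬝ᵥ x) * (v ⬝ᵥ x) = ∑ i, ∑ j, u i * v j * ∫ x in K, x i * x j := by
  have h1 : ∀ x : J → ℝ, (u ⬝ᵥ x) * (v ⬝ᵥ x) = ∑ i, ∑ j, u i * v j * (x i * x j) := by
    intro x
    rw [dotProduct, dotProduct, sum_mul_sum]
    exact sum_congr rfl fun i _ => sum_congr rfl fun j _ => by ring
  simp only [h1]
  rw [integral_finsetSum _ fun i _ =>
    integrable_finsetSum _ fun j _ => (iso_int hK i j).const_mul _]
  refine sum_congr rfl fun i _ => ?_
  rw [integral_finsetSum _ fun j _ => (iso_int hK i j).const_mul _]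
  exact sum_congr rfl fun j _ => integral_const_mul _ _

omit [DecidableEq J] in
theorem iso_posDef {K : Set (J → ℝ)} (hK : Body K) :
    (Matrix.of fun i j => ∫ x in K, x i * x j : Matrix J J ℝ).PosDef := by
  refine Matrix.PosDef.of_dotProduct_mulVec_pos ?_ fun v hv => ?_
  · ext i j
    simp [mul_comm]
  · have h1 : star v ⬝ᵥ (Matrix.of fun i j => ∫ x in K, x i * x j : Matrix J J ℝ).mulVec v =
        ∫ x in K, (v ⬝ᵥ x) * (v ⬝ᵥ x) := by
      rw [iso_int_dot hK]
      simp only [star_trivial, dotProduct, Matrix.mulVec, Matrix.of_apply, mul_sum]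
      exact sum_congr rfl fun i _ => sum_congr rfl fun j _ => by ring
    rw [h1, setIntegral_pos_iff_support_of_nonneg_ae (ae_of_all _ fun x => mul_self_nonneg _)
      (ContinuousOn.integrableOn_compact hK.1 (by unfold dotProduct; fun_prop))]
    let L : (J → ℝ) →ₗ[ℝ] ℝ := dotProductBilin ℝ ℝ v
    have hL : LinearMap.ker L ≠ ⊤ := by
      intro h
      have : v ∈ LinearMap.ker L := h ▸ Submodule.mem_top
      exact hv (dotProduct_self_eq_zero.1 this)
    have h2 : (Function.support fun x : J → ℝ => (v ⬝ᵥ x) * (v ⬝ᵥ x)) ∩ K =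
        K \ (LinearMap.ker L : Set (J → ℝ)) := by
      ext x
      simp [L, and_comm]
    rw [h2, measure_sdiff_null (Measure.addHaar_submodule _ _ hL)]
    exact Measure.measure_pos_of_nonempty_interior _ hK.2.2

/-- `Σ i j = (∫_K x i x j) / vl K` is positive definite (`vᵀ Σ v = ∫ (v·x)² > 0` since `K` has interior);
take `A` invertible with `A Σ Aᵀ = 1` (spectral theorem / `CFC.sqrt` / an orthogonal basis of the
bilinear form) and change variables. -/
theorem exists_iso {K : Set (J → ℝ)} (hK : Body K) :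
    ∃ A : Matrix J J ℝ, A.det ≠ 0 ∧ Iso (A.mulVec '' K) := by
  have hV := iso_vl_pos hK
  set S : Matrix J J ℝ := Matrix.of fun i j => ∫ x in K, x i * x j with hS
  have hP : ((vl K)⁻¹ • S).PosDef := (iso_posDef hK).smul (inv_pos.2 hV)
  obtain ⟨b, hb, hbS⟩ : ∃ b : Matrix J J ℝ, IsUnit b ∧ (vl K)⁻¹ • S = star b * b := by
    open scoped MatrixOrder in
    exact CStarAlgebra.isStrictlyPositive_iff_eq_star_mul_self.1 hP.isStrictlyPositive
  have hb' : IsUnit b.det := (Matrix.isUnit_iff_isUnit_det b).1 hb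
  have hbt : IsUnit b.transpose.det := by rwa [Matrix.det_transpose]
  rw [Matrix.star_eq_conjTranspose, Matrix.conjTranspose_eq_transpose_of_trivial] at hbS
  set A : Matrix J J ℝ := b.transpose⁻¹ with hA
  have hAdet : A.det ≠ 0 := (Matrix.isUnit_nonsing_inv_det _ hbt).ne_zero
  have hASA : A * S * A.transpose = vl K • (1 : Matrix J J ℝ) := by
    have : S = vl K • (b.transpose * b) := by
      rw [← hbS, smul_smul, mul_inv_cancel₀ hV.ne', one_smul]
    rw [this, hA, Matrix.transpose_nonsing_inv, Matrix.transpose_transpose, Matrix.mul_smul,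
      Matrix.smul_mul, ← Matrix.mul_assoc, Matrix.nonsing_inv_mul _ hbt, Matrix.one_mul,
      Matrix.mul_nonsing_inv _ hb']
  refine ⟨A, hAdet, fun i j => ?_⟩
  have hinj : Function.Injective A.mulVec :=
    Matrix.mulVec_injective_iff_isUnit.2 ((Matrix.isUnit_iff_isUnit_det A).2 (Ne.isUnit hAdet))
  rw [(hK.image hAdet).2, integral_image_eq_integral_abs_det_fderiv_smul volume
    hK.1.measurableSet (f := A.mulVec) (f' := fun _ => LinearMap.toContinuousLinearMap (Matrix.toLin' A))
    (fun x _ => (LinearMap.toContinuousLinearMap (Matrix.toLin' A)).hasFDerivWithinAt) hinj.injOn]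
  have hdet : (LinearMap.toContinuousLinearMap (Matrix.toLin' A)).det = A.det := by
    rw [LinearMap.det_toContinuousLinearMap, LinearMap.det_toLin']
  simp only [hdet, smul_eq_mul]
  rw [integral_const_mul]
  have h1 : ∫ x in K, A.mulVec x i * A.mulVec x j = (A * S * A.transpose) i j := by
    refine (iso_int_dot hK (A i) (A j)).trans ?_
    simp only [Matrix.mul_apply, Matrix.transpose_apply, hS, Matrix.of_apply, sum_mul]
    rw [sum_comm]
    exact sum_congr rfl fun k _ => sum_congr rfl fun l _ => by ring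
  rw [h1, hASA]
  by_cases hij : i = j <;> simp [hij]

/-- `∫∫ (x·x')² = ∑_{i,j} (∫ x i x j)² = n (vl K)²` and Chebyshev. -/
theorem pair_inner {K : Set (J → ℝ)} (hK : Body K) (hI : Iso K) {t : ℝ} (ht : 0 < t) :
    (volume {p : (J → ℝ) × (J → ℝ) | p.1 ∈ K ∧ p.2 ∈ K ∧ t < |p.1 ⬝ᵥ p.2|}).toReal ≤
      Fintype.card J * vl K ^ 2 / t ^ 2 := by
  set ν : Measure (J → ℝ) := volume.restrict K with hν
  have : IsFiniteMeasure ν := isFiniteMeasure_restrict.2 hK.1.measure_lt_top.ne
  have hνν : ν.prod ν = (volume : Measure ((J → ℝ) × (J → ℝ))).restrict (K ×ˢ K) := by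
    rw [hν, Measure.prod_restrict]
    rfl
  have h1 : ∀ p : (J → ℝ) × (J → ℝ), (p.1 ⬝ᵥ p.2) ^ 2 =
      ∑ i, ∑ j, (p.1 i * p.1 j) * (p.2 i * p.2 j) := by
    intro p
    rw [sq, dotProduct, sum_mul_sum]
    exact sum_congr rfl fun i _ => sum_congr rfl fun j _ => by ring
  have hi : ∀ i j, Integrable (fun p : (J → ℝ) × (J → ℝ) => (p.1 i * p.1 j) * (p.2 i * p.2 j))
      (ν.prod ν) := fun i j => (iso_int hK i j).mul_prod (iso_int hK i j)
  have h2 : Integrable (fun p : (J → ℝ) × (J → ℝ) => (p.1 ⬝ᵥ p.2) ^ 2) (ν.prod ν) := by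
    simp only [h1]
    exact integrable_finsetSum _ fun i _ => integrable_finsetSum _ fun j _ => hi i j
  have h3 : ∫ p, (p.1 ⬝ᵥ p.2) ^ 2 ∂(ν.prod ν) = Fintype.card J * vl K ^ 2 := by
    simp only [h1]
    rw [integral_finsetSum _ fun i _ => integrable_finsetSum _ fun j _ => hi i j]
    have h4 : ∀ i, ∫ p, ∑ j, (p.1 i * p.1 j) * (p.2 i * p.2 j) ∂(ν.prod ν) = vl K ^ 2 := by
      intro i
      rw [integral_finsetSum _ fun j _ => hi i j]
      have h5 : ∀ j, ∫ p, (p.1 i * p.1 j) * (p.2 i * p.2 j) ∂(ν.prod ν) =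
          if i = j then vl K ^ 2 else 0 := by
        intro j
        rw [integral_prod_mul (fun x : J → ℝ => x i * x j) (fun x : J → ℝ => x i * x j), hI i j]
        by_cases hij : i = j <;> simp [hij, sq]
      simp [h5]
    simp [h4]
  have h6 := mul_meas_ge_le_integral_of_nonneg (ae_of_all _ fun p => sq_nonneg _) h2 (t ^ 2)
  rw [h3] at h6
  rw [le_div_iff₀ (by positivity), mul_comm]
  refine le_trans (mul_le_mul_of_nonneg_left ?_ (sq_nonneg t)) h6
  refine ENNReal.toReal_mono (measure_ne_top _ _) ?_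
  rw [hνν, Measure.restrict_apply' (hK.1.measurableSet.prod hK.1.measurableSet)]
  refine measure_mono fun p hp => ⟨?_, hp.1, hp.2.1⟩
  change t ^ 2 ≤ (p.1 ⬝ᵥ p.2) ^ 2
  rw [← sq_abs (p.1 ⬝ᵥ p.2)]
  exact pow_le_pow_left₀ ht.le hp.2.2.le 2

end Crest.Agent.R225
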