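import Crest.Agent.R225.UCells
import Crest.Agent.R225.USec

/-! Coordinates in which all sections have at least Gaussian volume. -/

set_option autoImplicit false
open MeasureTheory Finset Classical Filter
open scoped Pointwise ENNReal

noncomputable section
namespace Crest.Agent.R225

/-- linearly independent rows extend to an invertible matrix -/
theorem exists_extend {N : ℕ} {ι : Type} [Fintype ι] [DecidableEq ι] (Γ : ι → (Fin N ⊕ ι → ℝ))
    (h : LinearIndependent ℝ Γ) :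
    ∃ A : Matrix (Fin N ⊕ ι) (Fin N ⊕ ι) ℝ, A.det ≠ 0 ∧ ∀ i, A (Sum.inr i) = Γ i := by
  obtain ⟨q, hq⟩ := Submodule.exists_isCompl (Submodule.span ℝ (Set.range Γ))
  have h1 := Submodule.finrank_add_eq_of_isCompl hq
  rw [finrank_span_eq_card h, Module.finrank_fintype_fun_eq_card, Fintype.card_sum,
    Fintype.card_fin] at h1
  let bq := Module.finBasisOfFinrankEq ℝ q (show Module.finrank ℝ q = N by omega)
  have h2 : LinearIndependent ℝ fun j => (bq j : Fin N ⊕ ι → ℝ) :=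
    bq.linearIndependent.map' q.subtype q.ker_subtype
  have h3 : LinearIndependent ℝ (Sum.elim (fun j => (bq j : Fin N ⊕ ι → ℝ)) Γ) := by
    refine h2.sum_type h (hq.disjoint.symm.mono_left ?_)
    rw [Submodule.span_le]
    rintro _ ⟨j, rfl⟩
    exact (bq j).2
  refine ⟨Matrix.of (Sum.elim (fun j => (bq j : Fin N ⊕ ι → ℝ)) Γ), ?_, fun i => rfl⟩
  exact ((Matrix.isUnit_iff_isUnit_det _).1
    (Matrix.linearIndependent_rows_iff_isUnit.1 h3)).ne_zero

theorem mg_vl_image {J : Type} [Fintype J] [DecidableEq J] (A : Matrix J J ℝ) (S : Set (J → ℝ)) :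
    vl (A.mulVec '' S) = |A.det| * vl S := by
  have hf : A.mulVec = Matrix.toLin' A := funext fun x => (Matrix.toLin'_apply A x).symm
  rw [hf, vl, Measure.addHaar_image_linearMap, LinearMap.det_toLin', ENNReal.toReal_mul,
    ENNReal.toReal_ofReal (abs_nonneg _), vl]

theorem mg_omg_pos {ι : Type} [Fintype ι] {ε : ℝ} (hε : 0 < ε) (m : ι → ℤ) :
    0 < omg (fun _ => ε) m :=
  prod_pos fun _ _ => mul_pos hε (phi_pos _)

/-- the rows of a matrix all of whose cells are hit are independent -/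
theorem mg_indep {ι J : Type} [Fintype ι] [Fintype J] {Γ : ι → J → ℝ} {ε : ℝ} (hε : 0 < ε)
    (h : ∀ m : ι → ℤ, (∀ i, |m i| ≤ 2) →
      ∃ x, ∀ i, Γ i ⬝ᵥ x ∈ Set.Icc (ε * m i) (ε * (m i + 1))) : LinearIndependent ℝ Γ := by
  rw [Fintype.linearIndependent_iff]
  intro l hl
  obtain ⟨x, hx⟩ := h (fun i => if 0 ≤ l i then 1 else -2) fun i => by
    split_ifs <;> norm_num
  have h1 : ∑ i, l i * (Γ i ⬝ᵥ x) = 0 := by
    have : (∑ i, l i • Γ i) ⬝ᵥ x = 0 := by rw [hl, zero_dotProduct]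
    rw [sum_dotProduct] at this
    simpa only [smul_dotProduct, smul_eq_mul] using this
  have h2 : ∀ i, ε * |l i| ≤ l i * (Γ i ⬝ᵥ x) := by
    intro i
    have := hx i
    by_cases hi : 0 ≤ l i
    · simp only [hi, if_true, Int.cast_one, mul_one] at this
      rw [abs_of_nonneg hi]
      nlinarith [this.1]
    · simp only [hi, if_false] at this
      rw [abs_of_neg (not_le.1 hi)]
      have h3 := this.2
      push_cast at h3
      nlinarith [not_le.1 hi]
  have h3 : ∑ i, ε * |l i| = 0 :=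
    le_antisymm (h1 ▸ sum_le_sum fun i _ => h2 i) (sum_nonneg fun i _ => by positivity)
  intro i
  have := (sum_eq_zero_iff_of_nonneg fun i _ => by positivity).1 h3 i (mem_univ i)
  simpa [hε.ne'] using this

/-- weight of a cell close to `t` -/
theorem mg_wc_ge {k : ℝ} (hk : 1 ≤ k) {t : ℝ} (ht : |t| ≤ k) {m : ℤ}
    (h1 : |(m : ℝ) - t * k ^ 2| ≤ 2) (h2 : |(m : ℝ) + 1 - t * k ^ 2| ≤ 2) :
    1 / k ^ 2 * (Real.exp (-(4 / k)) * phi t) ≤ wc (1 / k ^ 2) m := by
  have hk0 : 0 < k := by linarith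
  have hk2 : 0 < k ^ 2 := by positivity
  unfold wc
  refine mul_le_mul_of_nonneg_left ?_ (by positivity)
  have h3 : ∀ y : ℝ, |y - t * k ^ 2| ≤ 2 → |y| ≤ |t| * k ^ 2 + 2 := by
    intro y hy
    have := abs_sub_abs_le_abs_sub y (t * k ^ 2)
    rw [abs_mul, abs_of_pos hk2] at this
    linarith
  have h4 : abs (1 / k ^ 2 * max |(m : ℝ)| |(m : ℝ) + 1|) ≤ abs (|t| + 2 / k ^ 2) := by
    rw [abs_of_nonneg (by positivity),
      abs_of_nonneg (show 0 ≤ |t| + 2 / k ^ 2 by positivity), one_div_mul_eq_div,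
      div_le_iff₀ hk2, add_mul, div_mul_cancel₀ _ hk2.ne']
    exact max_le (h3 _ h1) (h3 _ h2)
  refine le_trans ?_ (phi_anti h4)
  unfold phi
  rw [← mul_div_assoc, ← Real.exp_add]
  refine div_le_div_of_nonneg_right (Real.exp_le_exp.2 ?_) (Real.sqrt_nonneg _)
  have h5 : |t| * (2 / k ^ 2) ≤ 2 / k := by
    calc |t| * (2 / k ^ 2) ≤ k * (2 / k ^ 2) := by gcongr
      _ = 2 / k := by field_simp
  have h6 : (2 / k ^ 2) ^ 2 / 2 ≤ 2 / k := by
    have h7 : k ≤ k ^ 4 := le_self_pow₀ hk (by norm_num)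
    calc (2 / k ^ 2) ^ 2 / 2 = 2 / k ^ 4 := by field_simp
      _ ≤ 2 / k := by gcongr
  have h8 : (|t| + 2 / k ^ 2) ^ 2 / 2 = t ^ 2 / 2 + |t| * (2 / k ^ 2) + (2 / k ^ 2) ^ 2 / 2 := by
    rw [← sq_abs t]; ring
  have h9 : 4 / k = 2 / k + 2 / k := by ring
  linarith

/-- `A₁` from `exists_iso`, `K₁ = A₁ K`, `Γ` from `cells`.  The rows of `Γ` are independent: if
`∑ λ i Γ i = 0`, `λ ≠ 0`, the cell `m i = 1` (`λ i ≥ 0`), `m i = -2` (`λ i < 0`) has empty preimage but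
positive `pbox`.  `A₂` from `exists_extend`, `A = A₂ A₁`, `K' = A K`; then
`pbox K₁ K₁ a b Γ = (∫_{box} vl (sec K' t)) / vl K'` (`Body.image`, `vl_inter_eq_integral`).
For `|t i| ≤ k+1`, `m₀ = ⌊t/ε⌋`, `σ : ι → Bool`, the cell `m₀ ± 1` lies in the orthant `σ` at `t`, and
`omg ε m ≥ ε^k e^{-4} ∏ phi (t i)` (`ε max (|m|, |m+1|) ≤ |t| + 2ε`); so some point of the cell has
`vl (sec K' ·) ≥ v = (c/2) e^{-4} ∏ phi (t i) * vl K'`.  `convex_sec_ge` and `mem_of_orthants`. -/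
theorem marginal : ∃ c C : ℝ, 0 < c ∧ ∀ (N : ℕ) (ι : Type) [Fintype ι] [DecidableEq ι]
    (K : Set (Fin N ⊕ ι → ℝ)), Body K → Real.exp (C * (Fintype.card ι + 1) ^ 5) ≤ N →
      ∃ A : Matrix (Fin N ⊕ ι) (Fin N ⊕ ι) ℝ, A.det ≠ 0 ∧ ∀ t : ι → ℝ,
        (∀ i, |t i| ≤ Fintype.card ι + 1) →
          c * (∏ i, phi (t i)) * vl (A.mulVec '' K) ≤ vl (sec (A.mulVec '' K) t) := by
  obtain ⟨c, C, hc, hcells⟩ := cells
  refine ⟨c / 2 * Real.exp (-4), C, by positivity, fun N ι _ _ K hK hN => ?_⟩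
  obtain ⟨A₁, hA₁, hI⟩ := exists_iso hK
  set K₁ := A₁.mulVec '' K with hK₁def
  have hK₁ : Body K₁ := (hK.image hA₁).1
  obtain ⟨Γ, hΓ⟩ := hcells ι (Fin N ⊕ ι) K₁ hK₁ hI (hN.trans (by
    rw [Fintype.card_sum, Fintype.card_fin]
    exact_mod_cast Nat.le_add_right _ _))
  set k : ℝ := (Fintype.card ι : ℝ) + 1 with hk
  have hk1 : 1 ≤ k := by rw [hk]; linarith [(Nat.cast_nonneg (Fintype.card ι) : (0 : ℝ) ≤ _)]
  have hk0 : 0 < k := by linarith
  have hε : 0 < 1 / k ^ 2 := by positivity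
  have hind : LinearIndependent ℝ Γ := by
    refine mg_indep hε fun m hm => ?_
    have h1 := (mul_pos hc (mg_omg_pos hε m)).trans_le (hΓ m fun i => (hm i).trans (by
      have : (0 : ℤ) ≤ Fintype.card ι := Int.natCast_nonneg _
      calc (2 : ℤ) ≤ 3 ^ 3 := by norm_num
        _ ≤ _ := pow_le_pow_left₀ (by norm_num) (by linarith) 3))
    by_contra hx
    have h2 : K₁ ∩ {x | ∀ i, Γ i ⬝ᵥ x ∈ Set.Icc (1 / k ^ 2 * m i) (1 / k ^ 2 * (m i + 1))} = ∅ :=
      Set.eq_empty_of_forall_notMem fun x hx' => hx ⟨x, hx'.2⟩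
    rw [pbox, h2] at h1
    simp [vl] at h1
  obtain ⟨A₂, hA₂, hrow⟩ := exists_extend Γ hind
  have hKK : (A₂ * A₁).mulVec '' K = A₂.mulVec '' K₁ := by
    rw [hK₁def, Set.image_image]
    simp only [Matrix.mulVec_mulVec]
  refine ⟨A₂ * A₁, by rw [Matrix.det_mul]; exact mul_ne_zero hA₂ hA₁, fun t ht => ?_⟩
  rw [hKK]
  set K' := A₂.mulVec '' K₁ with hK'def
  have hK' : Body K' := (hK₁.image hA₂).1
  have hV' := iso_vl_pos hK'
  have hV₁ := iso_vl_pos hK₁
  have hphi : 0 < ∏ i, phi (t i) := prod_pos fun i _ => phi_pos _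
  have hbox : ∀ a b : ι → ℝ, pbox K₁ K₁ a b Γ * vl K' = ∫ s in Set.Icc a b, vl (sec K' s) := by
    intro a b
    rw [← (vl_inter_eq_integral hK'.1 measurableSet_Icc).1]
    have h1 : K' ∩ {x | (fun i => x (Sum.inr i)) ∈ Set.Icc a b} =
        A₂.mulVec '' (K₁ ∩ {x | ∀ i, Γ i ⬝ᵥ x ∈ Set.Icc (a i) (b i)}) := by
      have h2 : {x | ∀ i, Γ i ⬝ᵥ x ∈ Set.Icc (a i) (b i)} =
          A₂.mulVec ⁻¹' {x | (fun i => x (Sum.inr i)) ∈ Set.Icc a b} := by
        ext x
        simp only [Set.mem_ofPred_eq, Set.mem_preimage, Set.mem_Icc, Pi.le_def, Matrix.mulVec,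
          forall_and, ← hrow]
      rw [h2, Set.image_inter_preimage]
    rw [h1, mg_vl_image A₂ K₁, mg_vl_image A₂, pbox]
    field_simp
  set v := c / 2 * Real.exp (-4) * (∏ i, phi (t i)) * vl K' with hv
  have hv0 : 0 < v := by positivity
  refine mem_of_orthants (convex_sec_ge hK'.1 hK'.2.1 hv0) t fun σ => ?_
  set m : ι → ℤ := fun i => if σ i then ⌊t i * k ^ 2⌋ + 1 else ⌊t i * k ^ 2⌋ - 1 with hm
  have hm1 : ∀ i, |(m i : ℝ) - t i * k ^ 2| ≤ 2 ∧ |(m i : ℝ) + 1 - t i * k ^ 2| ≤ 2 := by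
    intro i
    have h1 := Int.floor_le (t i * k ^ 2)
    have h2 := Int.lt_floor_add_one (t i * k ^ 2)
    simp only [hm, abs_le]
    split_ifs <;> push_cast <;> refine ⟨⟨?_, ?_⟩, ?_, ?_⟩ <;> linarith
  have hm2 : ∀ i, |m i| ≤ ((Fintype.card ι : ℤ) + 3) ^ 3 := by
    intro i
    have h1 := abs_sub_abs_le_abs_sub (m i : ℝ) (t i * k ^ 2)
    rw [abs_mul, abs_of_pos (by positivity : 0 < k ^ 2)] at h1
    have h2 : |t i| * k ^ 2 ≤ k * k ^ 2 := by gcongr; exact ht i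
    have h3 : |(m i : ℝ)| ≤ (k + 2) ^ 3 := by nlinarith [(hm1 i).1]
    have h4 : k + 2 = (Fintype.card ι : ℝ) + 3 := by rw [hk]; ring
    rw [h4] at h3
    exact_mod_cast h3
  have h1 : (1 / k ^ 2) ^ Fintype.card ι * (Real.exp (-4) * ∏ i, phi (t i)) ≤
      omg (fun _ => 1 / k ^ 2) m := by
    refine le_trans ?_ (prod_le_prod (fun i _ => by have := phi_pos (t i); positivity) fun i _ =>
      mg_wc_ge hk1 (ht i) (hm1 i).1 (hm1 i).2)
    rw [prod_mul_distrib, prod_mul_distrib, prod_const, prod_const, card_univ, ← Real.exp_nat_mul]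
    gcongr
    rw [mul_neg, neg_le_neg_iff, ← mul_div_assoc, div_le_iff₀ hk0, hk]
    linarith
  set a : ι → ℝ := fun i => 1 / k ^ 2 * m i with ha
  set b : ι → ℝ := fun i => 1 / k ^ 2 * (m i + 1) with hb
  have hab : a ≤ b := fun i => mul_le_mul_of_nonneg_left (by linarith) hε.le
  have hvol : volume.real (Set.Icc a b) = (1 / k ^ 2) ^ Fintype.card ι := by
    rw [Measure.real, Real.volume_Icc_pi_toReal hab, ← card_univ, ← prod_const]
    exact prod_congr rfl fun i _ => by simp only [ha, hb]; ring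
  obtain ⟨s, hs, hsv⟩ : ∃ s ∈ Set.Icc a b, v ≤ vl (sec K' s) := by
    by_contra hcon
    push Not at hcon
    have h2 : ∫ s in Set.Icc a b, vl (sec K' s) ≤ ∫ _s in Set.Icc a b, v :=
      setIntegral_mono_on (vl_inter_eq_integral hK'.1 MeasurableSet.univ).2.integrableOn
        (integrableOn_const isCompact_Icc.measure_lt_top.ne) measurableSet_Icc
        fun s hs => (hcon s hs).le
    rw [setIntegral_const, hvol, ← hbox, smul_eq_mul] at h2
    have h3 := mul_le_mul_of_nonneg_right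
      ((mul_le_mul_of_nonneg_left h1 hc.le).trans (hΓ m hm2)) hV'.le
    have h4 : 0 < (1 / k ^ 2) ^ Fintype.card ι * v := by positivity
    have h5 : c * ((1 / k ^ 2) ^ Fintype.card ι * (Real.exp (-4) * ∏ i, phi (t i))) * vl K' =
        2 * ((1 / k ^ 2) ^ Fintype.card ι * v) := by rw [hv]; ring
    linarith
  refine ⟨s, hsv, fun i => ?_⟩
  have h2 := Int.floor_le (t i * k ^ 2)
  have h3 := Int.lt_floor_add_one (t i * k ^ 2)
  have h4 : t i = 1 / k ^ 2 * (t i * k ^ 2) := by field_simp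
  split_ifs with hσ
  · refine le_trans ?_ (hs.1 i)
    rw [h4]
    refine mul_le_mul_of_nonneg_left ?_ hε.le
    simp only [hm, hσ, if_true]
    push_cast
    linarith
  · refine (hs.2 i).trans ?_
    rw [h4]
    refine mul_le_mul_of_nonneg_left ?_ hε.le
    simp only [hm, hσ]
    push_cast
    linarith

end Crest.Agent.R225
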