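import Crest.Agent.R225.UDefs

/-! Asymptotics for the upper bound. -/

set_option autoImplicit false
open MeasureTheory Finset Classical Filter
open scoped Pointwise ENNReal

noncomputable section
namespace Crest.Agent.R225

theorem upar_core (C₀ : ℝ) (N₀ n k : ℕ) (hL : 11 ≤ Real.log n) (hn : 200 ≤ n) (hN : 2 * N₀ ≤ n)
    (hk : (|C₀| + 1) * ((k : ℝ) + 1) ^ 5 ≤ Real.log n / 4) :
    k ≤ n ∧ N₀ ≤ n - k ∧ Real.exp (C₀ * ((k : ℝ) + 1) ^ 5) ≤ ((n - k : ℕ) : ℝ) ∧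
      (n : ℝ) / 2 ≤ ((n - k : ℕ) : ℝ) ∧
      ∃ x : ℝ, 0 ≤ x ∧
        (2 * (k : ℝ) ^ 2 + 1) ^ k * ((n ^ 2 : ℕ) : ℝ) ^ k * 2 ^ k * Real.exp (-x) ≤ 1 / 8 ∧
        Real.exp (-(16 * (n * Real.log n) / 4) + 2 ^ k * (2 * x + 2)) <
          min ((1 / (n : ℝ)) ^ (n - k) * (16 * (n * Real.log n) / 2 ^ k) / 8) (1 / 128) := by
  set L := Real.log n with hLdef
  have hn' : (200 : ℝ) ≤ n := by exact_mod_cast hn
  have hn0 : (0 : ℝ) < n := by linarith
  have hexp : Real.exp L = n := Real.exp_log hn0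
  have hk0 : (0 : ℝ) ≤ k := Nat.cast_nonneg _
  have h5 : (k : ℝ) + 1 ≤ ((k : ℝ) + 1) ^ 5 := le_self_pow₀ (by linarith) (by norm_num)
  have h5' : (0 : ℝ) ≤ ((k : ℝ) + 1) ^ 5 := by positivity
  have habs := abs_nonneg C₀
  have hk1 : (k : ℝ) + 1 ≤ L / 4 := by nlinarith
  have hLn : L ≤ n := by
    have := Real.add_one_le_exp L
    linarith
  have hkn : (k : ℝ) ≤ n / 4 := by linarith
  have hkn' : k ≤ n := by
    have : (k : ℝ) ≤ n := by linarith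
    exact_mod_cast this
  have hsub : ((n - k : ℕ) : ℝ) = n - k := by rw [Nat.cast_sub hkn']
  have hq : Real.exp (L / 4) * (3 * L) ≤ n := by
    have h1 : 3 * L ≤ Real.exp (3 * L / 4) := by
      have := Real.quadratic_le_exp_of_nonneg (x := 3 * L / 4) (by linarith)
      nlinarith
    calc Real.exp (L / 4) * (3 * L) ≤ Real.exp (L / 4) * Real.exp (3 * L / 4) := by gcongr
      _ = Real.exp L := by rw [← Real.exp_add]; congr 1; ring
      _ = n := hexp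
  have hq0 := Real.exp_pos (L / 4)
  have hq' : Real.exp (L / 4) ≤ n / 2 := by nlinarith
  have h2k : (2 : ℝ) ^ k ≤ Real.exp (L / 4) := by
    calc (2 : ℝ) ^ k ≤ Real.exp 1 ^ k := by
          gcongr
          have := Real.add_one_le_exp 1
          linarith
      _ = Real.exp k := by rw [← Real.exp_nat_mul, mul_one]
      _ ≤ Real.exp (L / 4) := Real.exp_le_exp.2 (by linarith)
  refine ⟨hkn', ?_, ?_, ?_, 5 * ((k : ℝ) + 1) * L, by positivity, ?_, ?_⟩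
  · have : (N₀ : ℝ) ≤ ((n - k : ℕ) : ℝ) := by
      have : (2 : ℝ) * N₀ ≤ n := by exact_mod_cast hN
      rw [hsub]; linarith
    exact_mod_cast this
  · rw [hsub]
    refine le_trans (Real.exp_le_exp.2 (?_ : _ ≤ L / 4)) (by linarith)
    have := le_abs_self C₀
    nlinarith
  · rw [hsub]; linarith
  · have e1 : Real.exp (5 * ((k : ℝ) + 1) * L) = (n : ℝ) ^ (5 * (k + 1)) := by
      rw [← hexp, ← Real.exp_nat_mul]; push_cast; rfl
    rw [Real.exp_neg, e1, ← div_eq_mul_inv, div_le_div_iff₀ (by positivity) (by norm_num)]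
    have a1 : 2 * (k : ℝ) ^ 2 + 1 ≤ (n : ℝ) ^ 2 := by nlinarith
    have a2 : (2 : ℝ) ≤ n := by linarith
    have a3 : (8 : ℝ) ≤ (n : ℝ) ^ 5 :=
      le_trans (by linarith) (le_self_pow₀ (by linarith) (by norm_num))
    calc (2 * (k : ℝ) ^ 2 + 1) ^ k * ((n ^ 2 : ℕ) : ℝ) ^ k * 2 ^ k * 8
        ≤ ((n : ℝ) ^ 2) ^ k * ((n : ℝ) ^ 2) ^ k * (n : ℝ) ^ k * (n : ℝ) ^ 5 := by
          push_cast
          gcongr
      _ = 1 * (n : ℝ) ^ (5 * (k + 1)) := by ring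
  · have b1 : (2 : ℝ) ^ k * (2 * (5 * ((k : ℝ) + 1) * L) + 2) ≤ n * L := by
      have c1 : 2 * (5 * ((k : ℝ) + 1) * L) + 2 ≤ 3 * L * L := by nlinarith
      calc (2 : ℝ) ^ k * (2 * (5 * ((k : ℝ) + 1) * L) + 2) ≤ Real.exp (L / 4) * (3 * L * L) := by
            gcongr
        _ = Real.exp (L / 4) * (3 * L) * L := by ring
        _ ≤ n * L := by gcongr
    have hnL : 0 < n * L := by positivity
    have b2 : Real.exp (-(16 * (n * L) / 4) + 2 ^ k * (2 * (5 * ((k : ℝ) + 1) * L) + 2)) <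
        Real.exp (-(n * L)) := Real.exp_lt_exp.2 (by linarith)
    refine b2.trans_le (le_min ?_ ?_)
    · have e1 : Real.exp (-(n * L)) = (1 / (n : ℝ)) ^ n := by
        rw [Real.exp_neg, Real.exp_nat_mul, hexp, one_div, inv_pow]
      have e2 : (1 / (n : ℝ)) ^ n ≤ (1 / (n : ℝ)) ^ (n - k) :=
        pow_le_pow_of_le_one (by positivity) (by rw [div_le_one hn0]; linarith) (Nat.sub_le _ _)
      have e3 : (8 : ℝ) ≤ 16 * (n * L) / 2 ^ k := by
        rw [le_div_iff₀ (by positivity)]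
        nlinarith
      rw [e1, mul_div_assoc]
      refine e2.trans (le_mul_of_one_le_right (by positivity) ?_)
      rw [le_div_iff₀ (by norm_num)]
      linarith
    · calc Real.exp (-(n * L)) ≤ Real.exp (-L) := Real.exp_le_exp.2 (by nlinarith)
        _ = 1 / n := by rw [Real.exp_neg, hexp, one_div]
        _ ≤ 1 / 128 := by
          rw [div_le_div_iff₀ hn0 (by norm_num)]; linarith

/-- `C₂ = 16 / (c cV)`, `V = C₂ n log n`, `H = log (2 c C₂ log n / cH)` (`≥ 1` for large `n`),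
`x = log (8 (2k²+1)^k (n²)^k 2^k) ≤ C' (k+1) log n` (`k ≤ n`).  Since `k ≤ C H² = O((log log n)²)`:
`(k+1)^5 = o(log n)`, `k ≤ n/2`, `2^k ≤ exp ((k+1)^5) ≤ √n`, `2^k (2x+2) ≤ n`; the left side of the last
inequality is `≤ exp (-4 n log n + n)`, the right side is `≥ n^{-n} / √n` or `1/128`. -/
theorem upar (c cV cH C C₀ : ℝ) (N₀ : ℕ) (hc : 0 < c) (hcV : 0 < cV) (hcH : 0 < cH) :
    ∃ C₂ : ℝ, 0 < C₂ ∧ ∃ n₀ : ℕ, 2 ≤ n₀ ∧ ∀ n : ℕ, n₀ ≤ n → ∃ H : ℝ, 1 ≤ H ∧ ∀ k : ℕ,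
      (k : ℝ) ≤ C * H ^ 2 → k ≤ n ∧ N₀ ≤ n - k ∧
        Real.exp (C₀ * ((k : ℝ) + 1) ^ 5) ≤ ((n - k : ℕ) : ℝ) ∧
        c * Real.exp (-H) * (C₂ * n * Real.log n) ≤ cH * ((n - k : ℕ) : ℝ) ∧
        ∃ x : ℝ, 0 ≤ x ∧
          (2 * (k : ℝ) ^ 2 + 1) ^ k * ((n ^ 2 : ℕ) : ℝ) ^ k * 2 ^ k * Real.exp (-x) ≤ 1 / 8 ∧
          Real.exp (-(c * cV * (C₂ * n * Real.log n) / 4) + 2 ^ k * (2 * x + 2)) <
            min ((1 / (n : ℝ)) ^ (n - k) * (c * cV * (C₂ * n * Real.log n) / 2 ^ k) / 8) (1 / 128) := by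
  set C₂ : ℝ := 16 / (c * cV) with hC₂
  have hC₂0 : 0 < C₂ := by positivity
  set D : ℝ := 2 * c * C₂ / cH with hD
  have hD0 : 0 < D := by positivity
  set B : ℝ := (|C₀| + 1) * (|C| + 1) ^ 5 with hB
  have hB0 : 0 < B := by positivity
  have hlog : Tendsto (fun n : ℕ => Real.log n) atTop atTop :=
    Real.tendsto_log_atTop.comp tendsto_natCast_atTop_atTop
  have hy : Tendsto (fun n : ℕ => D * Real.log n) atTop atTop := hlog.const_mul_atTop hD0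
  have e1 : ∀ᶠ n : ℕ in atTop, 11 ≤ Real.log n := hlog.eventually_ge_atTop 11
  have e2 : ∀ᶠ n : ℕ in atTop, 1 ≤ Real.log (D * Real.log n) :=
    (Real.tendsto_log_atTop.comp hy).eventually_ge_atTop 1
  have e3 : ∀ᶠ n : ℕ in atTop, ‖Real.log (D * Real.log n) ^ 10‖ ≤
      1 / (4 * D * B) * ‖id (D * Real.log n)‖ :=
    hy.eventually ((Real.isLittleO_pow_log_id_atTop (n := 10)).bound (by positivity))
  obtain ⟨n₁, hn₁⟩ := eventually_atTop.1 (e1.and (e2.and e3))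
  refine ⟨C₂, hC₂0, max n₁ (max 200 (2 * N₀)), by omega, fun n hn => ?_⟩
  obtain ⟨h1, h2, h3⟩ := hn₁ n (by omega)
  set L := Real.log n with hL
  set H := Real.log (D * L) with hH
  have hL0 : 0 < L := by linarith
  refine ⟨H, h2, fun k hk => ?_⟩
  have hk5 : (|C₀| + 1) * ((k : ℝ) + 1) ^ 5 ≤ L / 4 := by
    have a1 : (k : ℝ) + 1 ≤ (|C| + 1) * H ^ 2 := by
      have := le_abs_self C
      have : 1 ≤ H ^ 2 := one_le_pow₀ h2
      nlinarith
    have a2 : H ^ 10 ≤ L / (4 * B) := by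
      rw [Real.norm_eq_abs, Real.norm_eq_abs, id, abs_of_pos (mul_pos hD0 hL0)] at h3
      refine (le_abs_self _).trans (h3.trans (le_of_eq ?_))
      field_simp
    calc (|C₀| + 1) * ((k : ℝ) + 1) ^ 5 ≤ (|C₀| + 1) * ((|C| + 1) * H ^ 2) ^ 5 := by gcongr
      _ = B * H ^ 10 := by rw [hB]; ring
      _ ≤ B * (L / (4 * B)) := by gcongr
      _ = L / 4 := by field_simp
  obtain ⟨r1, r2, r3, r4, x, r5, r6, r7⟩ :=
    upar_core C₀ N₀ n k h1 (by omega) (by omega) hk5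
  have e16 : c * cV * (C₂ * n * L) = 16 * (n * L) := by
    rw [hC₂]; field_simp
  refine ⟨r1, r2, r3, ?_, x, r5, r6, ?_⟩
  · have : c * Real.exp (-H) * (C₂ * n * L) = cH * (n / 2) := by
      rw [Real.exp_neg, hH, Real.exp_log (mul_pos hD0 hL0), hD]
      field_simp
    rw [this]
    gcongr
  · rw [e16]
    exact r7

end Crest.Agent.R225
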