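import Crest.Agent.R225.UVLevel

/-! The vertical lattice. -/

set_option autoImplicit false
open MeasureTheory Finset Classical

noncomputable section
namespace Crest.Agent.R225

theorem Inv.mono {ι G' Gt : Type} [Fintype ι] [AddCommGroup G'] [Fintype G'] [AddCommGroup Gt]
    [Fintype Gt] {β : ι → ℝ} {π : (ι → ℤ) →+ G' × Gt} {Y : Gt → ℝ} {P P' : ℕ} {T T' τ τ' : ℝ}
    (h : Inv β π Y P T τ) (hP : P ≤ P') (hT : T ≤ T') (hτ : τ ≤ τ') : Inv β π Y P' T' τ' := by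
  refine ⟨h.1, fun g' g => ?_⟩
  obtain ⟨S, hS, h1, h2⟩ := h.2 g' g
  refine ⟨S, hS, fun z hz => ⟨(h1 z hz).1, fun i => ⟨?_, ((h1 z hz).2.1 i).2.trans hT⟩,
    (h1 z hz).2.2.trans hτ⟩, h2⟩
  exact ((h1 z hz).2.1 i).1.trans (by exact_mod_cast hP)

theorem Level.mono {κ Gt Gn : Type} [Fintype κ] [AddCommGroup Gt] [AddCommGroup Gn] [Fintype Gn]
    {Y : Gt → ℝ} {b : ℝ} {ρ : (κ → ℤ) →+ Gn} {ψ : κ → Gt} {Yn : Gn → ℝ} {P P' : ℕ} {T T' τ τ' : ℝ}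
    (h : Level Y b ρ ψ Yn P T τ) (hP : P ≤ P') (hT : T ≤ T') (hτ : τ ≤ τ') :
    Level Y b ρ ψ Yn P' T' τ' := by
  refine ⟨h.1, h.2.1, fun gn => ?_⟩
  obtain ⟨S, hS, h1, h2⟩ := h.2.2 gn
  refine ⟨S, hS, fun z hz => ⟨(h1 z hz).1, fun i => ⟨?_, ((h1 z hz).2.1 i).2.trans hT⟩,
    (h1 z hz).2.2.trans hτ⟩, h2⟩
  exact ((h1 z hz).2.1 i).1.trans (by exact_mod_cast hP)

theorem SepBy.mono_vert {G : Type} [AddCommGroup G] {D D' : ℕ} (h : SepBy G D) (hD : D' ≤ D) :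
    SepBy G D' := fun d hd hdD g hg => h d hd (hdD.trans (by exact_mod_cast hD)) g hg

theorem omg_nonneg_vert {ι : Type} [Fintype ι] {β : ι → ℝ} (hβ : ∀ i, 0 < β i) (z : ι → ℤ) :
    0 ≤ omg β z :=
  prod_nonneg fun i _ => mul_nonneg (hβ i).le (phi_pos _).le

theorem omg_elim_vert {ι κ : Type} [Fintype ι] [Fintype κ] (β : ι → ℝ) (b : ℝ) (z : ι → ℤ)
    (x : κ → ℤ) : omg (Sum.elim β fun _ => b) (Sum.elim z x) = omg β z * omg (fun _ => b) x := by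
  unfold omg
  rw [Fintype.prod_sum_type]
  rfl

theorem lin_add_vert {ι G : Type} [Fintype ι] [AddCommGroup G] (ψ : ι → G) (z z' : ι → ℤ) :
    lin ψ (z + z') = lin ψ z + lin ψ z' := by
  unfold lin
  simp only [Pi.add_apply, add_smul, sum_add_distrib]

/-- the homomorphism of the extended system -/
def stepHom {ι κ G' Gt Gn : Type} [Fintype κ] [AddCommGroup G'] [AddCommGroup Gt] [AddCommGroup Gn]
    (π : (ι → ℤ) →+ G' × Gt) (ρ : (κ → ℤ) →+ Gn) (ψ : κ → Gt) : (ι ⊕ κ → ℤ) →+ (G' × Gt) × Gn :=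
  AddMonoidHom.mk' (fun v => (((π fun i => v (Sum.inl i)).1,
    (π fun i => v (Sum.inl i)).2 - lin ψ fun i => v (Sum.inr i)), ρ fun i => v (Sum.inr i)))
    fun v w => by
      have h1 : (fun i => (v + w) (Sum.inl i)) =
          (fun i => v (Sum.inl i)) + fun i => w (Sum.inl i) := rfl
      have h2 : (fun i => (v + w) (Sum.inr i)) =
          (fun i => v (Sum.inr i)) + fun i => w (Sum.inr i) := rfl
      rw [h1, h2, map_add, map_add, lin_add_vert]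
      refine Prod.ext (Prod.ext rfl ?_) rfl
      simp only [Prod.snd_add, Prod.fst_add]
      abel

theorem stepHom_elim {ι κ G' Gt Gn : Type} [Fintype κ] [AddCommGroup G'] [AddCommGroup Gt]
    [AddCommGroup Gn] (π : (ι → ℤ) →+ G' × Gt) (ρ : (κ → ℤ) →+ Gn) (ψ : κ → Gt) (z : ι → ℤ)
    (x : κ → ℤ) : stepHom π ρ ψ (Sum.elim z x) = (((π z).1, (π z).2 - lin ψ x), ρ x) := rfl

/-- `π' v = (((π (v ∘ inl)).1, (π (v ∘ inl)).2 - lin ψ (v ∘ inr)), ρ (v ∘ inr))`; for the target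
`((g', g), gn)` take `⋃_{x ∈ Cb gn} {Sum.elim z x | z ∈ S (g', g + lin ψ x)}` (`isTree_biUnion`);
`omg (Sum.elim β fun _ => b) (Sum.elim z x) = omg β z * omg (fun _ => b) x`. -/
theorem inv_step {ι κ G' Gt Gn : Type} [Fintype ι] [Fintype κ] [AddCommGroup G'] [Fintype G']
    [AddCommGroup Gt] [Fintype Gt] [AddCommGroup Gn] [Fintype Gn] {β : ι → ℝ}
    {π : (ι → ℤ) →+ G' × Gt} {Y : Gt → ℝ} {P : ℕ} {T τ τ' b : ℝ} {ρ : (κ → ℤ) →+ Gn} {ψ : κ → Gt}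
    {Yn : Gn → ℝ} (h : Inv β π Y P T τ) (hL : Level Y b ρ ψ Yn P T τ') :
    ∃ π' : (ι ⊕ κ → ℤ) →+ (G' × Gt) × Gn, Inv (Sum.elim β fun _ => b) π' Yn P T (τ * τ') := by
  obtain ⟨hβ, h⟩ := h
  obtain ⟨hb0, hb1, hL⟩ := hL
  choose S hS hSz hSY using h
  refine ⟨stepHom π ρ ψ, ?_, ?_⟩
  · rintro (i | i)
    · exact hβ i
    · exact ⟨hb0, hb1⟩
  rintro ⟨g', g⟩ gn
  obtain ⟨Cb, hCb, hCx, hCY⟩ := hL gn
  have o1 : ∀ z, 0 ≤ omg β z := omg_nonneg_vert fun i => (hβ i).1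
  have o2 : ∀ x : κ → ℤ, 0 ≤ omg (fun _ => b) x := omg_nonneg_vert fun _ => hb0
  refine ⟨_, isTree_biUnion hCb (fun x => S g' (g + lin ψ x)) fun x _ => hS _ _, ?_, ?_⟩
  · intro v hv
    obtain ⟨x, hx, hv⟩ := mem_biUnion.1 hv
    obtain ⟨z, hz, rfl⟩ := mem_image.1 hv
    obtain ⟨a1, a2, a3⟩ := hSz _ _ z hz
    obtain ⟨b1, b2, b3⟩ := hCx x hx
    refine ⟨?_, ?_, ?_⟩
    · rw [stepHom_elim, a1, b1]
      simp
    · rintro (i | i)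
      · exact a2 i
      · exact b2 i
    · rw [omg_elim_vert, Fintype.card_prod]
      push_cast
      calc _ = ((Fintype.card G' : ℝ) * Fintype.card Gt * omg β z) *
            ((Fintype.card Gn : ℝ) * omg (fun _ => b) x) := by ring
        _ ≤ τ * τ' := mul_le_mul a3 b3 (mul_nonneg (Nat.cast_nonneg _) (o2 x))
            ((mul_nonneg (by positivity) (o1 z)).trans a3)
  · rw [sum_biUnion]
    · refine (hCY g).trans ?_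
      rw [Fintype.card_prod]
      push_cast
      rw [mul_sum, mul_sum]
      refine sum_le_sum fun x _ => ?_
      rw [sum_image fun z _ z' _ hzz => funext fun i => congrFun hzz (Sum.inl i)]
      simp only [omg_elim_vert]
      rw [← sum_mul]
      calc _ ≤ (Fintype.card Gn : ℝ) * (omg (fun _ => b) x *
            ((Fintype.card G' : ℝ) * Fintype.card Gt * ∑ z ∈ S g' (g + lin ψ x), omg β z)) :=
            mul_le_mul_of_nonneg_left (mul_le_mul_of_nonneg_left (hSY _ _) (o2 x))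
              (Nat.cast_nonneg _)
        _ = _ := by ring
    · intro x _ x' _ hxx
      refine disjoint_left.2 fun v hv hv' => hxx ?_
      obtain ⟨z, _, rfl⟩ := mem_image.1 hv
      obtain ⟨z', _, hz'⟩ := mem_image.1 hv'
      exact funext fun i => (congrFun hz' (Sum.inr i)).symm

/-- the claim proved by induction over the levels -/
def VertQ (j₀ k₁ : ℕ) (cV : ℝ) (j : ℕ) : Prop :=
  ∀ (ι G' Gt : Type) [Fintype ι] [AddCommGroup G'] [Fintype G'] [AddCommGroup Gt] [Fintype Gt]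
    (β : ι → ℝ) (π : (ι → ℤ) →+ G' × Gt) (Y : Gt → ℝ) (P : ℕ) (T τ : ℝ), Inv β π Y P T τ →
    2 * (2 ^ j) ^ 25 ≤ P → (2 : ℝ) ^ j ≤ T → SepBy Gt ((2 ^ j) ^ 25) →
    Real.log (Fintype.card Gt) ≤ ((2 : ℝ) ^ j) ^ 24 →
    (∀ g, 0 ≤ Y g ∧ Y g ≤ Real.exp (3 * ((2 : ℝ) ^ j) ^ 13)) →
    1 / 2 + 20 * (2 / (2 : ℝ) ^ j₀ - 2 / (2 : ℝ) ^ j) ≤ av Y →
    ∃ (ι' : Type) (_ : Fintype ι') (β' : ι' → ℝ) (G'' : Type) (_ : AddCommGroup G'')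
      (_ : Fintype G'') (π' : (ι' → ℤ) →+ G'' × Unit), Inv β' π' (fun _ => cV) P T τ ∧
      Fintype.card ι ≤ Fintype.card ι' ∧ Fintype.card ι' ≤ Fintype.card ι + (2 ^ j) ^ 22 + k₁

theorem vertQ_base {j₀ : ℕ} (hj : 1 ≤ j₀) : ∃ k₁, VertQ j₀ k₁ ((2 * phi 1) ^ k₁ / 4) j₀ := by
  obtain ⟨k, hk⟩ := top_level (Real.exp (3 * ((2 : ℝ) ^ j₀) ^ 13)) (((2 : ℝ) ^ j₀) ^ 24)
  refine ⟨k, fun ι G' Gt _ _ _ _ _ β π Y P T τ hI hP hT hS hL hY hav => ?_⟩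
  have h2 : 2 ≤ 2 ^ j₀ := Nat.le_self_pow (by omega) 2
  have h2' : (2 : ℝ) ≤ 2 ^ j₀ := by exact_mod_cast h2
  have h3 : 2 ^ j₀ ≤ (2 ^ j₀) ^ 25 := Nat.le_self_pow (by omega) _
  obtain ⟨ψ, hψ⟩ := hk Gt (hS.mono_vert (h2.trans h3)) hL Y hY (by simpa using hav)
  obtain ⟨π', hπ'⟩ := inv_step hI (hψ.mono (P' := P) (by omega) (h2'.trans hT) le_rfl)
  rw [mul_one] at hπ'
  refine ⟨_, _, _, _, _, _, π', hπ', ?_, ?_⟩
  · simp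
  · simp only [Fintype.card_sum, Fintype.card_fin]
    omega

theorem vertQ_step {A₀ j₀ k₁ j : ℕ} {cV : ℝ} (hA : ∀ a : ℕ, A₀ ≤ a → ∀ (Gt : Type)
    [AddCommGroup Gt] [Fintype Gt],
    SepBy Gt (4 * a ^ 25) → Real.log (Fintype.card Gt) ≤ (2 * a : ℝ) ^ 24 →
    ∀ (Y : Gt → ℝ) (μ : ℝ), (∀ g, 0 ≤ Y g ∧ Y g ≤ Real.exp (3 * (2 * a : ℝ) ^ 13)) → 1 / 2 ≤ μ →
      μ ≤ 1 → μ ≤ av Y →
      ∃ (Gn : Type) (_ : AddCommGroup Gn) (_ : Fintype Gn) (b : ℝ) (ρ : (Fin (a ^ 22) → ℤ) →+ Gn)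
        (ψ : Fin (a ^ 22) → Gt) (Yn : Gn → ℝ),
        Level Y b ρ ψ Yn (2 * a ^ 25) a (Real.exp (-((a : ℝ) ^ 15 / 10))) ∧ SepBy Gn (a ^ 25) ∧
        Real.log (Fintype.card Gn) ≤ (a : ℝ) ^ 24 ∧
        (∀ g, 0 ≤ Yn g ∧ Yn g ≤ Real.exp (3 * (a : ℝ) ^ 13)) ∧ μ - 20 / a ≤ av Yn)
    (hj₀ : 7 ≤ j₀) (hA₀ : A₀ ≤ 2 ^ j₀) (hj : j₀ ≤ j) (hQ : VertQ j₀ k₁ cV j) :
    VertQ j₀ k₁ cV (j + 1) := by
  intro ι G' Gt _ _ _ _ _ β π Y P T τ hI hP hT hS hL hY hav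
  have e1 : (2 : ℝ) ^ (j + 1) = 2 * ((2 ^ j : ℕ) : ℝ) := by push_cast; ring
  have e2 : ((2 ^ j : ℕ) : ℝ) = 2 ^ j := by push_cast; rfl
  have e3 : (2 ^ (j + 1)) ^ 25 = 2 ^ 25 * (2 ^ j) ^ 25 := by rw [pow_succ' 2 j, mul_pow]
  have e4 : (2 ^ (j + 1)) ^ 22 = 2 ^ 22 * (2 ^ j) ^ 22 := by rw [pow_succ' 2 j, mul_pow]
  have p0 : (0 : ℝ) < 2 ^ j₀ := by positivity
  have p1 : (0 : ℝ) < 2 ^ j := by positivity
  have p2 : (2 : ℝ) ^ j₀ ≤ 2 ^ j := pow_le_pow_right₀ one_le_two hj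
  have p3 : (2 : ℝ) ^ 7 ≤ 2 ^ j₀ := pow_le_pow_right₀ one_le_two hj₀
  have q1 : 1 / (2 : ℝ) ^ j ≤ 1 / 2 ^ j₀ := one_div_le_one_div_of_le p0 p2
  have q2 : 1 / (2 : ℝ) ^ j₀ ≤ 1 / 128 :=
    (one_div_le_one_div_of_le (by positivity) p3).trans (by norm_num)
  have q3 : 0 < 1 / (2 : ℝ) ^ j := by positivity
  have q4 : 2 / (2 : ℝ) ^ j₀ = 2 * (1 / 2 ^ j₀) := by ring
  have q5 : 2 / (2 : ℝ) ^ (j + 1) = 1 / 2 ^ j := by rw [pow_succ]; field_simp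
  have q6 : 2 / (2 : ℝ) ^ j = 2 * (1 / 2 ^ j) := by ring
  have q7 : 20 / (2 : ℝ) ^ j = 20 * (1 / 2 ^ j) := by ring
  rw [e1] at hL hY
  obtain ⟨Gn, _, _, b, ρ, ψ, Yn, hLv, hSn, hLn, hYn, havn⟩ := hA (2 ^ j)
    (hA₀.trans (Nat.pow_le_pow_right two_pos hj)) Gt (hS.mono_vert (by rw [e3]; omega)) hL Y _ hY
    (by rw [q4, q5]; linarith) (by rw [q4, q5]; linarith) hav
  have hT' : (2 : ℝ) ^ j ≤ T := by
    refine le_trans ?_ hT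
    rw [pow_succ]; linarith
  have hP' : 2 * (2 ^ j) ^ 25 ≤ P := by rw [e3] at hP; omega
  obtain ⟨π', hπ'⟩ := inv_step hI (hLv.mono (τ' := 1) hP' (e2 ▸ hT')
    (Real.exp_le_one_iff.2 (neg_nonpos.2 (by positivity))))
  rw [mul_one] at hπ'
  rw [e2] at hLn hYn havn
  obtain ⟨ι', _, β', G'', _, _, π'', h1, h2, h3⟩ := hQ _ _ _ _ π' Yn P T τ hπ' hP' hT' hSn hLn hYn
    (by rw [q5, q7] at havn; rw [q6]; linarith)
  refine ⟨ι', _, β', G'', _, _, π'', h1, ?_, ?_⟩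
  · simp only [Fintype.card_sum, Fintype.card_fin] at h2
    omega
  · simp only [Fintype.card_sum, Fintype.card_fin] at h3
    rw [e4]
    omega

theorem inv_triv (P : ℕ) (T : ℝ) :
    Inv (ι := Empty) (G' := Unit) (Gt := Unit) (fun _ => 1) 0 (fun _ => 1) P T 1 := by
  refine ⟨fun i => i.elim, fun g' g => ⟨{0}, IsTree.single _, fun z _ => ⟨rfl, fun i => i.elim, ?_⟩,
    ?_⟩⟩
  · simp [omg]
  · simp [omg]

/-- Fix `j₀ ≥ 7` with `2^j₀ ≥ A₀` (`level`), `k₁` from `top_level (exp (3 (2^j₀)^13)) ((2^j₀)^24)`,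
`cV = (2 phi 1)^k₁ / 4`.  Claim `Q j` for `j ≥ j₀` (induction on `j`): every system `Inv β π Y P T τ`
with `2 (2^j)^25 ≤ P`, `2^j ≤ T`, `0 ≤ τ`, `SepBy Gt ((2^j)^25)`, `log |Gt| ≤ (2^j)^24`,
`0 ≤ Y ≤ exp (3 (2^j)^13)`, `av Y ≥ 1/2 + 20 (2/2^j₀ - 2/2^j)` extends to a system with `Gt = Unit`,
`Y = cV`, the same `P, T, τ` and `|ι| ≤ |ι'| ≤ |ι| + (2^j)^22 + k₁`.  `Q j₀` is `top_level`;
`Q (j+1)` follows from `level` with `a = 2^j`, `μ = 1/2 + 20 (2/2^j₀ - 1/2^j)`, `inv_step` and `Q j`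
(`Level` and `SepBy` are monotone in their bounds).  Start: the trivial system (`ι = Empty`,
`G' = Gt = Unit`, `Y = 1`, `τ = 1`, tree `{0}`) with one level `a = 2^J`, `J ≥ j₀` minimal with
`a^15 / 10 ≥ H`; `P = 2 a^25 ≤ |ι|²`, `T = a ≤ |ι|` as `|ι| ≥ a^22`;
`|ι| ≤ 2 a^22 + k₁ ≤ C H²`. -/
theorem vertical : ∃ cV : ℝ, 0 < cV ∧ ∃ C : ℝ, ∀ H : ℝ, 1 ≤ H →
    ∃ (ι : Type) (_ : Fintype ι) (β : ι → ℝ) (G : Type) (_ : AddCommGroup G) (_ : Fintype G)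
      (π : (ι → ℤ) →+ G), (Fintype.card ι : ℝ) ≤ C * H ^ 2 ∧ (∀ i, 0 < β i ∧ β i ≤ 1) ∧
      ∀ g, ∃ S : Finset (ι → ℤ), IsTree S ∧
        (∀ z ∈ S, π z = g ∧ (∀ i, |z i| ≤ ((Fintype.card ι ^ 2 : ℕ) : ℤ) ∧
          β i * (|(z i : ℝ)| + 1) ≤ Fintype.card ι) ∧
          (Fintype.card G : ℝ) * omg β z ≤ Real.exp (-H)) ∧
        cV ≤ (Fintype.card G : ℝ) * ∑ z ∈ S, omg β z := by
  obtain ⟨A₀, hA⟩ := level
  obtain ⟨j₀, hj₀, hA₀⟩ : ∃ j₀, 7 ≤ j₀ ∧ A₀ ≤ 2 ^ j₀ :=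
    ⟨A₀ + 7, by omega, (Nat.le_add_right _ _).trans Nat.lt_two_pow_self.le⟩
  obtain ⟨k₁, hQ₀⟩ := vertQ_base (j₀ := j₀) (by omega)
  have hQ : ∀ j, j₀ ≤ j → VertQ j₀ k₁ ((2 * phi 1) ^ k₁ / 4) j := fun j hj =>
    Nat.le_induction hQ₀ (fun j hj h => vertQ_step hA hj₀ hA₀ hj h) j hj
  set C₀ : ℝ := ((2 : ℝ) ^ j₀) ^ 15 + 10 * 2 ^ 15 with hC₀
  refine ⟨(2 * phi 1) ^ k₁ / 4, by have := phi_pos 1; positivity, 2 * C₀ ^ 2 + k₁, fun H hH => ?_⟩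
  obtain ⟨J, hJ, hJ1, hJ2⟩ : ∃ J, j₀ ≤ J ∧ H ≤ ((2 : ℝ) ^ J) ^ 15 / 10 ∧
      ((2 : ℝ) ^ J) ^ 15 ≤ C₀ * H := by
    have hex : ∃ n, H ≤ ((2 : ℝ) ^ (j₀ + n)) ^ 15 / 10 := by
      obtain ⟨n, hn⟩ := pow_unbounded_of_one_lt (10 * H) (one_lt_two (α := ℝ))
      refine ⟨n, ?_⟩
      have h1 : (2 : ℝ) ^ n ≤ 2 ^ (j₀ + n) := pow_le_pow_right₀ one_le_two (by omega)
      have h2 : (2 : ℝ) ^ (j₀ + n) ≤ (2 ^ (j₀ + n)) ^ 15 :=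
        le_self_pow₀ (one_le_pow₀ one_le_two) (by omega)
      linarith
    refine ⟨j₀ + Nat.find hex, by omega, Nat.find_spec hex, ?_⟩
    have c1 : (0 : ℝ) ≤ ((2 : ℝ) ^ j₀) ^ 15 := by positivity
    rcases h : Nat.find hex with _ | n
    · rw [add_zero, hC₀]
      nlinarith
    · have h1 := Nat.find_min hex (m := n) (by omega)
      rw [not_le] at h1
      have h2 : ((2 : ℝ) ^ (j₀ + (n + 1))) ^ 15 = 2 ^ 15 * (2 ^ (j₀ + n)) ^ 15 := by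
        rw [← add_assoc, pow_succ' 2 (j₀ + n), mul_pow]
      rw [h2, hC₀]
      nlinarith
  have e2 : ((2 ^ J : ℕ) : ℝ) = 2 ^ J := by push_cast; rfl
  obtain ⟨Gn, _, _, b, ρ, ψ, Yn, hLv, hSn, hLn, hYn, havn⟩ := hA (2 ^ J)
    (hA₀.trans (Nat.pow_le_pow_right two_pos hJ)) Unit (fun _ _ _ _ _ => rfl)
    (by simp only [Fintype.card_unique, Nat.cast_one, Real.log_one]; positivity) (fun _ => 1) 1
    (fun _ => ⟨zero_le_one, Real.one_le_exp (by positivity)⟩) (by norm_num) le_rfl (by simp [av])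
  obtain ⟨π', hπ'⟩ := inv_step (inv_triv _ _) hLv
  rw [one_mul] at hπ'
  rw [e2] at hLn hYn havn hπ'
  have p1 : (0 : ℝ) < 2 ^ J := by positivity
  have p3 : (2 : ℝ) ^ 7 ≤ 2 ^ j₀ := pow_le_pow_right₀ one_le_two hj₀
  have q2 : 1 / (2 : ℝ) ^ j₀ ≤ 1 / 128 :=
    (one_div_le_one_div_of_le (by positivity) p3).trans (by norm_num)
  have q3 : 0 < 1 / (2 : ℝ) ^ J := by positivity
  have q4 : 2 / (2 : ℝ) ^ j₀ = 2 * (1 / 2 ^ j₀) := by ring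
  have q6 : 2 / (2 : ℝ) ^ J = 2 * (1 / 2 ^ J) := by ring
  have q7 : 20 / (2 : ℝ) ^ J = 20 * (1 / 2 ^ J) := by ring
  obtain ⟨ι', _, β', G'', _, _, π'', h1, h2, h3⟩ := hQ J hJ _ _ _ _ π' Yn _ _ _ hπ' le_rfl le_rfl
    hSn hLn hYn (by rw [q7] at havn; rw [q4, q6]; linarith)
  simp only [Fintype.card_sum, Fintype.card_fin, Fintype.card_empty, zero_add] at h2 h3
  have a1 : 2 ≤ 2 ^ J := Nat.le_self_pow (by omega) 2
  have a2 : 2 * (2 ^ J) ^ 25 ≤ Fintype.card ι' ^ 2 :=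
    calc 2 * (2 ^ J) ^ 25 ≤ (2 ^ J) ^ 19 * (2 ^ J) ^ 25 :=
          Nat.mul_le_mul_right _ (a1.trans (Nat.le_self_pow (by omega) _))
      _ = ((2 ^ J) ^ 22) ^ 2 := by ring
      _ ≤ _ := Nat.pow_le_pow_left h2 2
  have a3 : (2 : ℝ) ^ J ≤ Fintype.card ι' := by
    rw [← e2]
    exact_mod_cast (Nat.le_self_pow (by omega) _).trans h2
  have h4 := h1.mono a2 a3 (Real.exp_le_exp.2 (neg_le_neg hJ1))
  refine ⟨ι', inferInstance, β', G'' × Unit, inferInstance, inferInstance, π'', ?_, h4.1, fun g => ?_⟩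
  · have b1 : (Fintype.card ι' : ℝ) ≤ 2 * ((2 : ℝ) ^ J) ^ 22 + k₁ := by
      have : Fintype.card ι' ≤ 2 * (2 ^ J) ^ 22 + k₁ := by omega
      exact_mod_cast this
    have b2 : ((2 : ℝ) ^ J) ^ 22 ≤ (((2 : ℝ) ^ J) ^ 15) ^ 2 := by
      rw [← pow_mul ((2 : ℝ) ^ J)]
      exact pow_le_pow_right₀ (one_le_pow₀ one_le_two) (by omega)
    have b3 : (((2 : ℝ) ^ J) ^ 15) ^ 2 ≤ (C₀ * H) ^ 2 := pow_le_pow_left₀ (by positivity) hJ2 2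
    have b4 : (k₁ : ℝ) ≤ k₁ * H ^ 2 := le_mul_of_one_le_right (Nat.cast_nonneg _) (one_le_pow₀ hH)
    rw [mul_pow] at b3
    linarith
  · obtain ⟨S, hS, h5, h6⟩ := h4.2 g.1 g.2
    refine ⟨S, hS, fun z hz => ?_, ?_⟩
    · rw [Fintype.card_prod, Nat.cast_mul]
      exact h5 z hz
    · rw [Fintype.card_prod, Nat.cast_mul]
      exact h6

end Crest.Agent.R225
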