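import Crest.Agent.R225.UAssemble
import Crest.Agent.R225.UParam
import Crest.Agent.R225.UMarg
import Crest.Agent.R225.UVert

/-! The upper bound. -/

set_option autoImplicit false
open MeasureTheory Finset Classical Filter
open scoped Pointwise ENNReal

noncomputable section
namespace Crest.Agent.R225

theorem upper_main :
    ∃ C : ℝ, ∀ (n : ℕ), 2 ≤ n → ∀ (K : Set (Fin n → ℝ)),
      IsCompact K → Convex ℝ K → (interior K).Nonempty →
        ∃ g : Matrix (Fin n) (Fin n) ℝ, g.det ≠ 0 ∧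
          (∀ x : Fin n → ℝ, ∃ z : Fin n → ℤ, x - g.mulVec (fun i => (z i : ℝ)) ∈ K) ∧
          (volume K).toReal / |g.det| ≤ C * n * Real.log n := by
  obtain ⟨cV, hcV, CV, hvert⟩ := vertical
  obtain ⟨c, C₀, hc, hmarg⟩ := marginal
  obtain ⟨cH, hcH, N₀, hass⟩ := assemble
  obtain ⟨C₂, hC₂, n₀, hn₀, hpar⟩ := upar c cV cH CV C₀ N₀ hc hcV hcH
  refine ⟨max (Real.exp 3 * C₂) ((2 * n₀ : ℝ) ^ n₀), ?_⟩
  intro n hn K h1 h2 h3
  have hK : Body K := ⟨h1, h2, h3⟩
  have hn2 : (2 : ℝ) ≤ n := by exact_mod_cast hn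
  have hlog : 1 ≤ (n : ℝ) * Real.log n := by
    have h : Real.log 2 ≤ Real.log n := Real.log_le_log (by norm_num) hn2
    have := Real.log_two_gt_d9
    nlinarith
  suffices h : LatCov K (max (Real.exp 3 * C₂) ((2 * n₀ : ℝ) ^ n₀) * n * Real.log n) from h
  have hmono : ∀ d d' : ℝ, LatCov K d → d ≤ d' → LatCov K d' := by
    rintro d d' ⟨g, hg1, hg2, hg3⟩ hd
    exact ⟨g, hg1, hg2, hg3.trans hd⟩
  rcases lt_or_ge n n₀ with hlt | hge
  · refine hmono _ _ (latCov_small hK (by simp; omega)) ?_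
    rw [Fintype.card_fin, mul_assoc]
    have hlt' : (n : ℝ) ≤ n₀ := by exact_mod_cast hlt.le
    have e1 : (2 * n : ℝ) ^ n ≤ (2 * n₀ : ℝ) ^ n₀ :=
      (pow_le_pow_left₀ (by positivity) (by linarith) n).trans
        (pow_le_pow_right₀ (by linarith) hlt.le)
    have e2 : (2 * n₀ : ℝ) ^ n₀ ≤ max (Real.exp 3 * C₂) ((2 * n₀ : ℝ) ^ n₀) := le_max_right _ _
    have e3 : (0 : ℝ) ≤ (2 * n₀ : ℝ) ^ n₀ := by positivity
    nlinarith
  · obtain ⟨H, hH, hk⟩ := hpar n hge
    obtain ⟨ι, _, β, G, _, _, π, hcard, hβ, htree⟩ := hvert H hH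
    obtain ⟨hkn, hN₀, hexp, hcHN, x, hx, hx1, hx2⟩ := hk (Fintype.card ι) hcard
    set N := n - Fintype.card ι with hN
    have hsum : N + Fintype.card ι = n := by omega
    let e : Fin N ⊕ ι ≃ Fin n := Fintype.equivFinOfCardEq (by simp [hsum])
    obtain ⟨hK', hre⟩ := latCov_reindex e hK
    refine hre _ ?_
    obtain ⟨A, hA, hsec⟩ := hmarg N ι _ hK' hexp
    refine LatCov.of_image hK' hA ?_
    have hnpos : (0 : ℝ) < n := by linarith
    have hV : 0 < C₂ * n * Real.log n := by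
      rw [mul_assoc]; exact mul_pos hC₂ (by linarith)
    have hmain := hass N hN₀ ι G _ β π c cV H (C₂ * n * Real.log n) (1 / n) x (n ^ 2)
      (hK'.image hA).1 hc hcV hV (by positivity) hx (by positivity) hsec hβ htree hcHN
      (by
        have : (Fintype.card ι : ℝ) ≤ n := by exact_mod_cast hkn
        push_cast
        rw [show 1 / (n : ℝ) * (n : ℝ) ^ 2 = n by field_simp]
        exact this)
      hx1 hx2
    obtain ⟨g, hg1, hg2, hg3⟩ := hmain
    refine ⟨g, hg1, hg2, hg3.trans ?_⟩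
    rw [hsum]
    have e1 : (1 + 3 * (1 / (n : ℝ))) ^ n ≤ Real.exp 3 := by
      calc (1 + 3 * (1 / (n : ℝ))) ^ n ≤ (Real.exp (3 * (1 / (n : ℝ)))) ^ n :=
            pow_le_pow_left₀ (by positivity) (by linarith [Real.add_one_le_exp (3 * (1 / (n : ℝ)))]) n
        _ = Real.exp 3 := by
            rw [← Real.exp_nat_mul]; congr 1; field_simp
    calc (1 + 3 * (1 / (n : ℝ))) ^ n * (C₂ * n * Real.log n)
        ≤ Real.exp 3 * (C₂ * n * Real.log n) := mul_le_mul_of_nonneg_right e1 hV.le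
      _ = (Real.exp 3 * C₂) * (n * Real.log n) := by ring
      _ ≤ max (Real.exp 3 * C₂) ((2 * n₀ : ℝ) ^ n₀) * (n * Real.log n) :=
          mul_le_mul_of_nonneg_right (le_max_left _ _) (by linarith)
      _ = _ := by ring

end Crest.Agent.R225
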