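import Crest.Agent.R225.UGauss
import Crest.Agent.R225.UIso

set_option autoImplicit false
open MeasureTheory Finset Classical Filter
open scoped Pointwise ENNReal

noncomputable section
namespace Crest.Agent.R225

variable {J ι : Type} [Fintype J] [Fintype ι]

/-- the mean of `pbox` -/
def pbar (K KI : Set (J → ℝ)) (a b : ι → ℝ) : ℝ :=
  (∫ x in KI, ∏ i, gint (Real.sqrt (x ⬝ᵥ x)) (a i) (b i)) / vl K

section fubini
variable {Ω X : Type} [MeasurableSpace Ω] [MeasurableSpace X] (P : Measure Ω) (ν : Measure X)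
  [IsFiniteMeasure P] [IsFiniteMeasure ν]

theorem sm_swap {A : Set (Ω × X)} (hA : MeasurableSet A) :
    ∫ ω, (ν (Prod.mk ω ⁻¹' A)).toReal ∂P = ∫ x, (P ((fun ω => (ω, x)) ⁻¹' A)).toReal ∂ν := by
  rw [integral_toReal (measurable_measure_prodMk_left hA).aemeasurable
      (ae_of_all _ fun _ => measure_lt_top _ _),
    integral_toReal (measurable_measure_prodMk_right hA).aemeasurable
      (ae_of_all _ fun _ => measure_lt_top _ _),
    ← Measure.prod_apply hA, ← Measure.prod_apply_symm hA]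

theorem sm_swap_sq {A : Set (Ω × X)} (hA : MeasurableSet A) :
    ∫ ω, (ν (Prod.mk ω ⁻¹' A)).toReal ^ 2 ∂P =
      ∫ p, (P {ω | (ω, p.1) ∈ A ∧ (ω, p.2) ∈ A}).toReal ∂(ν.prod ν) := by
  have hA' : MeasurableSet {q : Ω × X × X | (q.1, q.2.1) ∈ A ∧ (q.1, q.2.2) ∈ A} :=
    (hA.preimage (by fun_prop : Measurable fun q : Ω × X × X => (q.1, q.2.1))).inter
      (hA.preimage (by fun_prop : Measurable fun q : Ω × X × X => (q.1, q.2.2)))
  refine Eq.trans ?_ (sm_swap P (ν.prod ν) hA')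
  refine integral_congr_ae (ae_of_all _ fun ω => ?_)
  have : Prod.mk ω ⁻¹' {q : Ω × X × X | (q.1, q.2.1) ∈ A ∧ (q.1, q.2.2) ∈ A} =
      (Prod.mk ω ⁻¹' A) ×ˢ (Prod.mk ω ⁻¹' A) := rfl
  simp only [this, Measure.prod_prod, ENNReal.toReal_mul, sq]

theorem sm_memLp {A : Set (Ω × X)} (hA : MeasurableSet A) (q : ℝ≥0∞) :
    MemLp (fun ω => (ν (Prod.mk ω ⁻¹' A)).toReal) q P :=
  MemLp.of_bound (measurable_measure_prodMk_left hA).ennreal_toReal.aestronglyMeasurable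
    (ν Set.univ).toReal (ae_of_all _ fun ω => by
      rw [Real.norm_eq_abs, abs_of_nonneg ENNReal.toReal_nonneg]
      exact ENNReal.toReal_mono (measure_ne_top _ _) (measure_mono (Set.subset_univ _)))

theorem sm_integrable {A : Set (Ω × X)} (hA : MeasurableSet A) :
    Integrable (fun x => (P ((fun ω => (ω, x)) ⁻¹' A)).toReal) ν :=
  Integrable.of_bound (measurable_measure_prodMk_right hA).ennreal_toReal.aestronglyMeasurable
    (P Set.univ).toReal (ae_of_all _ fun ω => by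
      rw [Real.norm_eq_abs, abs_of_nonneg ENNReal.toReal_nonneg]
      exact ENNReal.toReal_mono (measure_ne_top _ _) (measure_mono (Set.subset_univ _)))

end fubini

/-- the event `Γ x ∈ box` -/
def smA (a b : ι → ℝ) : Set ((ι → J → ℝ) × (J → ℝ)) :=
  {q | ∀ i, q.1 i ⬝ᵥ q.2 ∈ Set.Icc (a i) (b i)}

theorem smA_meas (a b : ι → ℝ) : MeasurableSet (smA (J := J) a b) := by
  have : smA (J := J) a b = ⋂ i, (fun q : (ι → J → ℝ) × (J → ℝ) => q.1 i ⬝ᵥ q.2) ⁻¹'
      Set.Icc (a i) (b i) := by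
    ext q; simp [smA]
  rw [this]
  refine MeasurableSet.iInter fun i => measurableSet_Icc.preimage ?_
  unfold dotProduct
  fun_prop

theorem sm_vl_pos {K : Set (J → ℝ)} (hK : Body K) : 0 < vl K :=
  ENNReal.toReal_pos (Measure.measure_pos_of_nonempty_interior _ hK.2.2).ne'
    hK.1.measure_lt_top.ne

theorem sm_pbox (K KI : Set (J → ℝ)) (a b : ι → ℝ) (Γ : ι → J → ℝ) :
    pbox K KI a b Γ = ((volume.restrict KI) (Prod.mk Γ ⁻¹' smA a b)).toReal / vl K := by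
  rw [Measure.restrict_apply (measurable_prodMk_left (smA_meas a b)), Set.inter_comm]
  rfl

theorem sm_one {x : J → ℝ} (hx : x ≠ 0) (a b : ι → ℝ) :
    (gmat ι J ((fun Γ => (Γ, x)) ⁻¹' smA a b)).toReal =
      ∏ i, gint (Real.sqrt (x ⬝ᵥ x)) (a i) (b i) := by
  have : (fun Γ : ι → J → ℝ => (Γ, x)) ⁻¹' smA a b =
      Set.univ.pi fun i => {g | g ⬝ᵥ x ∈ Set.Icc (a i) (b i)} := by
    ext Γ; simp [smA]
  rw [this, gmat, Measure.pi_pi, ENNReal.toReal_prod]
  exact prod_congr rfl fun i _ => gauss_one hx _ _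

theorem sm_two {x x' : J → ℝ} {R ρ T : ℝ} (hR : 0 < R) (hx : R ^ 2 ≤ x ⬝ᵥ x)
    (hx' : R ^ 2 ≤ x' ⬝ᵥ x') (hρ0 : 0 ≤ ρ) (hρ : ρ ≤ 1 / 2) (hxx : |x ⬝ᵥ x'| ≤ ρ * R ^ 2)
    (a b : ι → ℝ) (hab : ∀ i, |a i| ≤ T * R ∧ |b i| ≤ T * R) :
    (gmat ι J {Γ | (Γ, x) ∈ smA a b ∧ (Γ, x') ∈ smA a b}).toReal ≤
      Real.exp (Fintype.card ι * (ρ * (T ^ 2 + 1))) *
        ((∏ i, gint (Real.sqrt (x ⬝ᵥ x)) (a i) (b i)) *
          ∏ i, gint (Real.sqrt (x' ⬝ᵥ x')) (a i) (b i)) := by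
  have : {Γ : ι → J → ℝ | (Γ, x) ∈ smA a b ∧ (Γ, x') ∈ smA a b} =
      Set.univ.pi fun i => {g | g ⬝ᵥ x ∈ Set.Icc (a i) (b i) ∧ g ⬝ᵥ x' ∈ Set.Icc (a i) (b i)} := by
    ext Γ
    simp only [smA, Set.mem_ofPred_eq, Set.mem_pi, Set.mem_univ, forall_true_left, forall_and]
  rw [this, gmat, Measure.pi_pi, ENNReal.toReal_prod]
  refine (prod_le_prod (fun i _ => ENNReal.toReal_nonneg) fun i _ =>
    gauss_two hR hx hx' hρ0 hρ hxx (hab i).1 (hab i).2).trans (le_of_eq ?_)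
  rw [prod_mul_distrib, prod_mul_distrib, prod_const, card_univ, Real.exp_nat_mul, mul_assoc]

theorem sm_finite {K KI : Set (J → ℝ)} (hK : Body K) (hsub : KI ⊆ K) :
    IsFiniteMeasure (volume.restrict KI : Measure (J → ℝ)) :=
  isFiniteMeasure_restrict.2 ((measure_mono hsub).trans_lt hK.1.measure_lt_top).ne

theorem sm_mean {K KI : Set (J → ℝ)} (hK : Body K) (hKI : MeasurableSet KI) (hsub : KI ⊆ K)
    (h0 : ∀ x ∈ KI, x ≠ 0) (a b : ι → ℝ) :
    ∫ Γ, pbox K KI a b Γ ∂(gmat ι J) = pbar K KI a b := by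
  have := sm_finite hK hsub
  simp only [sm_pbox]
  rw [integral_div, sm_swap _ _ (smA_meas a b), pbar]
  congr 1
  exact setIntegral_congr_fun hKI fun x hx => sm_one (h0 x hx) a b

theorem sm_pbox_memLp {K KI : Set (J → ℝ)} (hK : Body K) (hsub : KI ⊆ K) (a b : ι → ℝ)
    (q : ℝ≥0∞) : MemLp (pbox K KI a b) q (gmat ι J) := by
  have := sm_finite hK hsub
  have : pbox K KI a b = fun Γ =>
      ((volume.restrict KI) (Prod.mk Γ ⁻¹' smA a b)).toReal * (vl K)⁻¹ :=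
    funext fun Γ => by rw [sm_pbox, div_eq_mul_inv]
  rw [this]
  exact (sm_memLp _ _ (smA_meas a b) q).mul_const _

theorem sm_second {K KI : Set (J → ℝ)} (hK : Body K) (hI : Iso K) (hKI : MeasurableSet KI)
    (hsub : KI ⊆ K) {R ρ T : ℝ} (hR : 0 < R) (hKR : ∀ x ∈ KI, R ^ 2 ≤ x ⬝ᵥ x) (hρ0 : 0 < ρ)
    (hρ : ρ ≤ 1 / 2) (a b : ι → ℝ) (hab : ∀ i, |a i| ≤ T * R ∧ |b i| ≤ T * R) :
    ∫ Γ, pbox K KI a b Γ ^ 2 ∂(gmat ι J) ≤
      Real.exp (Fintype.card ι * (ρ * (T ^ 2 + 1))) * pbar K KI a b ^ 2 +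
        Fintype.card J / (ρ * R ^ 2) ^ 2 := by
  have := sm_finite hK hsub
  have hV := sm_vl_pos hK
  have h0 : ∀ x ∈ KI, x ≠ 0 := by
    rintro x hx rfl
    have := hKR _ hx
    simp only [dotProduct_zero] at this
    nlinarith
  set c := Real.exp (Fintype.card ι * (ρ * (T ^ 2 + 1))) with hc
  set ν : Measure (J → ℝ) := volume.restrict KI with hν
  set G : (J → ℝ) → ℝ := fun x => (gmat ι J ((fun Γ => (Γ, x)) ⁻¹' smA a b)).toReal with hG
  have hGi : Integrable G ν := sm_integrable _ _ (smA_meas a b)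
  have hGm : ∫ x, G x ∂ν = pbar K KI a b * vl K := by
    rw [pbar, div_mul_cancel₀ _ hV.ne']
    exact setIntegral_congr_fun hKI fun x hx => sm_one (h0 x hx) a b
  set B : Set ((J → ℝ) × (J → ℝ)) := {p | ρ * R ^ 2 < |p.1 ⬝ᵥ p.2|} with hB
  have hBm : MeasurableSet B := by
    refine measurableSet_lt measurable_const ?_
    unfold dotProduct
    fun_prop
  have hνν : ν.prod ν = (volume : Measure ((J → ℝ) × (J → ℝ))).restrict (KI ×ˢ KI) := by
    rw [hν, Measure.prod_restrict]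
    rfl
  have hBν : (ν.prod ν).real B ≤ Fintype.card J * vl K ^ 2 / (ρ * R ^ 2) ^ 2 := by
    refine le_trans ?_ (pair_inner hK hI (by positivity))
    rw [hνν, Measure.real, Measure.restrict_apply hBm]
    refine ENNReal.toReal_mono ?_ (measure_mono fun p hp => ⟨hsub hp.2.1, hsub hp.2.2, hp.1⟩)
    refine ((measure_mono (t := K ×ˢ K) fun p hp => ⟨hp.1, hp.2.1⟩).trans_lt ?_).ne
    exact (hK.1.prod hK.1).measure_lt_top
  have h1 : ∫ p, (gmat ι J {Γ | (Γ, p.1) ∈ smA a b ∧ (Γ, p.2) ∈ smA a b}).toReal ∂(ν.prod ν) ≤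
      ∫ p, (c * (G p.1 * G p.2) + B.indicator 1 p) ∂(ν.prod ν) := by
    refine integral_mono_of_nonneg (ae_of_all _ fun _ => ENNReal.toReal_nonneg)
      (((hGi.mul_prod hGi).const_mul c).add ((integrable_const (1 : ℝ)).indicator hBm)) ?_
    rw [hνν]
    refine (ae_restrict_iff' (hKI.prod hKI)).2 (ae_of_all _ fun p hp => ?_)
    by_cases hpB : p ∈ B
    · have h2 : (gmat ι J {Γ | (Γ, p.1) ∈ smA a b ∧ (Γ, p.2) ∈ smA a b}).toReal ≤ 1 :=
        ENNReal.toReal_le_of_le_ofReal zero_le_one (by simpa using prob_le_one)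
      have h3 : 0 ≤ c * (G p.1 * G p.2) := by positivity
      simp only [Set.indicator_of_mem hpB, Pi.one_apply]
      linarith
    · simp only [Set.indicator_of_notMem hpB, add_zero, hG, sm_one (h0 _ hp.1), sm_one (h0 _ hp.2)]
      exact sm_two hR (hKR _ hp.1) (hKR _ hp.2) hρ0.le hρ (not_lt.1 hpB) a b hab
  have hBi : Integrable (B.indicator (1 : (J → ℝ) × (J → ℝ) → ℝ)) (ν.prod ν) :=
    (integrable_const (1 : ℝ)).indicator hBm
  rw [integral_add ((hGi.mul_prod hGi).const_mul c) hBi,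
    integral_const_mul, integral_prod_mul, hGm, integral_indicator_one hBm] at h1
  simp only [sm_pbox, div_pow]
  rw [integral_div, sm_swap_sq _ _ (smA_meas a b), div_le_iff₀ (by positivity)]
  refine h1.trans ((add_le_add le_rfl hBν).trans (le_of_eq ?_))
  ring

/-- Fubini (the rows are independent), `gauss_one`, and Markov's inequality. -/
theorem pbox_upper {K KI : Set (J → ℝ)} (hK : Body K) (hKI : MeasurableSet KI) (hsub : KI ⊆ K)
    (h0 : ∀ x ∈ KI, x ≠ 0) (a b : ι → ℝ) {v : ℝ} (hv : 0 < v) (h : pbar K KI a b ≤ v) :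
    (gmat ι J {Γ | 10 * v < pbox K KI a b Γ}).toReal ≤ 1 / 10 := by
  have h1 := mul_meas_ge_le_integral_of_nonneg (μ := gmat ι J) (f := pbox K KI a b)
    (ae_of_all _ fun Γ => div_nonneg ENNReal.toReal_nonneg ENNReal.toReal_nonneg)
    (memLp_one_iff_integrable.1 (sm_pbox_memLp hK hsub a b 1)) (10 * v)
  rw [sm_mean hK hKI hsub h0] at h1
  have h2 : (gmat ι J {Γ | 10 * v < pbox K KI a b Γ}).toReal ≤
      (gmat ι J).real {Γ | 10 * v ≤ pbox K KI a b Γ} :=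
    ENNReal.toReal_mono (measure_ne_top _ _) (measure_mono fun Γ hΓ =>
      (le_of_lt hΓ : 10 * v ≤ pbox K KI a b Γ))
  have h3 : (gmat ι J).real {Γ | 10 * v ≤ pbox K KI a b Γ} ≤ 1 / 10 := by
    by_contra hc
    nlinarith [not_le.1 hc]
  exact h2.trans h3

/-- `E pbox = pbar`, and by Fubini, `gauss_two` for the pairs with `|x·x'| ≤ ρ R²` and `pair_inner` for
the others, `E pbox² ≤ exp (k ρ (T²+1)) pbar² + n / (ρ R²)²`; Chebyshev. -/
theorem pbox_lower {K KI : Set (J → ℝ)} (hK : Body K) (hI : Iso K) (hKI : MeasurableSet KI)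
    (hsub : KI ⊆ K) {R ρ T : ℝ} (hR : 0 < R) (hKR : ∀ x ∈ KI, R ^ 2 ≤ x ⬝ᵥ x) (hρ0 : 0 < ρ)
    (hρ : ρ ≤ 1 / 2) (a b : ι → ℝ) (hab : ∀ i, |a i| ≤ T * R ∧ |b i| ≤ T * R) {v : ℝ} (hv : 0 < v)
    (h : v ≤ pbar K KI a b) :
    (gmat ι J {Γ | pbox K KI a b Γ < v / 2}).toReal ≤
      4 * (Real.exp (Fintype.card ι * (ρ * (T ^ 2 + 1))) - 1 +
        Fintype.card J / (ρ * R ^ 2) ^ 2 / v ^ 2) := by
  have h0 : ∀ x ∈ KI, x ≠ 0 := by
    rintro x hx rfl
    have := hKR _ hx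
    simp only [dotProduct_zero] at this
    nlinarith
  have hm := sm_mean hK hKI hsub h0 a b
  have h2 := sm_second hK hI hKI hsub hR hKR hρ0 hρ a b hab
  have hL := sm_pbox_memLp hK hsub a b 2
  set m := pbar K KI a b with hmdef
  have hm0 : 0 < m := hv.trans_le h
  have h3 := ProbabilityTheory.meas_ge_le_variance_div_sq hL (c := m / 2) (by positivity)
  rw [ProbabilityTheory.variance_eq_sub hL, hm] at h3
  simp only [Pi.pow_apply] at h3
  set c := Real.exp (Fintype.card ι * (ρ * (T ^ 2 + 1))) with hc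
  set D : ℝ := Fintype.card J / (ρ * R ^ 2) ^ 2 with hD
  have hD0 : 0 ≤ D := by positivity
  have hc1 : 1 ≤ c := Real.one_le_exp (by positivity)
  have h4 : ((∫ Γ, pbox K KI a b Γ ^ 2 ∂(gmat ι J)) - m ^ 2) / (m / 2) ^ 2 ≤
      4 * (c - 1 + D / v ^ 2) := by
    have h5 : D / m ^ 2 ≤ D / v ^ 2 := by gcongr
    calc _ ≤ (c * m ^ 2 + D - m ^ 2) / (m / 2) ^ 2 := by gcongr
      _ = 4 * (c - 1 + D / m ^ 2) := by field_simp; ring
      _ ≤ _ := by linarith
  refine ENNReal.toReal_le_of_le_ofReal (by have : 0 ≤ D / v ^ 2 := by positivity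
                                            linarith) ?_
  refine (measure_mono fun Γ hΓ => ?_).trans (h3.trans (ENNReal.ofReal_le_ofReal h4))
  have h6 : pbox K KI a b Γ < v / 2 := hΓ
  change m / 2 ≤ |pbox K KI a b Γ - m|
  rw [abs_sub_comm]
  exact le_trans (by linarith) (le_abs_self _)

end Crest.Agent.R225
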