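import Crest.Agent.R225.UDefs
import Crest.Agent.Lib.Prekopa.Basic

set_option autoImplicit false
open MeasureTheory Finset Classical Filter
open scoped Pointwise ENNReal

noncomputable section
namespace Crest.Agent.R225

variable {J : Type} [Fintype J]

/-- multiplicative Brunn–Minkowski on `J → ℝ` (`pl_pi` of `Lib/Prekopa`, transported along
`J ≃ Fin n`). -/
theorem bm_mid {A B C : Set (J → ℝ)} (hA : MeasurableSet A) (hB : MeasurableSet B)
    (hC : MeasurableSet C) (h : ∀ x ∈ A, ∀ y ∈ B, (1 / 2 : ℝ) • x + (1 / 2 : ℝ) • y ∈ C) :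
    volume A * volume B ≤ volume C ^ 2 := by
  let e : (Fin (Fintype.card J) → ℝ) ≃ᵐ (J → ℝ) :=
    MeasurableEquiv.arrowCongr' (Fintype.equivFin J).symm (MeasurableEquiv.refl ℝ)
  have hmp : MeasurePreserving e :=
    volume_preserving_arrowCongr' _ _ (MeasurePreserving.id volume)
  have hadd : ∀ x y, e ((1 / 2 : ℝ) • x + (1 / 2 : ℝ) • y) =
      (1 / 2 : ℝ) • e x + (1 / 2 : ℝ) • e y := fun x y => rfl
  rw [← hmp.measure_preimage hA.nullMeasurableSet, ← hmp.measure_preimage hB.nullMeasurableSet,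
    ← hmp.measure_preimage hC.nullMeasurableSet]
  have hA' := e.measurable hA
  have hB' := e.measurable hB
  have hC' := e.measurable hC
  rw [← lintegral_indicator_one hA', ← lintegral_indicator_one hB', ← lintegral_indicator_one hC']
  refine Lib.Prekopa.pl_pi _ (measurable_one.indicator hA') (measurable_one.indicator hB')
    (measurable_one.indicator hC') fun x y => ?_
  by_cases hx : x ∈ e ⁻¹' A
  · by_cases hy : y ∈ e ⁻¹' B
    · have hz : (1 / 2 : ℝ) • x + (1 / 2 : ℝ) • y ∈ e ⁻¹' C := by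
        rw [Set.mem_preimage, hadd]; exact h _ hx _ hy
      rw [Set.indicator_of_mem hx, Set.indicator_of_mem hy, Set.indicator_of_mem hz]
      simp
    · simp [hy]
  · simp [hx]

theorem ut_vl_inter {K S : Set (J → ℝ)} (hS : MeasurableSet S) :
    vl (K ∩ S) = (volume.restrict K).real S := by
  rw [measureReal_def, Measure.restrict_apply hS, Set.inter_comm, vl]

/-- geometric decay of the tails of a linear functional -/
theorem ut_tail {K : Set (J → ℝ)} (hK : Body K) (f : (J → ℝ) →ₗ[ℝ] ℝ) (hf : Continuous f)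
    (h2 : ∫ x in K, f x ^ 2 = vl K) (j : ℕ) :
    vl (K ∩ {x | 2 + 4 * (j : ℝ) ≤ f x}) ≤ (1 / 3) ^ j * vl K / 4 := by
  have hKm : MeasurableSet K := hK.1.measurableSet
  have : IsFiniteMeasure (volume.restrict K) := ⟨by simpa using hK.1.measure_lt_top⟩
  have hm : ∀ t : ℝ, MeasurableSet {x | t ≤ f x} :=
    fun t => (isClosed_le continuous_const hf).measurableSet
  let S : ℝ → ℝ := fun t => vl (K ∩ {x | t ≤ f x})
  have hS0 : ∀ t, 0 ≤ S t := fun t => ENNReal.toReal_nonneg
  have hfin : ∀ t : ℝ, volume (K ∩ {x | t ≤ f x}) ≠ ⊤ := fun t =>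
    ((measure_mono Set.inter_subset_left).trans_lt hK.1.measure_lt_top).ne
  have hanti : ∀ s t, s ≤ t → S t ≤ S s := fun s t hst =>
    ENNReal.toReal_mono (hfin s) (measure_mono fun x hx => ⟨hx.1, hst.trans hx.2⟩)
  have hlc : ∀ t, S t * S (t + 8) ≤ S (t + 4) ^ 2 := by
    intro t
    have := bm_mid (hKm.inter (hm t)) (hKm.inter (hm (t + 8))) (hKm.inter (hm (t + 4)))
      fun x hx y hy => ⟨hK.2.1 hx.1 hy.1 (by norm_num) (by norm_num) (by norm_num), by
        have h1 : t ≤ f x := hx.2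
        have h2 : t + 8 ≤ f y := hy.2
        change t + 4 ≤ f _
        rw [map_add, map_smul, map_smul, smul_eq_mul, smul_eq_mul]
        linarith⟩
    have h3 := ENNReal.toReal_mono (ENNReal.pow_ne_top (hfin _)) this
    rwa [ENNReal.toReal_mul, ENNReal.toReal_pow] at h3
  have hcheb : 4 * (volume.restrict K).real {x | 4 ≤ f x ^ 2} ≤ vl K := by
    rw [← h2]
    exact mul_meas_ge_le_integral_of_nonneg (Eventually.of_forall fun x => sq_nonneg _)
      ((hf.pow 2).continuousOn.integrableOn_compact hK.1) 4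
  have hS2 : S 2 ≤ vl K / 4 := by
    have : (volume.restrict K).real {x | 2 ≤ f x} ≤ (volume.restrict K).real {x | 4 ≤ f x ^ 2} :=
      measureReal_mono fun x (hx : 2 ≤ f x) => by change 4 ≤ f x ^ 2; nlinarith
    simp only [S]
    rw [ut_vl_inter (hm 2)]
    linarith
  have hSm2 : 3 * vl K / 4 ≤ S (-2) := by
    have h3 : (volume.restrict K).real {x | -2 ≤ f x}ᶜ ≤
        (volume.restrict K).real {x | 4 ≤ f x ^ 2} :=
      measureReal_mono fun x (hx : ¬ -2 ≤ f x) => by change 4 ≤ f x ^ 2; nlinarith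
    have h4 := measureReal_add_measureReal_compl (μ := volume.restrict K) (hm (-2))
    rw [← ut_vl_inter MeasurableSet.univ, Set.inter_univ] at h4
    simp only [S]
    rw [ut_vl_inter (hm (-2))]
    linarith
  have hstep : ∀ j : ℕ, S (2 + 4 * j) ≤ S (-2 + 4 * j) / 3 := by
    intro j
    induction j with
    | zero => simp only [Nat.cast_zero, mul_zero, add_zero]; linarith
    | succ j ih =>
      have h3 := hlc (-2 + 4 * j)
      rw [show -2 + 4 * (j : ℝ) + 8 = 2 + 4 * ((j + 1 : ℕ) : ℝ) by push_cast; ring,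
        show -2 + 4 * (j : ℝ) + 4 = 2 + 4 * j by ring] at h3
      rw [show -2 + 4 * ((j + 1 : ℕ) : ℝ) = 2 + 4 * j by push_cast; ring]
      rcases (hS0 (-2 + 4 * j)).eq_or_lt with h0 | h0
      · have h4 := hanti (2 + 4 * j) (2 + 4 * ((j + 1 : ℕ) : ℝ)) (by push_cast; linarith)
        have h5 := hS0 (2 + 4 * j)
        linarith
      · refine le_of_mul_le_mul_left (h3.trans ?_) h0
        nlinarith [hS0 (2 + 4 * j)]
  change S (2 + 4 * j) ≤ _
  induction j with
  | zero => simpa using hS2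
  | succ j ih =>
    have h3 := hstep (j + 1)
    rw [show -2 + 4 * ((j + 1 : ℕ) : ℝ) = 2 + 4 * j by push_cast; ring] at h3
    rw [pow_succ]
    linarith

theorem ut_summable : Summable fun j : ℕ => (6 + 4 * (j : ℝ)) ^ 4 * (1 / 3) ^ j := by
  have h1 : Summable fun j : ℕ => (j : ℝ) ^ 4 * (1 / 3 : ℝ) ^ j :=
    summable_pow_mul_geometric_of_norm_lt_one 4 (by norm_num)
  have h2 : Summable fun j : ℕ => (1 / 3 : ℝ) ^ j :=
    summable_geometric_of_lt_one (by norm_num) (by norm_num)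
  refine ((h2.mul_left (8 * 6 ^ 4)).add (h1.mul_left (8 * 4 ^ 4))).of_nonneg_of_le
    (fun j => by positivity) fun j => ?_
  have h3 : (6 + 4 * (j : ℝ)) ^ 4 ≤ 8 * 6 ^ 4 + 8 * 4 ^ 4 * (j : ℝ) ^ 4 := by
    have h4 := add_pow_le (by norm_num : (0 : ℝ) ≤ 6) (by positivity : (0 : ℝ) ≤ 4 * j) 4
    rw [mul_pow] at h4
    norm_num at h4 ⊢
    linarith
  have h4 : (0 : ℝ) ≤ (1 / 3) ^ j := by positivity
  nlinarith

/-- the fourth moment constant -/
def utC4 : ℝ := 16 + ∑' j : ℕ, (6 + 4 * (j : ℝ)) ^ 4 * (1 / 3) ^ j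

theorem ut_C4_ge : 16 ≤ utC4 :=
  le_add_of_nonneg_right (tsum_nonneg fun j => by positivity)

theorem ut_pointwise (m : ℕ) (y : ℝ) (hy : |y| ≤ 2 + 4 * m) :
    y ^ 4 ≤ 16 + ∑ j ∈ range m, (6 + 4 * (j : ℝ)) ^ 4 *
      ((if 2 + 4 * (j : ℝ) ≤ y then 1 else 0) + (if 2 + 4 * (j : ℝ) ≤ -y then 1 else 0)) := by
  have hnn : ∀ j : ℕ, (0 : ℝ) ≤ (6 + 4 * (j : ℝ)) ^ 4 *
      ((if 2 + 4 * (j : ℝ) ≤ y then 1 else 0) + (if 2 + 4 * (j : ℝ) ≤ -y then 1 else 0)) :=
    fun j => by positivity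
  have habs : y ^ 4 = |y| ^ 4 := (Even.pow_abs (by decide) y).symm
  induction m with
  | zero =>
    rw [habs]
    have := pow_le_pow_left₀ (abs_nonneg y) hy 4
    norm_num at this ⊢
    simpa [habs] using this
  | succ m ih =>
    rw [sum_range_succ]
    by_cases h : |y| ≤ 2 + 4 * m
    · linarith [ih h, hnn m]
    · have h1 : (1 : ℝ) ≤ (if 2 + 4 * (m : ℝ) ≤ y then 1 else 0) +
          (if 2 + 4 * (m : ℝ) ≤ -y then 1 else 0) := by
        rcases le_abs.1 (not_le.1 h).le with h2 | h2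
        · rw [if_pos h2]; split_ifs <;> norm_num
        · rw [if_pos h2]; split_ifs <;> norm_num
      have h2 : |y| ^ 4 ≤ (6 + 4 * (m : ℝ)) ^ 4 :=
        pow_le_pow_left₀ (abs_nonneg y) (by push_cast at hy; linarith) 4
      have h3 := Finset.sum_nonneg fun j (_ : j ∈ range m) => hnn j
      have h4 := mul_le_mul_of_nonneg_left h1 (by positivity : (0 : ℝ) ≤ (6 + 4 * (m : ℝ)) ^ 4)
      linarith

/-- fourth moment of a linear functional -/
theorem ut_four {K : Set (J → ℝ)} (hK : Body K) (f : (J → ℝ) →ₗ[ℝ] ℝ) (hf : Continuous f)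
    (h2 : ∫ x in K, f x ^ 2 = vl K) : ∫ x in K, f x ^ 4 ≤ utC4 * vl K := by
  have hKm : MeasurableSet K := hK.1.measurableSet
  have : IsFiniteMeasure (volume.restrict K) := ⟨by simpa using hK.1.measure_lt_top⟩
  have hV : 0 ≤ vl K := ENNReal.toReal_nonneg
  obtain ⟨R, hR⟩ := hK.1.exists_bound_of_continuousOn hf.continuousOn
  obtain ⟨m, hm⟩ := exists_nat_ge R
  have hf' : Continuous (-f) := hf.neg
  have hms : ∀ (g : (J → ℝ) →ₗ[ℝ] ℝ), Continuous g → ∀ t : ℝ, MeasurableSet {x | t ≤ g x} :=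
    fun g hg t => (isClosed_le continuous_const hg).measurableSet
  have hi : ∀ (g : (J → ℝ) →ₗ[ℝ] ℝ), Continuous g → ∀ t : ℝ,
      Integrable ({x | t ≤ g x}.indicator (1 : (J → ℝ) → ℝ)) (volume.restrict K) :=
    fun g hg t => (integrable_const (1 : ℝ)).indicator (hms g hg t)
  let G : ℕ → (J → ℝ) → ℝ := fun j x => (6 + 4 * (j : ℝ)) ^ 4 *
    ({x | 2 + 4 * (j : ℝ) ≤ f x}.indicator 1 x + {x | 2 + 4 * (j : ℝ) ≤ (-f) x}.indicator 1 x)
  have hG : ∀ j, Integrable (G j) (volume.restrict K) := fun j =>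
    ((hi f hf _).add (hi (-f) hf' _)).const_mul _
  have hGi : ∀ j, ∫ x in K, G j x ≤ (6 + 4 * (j : ℝ)) ^ 4 * (1 / 3) ^ j * vl K := by
    intro j
    simp only [G]
    rw [integral_const_mul, integral_add (hi f hf _) (hi (-f) hf' _),
      integral_indicator_one (hms f hf _), integral_indicator_one (hms (-f) hf' _),
      ← ut_vl_inter (hms f hf _), ← ut_vl_inter (hms (-f) hf' _), mul_assoc]
    refine mul_le_mul_of_nonneg_left ?_ (by positivity)
    have h3 := ut_tail hK f hf h2 j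
    have h4 := ut_tail hK (-f) hf' (by simpa using h2) j
    have h5 : (0 : ℝ) ≤ (1 / 3) ^ j * vl K := by positivity
    linarith
  have h3 : ∫ x in K, f x ^ 4 ≤ ∫ x in K, (16 + ∑ j ∈ range m, G j x) := by
    refine setIntegral_mono_on ((hf.pow 4).continuousOn.integrableOn_compact hK.1)
      ((integrable_const _).add (integrable_finsetSum _ fun j _ => hG j)) hKm fun x hx => ?_
    have h4 := hR x hx
    rw [Real.norm_eq_abs] at h4
    have h5 : (0 : ℝ) ≤ m := Nat.cast_nonneg m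
    refine (ut_pointwise m (f x) (by linarith)).trans (le_of_eq ?_)
    simp only [G, Set.indicator_apply, Set.mem_ofPred_eq, Pi.one_apply, LinearMap.neg_apply]
  rw [integral_add (integrable_const _) (integrable_finsetSum _ fun j _ => hG j),
    integral_finsetSum _ fun j _ => hG j, integral_const, smul_eq_mul,
    ← ut_vl_inter MeasurableSet.univ, Set.inter_univ] at h3
  have h4 := Finset.sum_le_sum fun j (_ : j ∈ range m) => hGi j
  rw [← Finset.sum_mul] at h4
  have h5 := mul_le_mul_of_nonneg_right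
    (ut_summable.sum_le_tsum (range m) fun j _ => by positivity) hV
  rw [utC4, add_mul]
  linarith

/-- `S t = vl (K ∩ {t ≤ ± x i}) / vl K` is midpoint log-concave (`bm_mid`), `S (-2) ≥ 3/4` and
`S 2 ≤ 1/4` (Chebyshev), hence `S (2 + 4 j) ≤ 3^{-j} / 4` and `∫_K (x i)^4 ≤ C₄ vl K` with an absolute
`C₄`.  So `∫ (x·x)² ≤ C₄ n² vl K`; Paley–Zygmund gives mass `≥ 1/(4 C₄)` for `{n/2 ≤ x·x}`, Markov
gives mass `≤ 1/(8 C₄)` for `{8 C₄ n < x·x}`. -/
theorem shell_mass : ∃ c₀ C₁ : ℝ, 0 < c₀ ∧ 1 ≤ C₁ ∧ ∀ (J : Type) [Fintype J] (K : Set (J → ℝ)),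
    Body K → Iso K → 0 < Fintype.card J →
      c₀ * vl K ≤ vl (K ∩ {x | (Fintype.card J : ℝ) / 2 ≤ x ⬝ᵥ x ∧ x ⬝ᵥ x ≤ C₁ * Fintype.card J}) := by
  have hC := ut_C4_ge
  refine ⟨1 / (16 * utC4), 4 * utC4, by positivity, by linarith, fun J _ K hK hI hn => ?_⟩
  have hKm : MeasurableSet K := hK.1.measurableSet
  have : IsFiniteMeasure (volume.restrict K) := ⟨by simpa using hK.1.measure_lt_top⟩
  set n : ℝ := ((Fintype.card J : ℕ) : ℝ) with hn'
  have hn0 : 0 < n := by rw [hn']; exact_mod_cast hn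
  have hV : 0 ≤ vl K := ENNReal.toReal_nonneg
  have hint : ∀ g : (J → ℝ) → ℝ, Continuous g → Integrable g (volume.restrict K) :=
    fun g hg => hg.continuousOn.integrableOn_compact hK.1
  have hZc : Continuous fun x : J → ℝ => x ⬝ᵥ x := by fun_prop
  set S : Set (J → ℝ) := {x | n / 2 ≤ x ⬝ᵥ x ∧ x ⬝ᵥ x ≤ 4 * utC4 * n} with hS
  have hSm : MeasurableSet S :=
    ((isClosed_le continuous_const hZc).inter (isClosed_le hZc continuous_const)).measurableSet
  have h1 : ∫ x in K, x ⬝ᵥ x = n * vl K := by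
    simp only [dotProduct]
    rw [integral_finsetSum _ fun i _ => hint _ (by fun_prop)]
    simp only [hI _ _, if_true]
    rw [Finset.sum_const, Finset.card_univ, nsmul_eq_mul]
  have h2 : ∫ x in K, ∑ i, x i ^ 4 ≤ n * (utC4 * vl K) := by
    rw [integral_finsetSum _ fun i _ => hint _ (by fun_prop)]
    refine (Finset.sum_le_sum fun i _ => ut_four hK (LinearMap.proj i) (continuous_apply i)
      ?_).trans ?_
    · have := hI i i
      rw [if_pos rfl] at this
      rw [← this]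
      simp only [LinearMap.proj_apply, sq]
    · rw [Finset.sum_const, Finset.card_univ, nsmul_eq_mul]
  have h3 : ∀ x : J → ℝ, x ⬝ᵥ x ≤
      n / 2 + 4 * utC4 * n * S.indicator 1 x + (4 * utC4)⁻¹ * ∑ i, x i ^ 4 := by
    intro x
    have hcs : (x ⬝ᵥ x) ^ 2 ≤ n * ∑ i, x i ^ 4 := by
      have := sq_sum_le_card_mul_sum_sq (s := (Finset.univ : Finset J)) (f := fun i => x i * x i)
      rw [Finset.card_univ] at this
      refine this.trans (le_of_eq ?_)
      congr 1
      exact Finset.sum_congr rfl fun i _ => by ring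
    have h4 : 0 ≤ ∑ i, x i ^ 4 := Finset.sum_nonneg fun i _ => by positivity
    have h5 : 0 ≤ (4 * utC4)⁻¹ * ∑ i, x i ^ 4 := by positivity
    by_cases hx : x ∈ S
    · rw [Set.indicator_of_mem hx, Pi.one_apply]
      have := hx.2
      linarith
    · rw [Set.indicator_of_notMem hx, mul_zero, add_zero]
      by_cases hx1 : n / 2 ≤ x ⬝ᵥ x
      · have hx2 : 4 * utC4 * n < x ⬝ᵥ x := by
          by_contra hc
          exact hx ⟨hx1, not_lt.1 hc⟩
        have h6 : x ⬝ᵥ x ≤ (4 * utC4)⁻¹ * ∑ i, x i ^ 4 := by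
          rw [le_inv_mul_iff₀ (by positivity)]
          refine le_of_mul_le_mul_left ?_ hn0
          nlinarith
        linarith
      · linarith
  have hi1 : Integrable (fun x => 4 * utC4 * n * S.indicator (1 : (J → ℝ) → ℝ) x)
      (volume.restrict K) := ((integrable_const (1 : ℝ)).indicator hSm).const_mul _
  have hi2 : Integrable (fun x : J → ℝ => (4 * utC4)⁻¹ * ∑ i, x i ^ 4) (volume.restrict K) :=
    hint _ (by fun_prop)
  have h4 := integral_mono (hint _ hZc) (((integrable_const (n / 2)).add hi1).add hi2) h3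
  rw [h1, integral_add' ((integrable_const (n / 2)).add hi1) hi2,
    integral_add' (integrable_const (n / 2)) hi1, integral_const_mul, integral_const_mul,
    integral_indicator_one hSm, ← ut_vl_inter hSm, integral_const, smul_eq_mul,
    ← ut_vl_inter MeasurableSet.univ, Set.inter_univ] at h4
  have h5 : (4 * utC4)⁻¹ * ∫ x in K, ∑ i, x i ^ 4 ≤ n * vl K / 4 := by
    rw [inv_mul_le_iff₀ (by positivity)]
    linarith
  rw [one_div, inv_mul_le_iff₀ (by positivity)]
  refine le_of_mul_le_mul_left ?_ hn0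
  linarith

end Crest.Agent.R225
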