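import Crest.Agent.R225.UThinAux

/-! A weak thin-shell estimate (Klartag's argument on three boxes). -/

set_option autoImplicit false
open MeasureTheory Finset Classical Filter
open scoped Pointwise ENNReal

noncomputable section
namespace Crest.Agent.R225

theorem th_num1 {E A : ℝ} (hE : 0 < E) (hA : 0 < A) :
    ∃ k₀ : ℕ, 3 ≤ k₀ ∧ ∀ q : ℝ, k₀ ≤ q → E * q ^ 6 < Real.exp (q / A) := by
  obtain ⟨k₀, hk₀⟩ := exists_nat_gt (5040 * A ^ 7 * E + 3)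
  have h0 : 0 < 5040 * A ^ 7 * E := by positivity
  refine ⟨k₀, by exact_mod_cast (show (3 : ℝ) ≤ k₀ by linarith), fun q hq => ?_⟩
  have hq0 : 0 < q := by linarith
  have h1 := Real.pow_div_factorial_le_exp (q / A) (by positivity) 7
  refine lt_of_lt_of_le ?_ h1
  have : ((Nat.factorial 7 : ℕ) : ℝ) = 5040 := by norm_num [Nat.factorial]
  rw [this, div_pow, div_div, lt_div_iff₀ (by positivity)]
  have h2 : 5040 * A ^ 7 * E < q := by linarith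
  have h3 := mul_lt_mul_of_pos_right h2 (pow_pos hq0 6)
  calc E * q ^ 6 * (A ^ 7 * 5040) = 5040 * A ^ 7 * E * q ^ 6 := by ring
    _ < q * q ^ 6 := h3
    _ = q ^ 7 := by ring

theorem th_gap {k q : ℕ} {τ₁ τ₃ T β c₀ Bn : ℝ} (hk : 1 ≤ k) (hkq : k ≤ q) (hτ : 0 < τ₁)
    (hT : 1 ≤ T) (h3 : τ₃ ≤ T * τ₁) (hc : 0 < c₀) (hB : 0 < Bn) (hβ : β = c₀ / (2 * (Bn * q ^ 3)))
    (hq : 1600 * Real.exp 6 * Bn ^ 2 / c₀ ^ 2 * (q : ℝ) ^ 6 < Real.exp (q / (72 * T)))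
    (h : β ^ 2 * (((τ₁ + τ₃) / 2) ^ 2 / (τ₁ * τ₃)) ^ (q ^ 3) ≤ 400 * Real.exp 6) :
    τ₃ ≤ τ₁ * (1 + 1 / (3 * k)) := by
  by_contra hcon
  rw [not_le] at hcon
  have hk' : (1 : ℝ) ≤ k := by exact_mod_cast hk
  have hkq' : (k : ℝ) ≤ q := by exact_mod_cast hkq
  have hq0 : (0 : ℝ) < q := by linarith
  have hu : 0 < τ₁ / (3 * k) := by positivity
  have hd : τ₁ / (3 * k) < τ₃ - τ₁ := by
    have : τ₁ * (1 + 1 / (3 * k)) = τ₁ + τ₁ / (3 * k) := by ring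
    linarith
  have hτ₃ : 0 < τ₃ := by linarith
  set y := 1 / (36 * (k : ℝ) ^ 2 * T) with hy
  have hy0 : 0 < y := by positivity
  have hy1 : y ≤ 1 := by
    rw [hy, div_le_one (by positivity)]; nlinarith
  have e1 : 1 + y ≤ ((τ₁ + τ₃) / 2) ^ 2 / (τ₁ * τ₃) := by
    rw [le_div_iff₀ (by positivity)]
    have a1 : (τ₁ / (3 * k)) ^ 2 ≤ (τ₃ - τ₁) ^ 2 := pow_le_pow_left₀ hu.le hd.le 2
    have a2 : y * (τ₁ * τ₃) ≤ y * (τ₁ * (T * τ₁)) :=
      mul_le_mul_of_nonneg_left (mul_le_mul_of_nonneg_left h3 hτ.le) hy0.le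
    have a3 : y * (τ₁ * (T * τ₁)) = (τ₁ / (3 * k)) ^ 2 / 4 := by rw [hy]; field_simp; norm_num
    nlinarith
  have e2 : Real.exp (y / 2) ≤ 1 + y := by
    have h1 : 1 - y / 2 ≤ Real.exp (-(y / 2)) := by linarith [Real.add_one_le_exp (-(y / 2))]
    have h2 : Real.exp (y / 2) * Real.exp (-(y / 2)) = 1 := by rw [← Real.exp_add]; simp
    have h3 := Real.exp_pos (y / 2)
    nlinarith
  have e3 : Real.exp (q / (72 * T)) ≤ (((τ₁ + τ₃) / 2) ^ 2 / (τ₁ * τ₃)) ^ (q ^ 3) := by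
    refine le_trans ?_ (pow_le_pow_left₀ (Real.exp_pos _).le (e2.trans e1) _)
    rw [← Real.exp_nat_mul]
    refine Real.exp_le_exp.2 ?_
    push_cast
    rw [hy, div_div, mul_one_div, div_le_div_iff₀ (by positivity) (by positivity)]
    have : (k : ℝ) ^ 2 ≤ (q : ℝ) ^ 2 := pow_le_pow_left₀ (by linarith) hkq' 2
    have := mul_le_mul_of_nonneg_left this (show 0 ≤ 72 * T * q by positivity)
    nlinarith
  have e4 : β ^ 2 * (1600 * Real.exp 6 * Bn ^ 2 / c₀ ^ 2 * (q : ℝ) ^ 6) = 400 * Real.exp 6 := by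
    rw [hβ]; field_simp; norm_num
  have hβ0 : 0 < β ^ 2 := by rw [hβ]; positivity
  have := mul_lt_mul_of_pos_left (hq.trans_le e3) hβ0
  linarith

theorem th_le_exp (x : ℝ) : x ≤ Real.exp x := by linarith [Real.add_one_le_exp x]

theorem th_sizes {q : ℕ} {s T c₀ Bn : ℝ} (hq : 1 ≤ q) (hT : 1 ≤ T) (hc : 0 < c₀) (hB : 0 < Bn)
    (hs : Real.exp ((128 * (T ^ 2 + 1) + 20 + 2 * Bn / c₀ + T / phi 1) * (q : ℝ) ^ 4) ≤ s) :
    4 ≤ s ∧ 128 * ((q ^ 3 : ℕ) : ℝ) * (T ^ 2 + 1) ≤ s ∧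
      8 ≤ s * (c₀ / (2 * (Bn * q ^ 3)) * Real.exp (-3) *
        (phi 1 / (((q ^ 3 : ℕ) : ℝ) * T)) ^ (q ^ 3)) := by
  have hq' : (1 : ℝ) ≤ q := by exact_mod_cast hq
  have hp := phi_pos 1
  have h4 : (1 : ℝ) ≤ (q : ℝ) ^ 4 := one_le_pow₀ hq'
  have hq4 : (q : ℝ) ≤ (q : ℝ) ^ 4 := le_self_pow₀ hq' (by norm_num)
  have hq34 : (q : ℝ) ^ 3 ≤ (q : ℝ) ^ 4 := pow_le_pow_right₀ hq' (by norm_num)
  have h3 : (q : ℝ) ^ 3 ≤ Real.exp (3 * q) := by
    have := pow_le_pow_left₀ (by linarith) (th_le_exp (q : ℝ)) 3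
    rwa [← Real.exp_nat_mul] at this
  have a0 : 0 ≤ 2 * Bn / c₀ := by positivity
  have a1 : 0 ≤ T / phi 1 := by positivity
  have a2 : 0 ≤ 128 * (T ^ 2 + 1) := by positivity
  have b0 := mul_le_mul_of_nonneg_left h4 a0
  have b1 := mul_le_mul_of_nonneg_left hq34 a1
  have b2 := mul_le_mul_of_nonneg_left h4 a2
  have b3 : 0 ≤ T / phi 1 * (q : ℝ) ^ 4 := by positivity
  have hii : 128 * ((q ^ 3 : ℕ) : ℝ) * (T ^ 2 + 1) ≤ s := by
    refine le_trans ?_ hs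
    push_cast
    calc 128 * (q : ℝ) ^ 3 * (T ^ 2 + 1) = 128 * (T ^ 2 + 1) * (q : ℝ) ^ 3 := by ring
      _ ≤ Real.exp (128 * (T ^ 2 + 1)) * Real.exp (3 * q) :=
          mul_le_mul (th_le_exp _) h3 (by positivity) (Real.exp_pos _).le
      _ ≤ _ := by rw [← Real.exp_add]; exact Real.exp_le_exp.2 (by nlinarith)
  refine ⟨?_, hii, ?_⟩
  · refine le_trans ?_ hii
    push_cast
    have : (1 : ℝ) ≤ (q : ℝ) ^ 3 := one_le_pow₀ hq'
    nlinarith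
  · push_cast
    have c1 : (q : ℝ) ^ 3 * T / phi 1 ≤ Real.exp (3 * q + T / phi 1) := by
      rw [mul_div_assoc, Real.exp_add]
      exact mul_le_mul h3 (th_le_exp _) a1 (Real.exp_pos _).le
    have c2 : ((q : ℝ) ^ 3 * T / phi 1) ^ (q ^ 3) ≤ Real.exp ((q : ℝ) ^ 3 * (3 * q + T / phi 1)) := by
      have := pow_le_pow_left₀ (by positivity) c1 (q ^ 3)
      rw [← Real.exp_nat_mul] at this
      simpa using this
    have c3 : 8 * Real.exp 3 * (2 * Bn / c₀ * (q : ℝ) ^ 3) * ((q : ℝ) ^ 3 * T / phi 1) ^ (q ^ 3) ≤ s := by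
      refine le_trans ?_ hs
      calc 8 * Real.exp 3 * (2 * Bn / c₀ * (q : ℝ) ^ 3) * ((q : ℝ) ^ 3 * T / phi 1) ^ (q ^ 3)
          ≤ Real.exp 8 * Real.exp 3 * (Real.exp (2 * Bn / c₀) * Real.exp (3 * q)) *
            Real.exp ((q : ℝ) ^ 3 * (3 * q + T / phi 1)) := by
            gcongr
            · exact th_le_exp _
            · exact th_le_exp _
        _ ≤ _ := by
            rw [← Real.exp_add, ← Real.exp_add, ← Real.exp_add, ← Real.exp_add]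
            exact Real.exp_le_exp.2 (by nlinarith)
    have c4 : (8 * Real.exp 3 * (2 * Bn / c₀ * (q : ℝ) ^ 3) * ((q : ℝ) ^ 3 * T / phi 1) ^ (q ^ 3)) *
        (c₀ / (2 * (Bn * q ^ 3)) * Real.exp (-3) * (phi 1 / ((q : ℝ) ^ 3 * T)) ^ (q ^ 3)) = 8 := by
      have d1 : ((q : ℝ) ^ 3 * T / phi 1) ^ (q ^ 3) * (phi 1 / ((q : ℝ) ^ 3 * T)) ^ (q ^ 3) = 1 := by
        rw [← mul_pow, show (q : ℝ) ^ 3 * T / phi 1 * (phi 1 / ((q : ℝ) ^ 3 * T)) = 1 by field_simp,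
          one_pow]
      have d2 : Real.exp 3 * Real.exp (-3) = 1 := by rw [← Real.exp_add]; simp
      have d3 : 2 * Bn / c₀ * (q : ℝ) ^ 3 * (c₀ / (2 * (Bn * q ^ 3))) = 1 := by field_simp
      calc _ = 8 * (Real.exp 3 * Real.exp (-3)) *
            (2 * Bn / c₀ * (q : ℝ) ^ 3 * (c₀ / (2 * (Bn * q ^ 3)))) *
            (((q : ℝ) ^ 3 * T / phi 1) ^ (q ^ 3) * (phi 1 / ((q : ℝ) ^ 3 * T)) ^ (q ^ 3)) := by ring
        _ = 8 := by rw [d1, d2, d3]; norm_num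
    rw [← c4]
    exact mul_le_mul_of_nonneg_right c3 (by positivity)

set_option maxHeartbeats 1000000 in
/-- `c₀, C₁` from `shell_mass`, `n = card J`, `ℓ = (k + k₀)³`, `ι = Fin ℓ`.  Windows
`W m = K ∩ {ρ m ² ≤ x·x ≤ ρ (m+1) ²}`, `ρ m = √(n/2) (1 + 1/ℓ)^m`, `m < m₁ ≤ C' ℓ` cover the shell of
`shell_mass` (and `ρ m ≤ C'' √(n/2)` for `m ≤ m₁`).  Call `m` heavy if `vl (W m) ≥ β vl K`,
`β = c₀ / (2 m₁)`; the heavy windows have total mass `≥ c₀/2`.  Let `τ₁ ≤ τ₃` be the `ρ m` of the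
smallest and largest heavy `m`, `τ₂ = (τ₁+τ₃)/2`, `ε = τ₁/ℓ`, boxes `[τ_i, τ_i + ε]^ℓ`.
For `r, s ∈ [τ, τ (1+1/ℓ)]`, `phi (s/r)/r ≥ phi 1 * e^{-3/ℓ} / τ`, so
`pbar K (W m_i) ≥ β e^{-3} (ε phi 1 / τ_i)^ℓ =: v_i` (`i = 1, 3`); for all `r > 0`, `s ≥ τ₂`,
`phi (s/r)/r ≤ phi 1 / τ₂` (`t phi t ≤ phi 1`), so `pbar K (K \ {0}) ≤ (ε phi 1 / τ₂)^ℓ =: v₂`.
`pbox_lower` (`R² = n/2`, `ρ = 2 n^{-1/4}`, `T = 2 C''`; `v_i ≥ exp (-C ℓ log ℓ)`, so both failure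
probabilities are `< 1/4` when `n ≥ exp (C (k+1)^4)`) and `pbox_upper` give one `Γ`; `bm_mid` for
the convex sets `K ∩ Γ⁻¹ box` gives `(10 v₂)² ≥ v₁ v₃ / 4`, i.e. `(τ₂² / (τ₁ τ₃))^ℓ ≤ 400 e^6 / β²`.
With `a = (τ₃ - τ₁)/τ₁ ≤ C''`: `τ₂²/(τ₁τ₃) = 1 + a²/(4(1+a))`, so `ℓ a² ≤ C log ℓ` and `a ≤ 1/(3k)`
once `k₀` is large.  Take `r₀ = τ₁`, `c₁ = c₀/2`. -/
theorem thin_shell : ∃ c₁ C : ℝ, 0 < c₁ ∧ ∀ k : ℕ, 1 ≤ k → ∀ (J : Type) [Fintype J]
    (K : Set (J → ℝ)), Body K → Iso K → Real.exp (C * (k + 1) ^ 4) ≤ Fintype.card J →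
      ∃ r₀ : ℝ, 0 < r₀ ∧ (Fintype.card J : ℝ) / 2 ≤ r₀ ^ 2 ∧
        c₁ * vl K ≤ vl (K ∩ {x | r₀ ^ 2 ≤ x ⬝ᵥ x ∧ x ⬝ᵥ x ≤ (r₀ * (1 + 1 / k)) ^ 2}) := by
  obtain ⟨c₀, C₁, hc₀, hC₁, hshell⟩ := shell_mass
  obtain ⟨Bn, hBn⟩ := exists_nat_ge (2 * C₁)
  have hB1 : (1 : ℝ) ≤ Bn := by linarith
  have hB0 : (0 : ℝ) < Bn := by linarith
  set T : ℝ := 1 + Bn with hTdef
  have hT : 1 ≤ T := by linarith
  obtain ⟨k₀, hk₀, hnum⟩ := th_num1 (E := 1600 * Real.exp 6 * (Bn : ℝ) ^ 2 / c₀ ^ 2) (A := 72 * T)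
    (by positivity) (by positivity)
  set D : ℝ := 128 * (T ^ 2 + 1) + 20 + 2 * Bn / c₀ + T / phi 1 with hD
  have hD0 : 0 ≤ D := by have := phi_pos 1; positivity
  refine ⟨c₀ / 2, 4 * D * (k₀ : ℝ) ^ 4, by positivity, ?_⟩
  intro k hk J _ K hK hI hn
  set q : ℕ := k + k₀ with hq
  set l : ℕ := q ^ 3 with hl
  have hq1 : 1 ≤ q := by omega
  have hl1 : 1 ≤ l := Nat.one_le_pow _ _ hq1
  have hl' : (1 : ℝ) ≤ l := by exact_mod_cast hl1
  have hl0 : (0 : ℝ) < l := by linarith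
  have hk' : (1 : ℝ) ≤ k := by exact_mod_cast hk
  have hk₀' : (3 : ℝ) ≤ k₀ := by exact_mod_cast hk₀
  have hn0 : (0 : ℝ) < Fintype.card J := (Real.exp_pos _).trans_le hn
  have hJ : 0 < Fintype.card J := by exact_mod_cast hn0
  set s : ℝ := Real.sqrt (Real.sqrt (Fintype.card J)) with hsdef
  have hs4 : (Fintype.card J : ℝ) = s ^ 4 := by
    rw [show s ^ 4 = (s ^ 2) ^ 2 by ring, hsdef, Real.sq_sqrt (Real.sqrt_nonneg _),
      Real.sq_sqrt hn0.le]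
  have hsexp : Real.exp (D * (q : ℝ) ^ 4) ≤ s := by
    refine le_of_pow_le_pow_left₀ (n := 4) (by norm_num) (Real.sqrt_nonneg _) ?_
    rw [← hs4, ← Real.exp_nat_mul]
    refine le_trans (Real.exp_le_exp.2 ?_) hn
    have h1 : (q : ℝ) ≤ k₀ * (k + 1) := by rw [hq]; push_cast; nlinarith
    have h2 : (q : ℝ) ^ 4 ≤ (k₀ * (k + 1)) ^ 4 := pow_le_pow_left₀ (by positivity) h1 4
    have h3 := mul_le_mul_of_nonneg_left h2 hD0
    rw [mul_pow] at h3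
    push_cast
    linarith
  obtain ⟨hs, hs1, hs2⟩ := th_sizes hq1 hT hc₀ hB0 hsexp
  set R : ℝ := Real.sqrt (Fintype.card J / 2) with hRdef
  have hR : 0 < R := Real.sqrt_pos.2 (by positivity)
  have hR2 : R ^ 2 = Fintype.card J / 2 := Real.sq_sqrt (by positivity)
  set ε := R / l with hε
  have hε0 : 0 < ε := by positivity
  set β : ℝ := c₀ / (2 * (Bn * (q : ℝ) ^ 3)) with hβ
  have hβ0 : 0 < β := by positivity
  have hv := sm_vl_pos hK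
  let τ : ℕ → ℝ := fun m => R + m * ε
  have hτR : ∀ m, R ≤ τ m := fun m => le_add_of_nonneg_right (by positivity)
  have hτmono : ∀ {m m' : ℕ}, m ≤ m' → τ m ≤ τ m' := fun {m m'} h => by
    have : (m : ℝ) ≤ m' := by exact_mod_cast h
    simp only [τ]; nlinarith
  have hτT : ∀ m < Bn * l, τ m + ε ≤ T * R := fun m hm => by
    have h1 : (m : ℝ) + 1 ≤ Bn * l := by exact_mod_cast hm
    have h2 : ((m : ℝ) + 1) * ε ≤ Bn * l * ε := mul_le_mul_of_nonneg_right h1 hε0.le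
    have h3 : (Bn : ℝ) * l * ε = Bn * R := by rw [hε]; field_simp
    simp only [τ, hTdef]; nlinarith
  set Hs := (range (Bn * l)).filter fun m => β * vl K ≤ vl (thW K (τ m) ε) with hHs
  have hfin : ∀ S : Set (J → ℝ), S ⊆ K → volume S ≠ ⊤ := fun S h =>
    ((measure_mono h).trans_lt hK.1.measure_lt_top).ne
  have hcover : ∀ Z : Set (J → ℝ), Z ⊆ K → (∀ m ∈ Hs, thW K (τ m) ε ⊆ Z) → c₀ / 2 * vl K ≤ vl Z := by
    intro Z hZ hZH
    have hsub : K ∩ {x | (Fintype.card J : ℝ) / 2 ≤ x ⬝ᵥ x ∧ x ⬝ᵥ x ≤ C₁ * Fintype.card J} ⊆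
        Z ∪ ⋃ m ∈ range (Bn * l) \ Hs, thW K (τ m) ε := by
      rintro x ⟨hx, h1, h2⟩
      set r := Real.sqrt (x ⬝ᵥ x) with hr
      have hr1 : R ≤ r := Real.sqrt_le_sqrt h1
      have hr2 : r ≤ Bn * R := by
        refine Real.sqrt_le_iff.2 ⟨by positivity, ?_⟩
        rw [mul_pow, hR2]
        have b1 : 2 * C₁ ≤ (Bn : ℝ) ^ 2 := by nlinarith
        have b2 := mul_le_mul_of_nonneg_right b1 hn0.le
        linarith
      set m := ⌊(r - R) / ε⌋₊ with hm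
      have hm0 : 0 ≤ (r - R) / ε := div_nonneg (by linarith) hε0.le
      have hm1 : (m : ℝ) * ε ≤ r - R := by
        rw [← le_div_iff₀ hε0]; exact Nat.floor_le hm0
      have hm2 : r - R < (m + 1) * ε := by
        rw [← div_lt_iff₀ hε0]; exact Nat.lt_floor_add_one _
      have hm3 : m < Bn * l := by
        have h3 : (Bn : ℝ) * l * ε = Bn * R := by rw [hε]; field_simp
        have : (m : ℝ) * ε < Bn * l * ε := by linarith
        exact_mod_cast lt_of_mul_lt_mul_right this hε0.le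
      have hxW : x ∈ thW K (τ m) ε := ⟨hx, by simp only [τ]; linarith, by simp only [τ]; linarith⟩
      by_cases hH : m ∈ Hs
      · exact Or.inl (hZH m hH hxW)
      · exact Or.inr (Set.mem_biUnion (Finset.mem_coe.2 (mem_sdiff.2 ⟨mem_range.2 hm3, hH⟩)) hxW)
    have hU : (⋃ m ∈ range (Bn * l) \ Hs, thW K (τ m) ε) ⊆ K :=
      Set.iUnion₂_subset fun _ _ => Set.inter_subset_left
    have h1 : vl (K ∩ {x | (Fintype.card J : ℝ) / 2 ≤ x ⬝ᵥ x ∧ x ⬝ᵥ x ≤ C₁ * Fintype.card J}) ≤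
        vl Z + ∑ m ∈ range (Bn * l) \ Hs, vl (thW K (τ m) ε) :=
      (measureReal_mono hsub (hfin _ (Set.union_subset hZ hU))).trans
        ((measureReal_union_le _ _).trans
          (add_le_add le_rfl (measureReal_biUnion_finset_le _ _)))
    have h2 : ∑ m ∈ range (Bn * l) \ Hs, vl (thW K (τ m) ε) ≤ (Bn * l : ℕ) * (β * vl K) := by
      refine (sum_le_card_nsmul _ _ (β * vl K) fun m hm => ?_).trans ?_
      · rw [Finset.mem_sdiff, hHs, mem_filter] at hm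
        by_contra hc
        exact hm.2 ⟨hm.1, (not_le.1 hc).le⟩
      · rw [nsmul_eq_mul]
        refine mul_le_mul_of_nonneg_right ?_ (by positivity)
        exact_mod_cast (card_le_card sdiff_subset).trans (card_range _).le
    have h3 : ((Bn * l : ℕ) : ℝ) * (β * vl K) = c₀ / 2 * vl K := by
      rw [hβ, hl]; push_cast; field_simp
    have h4 := hshell J K hK hI hJ
    linarith
  have hne : Hs.Nonempty := by
    by_contra hc
    rw [not_nonempty_iff_eq_empty] at hc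
    have := hcover ∅ (Set.empty_subset _) (by simp [hc])
    simp only [vl, measure_empty, ENNReal.toReal_zero] at this
    have h2 : 0 < c₀ / 2 * vl K := by positivity
    simp only [vl] at h2
    linarith
  have h1H := mem_filter.1 (Hs.min'_mem hne)
  have h3H := mem_filter.1 (Hs.max'_mem hne)
  set m₁ := Hs.min' hne
  set m₃ := Hs.max' hne
  have hthree := th_three hK hI hl1 hR hs (by rw [hR2, hs4]) hs4 hβ0 (hτR m₁) (hτR m₃)
    (hτT _ (mem_range.1 h1H.1)) (hτT _ (mem_range.1 h3H.1)) h1H.2 h3H.2 hs1 hs2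
  have hτ1 : 0 < τ m₁ := hR.trans_le (hτR m₁)
  have hgap := th_gap (k := k) (q := q) (T := T) hk (by omega) hτ1 hT
    (by have := hτT _ (mem_range.1 h3H.1); have := hτR m₁; nlinarith) hc₀ hB0 hβ
    (hnum q (by rw [hq]; push_cast; linarith)) hthree
  refine ⟨τ m₁, hτ1, ?_, hcover _ Set.inter_subset_left fun m hm => ?_⟩
  · rw [← hR2]; exact pow_le_pow_left₀ hR.le (hτR m₁) 2
  · rintro x ⟨hx, h1, h2⟩
    have a1 : τ m₁ ≤ τ m := hτmono (Hs.min'_le m hm)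
    have a3 : τ m ≤ τ m₃ := hτmono (Hs.le_max' m hm)
    have hx2 := Real.sq_sqrt (th_dot_nonneg x)
    have hlk : 3 * (k : ℝ) ≤ l := by
      have b1 : (k : ℝ) ≤ q := by rw [hq]; push_cast; linarith
      have b2 : (3 : ℝ) ≤ q := by rw [hq]; push_cast; linarith
      have b3 : (3 : ℝ) ≤ (q : ℝ) ^ 2 := by nlinarith
      have b4 := mul_le_mul b3 b1 (by linarith) (by positivity)
      rw [hl]; push_cast; linarith
    have a4 : ε ≤ τ m₁ * (1 / (3 * k)) := by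
      rw [hε, mul_one_div]
      exact div_le_div₀ hτ1.le (hτR m₁) (by positivity) hlk
    have a5 : τ m₁ * (1 + 1 / (3 * k)) + τ m₁ * (1 / (3 * k)) ≤ τ m₁ * (1 + 1 / k) := by
      rw [← mul_add]
      refine mul_le_mul_of_nonneg_left ?_ hτ1.le
      have : 1 / (3 * (k : ℝ)) + 1 / (3 * k) ≤ 1 / k := by
        rw [← add_div, div_le_div_iff₀ (by positivity) (by positivity)]; linarith
      linarith
    refine ⟨hx, ?_, ?_⟩
    · rw [← hx2]; exact pow_le_pow_left₀ hτ1.le (a1.trans h1) 2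
    · rw [← hx2]; exact pow_le_pow_left₀ (Real.sqrt_nonneg _) (by linarith) 2

end Crest.Agent.R225
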