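import Crest.Agent.R225.USecond
import Crest.Agent.R225.UTail
import Crest.Agent.R225.UVAna

/-! Auxiliary lemmas for the thin-shell estimate. -/

set_option autoImplicit false
open MeasureTheory Finset Classical Filter
open scoped Pointwise ENNReal

noncomputable section
namespace Crest.Agent.R225

theorem th_cont (r : ℝ) : Continuous fun s : ℝ => phi (s / r) / r := by
  unfold phi; fun_prop

theorem th_gint_nonneg {r : ℝ} (hr : 0 ≤ r) (a b : ℝ) : 0 ≤ gint r a b :=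
  setIntegral_nonneg measurableSet_Icc fun s _ => div_nonneg (phi_pos _).le hr

theorem th_gint_ge {r a ε lo : ℝ} (hε : 0 ≤ ε) (h : ∀ s ∈ Set.Icc a (a + ε), lo ≤ phi (s / r) / r) :
    ε * lo ≤ gint r a (a + ε) := by
  have h1 : ∫ _ in Set.Icc a (a + ε), lo ≤ gint r a (a + ε) :=
    setIntegral_mono_on (integrableOn_const (by simp)) ((th_cont r).integrableOn_Icc)
      measurableSet_Icc h
  rw [setIntegral_const] at h1
  simpa [Measure.real, hε] using h1

theorem th_gint_le {r a ε hi : ℝ} (hε : 0 ≤ ε) (h : ∀ s ∈ Set.Icc a (a + ε), phi (s / r) / r ≤ hi) :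
    gint r a (a + ε) ≤ ε * hi := by
  have h1 : gint r a (a + ε) ≤ ∫ _ in Set.Icc a (a + ε), hi :=
    setIntegral_mono_on ((th_cont r).integrableOn_Icc) (integrableOn_const (by simp))
      measurableSet_Icc h
  rw [setIntegral_const] at h1
  simpa [Measure.real, hε] using h1

theorem th_mul_phi_le (t : ℝ) : t * phi t ≤ phi 1 := by
  unfold phi
  rw [← mul_div_assoc]
  refine div_le_div_of_nonneg_right ?_ (Real.sqrt_nonneg _)
  have h1 := Real.add_one_le_exp ((t ^ 2 - 1) / 2)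
  have h2 : t ≤ Real.exp ((t ^ 2 - 1) / 2) := by nlinarith [sq_nonneg (t - 1)]
  calc t * Real.exp (-(t ^ 2 / 2)) ≤ Real.exp ((t ^ 2 - 1) / 2) * Real.exp (-(t ^ 2 / 2)) :=
        mul_le_mul_of_nonneg_right h2 (Real.exp_pos _).le
    _ = Real.exp (-(1 ^ 2 / 2)) := by rw [← Real.exp_add]; congr 1; ring

theorem th_upper {r τ ε : ℝ} (hr : 0 < r) (hτ : 0 < τ) (hε : 0 ≤ ε) :
    gint r τ (τ + ε) ≤ ε * (phi 1 / τ) := by
  refine th_gint_le hε fun s hs => ?_
  have hs0 : 0 < s := hτ.trans_le hs.1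
  have h1 := th_mul_phi_le (s / r)
  have h2 : phi (s / r) / r = (s / r * phi (s / r)) / s := by field_simp
  rw [h2]
  calc (s / r * phi (s / r)) / s ≤ phi 1 / s := div_le_div_of_nonneg_right h1 hs0.le
    _ ≤ phi 1 / τ := div_le_div_of_nonneg_left (phi_pos _).le hτ hs.1

theorem th_lower {r τ ε L : ℝ} (hτ : 0 < τ) (hL : 1 ≤ L) (hε : 0 ≤ ε) (hεL : ε ≤ τ / L)
    (h1 : τ ≤ r) (h2 : r ≤ τ + ε) :
    ε * (Real.exp (-(3 / L)) * (phi 1 / τ)) ≤ gint r τ (τ + ε) := by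
  refine th_gint_ge hε fun s hs => ?_
  have hr : 0 < r := hτ.trans_le h1
  have hL0 : 0 < L := by linarith
  set u := 1 / L with hu
  have hu0 : 0 < u := by positivity
  have hu1 : u ≤ 1 := by rw [hu, div_le_one hL0]; exact hL
  have hε' : ε ≤ τ * u := by rw [hu, mul_one_div]; exact hεL
  have hs0 : 0 < s := hτ.trans_le hs.1
  have hsr : s / r ≤ 1 + u := by
    rw [div_le_iff₀ hr]; nlinarith [hs.2]
  have e1 : phi (1 + u) ≤ phi (s / r) := phi_anti (by
    rw [abs_of_pos (div_pos hs0 hr), abs_of_pos (by linarith)]; exact hsr)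
  have e2 : Real.exp (-(2 * u)) * phi 1 ≤ phi (1 + u) := by
    unfold phi
    rw [← mul_div_assoc, ← Real.exp_add]
    refine div_le_div_of_nonneg_right (Real.exp_le_exp.2 ?_) (Real.sqrt_nonneg _)
    nlinarith
  have e3 : Real.exp (-u) / τ ≤ 1 / r := by
    rw [div_le_div_iff₀ hτ hr, one_mul]
    have h3 : r ≤ τ * Real.exp u := by
      have := Real.add_one_le_exp u
      nlinarith
    calc Real.exp (-u) * r ≤ Real.exp (-u) * (τ * Real.exp u) :=
          mul_le_mul_of_nonneg_left h3 (Real.exp_pos _).le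
      _ = τ := by rw [mul_left_comm, ← Real.exp_add]; simp
  have e4 : Real.exp (-(3 / L)) = Real.exp (-(2 * u)) * Real.exp (-u) := by
    rw [← Real.exp_add]; congr 1; rw [hu]; ring
  have hp := phi_pos 1
  calc Real.exp (-(3 / L)) * (phi 1 / τ)
      = (Real.exp (-(2 * u)) * phi 1) * (Real.exp (-u) / τ) := by rw [e4]; ring
    _ ≤ phi (s / r) * (1 / r) :=
        mul_le_mul (e2.trans e1) e3 (by positivity) (phi_pos _).le
    _ = phi (s / r) / r := by ring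

variable {J ι : Type} [Fintype J] [Fintype ι]

theorem th_integrable {K KI : Set (J → ℝ)} (hK : Body K) (hKI : MeasurableSet KI) (hsub : KI ⊆ K)
    (h0 : ∀ x ∈ KI, x ≠ 0) (a b : ι → ℝ) :
    IntegrableOn (fun x : J → ℝ => ∏ i, gint (Real.sqrt (x ⬝ᵥ x)) (a i) (b i)) KI := by
  have := sm_finite hK hsub
  have h1 := sm_integrable (gmat ι J) (volume.restrict KI) (smA_meas (J := J) a b)
  exact IntegrableOn.congr_fun h1 (fun x hx => sm_one (h0 x hx) a b) hKI

theorem th_vl_mono {K S : Set (J → ℝ)} (hK : IsCompact K) (h : S ⊆ K) : vl S ≤ vl K :=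
  ENNReal.toReal_mono hK.measure_lt_top.ne (measure_mono h)

theorem th_pbar_ge {K KI : Set (J → ℝ)} (hK : Body K) (hKI : MeasurableSet KI) (hsub : KI ⊆ K)
    (h0 : ∀ x ∈ KI, x ≠ 0) (a b : ι → ℝ) {lo β : ℝ} (hlo : 0 ≤ lo) (hβ : β * vl K ≤ vl KI)
    (h : ∀ x ∈ KI, ∀ i, lo ≤ gint (Real.sqrt (x ⬝ᵥ x)) (a i) (b i)) :
    β * lo ^ Fintype.card ι ≤ pbar K KI a b := by
  have hv := sm_vl_pos hK
  have hfin : volume KI ≠ ⊤ := ((measure_mono hsub).trans_lt hK.1.measure_lt_top).ne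
  have h1 : ∫ _ in KI, lo ^ Fintype.card ι ≤
      ∫ x in KI, ∏ i, gint (Real.sqrt (x ⬝ᵥ x)) (a i) (b i) := by
    refine setIntegral_mono_on (integrableOn_const hfin) (th_integrable hK hKI hsub h0 a b) hKI
      fun x hx => ?_
    rw [← card_univ, ← prod_const]
    exact prod_le_prod (fun _ _ => hlo) fun i _ => h x hx i
  rw [setIntegral_const, smul_eq_mul] at h1
  unfold pbar
  rw [le_div_iff₀ hv]
  have h2 : β * vl K * lo ^ Fintype.card ι ≤ vl KI * lo ^ Fintype.card ι :=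
    mul_le_mul_of_nonneg_right hβ (pow_nonneg hlo _)
  calc β * lo ^ Fintype.card ι * vl K = β * vl K * lo ^ Fintype.card ι := by ring
    _ ≤ vl KI * lo ^ Fintype.card ι := h2
    _ ≤ _ := h1

theorem th_pbar_le {K KI : Set (J → ℝ)} (hK : Body K) (hKI : MeasurableSet KI) (hsub : KI ⊆ K)
    (h0 : ∀ x ∈ KI, x ≠ 0) (a b : ι → ℝ) {hi : ℝ} (hhi : 0 ≤ hi)
    (h : ∀ x ∈ KI, ∀ i, gint (Real.sqrt (x ⬝ᵥ x)) (a i) (b i) ≤ hi) :
    pbar K KI a b ≤ hi ^ Fintype.card ι := by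
  have hv := sm_vl_pos hK
  have hfin : volume KI ≠ ⊤ := ((measure_mono hsub).trans_lt hK.1.measure_lt_top).ne
  have h1 : ∫ x in KI, ∏ i, gint (Real.sqrt (x ⬝ᵥ x)) (a i) (b i) ≤
      ∫ _ in KI, hi ^ Fintype.card ι := by
    refine setIntegral_mono_on (th_integrable hK hKI hsub h0 a b) (integrableOn_const hfin) hKI
      fun x hx => ?_
    rw [← card_univ, ← prod_const]
    exact prod_le_prod (fun i _ => th_gint_nonneg (Real.sqrt_nonneg _) _ _) fun i _ => h x hx i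
  rw [setIntegral_const, smul_eq_mul] at h1
  unfold pbar
  rw [div_le_iff₀ hv]
  have h2 : vl KI * hi ^ Fintype.card ι ≤ vl K * hi ^ Fintype.card ι :=
    mul_le_mul_of_nonneg_right (th_vl_mono hK.1 hsub) (pow_nonneg hhi _)
  calc _ ≤ vl KI * hi ^ Fintype.card ι := h1
    _ ≤ vl K * hi ^ Fintype.card ι := h2
    _ = _ := by ring

/-- three events of total probability `< 1` can be avoided simultaneously -/
theorem th_avoid {Ω : Type} [MeasurableSpace Ω] (P : Measure Ω) [IsProbabilityMeasure P]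
    (A B C : Set Ω) (h : (P A).toReal + (P B).toReal + (P C).toReal < 1) :
    ∃ ω, ω ∉ A ∧ ω ∉ B ∧ ω ∉ C := by
  by_contra hc
  push Not at hc
  have hsub : (Set.univ : Set Ω) ⊆ A ∪ B ∪ C := by
    intro ω _
    by_cases h1 : ω ∈ A
    · exact Or.inl (Or.inl h1)
    · by_cases h2 : ω ∈ B
      · exact Or.inl (Or.inr h2)
      · exact Or.inr (hc ω h1 h2)
  have h1 : P.real Set.univ ≤ P.real (A ∪ B ∪ C) := measureReal_mono hsub
  have h2 : P.real (A ∪ B ∪ C) ≤ P.real (A ∪ B) + P.real C := measureReal_union_le _ _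
  have h3 : P.real (A ∪ B) ≤ P.real A + P.real B := measureReal_union_le _ _
  rw [probReal_univ] at h1
  simp only [Measure.real] at h1 h2 h3
  linarith

/-- the window `τ ≤ |x| ≤ τ + ε` -/
def thW (K : Set (J → ℝ)) (τ ε : ℝ) : Set (J → ℝ) :=
  K ∩ {x | τ ≤ Real.sqrt (x ⬝ᵥ x) ∧ Real.sqrt (x ⬝ᵥ x) ≤ τ + ε}

theorem th_cont_dot : Continuous fun x : J → ℝ => x ⬝ᵥ x := by
  unfold dotProduct; fun_prop

theorem th_dot_nonneg (x : J → ℝ) : 0 ≤ x ⬝ᵥ x :=
  Finset.sum_nonneg fun _ _ => mul_self_nonneg _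

theorem th_alg {β w a b E E' q : ℝ} (hw : 0 < w) (hE : 0 < E') (hEE : E * E * E' = 1)
    (hq : a * b = q * w ^ 2) (h : (β * E * a / 2) * (β * E * b / 2) ≤ (10 * w) ^ 2) :
    β ^ 2 * q ≤ 400 * E' := by
  have h1 : (β * E * a / 2) * (β * E * b / 2) = β ^ 2 * q * (E * E) * w ^ 2 / 4 := by
    have : (β * E * a / 2) * (β * E * b / 2) = β ^ 2 * (E * E) * (a * b) / 4 := by ring
    rw [this, hq]; ring
  have h2 : β ^ 2 * q * (E * E) * w ^ 2 ≤ 400 * w ^ 2 := by rw [h1] at h; linarith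
  have h3 := le_of_mul_le_mul_right h2 (pow_pos hw 2)
  have := mul_le_mul_of_nonneg_right h3 hE.le
  rwa [mul_assoc, hEE, mul_one] at this

theorem thW_meas {K : Set (J → ℝ)} (hK : IsCompact K) (τ ε : ℝ) : MeasurableSet (thW K τ ε) := by
  have hc : Continuous fun x : J → ℝ => Real.sqrt (x ⬝ᵥ x) := th_cont_dot.sqrt
  exact hK.measurableSet.inter ((isClosed_le continuous_const hc).inter
    (isClosed_le hc continuous_const)).measurableSet

theorem th_box_meas {K : Set (J → ℝ)} (hK : IsCompact K) (a b : ι → ℝ) (Γ : ι → J → ℝ) :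
    MeasurableSet (K ∩ {x | ∀ i, Γ i ⬝ᵥ x ∈ Set.Icc (a i) (b i)}) :=
  hK.measurableSet.inter (measurable_prodMk_left (smA_meas (J := J) a b))

theorem th_pbox_mono {K KI : Set (J → ℝ)} (hK : Body K) (hsub : KI ⊆ K) (a b : ι → ℝ)
    (Γ : ι → J → ℝ) : pbox K KI a b Γ ≤ pbox K K a b Γ := by
  unfold pbox
  refine div_le_div_of_nonneg_right ?_ (sm_vl_pos hK).le
  exact ENNReal.toReal_mono ((measure_mono Set.inter_subset_left).trans_lt
    hK.1.measure_lt_top).ne (measure_mono (Set.inter_subset_inter_left _ hsub))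

theorem th_pbox_diff {K : Set (J → ℝ)} (hJ : 0 < Fintype.card J) (a b : ι → ℝ) (Γ : ι → J → ℝ) :
    pbox K (K \ {0}) a b Γ = pbox K K a b Γ := by
  unfold pbox vl
  haveI : Nonempty J := Fintype.card_pos_iff.1 hJ
  congr 2
  rw [Set.inter_comm (K \ {0}), ← Set.inter_diff_assoc, Set.inter_comm,
    measure_diff_null (measure_singleton _)]

theorem th_logconc {K : Set (J → ℝ)} (hK : Body K) (τ₁ τ₃ ε : ℝ) (Γ : ι → J → ℝ) :
    pbox K K (fun _ => τ₁) (fun _ => τ₁ + ε) Γ * pbox K K (fun _ => τ₃) (fun _ => τ₃ + ε) Γ ≤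
      pbox K K (fun _ : ι => (τ₁ + τ₃) / 2) (fun _ => (τ₁ + τ₃) / 2 + ε) Γ ^ 2 := by
  have h := bm_mid (th_box_meas hK.1 (fun _ : ι => τ₁) (fun _ => τ₁ + ε) Γ)
    (th_box_meas hK.1 (fun _ : ι => τ₃) (fun _ => τ₃ + ε) Γ)
    (th_box_meas hK.1 (fun _ : ι => (τ₁ + τ₃) / 2) (fun _ => (τ₁ + τ₃) / 2 + ε) Γ) (by
      rintro x ⟨hx, hx'⟩ y ⟨hy, hy'⟩
      refine ⟨hK.2.1 hx hy (by norm_num) (by norm_num) (by norm_num), fun i => ?_⟩
      have h1 := hx' i
      have h2 := hy' i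
      simp only [Set.mem_Icc, dotProduct_add, dotProduct_smul, smul_eq_mul] at h1 h2 ⊢
      constructor <;> linarith [h1.1, h1.2, h2.1, h2.2])
  have hfin : volume (K ∩ {x | ∀ i : ι, Γ i ⬝ᵥ x ∈
      Set.Icc ((τ₁ + τ₃) / 2) ((τ₁ + τ₃) / 2 + ε)}) ^ 2 ≠ ⊤ :=
    ENNReal.pow_ne_top ((measure_mono Set.inter_subset_left).trans_lt hK.1.measure_lt_top).ne
  have h2 := ENNReal.toReal_mono hfin h
  rw [ENNReal.toReal_mul, ENNReal.toReal_pow] at h2
  unfold pbox
  rw [div_mul_div_comm, div_pow, sq (vl K)]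
  exact div_le_div_of_nonneg_right h2 (mul_pos (sm_vl_pos hK) (sm_vl_pos hK)).le

set_option maxHeartbeats 1000000 in
/-- the three-box estimate -/
theorem th_three {K : Set (J → ℝ)} (hK : Body K) (hI : Iso K) {l : ℕ} (hl : 1 ≤ l)
    {R T s β τ₁ τ₃ : ℝ} (hR : 0 < R) (hs : 4 ≤ s) (hRs : R ^ 2 = s ^ 4 / 2)
    (hn : (Fintype.card J : ℝ) = s ^ 4) (hβ : 0 < β) (h1 : R ≤ τ₁) (h3 : R ≤ τ₃)
    (h1' : τ₁ + R / l ≤ T * R) (h3' : τ₃ + R / l ≤ T * R)
    (hW1 : β * vl K ≤ vl (thW K τ₁ (R / l))) (hW3 : β * vl K ≤ vl (thW K τ₃ (R / l)))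
    (hs1 : 128 * l * (T ^ 2 + 1) ≤ s) (hs2 : 8 ≤ s * (β * Real.exp (-3) * (phi 1 / (l * T)) ^ l)) :
    β ^ 2 * (((τ₁ + τ₃) / 2) ^ 2 / (τ₁ * τ₃)) ^ l ≤ 400 * Real.exp 6 := by
  have hl' : (1 : ℝ) ≤ l := by exact_mod_cast hl
  have hl0 : (0 : ℝ) < l := by linarith
  have hs0 : 0 < s := by linarith
  set ε := R / l with hε
  have hε0 : 0 < ε := by positivity
  have hp := phi_pos 1
  have hτ₁ : 0 < τ₁ := hR.trans_le h1
  have hτ₃ : 0 < τ₃ := hR.trans_le h3
  have hT : 0 < T := by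
    by_contra hc
    nlinarith [not_lt.1 hc]
  set τ₂ := (τ₁ + τ₃) / 2 with hτ₂def
  have hτ₂ : 0 < τ₂ := by positivity
  have hJ : 0 < Fintype.card J := by
    have : (0 : ℝ) < Fintype.card J := by rw [hn]; positivity
    exact_mod_cast this
  -- lower bounds
  have key : ∀ τ : ℝ, R ≤ τ → τ + ε ≤ T * R → β * vl K ≤ vl (thW K τ ε) →
      (gmat (Fin l) J {Γ | pbox K (thW K τ ε) (fun _ => τ) (fun _ => τ + ε) Γ <
        β * Real.exp (-3) * (ε * (phi 1 / τ)) ^ l / 2}).toReal ≤ 3 / 16 := by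
    intro τ hτ hτ' hW
    have hτ0 : 0 < τ := hR.trans_le hτ
    have hKR : ∀ x ∈ thW K τ ε, R ^ 2 ≤ x ⬝ᵥ x := by
      rintro x ⟨_, hx, _⟩
      have := Real.sq_sqrt (th_dot_nonneg x)
      nlinarith [hτ.trans hx]
    have h0 : ∀ x ∈ thW K τ ε, x ≠ 0 := by
      rintro x hx rfl
      have := hKR _ hx
      simp only [dotProduct_zero] at this
      nlinarith
    have hv : 0 < β * Real.exp (-3) * (ε * (phi 1 / τ)) ^ l := by positivity
    have hbar : β * Real.exp (-3) * (ε * (phi 1 / τ)) ^ l ≤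
        pbar K (thW K τ ε) (fun _ : Fin l => τ) (fun _ => τ + ε) := by
      have := th_pbar_ge hK (thW_meas hK.1 τ ε) Set.inter_subset_left h0 (fun _ : Fin l => τ)
        (fun _ => τ + ε) (lo := ε * (Real.exp (-(3 / l)) * (phi 1 / τ))) (by positivity) hW
        (fun x hx _ => th_lower hτ0 hl' hε0.le (div_le_div_of_nonneg_right hτ hl0.le) hx.2.1 hx.2.2)
      refine le_of_eq_of_le ?_ this
      rw [Fintype.card_fin, mul_left_comm ε, mul_pow (Real.exp _), ← Real.exp_nat_mul, mul_assoc]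
      congr 3
      field_simp
    have hρ : 2 / s ≤ 1 / 2 := by rw [div_le_div_iff₀ hs0 (by norm_num)]; linarith
    have hlow := pbox_lower hK hI (thW_meas hK.1 τ ε) Set.inter_subset_left hR hKR
      (ρ := 2 / s) (T := T) (by positivity) hρ (fun _ : Fin l => τ) (fun _ => τ + ε)
      (fun _ => ⟨by rw [abs_of_pos hτ0]; linarith, by rw [abs_of_pos (by linarith)]; exact hτ'⟩)
      hv hbar
    refine hlow.trans ?_
    rw [Fintype.card_fin, hn, hRs]
    have hy : (l : ℝ) * (2 / s * (T ^ 2 + 1)) ≤ 1 / 64 := by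
      rw [show (l : ℝ) * (2 / s * (T ^ 2 + 1)) = 2 * l * (T ^ 2 + 1) / s by ring,
        div_le_iff₀ hs0]
      linarith
    have hy0 : 0 ≤ (l : ℝ) * (2 / s * (T ^ 2 + 1)) := by positivity
    have e1 : Real.exp ((l : ℝ) * (2 / s * (T ^ 2 + 1))) - 1 ≤ 1 / 32 := by
      have := Real.abs_exp_sub_one_le (x := (l : ℝ) * (2 / s * (T ^ 2 + 1)))
        (by rw [abs_of_nonneg hy0]; linarith)
      rw [abs_of_nonneg hy0] at this
      linarith [le_abs_self (Real.exp ((l : ℝ) * (2 / s * (T ^ 2 + 1))) - 1)]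
    have e2 : phi 1 / (l * T) ≤ ε * (phi 1 / τ) := by
      rw [hε, div_mul_div_comm, div_le_div_iff₀ (by positivity) (by positivity)]
      have : τ ≤ T * R := by linarith
      have := mul_le_mul_of_nonneg_left this (mul_pos hp hl0).le
      nlinarith
    have e3 : 8 ≤ s * (β * Real.exp (-3) * (ε * (phi 1 / τ)) ^ l) := by
      refine hs2.trans (mul_le_mul_of_nonneg_left (mul_le_mul_of_nonneg_left
        (pow_le_pow_left₀ (by positivity) e2 l) (by positivity)) hs0.le)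
    set v := β * Real.exp (-3) * (ε * (phi 1 / τ)) ^ l
    have e4 : s ^ 4 / (2 / s * (s ^ 4 / 2)) ^ 2 / v ^ 2 = 1 / (s * v) ^ 2 := by field_simp
    have e5 : 1 / (s * v) ^ 2 ≤ 1 / 64 :=
      one_div_le_one_div_of_le (by norm_num) (by nlinarith)
    rw [e4]
    linarith
  have hup := pbox_upper hK (hK.1.measurableSet.diff (measurableSet_singleton 0))
    Set.diff_subset (fun x hx => hx.2) (fun _ : Fin l => τ₂) (fun _ => τ₂ + ε)
    (v := (ε * (phi 1 / τ₂)) ^ l) (by positivity) (by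
      have := th_pbar_le hK (hK.1.measurableSet.diff (measurableSet_singleton 0))
        Set.diff_subset (fun x hx => hx.2) (fun _ : Fin l => τ₂) (fun _ => τ₂ + ε)
        (hi := ε * (phi 1 / τ₂)) (by positivity) (fun x hx _ => th_upper
          (Real.sqrt_pos.2 (lt_of_le_of_ne (th_dot_nonneg x)
            (fun h => hx.2 (dotProduct_self_eq_zero.1 h.symm)))) hτ₂ hε0.le)
      rwa [Fintype.card_fin] at this)
  obtain ⟨Γ, g1, g3, g2⟩ := th_avoid (gmat (Fin l) J) _ _ _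
    (lt_of_le_of_lt (add_le_add (add_le_add (key τ₁ h1 h1' hW1) (key τ₃ h3 h3' hW3)) hup)
      (by norm_num))
  simp only [Set.mem_setOf_eq, not_lt] at g1 g2 g3
  rw [th_pbox_diff hJ] at g2
  have g1' := g1.trans (th_pbox_mono hK Set.inter_subset_left _ _ Γ)
  have g3' := g3.trans (th_pbox_mono hK Set.inter_subset_left _ _ Γ)
  have hlc := th_logconc (ι := Fin l) hK τ₁ τ₃ ε Γ
  have hnn : 0 ≤ pbox K K (fun _ : Fin l => τ₂) (fun _ => τ₂ + ε) Γ :=
    div_nonneg ENNReal.toReal_nonneg ENNReal.toReal_nonneg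
  have hmain : (β * Real.exp (-3) * (ε * (phi 1 / τ₁)) ^ l / 2) *
      (β * Real.exp (-3) * (ε * (phi 1 / τ₃)) ^ l / 2) ≤ (10 * (ε * (phi 1 / τ₂)) ^ l) ^ 2 :=
    (mul_le_mul g1' g3' (by positivity) (le_trans (by positivity) g1')).trans
      (hlc.trans (pow_le_pow_left₀ hnn g2 2))
  have eq1 : (ε * (phi 1 / τ₁)) ^ l * (ε * (phi 1 / τ₃)) ^ l =
      (τ₂ ^ 2 / (τ₁ * τ₃)) ^ l * ((ε * (phi 1 / τ₂)) ^ l) ^ 2 := by
    rw [← pow_mul, mul_comm l 2, pow_mul, ← mul_pow, ← mul_pow]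
    congr 1
    field_simp
  have eq2 : Real.exp (-3) * Real.exp (-3) * Real.exp 6 = 1 := by
    rw [← Real.exp_add, ← Real.exp_add]; norm_num
  exact th_alg (by positivity) (Real.exp_pos 6) eq2 eq1 hmain

end Crest.Agent.R225
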