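import Crest.Agent.R225.UDefs

set_option autoImplicit false
open MeasureTheory Finset Classical

noncomputable section
namespace Crest.Agent.R225

/-- second moment of a sum of independent centred variables on a finite product -/
theorem vtyp_second_moment {α κ : Type} [Fintype α] [Fintype κ] (w f : α → ℝ)
    (hw : ∑ a, w a = 1) (hf : ∑ a, w a * f a = 0) :
    ∑ s : κ → α, (∏ i, w (s i)) * (∑ i, f (s i)) ^ 2 =
      Fintype.card κ * ∑ a, w a * f a ^ 2 := by
  have key : ∀ i j : κ, ∑ s : κ → α, (∏ l, w (s l)) * (f (s i) * f (s j)) =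
      if i = j then ∑ a, w a * f a ^ 2 else 0 := by
    intro i j
    have e1 : ∀ s : κ → α, (∏ l, w (s l)) * (f (s i) * f (s j)) =
        ∏ l, (w (s l) * ((if l = i then f (s l) else 1) * (if l = j then f (s l) else 1))) := by
      intro s
      rw [prod_mul_distrib, prod_mul_distrib]
      simp
    have e2 := Finset.prod_univ_sum (fun _ : κ => (univ : Finset α))
      (fun l a => w a * ((if l = i then f a else 1) * (if l = j then f a else 1)))
    rw [Fintype.piFinset_univ] at e2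
    rw [sum_congr rfl fun s _ => e1 s, ← e2]
    by_cases hij : i = j
    · subst hij
      rw [if_pos rfl, prod_eq_single i]
      · refine sum_congr rfl fun a _ => ?_
        simp [sq]
      · intro l _ hl
        simp [hl, hw]
      · simp
    · rw [if_neg hij]
      refine prod_eq_zero (mem_univ i) ?_
      simp [hij, hf]
  calc ∑ s : κ → α, (∏ i, w (s i)) * (∑ i, f (s i)) ^ 2
      = ∑ s : κ → α, ∑ i, ∑ j, (∏ l, w (s l)) * (f (s i) * f (s j)) := by
        refine sum_congr rfl fun s _ => ?_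
        rw [sq, sum_mul_sum, mul_sum]
        refine sum_congr rfl fun i _ => ?_
        rw [mul_sum]
    _ = ∑ i : κ, ∑ j : κ, ∑ s : κ → α, (∏ l, w (s l)) * (f (s i) * f (s j)) := by
        rw [sum_comm]
        refine sum_congr rfl fun i _ => ?_
        rw [sum_comm]
    _ = Fintype.card κ * ∑ a, w a * f a ^ 2 := by
        simp only [key]
        simp

theorem vtyp_total {α κ : Type} [Fintype α] [Fintype κ] (w : α → ℝ) (hw : ∑ a, w a = 1) :
    ∑ s : κ → α, ∏ i, w (s i) = 1 := by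
  have e2 := Finset.prod_univ_sum (fun _ : κ => (univ : Finset α)) (fun _ a => w a)
  rw [Fintype.piFinset_univ] at e2
  rw [← e2]
  simp [hw]

/-- Chebyshev twice under the product probability `∏ (m / Z)`, `Z = ∑ m`: the sum of the i.i.d.
variables `log (m (s i))` (range `≤ L`, variance `≤ L²`) deviates from its mean `log Ps` by more than
`Δ` with probability `≤ k L² / Δ²`; the number of active coordinates has mean `k q ≥ k h` and variance
`≤ k q`, so it is `< k h / 2` with probability `≤ 4 / (k h)`. -/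
theorem typical {α κ : Type} [Fintype α] [Fintype κ] (m : α → ℝ) {lo L h Δ : ℝ} (hlo : 0 < lo)
    (hm : ∀ s, lo ≤ m s ∧ m s ≤ lo * Real.exp L) (hZ : ∑ s, m s ≤ 1) (act : α → Prop)
    (hh : 0 < h) (hact : h ≤ ∑ s ∈ univ.filter act, m s) (hΔ : 0 < Δ) (hk : 0 < Fintype.card κ) :
    ∃ (Typ : Finset (κ → α)) (Ps : ℝ), 0 < Ps ∧
      (∑ s, m s) ^ Fintype.card κ *
          (1 - Fintype.card κ * L ^ 2 / Δ ^ 2 - 4 / (Fintype.card κ * h)) ≤
        ∑ s ∈ Typ, ∏ i, m (s i) ∧
      ∀ s ∈ Typ, Real.exp (-Δ) * Ps ≤ ∏ i, m (s i) ∧ ∏ i, m (s i) ≤ Real.exp Δ * Ps ∧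
        Fintype.card κ * h / 2 ≤ ((univ.filter fun i => act (s i)).card : ℝ) := by
  have hm0 : ∀ a, 0 < m a := fun a => hlo.trans_le (hm a).1
  set Z := ∑ s, m s with hZdef
  set k : ℝ := (Fintype.card κ : ℝ) with hkdef
  have hk0 : 0 < k := by rw [hkdef]; exact_mod_cast hk
  have hA : ∑ s ∈ univ.filter act, m s ≤ Z :=
    sum_le_sum_of_subset_of_nonneg (filter_subset _ _) fun a _ _ => (hm0 a).le
  have hZ0 : 0 < Z := hh.trans_le (hact.trans hA)
  set w : α → ℝ := fun a => m a / Z with hwdef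
  have hw0 : ∀ a, 0 ≤ w a := fun a => (div_pos (hm0 a) hZ0).le
  have hw : ∑ a, w a = 1 := by
    simp only [hwdef]
    rw [← sum_div, div_self hZ0.ne']
  -- the logarithms
  set μ := ∑ a, w a * Real.log (m a) with hμ
  have hl1 : ∀ a, Real.log lo ≤ Real.log (m a) := fun a => Real.log_le_log hlo (hm a).1
  have hl2 : ∀ a, Real.log (m a) ≤ Real.log lo + L := fun a => by
    have := Real.log_le_log (hm0 a) (hm a).2
    rwa [Real.log_mul hlo.ne' (Real.exp_pos L).ne', Real.log_exp] at this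
  have hμ1 : Real.log lo ≤ μ := by
    calc Real.log lo = ∑ a, w a * Real.log lo := by rw [← sum_mul, hw, one_mul]
      _ ≤ μ := sum_le_sum fun a _ => mul_le_mul_of_nonneg_left (hl1 a) (hw0 a)
  have hμ2 : μ ≤ Real.log lo + L := by
    calc μ ≤ ∑ a, w a * (Real.log lo + L) :=
          sum_le_sum fun a _ => mul_le_mul_of_nonneg_left (hl2 a) (hw0 a)
      _ = Real.log lo + L := by rw [← sum_mul, hw, one_mul]
  set f : α → ℝ := fun a => Real.log (m a) - μ with hfdef
  have hf : ∑ a, w a * f a = 0 := by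
    simp only [hfdef, mul_sub]
    rw [sum_sub_distrib, ← sum_mul, hw, one_mul, sub_self]
  have hf2 : ∑ a, w a * f a ^ 2 ≤ L ^ 2 := by
    calc ∑ a, w a * f a ^ 2 ≤ ∑ a, w a * L ^ 2 := by
          refine sum_le_sum fun a _ => mul_le_mul_of_nonneg_left ?_ (hw0 a)
          refine sq_le_sq' ?_ ?_
          · simp only [hfdef]; linarith [hl1 a]
          · simp only [hfdef]; linarith [hl2 a]
      _ = L ^ 2 := by rw [← sum_mul, hw, one_mul]
  -- the active coordinates
  set q := ∑ a, w a * (if act a then (1 : ℝ) else 0) with hq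
  have hqe : q = (∑ s ∈ univ.filter act, m s) / Z := by
    rw [hq, sum_filter, sum_div]
    refine sum_congr rfl fun a _ => ?_
    by_cases ha : act a <;> simp [ha, hwdef]
  have hqh : h ≤ q := by
    rw [hqe, le_div_iff₀ hZ0]
    nlinarith
  have hq0 : 0 < q := hh.trans_le hqh
  set g : α → ℝ := fun a => (if act a then (1 : ℝ) else 0) - q with hgdef
  have hg : ∑ a, w a * g a = 0 := by
    simp only [hgdef, mul_sub]
    rw [sum_sub_distrib, ← sum_mul, hw, one_mul, ← hq, sub_self]
  have hg2 : ∑ a, w a * g a ^ 2 ≤ q := by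
    have e : ∀ a, w a * g a ^ 2 =
        (1 - 2 * q) * (w a * (if act a then (1 : ℝ) else 0)) + q ^ 2 * w a := by
      intro a
      by_cases ha : act a <;> simp only [hgdef, ha, if_true, if_false] <;> ring
    rw [sum_congr rfl fun a _ => e a, sum_add_distrib, ← mul_sum, ← mul_sum, ← hq, hw]
    nlinarith
  have hcount : ∀ s : κ → α, ∑ i, g (s i) = ((univ.filter fun i => act (s i)).card : ℝ) - k * q := by
    intro s
    simp only [hgdef]
    rw [sum_sub_distrib, sum_boole]
    simp [hkdef]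
  have hprod : ∀ s : κ → α, ∏ i, m (s i) = Real.exp (∑ i, f (s i)) * Real.exp (k * μ) := by
    intro s
    rw [← Real.exp_add]
    have : ∑ i, f (s i) + k * μ = ∑ i, Real.log (m (s i)) := by
      simp only [hfdef]
      rw [sum_sub_distrib]
      simp [hkdef]
    rw [this, Real.exp_sum]
    exact prod_congr rfl fun i _ => (Real.exp_log (hm0 _)).symm
  refine ⟨univ.filter fun s => |∑ i, f (s i)| ≤ Δ ∧
    k * h / 2 ≤ ((univ.filter fun i => act (s i)).card : ℝ), Real.exp (k * μ), Real.exp_pos _, ?_, ?_⟩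
  · have hW : ∀ s : κ → α, ∏ i, m (s i) = Z ^ Fintype.card κ * ∏ i, w (s i) := by
      intro s
      simp only [hwdef]
      rw [prod_div_distrib, prod_const, card_univ, mul_div_cancel₀ _ (pow_pos hZ0 _).ne']
    rw [sum_congr rfl fun s _ => hW s, ← mul_sum]
    refine mul_le_mul_of_nonneg_left ?_ (pow_pos hZ0 _).le
    have hW0 : ∀ s : κ → α, 0 ≤ ∏ i, w (s i) := fun s => prod_nonneg fun i _ => hw0 _
    have hpt : ∀ s : κ → α, (∏ i, w (s i)) - (∏ i, w (s i)) * (∑ i, f (s i)) ^ 2 / Δ ^ 2 -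
        (∏ i, w (s i)) * (∑ i, g (s i)) ^ 2 * (4 / (k * q) ^ 2) ≤
        if |∑ i, f (s i)| ≤ Δ ∧ k * h / 2 ≤ ((univ.filter fun i => act (s i)).card : ℝ) then
          ∏ i, w (s i) else 0 := by
      intro s
      have a1 : 0 ≤ (∏ i, w (s i)) * (∑ i, f (s i)) ^ 2 / Δ ^ 2 :=
        div_nonneg (mul_nonneg (hW0 s) (sq_nonneg _)) (sq_nonneg _)
      have a2 : 0 ≤ (∏ i, w (s i)) * (∑ i, g (s i)) ^ 2 * (4 / (k * q) ^ 2) :=
        mul_nonneg (mul_nonneg (hW0 s) (sq_nonneg _)) (by positivity)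
      split_ifs with hs
      · linarith
      · rcases not_and_or.1 hs with h1 | h1
        · have b1 : Δ ^ 2 ≤ (∑ i, f (s i)) ^ 2 := by
            rw [← sq_abs (∑ i, f (s i))]
            exact pow_le_pow_left₀ hΔ.le (not_le.1 h1).le 2
          have b2 : (∏ i, w (s i)) ≤ (∏ i, w (s i)) * (∑ i, f (s i)) ^ 2 / Δ ^ 2 := by
            rw [le_div_iff₀ (by positivity)]
            exact mul_le_mul_of_nonneg_left b1 (hW0 s)
          linarith
        · have b0 : ∑ i, g (s i) ≤ -(k * q / 2) := by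
            rw [hcount s]
            have := mul_le_mul_of_nonneg_left hqh hk0.le
            linarith [not_le.1 h1]
          have hkq : 0 < k * q := mul_pos hk0 hq0
          have b1 : (k * q) ^ 2 ≤ (∑ i, g (s i)) ^ 2 * 4 := by nlinarith
          have b2 : (∏ i, w (s i)) ≤ (∏ i, w (s i)) * (∑ i, g (s i)) ^ 2 * (4 / (k * q) ^ 2) := by
            rw [mul_assoc]
            refine le_mul_of_one_le_right (hW0 s) ?_
            rw [mul_div_assoc', le_div_iff₀ (by positivity), one_mul]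
            exact b1
          linarith
    have hsum := sum_le_sum fun s (_ : s ∈ (univ : Finset (κ → α))) => hpt s
    rw [← sum_filter, sum_sub_distrib, sum_sub_distrib, ← sum_div, ← sum_mul, vtyp_total w hw,
      vtyp_second_moment w f hw hf, vtyp_second_moment w g hw hg, ← hkdef] at hsum
    refine le_trans ?_ hsum
    have c1 : k * (∑ a, w a * f a ^ 2) / Δ ^ 2 ≤ k * L ^ 2 / Δ ^ 2 :=
      div_le_div_of_nonneg_right (mul_le_mul_of_nonneg_left hf2 hk0.le) (sq_nonneg _)
    have c2 : k * (∑ a, w a * g a ^ 2) * (4 / (k * q) ^ 2) ≤ 4 / (k * h) := by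
      calc k * (∑ a, w a * g a ^ 2) * (4 / (k * q) ^ 2) ≤ k * q * (4 / (k * q) ^ 2) :=
            mul_le_mul_of_nonneg_right (mul_le_mul_of_nonneg_left hg2 hk0.le) (by positivity)
        _ = 4 / (k * q) := by field_simp
        _ ≤ 4 / (k * h) :=
            div_le_div_of_nonneg_left (by norm_num) (mul_pos hk0 hh)
              (mul_le_mul_of_nonneg_left hqh hk0.le)
    linarith
  · intro s hs
    obtain ⟨h1, h2⟩ := (mem_filter.1 hs).2
    obtain ⟨h3, h4⟩ := abs_le.1 h1
    refine ⟨?_, ?_, h2⟩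
    · rw [hprod s]
      exact mul_le_mul_of_nonneg_right (Real.exp_le_exp.2 h3) (Real.exp_pos _).le
    · rw [hprod s]
      exact mul_le_mul_of_nonneg_right (Real.exp_le_exp.2 h4) (Real.exp_pos _).le

/-- `lin c` as a homomorphism in the integer vector -/
def vtypLin {κ G : Type} [Fintype κ] [AddCommGroup G] (c : κ → G) : (κ → ℤ) →+ G where
  toFun z := ∑ i, z i • c i
  map_zero' := by simp
  map_add' x y := by simp [add_smul, sum_add_distrib]

/-- `lin c d` as a homomorphism in the coefficients -/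
def vtypCo {κ G : Type} [Fintype κ] [AddCommGroup G] (d : κ → ℤ) : (κ → G) →+ G where
  toFun c := ∑ i, d i • c i
  map_zero' := by simp
  map_add' x y := by simp [smul_add, sum_add_distrib]

theorem vtyp_collision {κ : Type} [Fintype κ] (p r : ℕ) [Fact p.Prime] (s s' : κ → ℤ)
    (hs : ∀ i, 0 ≤ s i ∧ s i < p) (hs' : ∀ i, 0 ≤ s' i ∧ s' i < p) (hne : s' ≠ s) :
    ((univ.filter fun c : κ → Fin r → ZMod p => vtypLin c s' = vtypLin c s).card : ℝ) *
      (p : ℝ) ^ r = Fintype.card (κ → Fin r → ZMod p) := by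
  obtain ⟨i, hi⟩ := Function.ne_iff.1 hne
  have hu : ((s' i - s i : ℤ) : ZMod p) ≠ 0 := by
    intro h0
    rw [ZMod.intCast_zmod_eq_zero_iff_dvd] at h0
    have h1 := hs i
    have h2 := hs' i
    have h3 : s' i - s i = 0 :=
      Int.eq_zero_of_abs_lt_dvd h0 (abs_lt.2 ⟨by omega, by omega⟩)
    exact hi (by omega)
  have hsurj : Function.Surjective (vtypCo (G := Fin r → ZMod p) (s' - s)) := by
    intro y
    refine ⟨Pi.single i (((s' i - s i : ℤ) : ZMod p)⁻¹ • y), ?_⟩
    show ∑ j, (s' - s) j • (Pi.single i (((s' i - s i : ℤ) : ZMod p)⁻¹ • y) :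
      κ → Fin r → ZMod p) j = y
    rw [sum_eq_single i]
    · rw [Pi.single_eq_same, Pi.sub_apply, ← Int.cast_smul_eq_zsmul (ZMod p), smul_smul,
        mul_inv_cancel₀ hu, one_smul]
    · intro j _ hj
      rw [Pi.single_eq_of_ne hj, smul_zero]
    · simp
  have h1 := (vtypCo (G := Fin r → ZMod p) (s' - s)).ker.card_mul_index
  rw [AddSubgroup.index_ker, AddMonoidHom.range_eq_top.2 hsurj, AddSubgroup.card_top] at h1
  have h2 : Nat.card (vtypCo (G := Fin r → ZMod p) (s' - s)).ker =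
      (univ.filter fun c : κ → Fin r → ZMod p => vtypLin c s' = vtypLin c s).card := by
    rw [← Fintype.card_subtype, ← Nat.card_eq_fintype_card]
    refine Nat.card_congr (Equiv.subtypeEquivRight fun c => ?_)
    rw [AddMonoidHom.mem_ker, ← sub_eq_zero (a := vtypLin c s'), ← map_sub]
    rfl
  have h3 : Nat.card (Fin r → ZMod p) = p ^ r := by
    rw [Nat.card_pi]
    simp
  rw [h2, h3, Nat.card_eq_fintype_card] at h1
  exact_mod_cast h1

/-- `ρ = lin c` for a uniformly random `c : κ → (Fin r → ZMod p)`.  For `s ≠ s'` in `Gd` some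
coordinate of `s - s'` is a unit mod `p`, so `lin c s = lin c s'` has probability `p^{-r}`; the expected
weight of the non-isolated points is `≤ |Gd| / p^r * ∑ W`. -/
theorem exists_hash {κ : Type} [Fintype κ] (p r : ℕ) [Fact p.Prime] (Gd : Finset (κ → ℤ))
    (hGd : ∀ s ∈ Gd, ∀ i, 0 ≤ s i ∧ s i < p) (W : (κ → ℤ) → ℝ) (hW : ∀ s ∈ Gd, 0 ≤ W s) :
    ∃ ρ : (κ → ℤ) →+ (Fin r → ZMod p),
      (1 - (Gd.card : ℝ) / (p : ℝ) ^ r) * ∑ s ∈ Gd, W s ≤
        ∑ s ∈ Gd.filter (fun s => ∀ s' ∈ Gd, ρ s' = ρ s → s' = s), W s := by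
  have hp : (0 : ℝ) < (p : ℝ) ^ r := pow_pos (by exact_mod_cast (Fact.out : p.Prime).pos) r
  have hex : ∃ c ∈ (univ : Finset (κ → Fin r → ZMod p)),
      ∑ s ∈ Gd, ∑ s' ∈ Gd.erase s, (if vtypLin c s' = vtypLin c s then W s else 0) ≤
        (Gd.card : ℝ) / (p : ℝ) ^ r * ∑ s ∈ Gd, W s := by
    refine exists_le_of_sum_le univ_nonempty ?_
    rw [sum_comm, sum_const, card_univ, nsmul_eq_mul, mul_sum, mul_sum]
    refine sum_le_sum fun s hs => ?_
    rw [sum_comm]
    have e : ∀ s' ∈ Gd.erase s, ∑ c : κ → Fin r → ZMod p,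
        (if vtypLin c s' = vtypLin c s then W s else 0) =
        (Fintype.card (κ → Fin r → ZMod p) : ℝ) / (p : ℝ) ^ r * W s := by
      intro s' hs'
      rw [← sum_filter, sum_const, nsmul_eq_mul,
        ← vtyp_collision p r s s' (hGd s hs) (hGd s' (mem_of_mem_erase hs')) (ne_of_mem_erase hs'),
        mul_div_cancel_right₀ _ hp.ne']
    rw [sum_congr rfl e, sum_const, nsmul_eq_mul]
    have hc : ((Gd.erase s).card : ℝ) ≤ Gd.card := by exact_mod_cast card_erase_le
    have h0 : 0 ≤ (Fintype.card (κ → Fin r → ZMod p) : ℝ) / (p : ℝ) ^ r * W s :=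
      mul_nonneg (by positivity) (hW s hs)
    calc ((Gd.erase s).card : ℝ) *
          ((Fintype.card (κ → Fin r → ZMod p) : ℝ) / (p : ℝ) ^ r * W s)
        ≤ (Gd.card : ℝ) * ((Fintype.card (κ → Fin r → ZMod p) : ℝ) / (p : ℝ) ^ r * W s) :=
          mul_le_mul_of_nonneg_right hc h0
      _ = _ := by ring
  obtain ⟨c, -, hc⟩ := hex
  refine ⟨vtypLin c, ?_⟩
  rw [sub_mul, one_mul, sum_filter]
  have hpt : ∀ s ∈ Gd, W s - ∑ s' ∈ Gd.erase s, (if vtypLin c s' = vtypLin c s then W s else 0) ≤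
      if ∀ s' ∈ Gd, vtypLin c s' = vtypLin c s → s' = s then W s else 0 := by
    intro s hs
    have h0 : ∀ s' ∈ Gd.erase s, 0 ≤ (if vtypLin c s' = vtypLin c s then W s else 0) := by
      intro s' _
      split_ifs
      · exact hW s hs
      · exact le_rfl
    split_ifs with hiso
    · linarith [sum_nonneg h0]
    · push Not at hiso
      obtain ⟨s', h1, h2, h3⟩ := hiso
      have := single_le_sum h0 (mem_erase.2 ⟨h3, h1⟩)
      rw [if_pos h2] at this
      linarith
  have := sum_le_sum hpt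
  rw [sum_sub_distrib] at this
  refine le_trans ?_ (this.trans (le_of_eq ?_))
  · linarith
  · refine sum_congr rfl fun s _ => ?_
    congr

end Crest.Agent.R225
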