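import Crest.Agent.R225.UTree
import Crest.Agent.R225.UVAna
import Crest.Agent.R225.UVTyp

/-! One level of the vertical construction. -/

set_option autoImplicit false
open MeasureTheory Finset Classical

noncomputable section
namespace Crest.Agent.R225

/-- `∑_{x ∈ cube p s} omg x = ∏ P1` (`Finset.prod_univ_sum`; `s i ≠ s i - p` as `p > 0`). -/
theorem sum_cube {κ : Type} [Fintype κ] [DecidableEq κ] (b : ℝ) {p : ℕ} (hp : 0 < p) (s : κ → ℤ) :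
    ∑ x ∈ cube p s, omg (fun _ => b) x = ∏ i, P1 b p (s i) := by
  unfold cube omg
  rw [← Finset.prod_univ_sum (fun i => ({s i, s i - p} : Finset ℤ)) fun _ c => wc b c]
  refine prod_congr rfl fun i _ => ?_
  rw [sum_pair (by omega)]
  rfl

theorem mem_cube_lv {κ : Type} [Fintype κ] [DecidableEq κ] {p : ℕ} {s x : κ → ℤ}
    (hx : x ∈ cube p s) (i : κ) : x i = s i ∨ x i = s i - p := by
  have := Fintype.mem_piFinset.1 hx i
  simpa using this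

theorem wc_pos_lv {b : ℝ} (hb : 0 < b) (c : ℤ) : 0 < wc b c := mul_pos hb (phi_pos _)

theorem P1_pos_lv {b : ℝ} (hb : 0 < b) (p : ℕ) (c : ℤ) : 0 < P1 b p c :=
  add_pos (wc_pos_lv hb _) (wc_pos_lv hb _)

theorem omg_pos_lv {κ : Type} [Fintype κ] {b : ℝ} (hb : 0 < b) (x : κ → ℤ) :
    0 < omg (fun _ => b) x := prod_pos fun _ _ => wc_pos_lv hb _

theorem abs_le_of_mem_cube {κ : Type} [Fintype κ] [DecidableEq κ] {p : ℕ} {s x : κ → ℤ}
    (hs : ∀ i, 0 ≤ s i ∧ s i < p) (hx : x ∈ cube p s) (i : κ) : |x i| ≤ p := by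
  have := hs i
  rw [abs_le]
  rcases mem_cube_lv hx i with h | h <;> omega

/-- the normalised weights on a cube with many active coordinates are small -/
theorem omg_le_of_act {κ : Type} [Fintype κ] [DecidableEq κ] {b : ℝ} (hb : 0 < b) {p : ℕ}
    {s x : κ → ℤ} (hx : x ∈ cube p s) (A : Finset κ)
    (hA : ∀ i ∈ A, max (wc b (s i)) (wc b (s i - p)) ≤ 2 / 3 * P1 b p (s i)) :
    omg (fun _ => b) x ≤ Real.exp (-((A.card : ℝ) / 3)) * ∏ i, P1 b p (s i) := by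
  have h1 : Real.exp (-((A.card : ℝ) / 3)) = ∏ i, if i ∈ A then Real.exp (-(1 / 3)) else 1 := by
    rw [prod_ite_mem, univ_inter, prod_const, ← Real.exp_nat_mul]
    congr 1
    ring
  have h2 : (2 / 3 : ℝ) ≤ Real.exp (-(1 / 3)) := by
    have := Real.add_one_le_exp (-(1 / 3) : ℝ)
    linarith
  rw [h1, ← prod_mul_distrib]
  refine prod_le_prod (fun i _ => (wc_pos_lv hb _).le) fun i _ => ?_
  have h3 : wc b (x i) ≤ max (wc b (s i)) (wc b (s i - p)) := by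
    rcases mem_cube_lv hx i with h | h <;> rw [h]
    · exact le_max_left _ _
    · exact le_max_right _ _
  split_ifs with hi
  · exact h3.trans ((hA i hi).trans (mul_le_mul_of_nonneg_right h2 (P1_pos_lv hb _ _).le))
  · rw [one_mul]
    refine h3.trans (max_le ?_ ?_)
    · exact le_add_of_nonneg_right (wc_pos_lv hb _).le
    · exact le_add_of_nonneg_left (wc_pos_lv hb _).le

/-- typical cubes -/
theorem typ_cubes : ∃ A₀ : ℕ, ∀ a p : ℕ, A₀ ≤ a → a ^ 25 < p → p ≤ 2 * a ^ 25 →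
    ∃ (b Ps : ℝ) (Typ : Finset (Fin (a ^ 22) → ℤ)), 0 < b ∧ b ≤ 1 ∧ b * (p + 1) ≤ a ∧ 0 < Ps ∧
      1 - 1 / (a : ℝ) ≤ ∑ z ∈ Typ, ∏ i, P1 b p (z i) ∧ ∑ z ∈ Typ, ∏ i, P1 b p (z i) ≤ 1 ∧
      ∀ z ∈ Typ, (∀ i, 0 ≤ z i ∧ z i < p) ∧
        Real.exp (-(a : ℝ) ^ 13) * Ps ≤ ∏ i, P1 b p (z i) ∧
        ∏ i, P1 b p (z i) ≤ Real.exp ((a : ℝ) ^ 13) * Ps ∧
        (1 / (a : ℝ) ^ 51) ^ (a ^ 22) ≤ ∏ i, P1 b p (z i) ∧
        ∀ x ∈ cube p z, omg (fun _ => b) x ≤ Real.exp (-((a : ℝ) ^ 15 / 6)) * ∏ i, P1 b p (z i) := by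
  obtain ⟨A₀, hA⟩ := level_ana
  refine ⟨max A₀ 8, fun a p ha hp1 hp2 => ?_⟩
  obtain ⟨b, hb0, hb1, hbp, hZ1, hZ2, hP, hact⟩ := hA a p ((le_max_left _ _).trans ha) hp1 hp2
  have ha8 : 8 ≤ a := (le_max_right _ _).trans ha
  have ha8' : (8 : ℝ) ≤ a := by exact_mod_cast ha8
  have ha0 : (0 : ℝ) < a := by linarith
  obtain ⟨Typ, Ps, hPs, hmass, hTyp⟩ := typical (α := Fin p) (κ := Fin (a ^ 22))
    (fun s => P1 b p (s : ℕ)) (lo := b * Real.exp (-(a : ℝ))) (L := a) (h := 1 / (a : ℝ) ^ 7)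
    (Δ := (a : ℝ) ^ 13) (by positivity)
    (fun s => ⟨(hP s).1, by
      rw [mul_assoc, ← Real.exp_add, neg_add_cancel, Real.exp_zero, mul_one]
      exact (hP s).2.1⟩) hZ2
    (fun s => max (wc b (s : ℕ)) (wc b (((s : ℕ) : ℤ) - p)) ≤ 2 / 3 * P1 b p (s : ℕ))
    (by positivity) (by convert hact) (by positivity)
    (by rw [Fintype.card_fin]; positivity)
  simp only [Fintype.card_fin] at hmass hTyp
  have hinj : Function.Injective
      fun (s : Fin (a ^ 22) → Fin p) (i : Fin (a ^ 22)) => (((s i : ℕ) : ℤ)) := by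
    intro s s' h
    funext i
    have := congrFun h i
    simp only [Nat.cast_inj] at this
    exact Fin.ext this
  refine ⟨b, Ps, Typ.image fun s i => ((s i : ℕ) : ℤ), hb0, hb1, hbp, hPs, ?_, ?_, ?_⟩
  · rw [sum_image fun _ _ _ _ h => hinj h]
    refine le_trans ?_ hmass
    push_cast
    have e1 : (a : ℝ) ^ 22 * (a : ℝ) ^ 2 / ((a : ℝ) ^ 13) ^ 2 = 1 / (a : ℝ) ^ 2 := by
      field_simp
    have e2 : 4 / ((a : ℝ) ^ 22 * (1 / (a : ℝ) ^ 7)) = 4 * (1 / (a : ℝ) ^ 15) := by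
      field_simp
    have e3 : 1 / (a : ℝ) ^ 15 ≤ 1 / (a : ℝ) ^ 2 :=
      one_div_le_one_div_of_le (by positivity) (pow_le_pow_right₀ (by linarith) (by norm_num))
    have e4 : 1 / (a : ℝ) ^ 24 ≤ 1 / (a : ℝ) ^ 2 :=
      one_div_le_one_div_of_le (by positivity) (pow_le_pow_right₀ (by linarith) (by norm_num))
    have e5 : 1 / (a : ℝ) ^ 2 ≤ 1 / 8 * (1 / a) := by
      rw [div_mul_div_comm, one_mul, sq]
      exact one_div_le_one_div_of_le (by positivity) (by nlinarith)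
    have e6 : 1 / (a : ℝ) ≤ 1 / 8 := one_div_le_one_div_of_le (by norm_num) ha8'
    have e7 : 3 / (a : ℝ) ^ 24 = 3 * (1 / (a : ℝ) ^ 24) := by ring
    have e8 : (0 : ℝ) < 1 / (a : ℝ) ^ 2 := by positivity
    have e9 : 1 - 3 * (1 / (a : ℝ) ^ 2) ≤ (∑ s : Fin p, P1 b p (s : ℕ)) ^ (a ^ 22) := by
      have h1 := one_add_mul_le_pow (a := -(3 / (a : ℝ) ^ 24)) (by linarith) (a ^ 22)
      have h2 : ((a ^ 22 : ℕ) : ℝ) * -(3 / (a : ℝ) ^ 24) = -(3 * (1 / (a : ℝ) ^ 2)) := by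
        push_cast
        field_simp
      rw [h2] at h1
      refine le_trans (by linarith) (h1.trans (pow_le_pow_left₀ (by linarith) (by linarith) _))
    rw [e1, e2]
    calc 1 - 1 / (a : ℝ) ≤ (1 - 3 * (1 / (a : ℝ) ^ 2)) * (1 - 5 * (1 / (a : ℝ) ^ 2)) := by nlinarith
      _ ≤ _ := mul_le_mul e9 (by linarith) (by linarith) (le_trans (by linarith) e9)
  · rw [sum_image fun _ _ _ _ h => hinj h]
    calc ∑ s ∈ Typ, ∏ i, P1 b p (s i : ℕ) ≤ ∑ s : Fin (a ^ 22) → Fin p, ∏ i, P1 b p (s i : ℕ) :=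
          sum_le_sum_of_subset_of_nonneg (subset_univ _) fun _ _ _ =>
            prod_nonneg fun _ _ => (P1_pos_lv hb0 _ _).le
      _ = ∏ _i : Fin (a ^ 22), ∑ s : Fin p, P1 b p (s : ℕ) :=
          (Fintype.prod_sum fun (_ : Fin (a ^ 22)) (s : Fin p) => P1 b p (s : ℕ)).symm
      _ ≤ 1 := prod_le_one (fun _ _ => sum_nonneg fun _ _ => (P1_pos_lv hb0 _ _).le) fun _ _ => hZ2
  · intro z hz
    obtain ⟨s, hs, rfl⟩ := mem_image.1 hz
    obtain ⟨h1, h2, h3⟩ := hTyp s hs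
    refine ⟨fun i => ⟨Nat.cast_nonneg _, Int.ofNat_lt.2 (s i).2⟩, h1, h2, ?_, fun x hx => ?_⟩
    · calc (1 / (a : ℝ) ^ 51) ^ (a ^ 22) = ∏ _i : Fin (a ^ 22), 1 / (a : ℝ) ^ 51 := by simp
        _ ≤ _ := prod_le_prod (fun _ _ => by positivity) fun i _ => (hP (s i)).2.2
    · obtain ⟨A, hA1, h3⟩ : ∃ A : Finset (Fin (a ^ 22)), (∀ i ∈ A,
          max (wc b (s i : ℕ)) (wc b (((s i : ℕ) : ℤ) - p)) ≤ 2 / 3 * P1 b p (s i : ℕ)) ∧
          ((a ^ 22 : ℕ) : ℝ) * (1 / (a : ℝ) ^ 7) / 2 ≤ A.card :=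
        ⟨_, fun i hi => (mem_filter.1 hi).2, h3⟩
      refine (omg_le_of_act hb0 hx A hA1).trans ?_
      refine mul_le_mul_of_nonneg_right (Real.exp_le_exp.2 (neg_le_neg ?_))
        (prod_nonneg fun _ _ => (P1_pos_lv hb0 _ _).le)
      have e1 : ((a ^ 22 : ℕ) : ℝ) * (1 / (a : ℝ) ^ 7) / 2 = (a : ℝ) ^ 15 / 2 := by
        push_cast
        field_simp
      rw [e1] at h3
      linarith

/-- averaging over `ψ` -/
theorem exists_psi {κ Gt : Type} [Fintype κ] [DecidableEq κ] [AddCommGroup Gt] [Fintype Gt]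
    (Typ : Finset (κ → ℤ)) (W : (κ → ℤ) → ℝ) (hW : ∀ z ∈ Typ, 0 ≤ W z) (hW1 : ∑ z ∈ Typ, W z ≤ 1)
    (bad : (κ → ℤ) → (κ → Gt) → Prop) {δ : ℝ} (hδ : 0 ≤ δ)
    (hbad : ∀ z ∈ Typ, ((univ.filter fun ψ => bad z ψ).card : ℝ) ≤ δ * Fintype.card (κ → Gt)) :
    ∃ ψ : κ → Gt, ∑ z ∈ Typ.filter (fun z => bad z ψ), W z ≤ δ := by
  have h : ∑ ψ : κ → Gt, ∑ z ∈ Typ.filter (fun z => bad z ψ), W z ≤ ∑ _ψ : κ → Gt, δ := by
    simp only [sum_filter]
    rw [sum_comm]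
    calc ∑ z ∈ Typ, ∑ ψ : κ → Gt, (if bad z ψ then W z else 0)
        ≤ ∑ z ∈ Typ, W z * (δ * Fintype.card (κ → Gt)) := by
          refine sum_le_sum fun z hz => ?_
          rw [← sum_filter, sum_const, nsmul_eq_mul, mul_comm]
          exact mul_le_mul_of_nonneg_left (hbad z hz) (hW z hz)
      _ ≤ 1 * (δ * Fintype.card (κ → Gt)) := by
          rw [← sum_mul]
          exact mul_le_mul_of_nonneg_right hW1 (by positivity)
      _ = _ := by rw [sum_const, nsmul_eq_mul, card_univ]; ring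
  obtain ⟨ψ, -, hψ⟩ := exists_le_of_sum_le univ_nonempty h
  exact ⟨ψ, hψ⟩

theorem num_lln {a : ℝ} (ha : 4096 ≤ a) :
    2 * (2 * a) ^ 24 * Real.exp (-(a ^ 15 / 6)) * Real.exp (3 * (2 * a) ^ 13) ≤
      (1 / a) ^ 3 * (1 / 2) := by
  have ha0 : 0 < a := by linarith
  have h1 : 3 * (2 * a) ^ 13 ≤ a ^ 15 / 12 := by
    have h2 : (4096 : ℝ) ^ 2 ≤ a ^ 2 := pow_le_pow_left₀ (by norm_num) ha 2
    have h3 : 0 < a ^ 13 := by positivity
    calc 3 * (2 * a) ^ 13 = 24576 * a ^ 13 := by ring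
      _ ≤ a ^ 2 / 12 * a ^ 13 := mul_le_mul_of_nonneg_right (by linarith) h3.le
      _ = a ^ 15 / 12 := by ring
  have h2 : 2 ^ 26 * a ^ 27 ≤ Real.exp (a ^ 15 / 12) := by
    have h3 := Real.pow_div_factorial_le_exp (a ^ 15 / 12) (by positivity) 2
    have h4 : (4096 : ℝ) ^ 3 ≤ a ^ 3 := pow_le_pow_left₀ (by norm_num) ha 3
    have h5 : 0 < a ^ 27 := by positivity
    refine le_trans ?_ h3
    calc 2 ^ 26 * a ^ 27 ≤ a ^ 3 / 288 * a ^ 27 := mul_le_mul_of_nonneg_right (by linarith) h5.le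
      _ = _ := by simp only [Nat.factorial]; push_cast; ring
  have h3 : Real.exp (-(a ^ 15 / 6)) * Real.exp (3 * (2 * a) ^ 13) ≤ (Real.exp (a ^ 15 / 12))⁻¹ := by
    rw [← Real.exp_add, ← Real.exp_neg]
    exact Real.exp_le_exp.2 (by linarith)
  have h4 : (Real.exp (a ^ 15 / 12))⁻¹ ≤ (2 ^ 26 * a ^ 27)⁻¹ := inv_anti₀ (by positivity) h2
  calc _ = 2 * (2 * a) ^ 24 * (Real.exp (-(a ^ 15 / 6)) * Real.exp (3 * (2 * a) ^ 13)) := by ring
    _ ≤ 2 * (2 * a) ^ 24 * (2 ^ 26 * a ^ 27)⁻¹ :=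
        mul_le_mul_of_nonneg_left (h3.trans h4) (by positivity)
    _ = _ := by field_simp

theorem num_exp {a : ℝ} (ha : 4096 ≤ a) : 2 * a ^ 27 ≤ Real.exp (a ^ 13) := by
  have h3 := Real.pow_div_factorial_le_exp (a ^ 13) (by positivity) 3
  have h4 : (4096 : ℝ) ^ 12 ≤ a ^ 12 := pow_le_pow_left₀ (by norm_num) ha 12
  have h5 : 0 < a ^ 27 := by positivity
  refine le_trans ?_ h3
  calc 2 * a ^ 27 ≤ a ^ 12 / 6 * a ^ 27 := mul_le_mul_of_nonneg_right (by linarith) h5.le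
    _ = _ := by simp only [Nat.factorial]; push_cast; ring

theorem num_av {u μ : ℝ} (hu : 0 ≤ u) (h0 : 0 ≤ μ) (h1 : μ ≤ 1) :
    μ - 20 * u ≤ (1 - u) * μ * (1 - 3 * u) := by
  have h5 : μ * u ≤ u := mul_le_of_le_one_left hu h1
  have h6 : 0 ≤ μ * u * u := by positivity
  nlinarith

theorem sepBy_zmod {p r D : ℕ} [Fact p.Prime] (hD : D < p) : SepBy (Fin r → ZMod p) D := by
  intro d hd hdD g hg
  have h1 : (d : ZMod p) ≠ 0 := by
    intro h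
    rw [ZMod.intCast_zmod_eq_zero_iff_dvd] at h
    have := Int.le_of_dvd (abs_pos.2 hd) ((dvd_abs _ _).2 h)
    omega
  funext i
  have := congrFun hg i
  simp only [Pi.smul_apply, zsmul_eq_mul, Pi.zero_apply, mul_eq_zero, h1, false_or] at this
  exact this

theorem hash_cube {κ : Type} [Fintype κ] [DecidableEq κ] {p r : ℕ}
    (ρ : (κ → ℤ) →+ (Fin r → ZMod p)) {s x : κ → ℤ} (hx : x ∈ cube p s) : ρ x = ρ s := by
  have h1 : x = s + (p : ℤ) • fun i => if x i = s i then (0 : ℤ) else -1 := by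
    funext i
    simp only [Pi.add_apply, Pi.smul_apply, smul_eq_mul]
    split_ifs with h
    · simp [h]
    · rcases mem_cube_lv hx i with h' | h'
      · exact absurd h' h
      · rw [h']; ring
  rw [h1, map_add, map_zsmul]
  convert add_zero (ρ s)
  funext j
  simp

/-- the level defined by a family of cubes with distinct hash values -/
theorem level_of_iso {κ Gt Gn : Type} [Fintype κ] [DecidableEq κ] [AddCommGroup Gt]
    [AddCommGroup Gn] [Fintype Gn] {Y : Gt → ℝ} {b : ℝ} (hb0 : 0 < b) (hb1 : b ≤ 1) {p : ℕ}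
    (ρ : (κ → ℤ) →+ Gn) (ψ : κ → Gt) (I : Finset (κ → ℤ)) (V : (κ → ℤ) → ℝ) {P : ℕ} {T τ B : ℝ}
    (hB : 0 ≤ B) (hI : ∀ z ∈ I, ∀ z' ∈ I, ρ z' = ρ z → z' = z)
    (hx : ∀ z ∈ I, ∀ x ∈ cube p z, ρ x = ρ z ∧ (∀ i, |x i| ≤ P ∧ b * (|(x i : ℝ)| + 1) ≤ T) ∧
      (Fintype.card Gn : ℝ) * omg (fun _ => b) x ≤ τ)
    (hV : ∀ z ∈ I, 0 ≤ V z ∧ (Fintype.card Gn : ℝ) * V z ≤ B ∧
      ∀ g, V z ≤ ∑ x ∈ cube p z, omg (fun _ => b) x * Y (g + lin ψ x)) :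
    ∃ Yn : Gn → ℝ, Level Y b ρ ψ Yn P T τ ∧ (∀ g, 0 ≤ Yn g ∧ Yn g ≤ B) ∧ av Yn = ∑ z ∈ I, V z := by
  have key : ∀ gn, I.filter (fun z => ρ z = gn) = ∅ ∨
      ∃ z ∈ I, ρ z = gn ∧ I.filter (fun z => ρ z = gn) = {z} := by
    intro gn
    rcases (I.filter fun z => ρ z = gn).eq_empty_or_nonempty with h | ⟨z, hz⟩
    · exact Or.inl h
    · obtain ⟨h1, h2⟩ := mem_filter.1 hz
      refine Or.inr ⟨z, h1, h2, eq_singleton_iff_unique_mem.2 ⟨hz, fun z' hz' => ?_⟩⟩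
      obtain ⟨h3, h4⟩ := mem_filter.1 hz'
      exact hI z h1 z' h3 (h4.trans h2.symm)
  refine ⟨fun gn => (Fintype.card Gn : ℝ) * ∑ z ∈ I.filter (fun z => ρ z = gn), V z,
    ⟨hb0, hb1, fun gn => ?_⟩, fun gn => ?_, ?_⟩
  · rcases key gn with h | ⟨z, hz, h1, h⟩
    · refine ⟨∅, IsTree.empty, fun x hx => absurd hx (notMem_empty _), fun g => ?_⟩
      simp [h]
    · refine ⟨cube p z, isTree_cube p z, fun x hxz => ?_, fun g => ?_⟩
      · rw [← h1]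
        exact hx z hz x hxz
      · simp only [h, sum_singleton]
        exact mul_le_mul_of_nonneg_left ((hV z hz).2.2 g) (Nat.cast_nonneg _)
  · rcases key gn with h | ⟨z, hz, h1, h⟩
    · simp [h, hB]
    · simp only [h, sum_singleton]
      exact ⟨mul_nonneg (Nat.cast_nonneg _) (hV z hz).1, (hV z hz).2.1⟩
  · unfold av
    have : (Fintype.card Gn : ℝ) ≠ 0 := by exact_mod_cast Fintype.card_ne_zero
    rw [← mul_sum, sum_fiberwise I (fun z => ρ z) V]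
    field_simp

/-- The generic level.  Take a prime `p ∈ (a^25, 2 a^25]` (Bertrand), `b` from `level_ana`,
`κ = Fin (a^22)`, and `Typ, Ps` from `typical` (`m s = P1 b p s`, `lo = b e^{-a}`, `L = a`, `h = a^{-7}`,
`Δ = a^13`): mass of `Typ` `≥ (1 - 3/a²)(1 - 1/a² - 4/a^15)`; write `Pm s = ∏ P1 (s i)`, total mass of all
`s` is `≤ 1`.  For `s ∈ Typ` (cast to `κ → ℤ`) the normalised weights `omg x / Pm s` on `cube p s` are
`≤ wm = (2/3)^(a^15/2) ≤ exp (-a^15/5)`, so `tree_lln` (`δ = 1/a`, `P = 2 a^25`,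
`B = exp (3 (2a)^13)`) applies; averaging over `ψ` gives `ψ` for which the `s ∈ Typ` failing the
conclusion have mass `≤ 1/a`.  `Gd` = the other typical `s`; `|Gd| ≤ e^Δ / Ps`.  Let `r` be minimal with
`p^r ≥ X = a² e^Δ / Ps` (`X ≥ 1` as `Ps ≤ e^Δ`), so `p^r ≤ p X`; `ρ` from `exists_hash`,
`Gn = Fin r → ZMod p`.  For `gn = ρ s` with `s ∈ Gd` isolated: `Cb = cube p s` (`ρ` kills `p • _`),
`Yn gn = p^r (1 - 1/a) μ Pm s`; otherwise `Cb = ∅`, `Yn gn = 0`.  Then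
`av Yn = (1 - 1/a) μ * (isolated mass) ≥ μ - 20/a`, `Yn ≤ p^r Pm s ≤ p a² e^{2Δ} ≤ exp (3 a^13)`,
leaves `≤ exp (3 a^13 - a^15/5) ≤ exp (-a^15/10)`, and
`log p^r ≤ log (p a²) + 2Δ - log (Pm s) ≤ 28 log a + 2 a^13 + 51 a^22 log a ≤ a^24`. -/
theorem level : ∃ A₀ : ℕ, ∀ a : ℕ, A₀ ≤ a → ∀ (Gt : Type) [AddCommGroup Gt] [Fintype Gt],
    SepBy Gt (4 * a ^ 25) → Real.log (Fintype.card Gt) ≤ (2 * a : ℝ) ^ 24 →
    ∀ (Y : Gt → ℝ) (μ : ℝ), (∀ g, 0 ≤ Y g ∧ Y g ≤ Real.exp (3 * (2 * a : ℝ) ^ 13)) → 1 / 2 ≤ μ →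
      μ ≤ 1 → μ ≤ av Y →
      ∃ (Gn : Type) (_ : AddCommGroup Gn) (_ : Fintype Gn) (b : ℝ) (ρ : (Fin (a ^ 22) → ℤ) →+ Gn)
        (ψ : Fin (a ^ 22) → Gt) (Yn : Gn → ℝ),
        Level Y b ρ ψ Yn (2 * a ^ 25) a (Real.exp (-((a : ℝ) ^ 15 / 10))) ∧ SepBy Gn (a ^ 25) ∧
        Real.log (Fintype.card Gn) ≤ (a : ℝ) ^ 24 ∧
        (∀ g, 0 ≤ Yn g ∧ Yn g ≤ Real.exp (3 * (a : ℝ) ^ 13)) ∧ μ - 20 / a ≤ av Yn := by
  obtain ⟨A₀, hA⟩ := typ_cubes
  refine ⟨max A₀ 4096, fun a ha Gt _ _ hS hL Y μ hY hμ hμ1 hμY => ?_⟩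
  have ha1 : 4096 ≤ a := (le_max_right _ _).trans ha
  have ha1' : (4096 : ℝ) ≤ a := by exact_mod_cast ha1
  have ha0 : (0 : ℝ) < a := by linarith
  obtain ⟨p, hp, hp1, hp2⟩ := Nat.exists_prime_lt_and_le_two_mul (a ^ 25) (by positivity)
  have : Fact p.Prime := ⟨hp⟩
  obtain ⟨b, Ps, Typ, hb0, hb1, hbp, hPs, hm1, hm2, hTyp⟩ :=
    hA a p ((le_max_left _ _).trans ha) hp1 hp2
  obtain ⟨W, hWdef⟩ : ∃ W : (Fin (a ^ 22) → ℤ) → ℝ, ∀ z, W z = ∏ i, P1 b p (z i) := ⟨_, fun _ => rfl⟩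
  simp only [← hWdef] at hm1 hm2 hTyp
  have hW : ∀ z, 0 < W z := fun z => by
    rw [hWdef]; exact prod_pos fun _ _ => P1_pos_lv hb0 _ _
  have hxP : ∀ z ∈ Typ, ∀ x ∈ cube p z, ∀ i, |x i| ≤ ((2 * a ^ 25 : ℕ) : ℤ) := fun z hz x hx i =>
    (abs_le_of_mem_cube (hTyp z hz).1 hx i).trans (by exact_mod_cast hp2)
  have ia0 : (0 : ℝ) < 1 / a := by positivity
  have ia1 : (1 : ℝ) / a ≤ 1 / 4096 := one_div_le_one_div_of_le (by norm_num) ha1'
  -- the choice of `ψ`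
  obtain ⟨ψ, hψ⟩ := exists_psi (Gt := Gt) Typ W (fun z _ => (hW z).le) hm2
    (fun z ψ => ∃ g, ∑ x ∈ cube p z, omg (fun _ => b) x / W z * Y (g + lin ψ x) < (1 - 1 / a) * μ)
    ia0.le (fun z hz => by
      have h := tree_lln (isTree_cube p z) (P := 2 * a ^ 25) (hxP z hz)
        (G := Gt) (by rwa [← mul_assoc]) (fun x => omg (fun _ => b) x / W z)
        (wm := Real.exp (-((a : ℝ) ^ 15 / 6))) (B := Real.exp (3 * (2 * a : ℝ) ^ 13)) (μ := μ)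
        (δ := 1 / a)
        (fun x hx => ⟨div_nonneg (omg_pos_lv hb0 x).le (hW z).le,
          (div_le_iff₀ (hW z)).2 ((hTyp z hz).2.2.2.2 x hx)⟩)
        (by rw [← sum_div, sum_cube b hp.pos, ← hWdef, div_self (hW z).ne']) Y hY (by linarith) hμY
        ia0 (by linarith)
        (by
          refine le_trans ?_ ((num_lln ha1').trans
            (mul_le_mul_of_nonneg_left hμ (by positivity)))
          gcongr)
      convert h)
  set bad : (Fin (a ^ 22) → ℤ) → Prop := fun z =>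
    ∃ g, ∑ x ∈ cube p z, omg (fun _ => b) x / W z * Y (g + lin ψ x) < (1 - 1 / a) * μ with hbad
  obtain ⟨Gd, hGd⟩ : ∃ Gd : Finset (Fin (a ^ 22) → ℤ), Gd = Typ.filter fun z => ¬ bad z := ⟨_, rfl⟩
  have hGd1 : ∀ z ∈ Gd, z ∈ Typ ∧ ¬ bad z := fun z hz => by rwa [hGd, mem_filter] at hz
  have hGd2 : 1 - 2 * (1 / (a : ℝ)) ≤ ∑ z ∈ Gd, W z := by
    have := sum_filter_add_sum_filter_not Typ bad W
    rw [← hGd] at this
    have h2 : ∑ z ∈ Typ.filter bad, W z ≤ 1 / a := by convert hψ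
    linarith
  have hGd3 : ∑ z ∈ Gd, W z ≤ 1 :=
    (sum_le_sum_of_subset_of_nonneg (fun z hz => (hGd1 z hz).1) fun z _ _ => (hW z).le).trans hm2
  have hE : (0 : ℝ) < Real.exp ((a : ℝ) ^ 13) := Real.exp_pos _
  have hGd4 : (Gd.card : ℝ) * Ps ≤ Real.exp ((a : ℝ) ^ 13) := by
    have h1 : Gd.card • (Real.exp (-(a : ℝ) ^ 13) * Ps) ≤ ∑ z ∈ Gd, W z :=
      card_nsmul_le_sum _ _ _ fun z hz => (hTyp z (hGd1 z hz).1).2.1
    rw [nsmul_eq_mul, Real.exp_neg] at h1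
    have h2 := mul_le_mul_of_nonneg_left (h1.trans hGd3) hE.le
    rw [mul_one] at h2
    refine le_trans (le_of_eq ?_) h2
    field_simp
  obtain ⟨z₀, hz₀⟩ : Gd.Nonempty := by
    rw [nonempty_iff_ne_empty]
    rintro rfl
    rw [sum_empty] at hGd2
    linarith
  have hc1 : (1 : ℝ) ≤ Gd.card := by exact_mod_cast card_pos.2 ⟨z₀, hz₀⟩
  have hX : 1 ≤ (a : ℝ) ^ 2 * Real.exp ((a : ℝ) ^ 13) / Ps := by
    rw [le_div_iff₀ hPs]
    have h1 : (1 : ℝ) ≤ (a : ℝ) ^ 2 := one_le_pow₀ (by linarith)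
    nlinarith only [h1, hc1, hGd4, hPs, hE]
  have hp1' : (1 : ℝ) < p := by exact_mod_cast hp.one_lt
  obtain ⟨n, hn1, hn2⟩ := exists_nat_pow_near hX hp1'
  obtain ⟨ρ, hρ⟩ := exists_hash p (n + 1) Gd (fun z hz => (hTyp z (hGd1 z hz).1).1) W
    fun z _ => (hW z).le
  have hcard : (Fintype.card (Fin (n + 1) → ZMod p) : ℝ) = (p : ℝ) ^ (n + 1) := by
    simp [ZMod.card]
  have hbig : ∀ z ∈ Typ, (p : ℝ) ^ (n + 1) * W z ≤ Real.exp (3 * (a : ℝ) ^ 13) := by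
    intro z hz
    have h1 : (p : ℝ) ≤ 2 * (a : ℝ) ^ 25 := by exact_mod_cast hp2
    calc (p : ℝ) ^ (n + 1) * W z = p * ((p : ℝ) ^ n * W z) := by ring
      _ ≤ (2 * (a : ℝ) ^ 25) * (((a : ℝ) ^ 2 * Real.exp ((a : ℝ) ^ 13) / Ps) *
            (Real.exp ((a : ℝ) ^ 13) * Ps)) :=
          mul_le_mul h1 (mul_le_mul hn1 (hTyp z hz).2.2.1 (hW z).le (by positivity))
            (mul_nonneg (by positivity) (hW z).le) (by positivity)
      _ = (2 * (a : ℝ) ^ 27) * (Real.exp ((a : ℝ) ^ 13) * Real.exp ((a : ℝ) ^ 13)) := by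
          field_simp
      _ ≤ Real.exp ((a : ℝ) ^ 13) * (Real.exp ((a : ℝ) ^ 13) * Real.exp ((a : ℝ) ^ 13)) :=
          mul_le_mul_of_nonneg_right (num_exp ha1') (by positivity)
      _ = _ := by rw [← Real.exp_add, ← Real.exp_add]; congr 1; ring
  have hcoef0 : 0 ≤ (1 - 1 / (a : ℝ)) * μ := mul_nonneg (by linarith) (by linarith)
  have hcoef1 : (1 - 1 / (a : ℝ)) * μ ≤ 1 := mul_le_one₀ (by linarith) (by linarith) hμ1
  obtain ⟨Yn, hLv, hYn, hav⟩ := level_of_iso (Y := Y) hb0 hb1 (p := p) ρ ψ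
    (Gd.filter fun s => ∀ s' ∈ Gd, ρ s' = ρ s → s' = s) (fun z => (1 - 1 / (a : ℝ)) * μ * W z)
    (P := 2 * a ^ 25) (T := a) (τ := Real.exp (-((a : ℝ) ^ 15 / 10)))
    (B := Real.exp (3 * (a : ℝ) ^ 13)) (Real.exp_pos _).le
    (fun z hz z' hz' h => (mem_filter.1 hz).2 z' (mem_filter.1 hz').1 h)
    (fun z hz x hx => by
      have hzT := (hGd1 z (mem_filter.1 hz).1).1
      refine ⟨hash_cube ρ hx, fun i => ⟨hxP z hzT x hx i, le_trans ?_ hbp⟩, ?_⟩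
      · have h1 : |(x i : ℝ)| ≤ p := by exact_mod_cast abs_le_of_mem_cube (hTyp z hzT).1 hx i
        exact mul_le_mul_of_nonneg_left (by linarith) hb0.le
      · rw [hcard]
        calc (p : ℝ) ^ (n + 1) * omg (fun _ => b) x
            ≤ (p : ℝ) ^ (n + 1) * (Real.exp (-((a : ℝ) ^ 15 / 6)) * W z) :=
              mul_le_mul_of_nonneg_left ((hTyp z hzT).2.2.2.2 x hx) (by positivity)
          _ = Real.exp (-((a : ℝ) ^ 15 / 6)) * ((p : ℝ) ^ (n + 1) * W z) := by ring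
          _ ≤ Real.exp (-((a : ℝ) ^ 15 / 6)) * Real.exp (3 * (a : ℝ) ^ 13) :=
              mul_le_mul_of_nonneg_left (hbig z hzT) (Real.exp_pos _).le
          _ ≤ _ := by
              rw [← Real.exp_add]
              refine Real.exp_le_exp.2 ?_
              have h2 : (4096 : ℝ) ^ 2 ≤ (a : ℝ) ^ 2 := pow_le_pow_left₀ (by norm_num) ha1' 2
              have h3 : 45 * (a : ℝ) ^ 13 ≤ (a : ℝ) ^ 2 * (a : ℝ) ^ 13 :=
                mul_le_mul_of_nonneg_right (by linarith) (by positivity)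
              have h4 : (a : ℝ) ^ 2 * (a : ℝ) ^ 13 = (a : ℝ) ^ 15 := by ring
              linarith)
    (fun z hz => by
      obtain ⟨hzT, hzb⟩ := hGd1 z (mem_filter.1 hz).1
      refine ⟨mul_nonneg hcoef0 (hW z).le, ?_, fun g => ?_⟩
      · rw [hcard]
        refine le_trans ?_ (hbig z hzT)
        exact mul_le_mul_of_nonneg_left (mul_le_of_le_one_left (hW z).le hcoef1) (by positivity)
      · simp only [hbad, not_exists, not_lt] at hzb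
        refine (mul_le_mul_of_nonneg_right (hzb g) (hW z).le).trans (le_of_eq ?_)
        rw [sum_mul]
        refine sum_congr rfl fun x _ => ?_
        have := (hW z).ne'
        field_simp)
  refine ⟨_, _, _, b, ρ, ψ, Yn, hLv, sepBy_zmod hp1, ?_, hYn, ?_⟩
  · rw [hcard]
    have hzT := (hGd1 z₀ hz₀).1
    have h1 : (p : ℝ) ^ (n + 1) * (1 / (a : ℝ) ^ 51) ^ (a ^ 22) ≤ Real.exp (3 * (a : ℝ) ^ 13) :=
      (mul_le_mul_of_nonneg_left (hTyp z₀ hzT).2.2.2.1 (by positivity)).trans (hbig z₀ hzT)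
    have h2 := Real.log_le_log (by positivity) h1
    rw [Real.log_mul (by positivity) (by positivity), Real.log_exp, Real.log_pow (1 / (a : ℝ) ^ 51),
      one_div, Real.log_inv, Real.log_pow (a : ℝ)] at h2
    push_cast at h2
    have h3 : Real.log (a : ℝ) ≤ a := (Real.log_le_sub_one_of_pos ha0).trans (by linarith)
    have h4 : (a : ℝ) ^ 22 * (51 * Real.log a) ≤ (a : ℝ) ^ 22 * (51 * a) :=
      mul_le_mul_of_nonneg_left (by linarith) (by positivity)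
    have h5 : (a : ℝ) ^ 13 ≤ (a : ℝ) ^ 23 := pow_le_pow_right₀ (by linarith) (by norm_num)
    have h6 : 54 * (a : ℝ) ^ 23 ≤ a * (a : ℝ) ^ 23 :=
      mul_le_mul_of_nonneg_right (by linarith) (by positivity)
    have h7 : (a : ℝ) ^ 22 * (51 * a) = 51 * (a : ℝ) ^ 23 := by ring
    have h8 : a * (a : ℝ) ^ 23 = (a : ℝ) ^ 24 := by ring
    linarith
  · rw [hav, ← mul_sum]
    have h1 : (Gd.card : ℝ) / (p : ℝ) ^ (n + 1) ≤ 1 / a := by
      rw [div_le_div_iff₀ (by positivity) ha0, one_mul]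
      refine le_trans ?_ hn2.le
      rw [le_div_iff₀ hPs]
      calc (Gd.card : ℝ) * a * Ps = a * (Gd.card * Ps) := by ring
        _ ≤ (a : ℝ) ^ 2 * Real.exp ((a : ℝ) ^ 13) :=
          mul_le_mul (le_self_pow₀ (by linarith) two_ne_zero) hGd4 (by positivity) (by positivity)
    have h2 : (1 - 1 / (a : ℝ)) * (1 - 2 * (1 / (a : ℝ))) ≤
        (1 - (Gd.card : ℝ) / (p : ℝ) ^ (n + 1)) * ∑ s ∈ Gd, W s :=
      mul_le_mul (by linarith) hGd2 (by linarith) (by linarith)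
    have h3 : 1 - 3 * (1 / (a : ℝ)) ≤
        ∑ s ∈ Gd.filter (fun s => ∀ s' ∈ Gd, ρ s' = ρ s → s' = s), W s := by
      refine le_trans ?_ (h2.trans (by convert hρ))
      generalize 1 / (a : ℝ) = u
      nlinarith only [sq_nonneg u]
    have h4 : 20 / (a : ℝ) = 20 * (1 / a) := by ring
    rw [h4]
    exact (num_av ia0.le (by linarith) hμ1).trans (mul_le_mul_of_nonneg_left h3 hcoef0)

/-- The top level: `b = 1`, the single cube `cube 1 0 = {0,-1}^k`, all weights `omg x = phi 1 ^ k`;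
`tree_lln` with weights `2^{-k}`, `δ = μ = 1/2`, `P = 1`, and `k` so large that
`2 L₀ 2^{-k} B₀ ≤ 1/16`. -/
theorem top_level (B₀ L₀ : ℝ) : ∃ k : ℕ, ∀ (Gt : Type) [AddCommGroup Gt] [Fintype Gt],
    SepBy Gt 2 → Real.log (Fintype.card Gt) ≤ L₀ → ∀ Y : Gt → ℝ, (∀ g, 0 ≤ Y g ∧ Y g ≤ B₀) →
      1 / 2 ≤ av Y → ∃ ψ : Fin k → Gt,
        Level Y 1 (0 : (Fin k → ℤ) →+ Unit) ψ (fun _ => (2 * phi 1) ^ k / 4) 1 2 1 := by
  obtain ⟨k, hk⟩ := pow_unbounded_of_one_lt (32 * (L₀ * B₀)) (one_lt_two (α := ℝ))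
  refine ⟨k, fun Gt _ _ hS hL Y hY hav => ?_⟩
  have hφ := phi_pos 1
  have hφ1 : phi 1 ≤ 1 := by
    unfold phi
    rw [div_le_one (by positivity)]
    refine (Real.exp_le_one_iff.2 (by norm_num)).trans (Real.one_le_sqrt.2 ?_)
    linarith [Real.pi_gt_three]
  have hx0 : ∀ x ∈ cube 1 (0 : Fin k → ℤ), ∀ i, x i = 0 ∨ x i = -1 := fun x hx i => by
    simpa using mem_cube_lv hx i
  have homg : ∀ x ∈ cube 1 (0 : Fin k → ℤ), omg (fun _ => (1 : ℝ)) x = phi 1 ^ k := by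
    intro x hx
    have : ∀ i, wc 1 (x i) = phi 1 := fun i => by
      rcases hx0 x hx i with h | h <;> simp [wc, h]
    simp [omg, this]
  have hP : ∀ x ∈ cube 1 (0 : Fin k → ℤ), ∀ i, |x i| ≤ ((1 : ℕ) : ℤ) := fun x hx i => by
    rcases hx0 x hx i with h | h <;> simp [h]
  have hcard : (cube 1 (0 : Fin k → ℤ)).card = 2 ^ k := by
    unfold cube
    rw [Fintype.card_piFinset]
    simp
  have hB : 0 ≤ B₀ := (hY 0).1.trans (hY 0).2
  have h := tree_lln (isTree_cube 1 (0 : Fin k → ℤ)) (P := 1) hP (G := Gt) hS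
    (fun _ => (1 / 2 : ℝ) ^ k) (wm := (1 / 2) ^ k) (B := B₀) (μ := 1 / 2) (δ := 1 / 2)
    (fun _ _ => ⟨by positivity, le_rfl⟩)
    (by rw [sum_const, hcard, nsmul_eq_mul]; push_cast; rw [← mul_pow]; norm_num) Y hY
    (by norm_num) hav (by norm_num) (by norm_num)
    (by
      have h1 : Real.log (Fintype.card Gt) * B₀ ≤ L₀ * B₀ := mul_le_mul_of_nonneg_right hL hB
      have h2 : (0 : ℝ) < 2 ^ k := by positivity
      rw [one_div_pow]
      calc 2 * Real.log (Fintype.card Gt) * (1 / 2 ^ k) * B₀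
          = 2 * (Real.log (Fintype.card Gt) * B₀) / 2 ^ k := by ring
        _ ≤ _ := by rw [div_le_iff₀ h2]; linarith)
  obtain ⟨ψ, hψ⟩ : ∃ ψ : Fin k → Gt, ∀ g, (1 - 1 / 2) * (1 / 2) ≤
      ∑ z ∈ cube 1 (0 : Fin k → ℤ), (1 / 2 : ℝ) ^ k * Y (g + lin ψ z) := by
    by_contra hc
    simp only [not_exists, not_forall, not_le] at hc
    rw [filter_true_of_mem fun ψ _ => hc ψ, card_univ] at h
    have : (0 : ℝ) < Fintype.card (Fin k → Gt) := by exact_mod_cast Fintype.card_pos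
    linarith
  refine ⟨ψ, one_pos, le_rfl, fun gn => ⟨cube 1 0, isTree_cube 1 0, fun x hx => ⟨rfl, fun i =>
    ⟨hP x hx i, ?_⟩, ?_⟩, fun g => ?_⟩⟩
  · rcases hx0 x hx i with h | h <;> simp [h]
    norm_num
  · rw [homg x hx]
    simpa using pow_le_one₀ hφ.le hφ1
  · have h1 := mul_le_mul_of_nonneg_left (hψ g) (by positivity : 0 ≤ (2 * phi 1) ^ k)
    rw [mul_sum] at h1
    simp only [Fintype.card_unique, Nat.cast_one, one_mul]
    refine le_trans (le_of_eq (by ring)) (h1.trans (le_of_eq (sum_congr rfl fun x hx => ?_)))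
    rw [homg x hx, ← mul_assoc, ← mul_pow]
    congr 2
    ring

end Crest.Agent.R225
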