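import Crest.Agent.R225.UDefs

/-! A non-sharp strict Young inequality. -/

set_option autoImplicit false
open MeasureTheory Finset Classical Filter
open scoped Pointwise ENNReal

noncomputable section
namespace Crest.Agent.R225

namespace Young

/-- mass of the interval `[b, b + r]` -/
def ms (F : ℝ → ℝ≥0∞) (b r : ℝ) : ℝ≥0∞ := ∫⁻ x in Set.Icc b (b + r), F x

theorem amgm_real {a b c : ℝ} (ha : 0 ≤ a) (hb : 0 ≤ b) (hc : 0 ≤ c) :
    3 * (a * b * c) ≤ a ^ 3 + b ^ 3 + c ^ 3 := by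
  nlinarith [mul_nonneg (add_nonneg (add_nonneg ha hb) hc)
    (add_nonneg (add_nonneg (sq_nonneg (a - b)) (sq_nonneg (b - c))) (sq_nonneg (a - c)))]

theorem amgm_real' {a b c : ℝ} (ha : 0 ≤ a) (hb : 0 ≤ b) (hc : 0 ≤ c) :
    30000 * (a * b * c) + 297 * a ^ 3 ≤
      10000 * a ^ 3 + 10000 * b ^ 3 + 10000 * c ^ 3 + 307 * c ^ 3 := by
  have h := amgm_real (a := 99 / 100 * a) (b := b) (c := 100 / 99 * c) (by positivity) hb
    (by positivity)
  have h1 : 0 ≤ a ^ 3 := by positivity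
  have h2 : 0 ≤ c ^ 3 := by positivity
  have e1 : 99 / 100 * a * b * (100 / 99 * c) = a * b * c := by ring
  rw [e1, mul_pow, mul_pow] at h
  linarith

theorem amgm_enn (a b c χ : ℝ≥0∞) (hχ : χ = 0 ∨ χ = 1) :
    30000 * (a * b * c) + 297 * (χ * a ^ 3) ≤
      10000 * a ^ 3 + 10000 * b ^ 3 + 10000 * c ^ 3 + 307 * (χ * c ^ 3) := by
  by_cases ha : a = ∞
  · simp [ha, ENNReal.mul_top]
  by_cases hb : b = ∞
  · simp [hb, ENNReal.mul_top]
  by_cases hc : c = ∞
  · simp [hc, ENNReal.mul_top]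
  lift a to NNReal using ha
  lift b to NNReal using hb
  lift c to NNReal using hc
  rcases hχ with rfl | rfl
  · simp only [zero_mul, mul_zero, add_zero]
    have := amgm_real a.2 b.2 c.2
    have h : (30000 * (a * b * c) : NNReal) ≤ 10000 * a ^ 3 + 10000 * b ^ 3 + 10000 * c ^ 3 := by
      rw [← NNReal.coe_le_coe]
      push_cast
      simp only [NNReal.val_eq_coe] at this
      linarith
    exact_mod_cast h
  · simp only [one_mul]
    have := amgm_real' a.2 b.2 c.2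
    have h : (30000 * (a * b * c) + 297 * a ^ 3 : NNReal) ≤
        10000 * a ^ 3 + 10000 * b ^ 3 + 10000 * c ^ 3 + 307 * c ^ 3 := by
      rw [← NNReal.coe_le_coe]
      push_cast
      simpa only [NNReal.val_eq_coe] using this
    exact_mod_cast h

theorem conc {F K : ℝ → ℝ≥0∞} (hF : Measurable F) (hF1 : ∫⁻ x, F x = 1)
    (hK1 : ∫⁻ x, K x = 1) {r : ℝ} (hFq : ∀ b, ms F b r ≤ ENNReal.ofReal (76 / 100))
    (hKq : ∀ b, ms K b r ≤ ENNReal.ofReal (76 / 100)) (a : ℝ) :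
    ∫⁻ x, F x * ms K (a + x) r ≤ ENNReal.ofReal (7 / 10) := by
  have hA : ∀ x x', ENNReal.ofReal (1 / 2) < ms K (a + x) r →
      ENNReal.ofReal (1 / 2) < ms K (a + x') r → x - r ≤ x' := by
    intro x x' h h'
    by_contra hlt
    have hd : Disjoint (Set.Icc (a + x) (a + x + r)) (Set.Icc (a + x') (a + x' + r)) := by
      rw [Set.disjoint_left]
      rintro z ⟨h1, -⟩ ⟨-, h2⟩
      exact hlt (by linarith)
    have h1 : ms K (a + x) r + ms K (a + x') r ≤ 1 := by
      unfold ms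
      rw [← lintegral_union measurableSet_Icc hd, ← hK1]
      exact setLIntegral_le_lintegral _ _
    have h2 := ENNReal.add_lt_add h h'
    rw [← ENNReal.ofReal_add (by norm_num) (by norm_num)] at h2
    norm_num at h2
    exact absurd h1 (not_le.2 h2)
  obtain ⟨s, hs⟩ : ∃ s, ∀ x, ENNReal.ofReal (1 / 2) < ms K (a + x) r → x ∈ Set.Icc s (s + r) := by
    by_cases hne : Set.Nonempty {x | ENNReal.ofReal (1 / 2) < ms K (a + x) r}
    · obtain ⟨x0, hx0⟩ := id hne
      refine ⟨sInf {x | ENNReal.ofReal (1 / 2) < ms K (a + x) r}, fun x hx => ⟨?_, ?_⟩⟩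
      · exact csInf_le ⟨x0 - r, fun x' hx' => hA x0 x' hx0 hx'⟩ hx
      · have := le_csInf hne (fun x' hx' => hA x x' hx hx')
        linarith
    · exact ⟨0, fun x hx => absurd ⟨x, hx⟩ hne⟩
  have hpt : ∀ x, F x * ms K (a + x) r ≤ ENNReal.ofReal (1 / 2) * F x +
      ENNReal.ofReal (26 / 100) * (Set.Icc s (s + r)).indicator F x := by
    intro x
    by_cases hx : x ∈ Set.Icc s (s + r)
    · rw [Set.indicator_of_mem hx, ← add_mul, ← ENNReal.ofReal_add (by norm_num) (by norm_num),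
        mul_comm]
      refine mul_le_mul_left ((hKq _).trans (ENNReal.ofReal_le_ofReal (by norm_num))) _
    · rw [Set.indicator_of_notMem hx, mul_zero, add_zero, mul_comm]
      exact mul_le_mul_left (not_lt.1 fun h => hx (hs x h)) _
  refine (lintegral_mono hpt).trans ?_
  rw [lintegral_add_left (hF.const_mul _), lintegral_const_mul _ hF,
    lintegral_const_mul _ (hF.indicator measurableSet_Icc), lintegral_indicator measurableSet_Icc,
    hF1, mul_one]
  refine (add_le_add_right (mul_le_mul_right (hFq s) _) _).trans ?_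
  rw [← ENNReal.ofReal_mul (by norm_num), ← ENNReal.ofReal_add (by norm_num) (by norm_num)]
  exact ENNReal.ofReal_le_ofReal (by norm_num)

/-- the trilinear form in terms of square roots -/
def T (u v w : ℝ → ℝ≥0∞) : ℝ≥0∞ := ∫⁻ x, ∫⁻ y, u x ^ 2 * v y ^ 2 * w (x + y) ^ 2

theorem caseG {u v w : ℝ → ℝ≥0∞} (hu : Measurable u) (hv : Measurable v) (hw : Measurable w)
    (hu1 : ∫⁻ x, u x ^ 3 = 1) (hv1 : ∫⁻ x, v x ^ 3 = 1) (hw1 : ∫⁻ x, w x ^ 3 = 1) {r a : ℝ}
    (hI : ENNReal.ofReal (3 / 4) ≤ ms (fun x => v x ^ 3) a r)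
    (huq : ∀ b, ms (fun x => u x ^ 3) b r ≤ ENNReal.ofReal (76 / 100))
    (hwq : ∀ b, ms (fun x => w x ^ 3) b r ≤ ENNReal.ofReal (76 / 100)) :
    T u v w ≤ ENNReal.ofReal (9998 / 10000) := by
  let χ : ℝ → ℝ≥0∞ := (Set.Icc a (a + r)).indicator fun _ => 1
  have hχ : Measurable χ := measurable_const.indicator measurableSet_Icc
  have hχ01 : ∀ y, χ y = 0 ∨ χ y = 1 := fun y => by
    by_cases hy : y ∈ Set.Icc a (a + r)
    · right; exact Set.indicator_of_mem hy _
    · left; exact Set.indicator_of_notMem hy _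
  have hu3 : Measurable fun x => u x ^ 3 := hu.pow_const 3
  have hv3 : Measurable fun x => v x ^ 3 := hv.pow_const 3
  have hw3 : Measurable fun x => w x ^ 3 := hw.pow_const 3
  have hpt : ∀ p : ℝ × ℝ, 30000 * (u p.1 ^ 2 * v p.2 ^ 2 * w (p.1 + p.2) ^ 2) +
      297 * (u p.1 ^ 3 * (χ p.2 * v p.2 ^ 3)) ≤
      10000 * (u p.1 ^ 3 * v p.2 ^ 3) + 10000 * (v p.2 ^ 3 * w (p.1 + p.2) ^ 3) +
        10000 * (u p.1 ^ 3 * w (p.1 + p.2) ^ 3) +
        307 * (u p.1 ^ 3 * (χ p.2 * w (p.1 + p.2) ^ 3)) := by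
    intro p
    have := amgm_enn (u p.1 * v p.2) (v p.2 * w (p.1 + p.2)) (u p.1 * w (p.1 + p.2)) (χ p.2)
      (hχ01 _)
    refine le_trans (le_of_eq ?_) (this.trans (le_of_eq ?_)) <;> ring
  have h := lintegral_mono (μ := (volume : Measure ℝ).prod volume) hpt
  rw [lintegral_add_left (by fun_prop), lintegral_add_left (by fun_prop),
    lintegral_add_left (by fun_prop), lintegral_add_left (by fun_prop),
    lintegral_const_mul _ (by fun_prop), lintegral_const_mul _ (by fun_prop),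
    lintegral_const_mul _ (by fun_prop), lintegral_const_mul _ (by fun_prop),
    lintegral_const_mul _ (by fun_prop), lintegral_const_mul _ (by fun_prop)] at h
  have e0 : ∫⁻ p : ℝ × ℝ, u p.1 ^ 2 * v p.2 ^ 2 * w (p.1 + p.2) ^ 2 ∂(volume.prod volume) =
      T u v w := lintegral_prod _ (by fun_prop)
  have e1 : ∫⁻ p : ℝ × ℝ, u p.1 ^ 3 * (χ p.2 * v p.2 ^ 3) ∂(volume.prod volume) =
      ms (fun x => v x ^ 3) a r := by
    rw [lintegral_prod_mul (f := fun x => u x ^ 3) (g := fun y => χ y * v y ^ 3)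
      hu3.aemeasurable (by fun_prop), hu1, one_mul, ms, ← lintegral_indicator measurableSet_Icc]
    refine lintegral_congr fun y => ?_
    by_cases hy : y ∈ Set.Icc a (a + r)
    · simp only [χ, Set.indicator_of_mem hy, one_mul]
    · simp only [χ, Set.indicator_of_notMem hy, zero_mul]
  have e2 : ∫⁻ p : ℝ × ℝ, u p.1 ^ 3 * v p.2 ^ 3 ∂(volume.prod volume) = 1 := by
    rw [lintegral_prod_mul (f := fun x => u x ^ 3) (g := fun y => v y ^ 3)
      hu3.aemeasurable hv3.aemeasurable, hu1, hv1, one_mul]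
  have e3 : ∫⁻ p : ℝ × ℝ, v p.2 ^ 3 * w (p.1 + p.2) ^ 3 ∂(volume.prod volume) = 1 := by
    rw [lintegral_prod_symm _ (by fun_prop), ← hv1]
    refine lintegral_congr fun y => ?_
    dsimp only
    rw [lintegral_const_mul _ (by fun_prop),
      lintegral_add_right_eq_self (fun x => w x ^ 3) y, hw1, mul_one]
  have e4 : ∫⁻ p : ℝ × ℝ, u p.1 ^ 3 * w (p.1 + p.2) ^ 3 ∂(volume.prod volume) = 1 := by
    rw [lintegral_prod _ (by fun_prop), ← hu1]
    refine lintegral_congr fun x => ?_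
    dsimp only
    rw [lintegral_const_mul _ (by fun_prop),
      lintegral_add_left_eq_self (fun x => w x ^ 3) x, hw1, mul_one]
  have e5 : ∫⁻ p : ℝ × ℝ, u p.1 ^ 3 * (χ p.2 * w (p.1 + p.2) ^ 3) ∂(volume.prod volume) ≤
      ENNReal.ofReal (7 / 10) := by
    rw [lintegral_prod _ (by fun_prop)]
    refine le_trans (le_of_eq (lintegral_congr fun x => ?_)) (conc hu3 hu1 hw1 huq hwq a)
    dsimp only
    rw [lintegral_const_mul _ (by fun_prop), ms, ← lintegral_indicator measurableSet_Icc,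
      ← lintegral_add_left_eq_self ((Set.Icc (a + x) (a + x + r)).indicator fun x => w x ^ 3) x]
    congr 1
    refine lintegral_congr fun y => ?_
    by_cases hy : y ∈ Set.Icc a (a + r)
    · have hy' : x + y ∈ Set.Icc (a + x) (a + x + r) := ⟨by linarith [hy.1], by linarith [hy.2]⟩
      simp only [χ, Set.indicator_of_mem hy, Set.indicator_of_mem hy', one_mul]
    · have hy' : x + y ∉ Set.Icc (a + x) (a + x + r) := fun h =>
        hy ⟨by linarith [h.1], by linarith [h.2]⟩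
      simp only [χ, Set.indicator_of_notMem hy, Set.indicator_of_notMem hy', zero_mul]
  rw [e0, e1, e2, e3, e4] at h
  have h' : 30000 * T u v w + 297 * ENNReal.ofReal (3 / 4) ≤
      10000 * 1 + 10000 * 1 + 10000 * 1 + 307 * ENNReal.ofReal (7 / 10) :=
    le_trans (by gcongr) (h.trans (by gcongr))
  have hT : T u v w ≠ ∞ := by
    intro hT
    rw [hT] at h'
    simp [ENNReal.mul_top, ENNReal.mul_eq_top] at h'
  rw [← ENNReal.ofReal_toReal hT] at h' ⊢
  refine ENNReal.ofReal_le_ofReal ?_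
  have h0 := ENNReal.toReal_nonneg (a := T u v w)
  generalize (T u v w).toReal = t at h' h0
  have h2 := ENNReal.toReal_mono (by simp [ENNReal.mul_eq_top]) h'
  rw [ENNReal.toReal_add (by simp [ENNReal.mul_eq_top]) (by simp [ENNReal.mul_eq_top]),
    ENNReal.toReal_add (by simp [ENNReal.mul_eq_top]) (by simp [ENNReal.mul_eq_top]),
    ENNReal.toReal_add (by simp [ENNReal.mul_eq_top]) (by simp [ENNReal.mul_eq_top]),
    ENNReal.toReal_add (by simp [ENNReal.mul_eq_top]) (by simp [ENNReal.mul_eq_top])] at h2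
  simp only [ENNReal.toReal_mul, ENNReal.toReal_ofNat, ENNReal.toReal_one,
    ENNReal.toReal_ofReal h0, ENNReal.toReal_ofReal (show (0 : ℝ) ≤ 3 / 4 by norm_num),
    ENNReal.toReal_ofReal (show (0 : ℝ) ≤ 7 / 10 by norm_num)] at h2
  linarith

theorem T_swap {u v w : ℝ → ℝ≥0∞} (hu : Measurable u) (hv : Measurable v) (hw : Measurable w) :
    T u v w = T v u w := by
  unfold T
  rw [lintegral_lintegral_swap (by fun_prop)]
  refine lintegral_congr fun y => lintegral_congr fun x => ?_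
  rw [add_comm x y]; ring

theorem T_refl (u v w : ℝ → ℝ≥0∞) : T u v w = T (fun x => u (-x)) w v := by
  unfold T
  rw [← lintegral_neg_eq_self]
  refine lintegral_congr fun x => ?_
  rw [← lintegral_add_left_eq_self _ x]
  refine lintegral_congr fun y => ?_
  rw [neg_add_cancel_left]; ring

theorem ms_neg (F : ℝ → ℝ≥0∞) (b r : ℝ) : ms (fun x => F (-x)) b r = ms F (-b - r) r := by
  unfold ms
  rw [← lintegral_indicator measurableSet_Icc, ← lintegral_indicator measurableSet_Icc,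
    ← lintegral_neg_eq_self]
  refine lintegral_congr fun x => ?_
  by_cases hx : x ∈ Set.Icc (-b - r) (-b - r + r)
  · have hx' : -x ∈ Set.Icc b (b + r) := ⟨by linarith [hx.2], by linarith [hx.1]⟩
    simp only [Set.indicator_of_mem hx, Set.indicator_of_mem hx', neg_neg]
  · have hx' : -x ∉ Set.Icc b (b + r) := fun h => hx ⟨by linarith [h.2], by linarith [h.1]⟩
    simp only [Set.indicator_of_notMem hx, Set.indicator_of_notMem hx']

theorem ms_small {F : ℝ → ℝ≥0∞} (hF1 : ∫⁻ x, F x = 1) :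
    ∀ᶠ d in nhdsWithin (0 : ℝ) (Set.Ioi 0), ∀ b, ∀ r ≤ d, ms F b r < ENNReal.ofReal (1 / 100) := by
  obtain ⟨δ, hδ, h⟩ := exists_pos_setLIntegral_lt_of_measure_lt (μ := (volume : Measure ℝ))
    (f := F) (by rw [hF1]; simp) (ε := ENNReal.ofReal (1 / 100)) (by simp)
  have h1 : Tendsto ENNReal.ofReal (nhds (0 : ℝ)) (nhds 0) := by
    simpa using ENNReal.continuous_ofReal.tendsto 0
  filter_upwards [mem_nhdsWithin_of_mem_nhds (h1.eventually (gt_mem_nhds hδ))] with d hd b r hr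
  refine h _ ?_
  rw [Real.volume_Icc]
  exact lt_of_le_of_lt (ENNReal.ofReal_le_ofReal (by linarith)) hd

theorem ms_add_le (F : ℝ → ℝ≥0∞) (b r d : ℝ) : ms F b (r + d) ≤ ms F b r + ms F (b + r) d := by
  unfold ms
  refine le_trans (lintegral_mono_set fun x hx => ?_) (lintegral_union_le _ _ _)
  rcases le_total x (b + r) with h | h
  · exact Or.inl ⟨hx.1, h⟩
  · exact Or.inr ⟨h, by linarith [hx.2]⟩

theorem ms_big {F : ℝ → ℝ≥0∞} (hF1 : ∫⁻ x, F x = 1) {d : ℝ} (hd : 0 < d) :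
    ∃ (n : ℕ) (b : ℝ), ENNReal.ofReal (3 / 4) < ms F b (n * d) := by
  have hm : Monotone fun n : ℕ => Set.Icc (-(n * d / 2)) (-(n * d / 2) + n * d) := by
    intro n m hnm
    have : (n : ℝ) * d ≤ m * d := mul_le_mul_of_nonneg_right (by exact_mod_cast hnm) hd.le
    exact Set.Icc_subset_Icc (by linarith) (by linarith)
  have h1 := tendsto_measure_iUnion_atTop (μ := volume.withDensity F) hm
  have h2 : (⋃ n : ℕ, Set.Icc (-(n * d / 2)) (-(n * d / 2) + n * d)) = Set.univ := by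
    refine Set.eq_univ_of_forall fun x => ?_
    obtain ⟨n, hn⟩ := exists_nat_ge (2 * |x| / d)
    rw [div_le_iff₀ hd] at hn
    exact Set.mem_iUnion.2 ⟨n, by linarith [neg_abs_le x], by linarith [le_abs_self x]⟩
  rw [h2, withDensity_apply _ MeasurableSet.univ, Measure.restrict_univ, hF1] at h1
  obtain ⟨n, hn⟩ := (h1.eventually (lt_mem_nhds (show ENNReal.ofReal (3 / 4) < 1 by
    rw [ENNReal.ofReal_lt_one]; norm_num))).exists
  refine ⟨n, -(n * d / 2), ?_⟩
  rwa [Function.comp_apply, withDensity_apply _ measurableSet_Icc] at hn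

theorem normalised {u v w : ℝ → ℝ≥0∞} (hu : Measurable u) (hv : Measurable v) (hw : Measurable w)
    (hu1 : ∫⁻ x, u x ^ 3 = 1) (hv1 : ∫⁻ x, v x ^ 3 = 1) (hw1 : ∫⁻ x, w x ^ 3 = 1) :
    T u v w ≤ ENNReal.ofReal (9998 / 10000) := by
  obtain ⟨d, ⟨⟨su, sv⟩, sw⟩, hd⟩ :=
    ((((ms_small hu1).and (ms_small hv1)).and (ms_small hw1)).and self_mem_nhdsWithin).exists
  replace hd : 0 < d := hd
  have hex : ∃ n : ℕ, ∃ b : ℝ, ENNReal.ofReal (3 / 4) < ms (fun x => u x ^ 3) b (n * d) ∨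
      ENNReal.ofReal (3 / 4) < ms (fun x => v x ^ 3) b (n * d) ∨
      ENNReal.ofReal (3 / 4) < ms (fun x => w x ^ 3) b (n * d) := by
    obtain ⟨n, b, h⟩ := ms_big hu1 hd
    exact ⟨n, b, Or.inl h⟩
  obtain ⟨a, ha⟩ := Nat.find_spec hex
  have hmin := fun m => Nat.find_min hex (m := m)
  generalize Nat.find hex = n at ha hmin
  have hle : ENNReal.ofReal (1 / 100) ≤ ENNReal.ofReal (3 / 4) :=
    ENNReal.ofReal_le_ofReal (by norm_num)
  cases n with
  | zero =>
    exfalso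
    have h0 : ((0 : ℕ) : ℝ) * d ≤ d := by simpa using hd.le
    rcases ha with h | h | h
    · exact lt_irrefl _ (h.trans ((su a _ h0).trans_le hle))
    · exact lt_irrefl _ (h.trans ((sv a _ h0).trans_le hle))
    · exact lt_irrefl _ (h.trans ((sw a _ h0).trans_le hle))
  | succ n =>
    have h1 := hmin n (Nat.lt_succ_self n)
    simp only [not_exists, not_or, not_lt] at h1
    have key : ∀ F : ℝ → ℝ≥0∞, (∀ b, ms F b (n * d) ≤ ENNReal.ofReal (3 / 4)) →
        (∀ b, ∀ r ≤ d, ms F b r < ENNReal.ofReal (1 / 100)) →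
        ∀ b, ms F b ((n + 1 : ℕ) * d) ≤ ENNReal.ofReal (76 / 100) := by
      intro F h1 h2 b
      have e : ((n + 1 : ℕ) : ℝ) * d = n * d + d := by push_cast; ring
      rw [e]
      refine (ms_add_le F b _ _).trans ((add_le_add (h1 b) (h2 _ d le_rfl).le).trans ?_)
      rw [← ENNReal.ofReal_add (by norm_num) (by norm_num)]
      exact ENNReal.ofReal_le_ofReal (by norm_num)
    have qu := key _ (fun b => (h1 b).1) su
    have qv := key _ (fun b => (h1 b).2.1) sv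
    have qw := key _ (fun b => (h1 b).2.2) sw
    rcases ha with h | h | h
    · rw [T_swap hu hv hw]
      exact caseG hv hu hw hv1 hu1 hw1 h.le qv qw
    · exact caseG hu hv hw hu1 hv1 hw1 h.le qu qw
    · rw [T_refl]
      refine caseG (hu.comp measurable_neg) hw hv ?_ hw1 hv1 h.le (fun b => ?_) qv
      · rw [← hu1]; exact lintegral_neg_eq_self fun x => u x ^ 3
      · rw [ms_neg fun x => u x ^ 3]; exact qu _

/-- normalisation -/
theorem exists_norm {f : ℝ → ℝ≥0∞} (hf : Measurable f) (h0 : ∫⁻ x, f x ^ (3 / 2 : ℝ) ≠ 0)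
    (h1 : ∫⁻ x, f x ^ (3 / 2 : ℝ) ≠ ∞) : ∃ u : ℝ → ℝ≥0∞, Measurable u ∧ ∫⁻ x, u x ^ 3 = 1 ∧
      ∀ x, f x = (∫⁻ x, f x ^ (3 / 2 : ℝ)) ^ (2 / 3 : ℝ) * u x ^ 2 := by
  obtain ⟨A, hA⟩ : ∃ A, A = ∫⁻ x, f x ^ (3 / 2 : ℝ) := ⟨_, rfl⟩
  rw [← hA] at h0 h1 ⊢
  refine ⟨fun x => f x ^ (1 / 2 : ℝ) * A ^ (-(1 / 3) : ℝ), by fun_prop, ?_, fun x => ?_⟩
  · have : ∀ x, (f x ^ (1 / 2 : ℝ) * A ^ (-(1 / 3) : ℝ)) ^ 3 = f x ^ (3 / 2 : ℝ) * A⁻¹ := by
      intro x
      rw [mul_pow, ← ENNReal.rpow_natCast, ← ENNReal.rpow_natCast, ← ENNReal.rpow_mul,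
        ← ENNReal.rpow_mul, ← ENNReal.rpow_neg_one]
      norm_num
    simp only [this]
    rw [lintegral_mul_const _ (by fun_prop), ← hA, ENNReal.mul_inv_cancel h0 h1]
  · rw [mul_pow, ← ENNReal.rpow_natCast, ← ENNReal.rpow_natCast, ← ENNReal.rpow_mul,
      ← ENNReal.rpow_mul, mul_comm (f x ^ _), ← mul_assoc, ← ENNReal.rpow_add _ _ h0 h1]
    norm_num

theorem ae_zero {f : ℝ → ℝ≥0∞} (hf : Measurable f) (h0 : ∫⁻ x, f x ^ (3 / 2 : ℝ) = 0) :
    ∀ᵐ x, f x = 0 := by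
  rw [lintegral_eq_zero_iff (by fun_prop)] at h0
  filter_upwards [h0] with x hx
  exact (ENNReal.rpow_eq_zero_iff_of_pos (by norm_num)).1 hx

end Young

/-- One dimension.  Suggested proof.  Reduce to bounded `f, g, k` (truncate by `min · n`, monotone
convergence) with `∫ f^{3/2} = ∫ g^{3/2} = ∫ k^{3/2} = 1` (homogeneity; the cases `0`, `∞` are easy).
Put `F = f^{3/2}` etc., bounded probability densities (`≤ B`).  On `ℝ²` the three probability densities
`P₁ = F x G y`, `P₂ = G y K (x+y)`, `P₃ = F x K (x+y)` satisfy `f g k = (P₁ P₂ P₃)^{1/3}`.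
Let `r* = inf {r > 0 | some of F, G, K has an interval of length r of mass > 3/4}`, `r = r* + ε`,
`B ε ≤ 1/100`.  Then one density has an interval `I` of length `r` with mass `> 3/4`, and every interval
of length `r` has mass `≤ q = 0.77` for all three.  For independent `U, V` with two of the densities and
an interval `I` of length `r`, `Pr (U ± V ∈ I) ≤ q² + (1-q)/2 < 0.71`: with `φ v = Pr (U ∈ I ∓ v) ≤ q`
the set `{φ > 1/2}` has diameter `≤ r`, so mass `≤ q`.  So there is a strip `E` with `P_i E ≥ 3/4`,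
`P_j E ≤ 0.71` (if `G` has the interval: `E = {y ∈ I}`, `i = 1`, `j = 3`; `F`: `{x ∈ I}`, `1, 2`;
`K`: `{x + y ∈ I}`, `2, 1`).  AM–GM `(abc)^{1/3} ≤ (λ a + b/λ + c)/3` with `λ = 0.98` on `E` and `λ = 1`
off `E` gives `∫∫ f g k ≤ 1 - (0.02 * 0.75 - 0.71 * 0.02/0.98)/3 < 1`. -/
theorem young_one : ∃ c : ℝ≥0∞, 0 < c ∧ c < 1 ∧ ∀ f g k : ℝ → ℝ≥0∞, Measurable f → Measurable g →
    Measurable k → ∫⁻ x, ∫⁻ y, f x * g y * k (x + y) ≤
      c * (∫⁻ x, f x ^ (3 / 2 : ℝ)) ^ (2 / 3 : ℝ) * (∫⁻ x, g x ^ (3 / 2 : ℝ)) ^ (2 / 3 : ℝ) *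
        (∫⁻ x, k x ^ (3 / 2 : ℝ)) ^ (2 / 3 : ℝ) := by
  refine ⟨ENNReal.ofReal (9998 / 10000), by simp, by rw [ENNReal.ofReal_lt_one]; norm_num,
    fun f g k hf hg hk => ?_⟩
  by_cases f0 : ∫⁻ x, f x ^ (3 / 2 : ℝ) = 0
  · refine le_trans (le_of_eq ?_) zero_le
    refine (lintegral_congr_ae ?_).trans lintegral_zero
    filter_upwards [Young.ae_zero hf f0] with x hx
    simp [hx]
  by_cases g0 : ∫⁻ x, g x ^ (3 / 2 : ℝ) = 0
  · refine le_trans (le_of_eq ?_) zero_le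
    refine (lintegral_congr fun x => ?_).trans lintegral_zero
    refine (lintegral_congr_ae ?_).trans lintegral_zero
    filter_upwards [Young.ae_zero hg g0] with y hy
    simp [hy]
  by_cases k0 : ∫⁻ x, k x ^ (3 / 2 : ℝ) = 0
  · refine le_trans (le_of_eq ?_) zero_le
    refine (lintegral_congr fun x => ?_).trans lintegral_zero
    refine (lintegral_congr_ae ?_).trans lintegral_zero
    filter_upwards [(measurePreserving_add_left volume x).quasiMeasurePreserving.ae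
      (Young.ae_zero hk k0)] with y hy
    simp [hy]
  have hp : ∀ A : ℝ≥0∞, A ≠ 0 → A ^ (2 / 3 : ℝ) ≠ 0 := fun A hA h =>
    hA ((ENNReal.rpow_eq_zero_iff_of_pos (by norm_num)).1 h)
  have hc : ENNReal.ofReal (9998 / 10000) ≠ 0 := by simp
  have ht : (∞ : ℝ≥0∞) ^ (2 / 3 : ℝ) = ∞ := ENNReal.top_rpow_of_pos (by norm_num)
  by_cases f1 : ∫⁻ x, f x ^ (3 / 2 : ℝ) = ∞
  · rw [f1, ht, ENNReal.mul_top hc, ENNReal.top_mul (hp _ g0), ENNReal.top_mul (hp _ k0)]
    exact le_top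
  by_cases g1 : ∫⁻ x, g x ^ (3 / 2 : ℝ) = ∞
  · rw [g1, ht, ENNReal.mul_top (mul_ne_zero hc (hp _ f0)), ENNReal.top_mul (hp _ k0)]
    exact le_top
  by_cases k1 : ∫⁻ x, k x ^ (3 / 2 : ℝ) = ∞
  · rw [k1, ht, ENNReal.mul_top (mul_ne_zero (mul_ne_zero hc (hp _ f0)) (hp _ g0))]
    exact le_top
  obtain ⟨u, hu, hu1, eu⟩ := Young.exists_norm hf f0 f1
  obtain ⟨v, hv, hv1, ev⟩ := Young.exists_norm hg g0 g1
  obtain ⟨w, hw, hw1, ew⟩ := Young.exists_norm hk k0 k1
  generalize (∫⁻ x, f x ^ (3 / 2 : ℝ)) ^ (2 / 3 : ℝ) = A at eu ⊢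
  generalize (∫⁻ x, g x ^ (3 / 2 : ℝ)) ^ (2 / 3 : ℝ) = B at ev ⊢
  generalize (∫⁻ x, k x ^ (3 / 2 : ℝ)) ^ (2 / 3 : ℝ) = C at ew ⊢
  have e : ∫⁻ x, ∫⁻ y, f x * g y * k (x + y) = A * B * C * Young.T u v w := by
    unfold Young.T
    rw [← lintegral_const_mul _ (Measurable.lintegral_prod_right (by fun_prop))]
    refine lintegral_congr fun x => ?_
    rw [← lintegral_const_mul _ (by fun_prop)]
    refine lintegral_congr fun y => ?_
    rw [eu, ev, ew]; ring
  rw [e]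
  refine (mul_le_mul_right (Young.normalised hu hv hw hu1 hv1 hw1) _).trans (le_of_eq ?_)
  ring

end Crest.Agent.R225
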