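import Crest.Agent.R225.UYoung

set_option autoImplicit false
open MeasureTheory Finset Classical Filter
open scoped Pointwise ENNReal

noncomputable section
namespace Crest.Agent.R225

theorem young_pi {c : ℝ≥0∞} (hc : ∀ f g k : ℝ → ℝ≥0∞, Measurable f → Measurable g →
    Measurable k → ∫⁻ x, ∫⁻ y, f x * g y * k (x + y) ≤
      c * (∫⁻ x, f x ^ (3 / 2 : ℝ)) ^ (2 / 3 : ℝ) * (∫⁻ x, g x ^ (3 / 2 : ℝ)) ^ (2 / 3 : ℝ) *
        (∫⁻ x, k x ^ (3 / 2 : ℝ)) ^ (2 / 3 : ℝ)) (n : ℕ) :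
    ∀ f g k : (Fin n → ℝ) → ℝ≥0∞, Measurable f → Measurable g →
    Measurable k → ∫⁻ x, ∫⁻ y, f x * g y * k (x + y) ≤
      c ^ n * (∫⁻ x, f x ^ (3 / 2 : ℝ)) ^ (2 / 3 : ℝ) * (∫⁻ x, g x ^ (3 / 2 : ℝ)) ^ (2 / 3 : ℝ) *
        (∫⁻ x, k x ^ (3 / 2 : ℝ)) ^ (2 / 3 : ℝ) := by
  have hr : ∀ A : ℝ≥0∞, (A ^ (3 / 2 : ℝ)) ^ (2 / 3 : ℝ) = A := fun A => by
    rw [← ENNReal.rpow_mul]; norm_num
  have hr' : ∀ A : ℝ≥0∞, (A ^ (2 / 3 : ℝ)) ^ (3 / 2 : ℝ) = A := fun A => by
    rw [← ENNReal.rpow_mul]; norm_num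
  induction n with
  | zero =>
    intro f g k _ _ _
    have hv : (volume : Measure (Fin 0 → ℝ)) Set.univ = 1 := by simp [volume_pi]
    simp only [lintegral_unique, hv, mul_one, hr, pow_zero, one_mul]
    exact le_of_eq (congrArg _ (congrArg k (Subsingleton.elim _ _)))
  | succ n ih =>
    intro f g k hf hg hk
    set e := MeasurableEquiv.piFinSuccAbove (fun _ : Fin (n + 1) => ℝ) 0 with he
    have hmp := (volume_preserving_piFinSuccAbove (fun _ : Fin (n + 1) => ℝ) 0).symm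
    have hem : Measurable e.symm := e.symm.measurable
    have split : ∀ F : (Fin (n + 1) → ℝ) → ℝ≥0∞, Measurable F →
        ∫⁻ x, F x = ∫⁻ a, ∫⁻ x, F (e.symm (a, x)) := fun F hF => by
      rw [← hmp.lintegral_comp hF, Measure.volume_eq_prod]
      exact lintegral_prod _ (hF.comp e.symm.measurable).aemeasurable
    have hm : ∀ F : (Fin (n + 1) → ℝ) → ℝ≥0∞, Measurable F →
        Measurable fun a => (∫⁻ x, F (e.symm (a, x)) ^ (3 / 2 : ℝ)) ^ (2 / 3 : ℝ) := fun F hF =>
      (((hF.comp hem).pow_const _).lintegral_prod_right').pow_const _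
    have hadd : ∀ a b x y, e.symm (a, x) + e.symm (b, y) = e.symm (a + b, x + y) := by
      intro a b x y
      funext i
      refine Fin.cases ?_ (fun j => ?_) i
      · simp [he, MeasurableEquiv.piFinSuccAbove, Fin.insertNthEquiv]
      · simp [he, MeasurableEquiv.piFinSuccAbove, Fin.insertNthEquiv]
    have e1 : ∫⁻ x, ∫⁻ y, f x * g y * k (x + y) = ∫⁻ a, ∫⁻ b, ∫⁻ x, ∫⁻ y,
        f (e.symm (a, x)) * g (e.symm (b, y)) * k (e.symm (a + b, x + y)) := by
      rw [split _ (Measurable.lintegral_prod_right (by fun_prop))]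
      refine lintegral_congr fun a => ?_
      refine Eq.trans ?_ (lintegral_lintegral_swap ?_)
      · refine lintegral_congr fun x => ?_
        rw [split _ (by fun_prop)]
        simp only [hadd]
      · refine (Measurable.lintegral_prod_right' (f := fun p : ((Fin n → ℝ) × ℝ) × (Fin n → ℝ) =>
          f (e.symm (a, p.1.1)) * g (e.symm (p.1.2, p.2)) *
            k (e.symm (a + p.1.2, p.1.1 + p.2))) (by fun_prop)).aemeasurable
    have h2 := hc _ _ _ (hm f hf) (hm g hg) (hm k hk)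
    simp only [hr'] at h2
    rw [e1, split _ (hf.pow_const _), split _ (hg.pow_const _), split _ (hk.pow_const _)]
    calc _ ≤ ∫⁻ a, ∫⁻ b, c ^ n * ((∫⁻ x, f (e.symm (a, x)) ^ (3 / 2 : ℝ)) ^ (2 / 3 : ℝ) *
            (∫⁻ x, g (e.symm (b, x)) ^ (3 / 2 : ℝ)) ^ (2 / 3 : ℝ) *
            (∫⁻ x, k (e.symm (a + b, x)) ^ (3 / 2 : ℝ)) ^ (2 / 3 : ℝ)) := by
          refine lintegral_mono fun a => lintegral_mono fun b => ?_
          refine (ih (fun x => f (e.symm (a, x))) (fun y => g (e.symm (b, y)))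
            (fun z => k (e.symm (a + b, z))) (by fun_prop) (by fun_prop) (by fun_prop)).trans
            (le_of_eq ?_)
          ring
      _ = c ^ n * ∫⁻ a, ∫⁻ b, (∫⁻ x, f (e.symm (a, x)) ^ (3 / 2 : ℝ)) ^ (2 / 3 : ℝ) *
            (∫⁻ x, g (e.symm (b, x)) ^ (3 / 2 : ℝ)) ^ (2 / 3 : ℝ) *
            (∫⁻ x, k (e.symm (a + b, x)) ^ (3 / 2 : ℝ)) ^ (2 / 3 : ℝ) := by
          have m1 := hm f hf
          have m2 := hm g hg
          have m3 := hm k hk
          rw [← lintegral_const_mul _ (Measurable.lintegral_prod_right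
            (((m1.comp measurable_fst).mul (m2.comp measurable_snd)).mul
              (m3.comp measurable_add)))]
          refine lintegral_congr fun a => ?_
          exact lintegral_const_mul _ ((m2.const_mul _).mul (m3.comp (measurable_const_add a)))
      _ ≤ _ := by
          refine (mul_le_mul_right h2 _).trans (le_of_eq ?_)
          ring

/-- Tensorise `young_one` by induction on `N` (as in `pl_pi` of `Lib/Prekopa/Basic.lean`): the
inequality with constant `c ^ N` for functions on `Fin N → ℝ`; in the step apply `young_one` in the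
first coordinate and the induction hypothesis to `x' ↦ (∫ f (t, x')^{3/2} dt)^{2/3}` etc.
Then take indicators. -/
theorem young_gap : ∃ cY : ℝ, 0 < cY ∧ cY < 1 ∧ ∀ (N : ℕ) (A B C : Set (Fin N → ℝ)) (v : ℝ≥0∞),
    MeasurableSet A → MeasurableSet B → MeasurableSet C → volume A ≤ v → volume B ≤ v →
    volume C ≤ v →
    volume {p : (Fin N → ℝ) × (Fin N → ℝ) | p.1 ∈ A ∧ p.2 ∈ B ∧ p.1 + p.2 ∈ C} ≤
      ENNReal.ofReal (cY ^ N) * v ^ 2 := by
  obtain ⟨c, hc0, hc1, hc⟩ := young_one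
  have hct : c ≠ ∞ := (hc1.trans ENNReal.one_lt_top).ne
  refine ⟨c.toReal, ENNReal.toReal_pos hc0.ne' hct, ?_, fun N A B C v hA hB hC vA vB vC => ?_⟩
  · simpa using (ENNReal.toReal_lt_toReal hct ENNReal.one_ne_top).2 hc1
  have h := young_pi hc N (A.indicator 1) (B.indicator 1) (C.indicator 1)
    (measurable_one.indicator hA) (measurable_one.indicator hB) (measurable_one.indicator hC)
  have hi : ∀ S : Set (Fin N → ℝ), MeasurableSet S → volume S ≤ v →
      (∫⁻ x, (S.indicator (1 : (Fin N → ℝ) → ℝ≥0∞) x) ^ (3 / 2 : ℝ)) ^ (2 / 3 : ℝ) ≤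
        v ^ (2 / 3 : ℝ) := by
    intro S hS hv
    refine ENNReal.rpow_le_rpow (le_trans (le_of_eq ?_) hv) (by norm_num)
    rw [← lintegral_indicator_one hS]
    refine lintegral_congr fun x => ?_
    by_cases hx : x ∈ S <;> simp [hx]
  have hS : MeasurableSet
      {p : (Fin N → ℝ) × (Fin N → ℝ) | p.1 ∈ A ∧ p.2 ∈ B ∧ p.1 + p.2 ∈ C} :=
    (measurable_fst hA).inter ((measurable_snd hB).inter (measurable_add hC))
  rw [← lintegral_indicator_one hS, Measure.volume_eq_prod,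
    lintegral_prod _ (measurable_one.indicator hS).aemeasurable]
  refine le_trans (le_of_eq ?_) (h.trans ?_)
  · refine lintegral_congr fun x => lintegral_congr fun y => ?_
    by_cases h1 : x ∈ A <;> by_cases h2 : y ∈ B <;> by_cases h3 : x + y ∈ C <;>
      simp [Set.indicator, h1, h2, h3]
  · rw [← ENNReal.toReal_pow, ENNReal.ofReal_toReal (ENNReal.pow_ne_top hct)]
    have e : v ^ 2 = v ^ (2 / 3 : ℝ) * v ^ (2 / 3 : ℝ) * v ^ (2 / 3 : ℝ) := by
      rw [← ENNReal.rpow_add_of_nonneg _ _ (by norm_num) (by norm_num),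
        ← ENNReal.rpow_add_of_nonneg _ _ (by norm_num) (by norm_num), ← ENNReal.rpow_natCast]
      norm_num
    rw [e, ← mul_assoc, ← mul_assoc]
    exact mul_le_mul' (mul_le_mul' (mul_le_mul' le_rfl (hi A hA vA)) (hi B hB vB)) (hi C hC vC)

end Crest.Agent.R225
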